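import Vale.Agent.P180.MathlibUsed

/-!
P180 R2 H12: permutations commuting with the action of a `p`-group.
-/

namespace Vale.Agent.P180.R2.H12

open Equiv

section Commuting

variable {D Λ : Type*} [Group D]

/-- A permutation commuting with the action of `D`, given by an element of `N_D(D_a)`. -/
theorem exists_comm_perm [Finite D] (ρ : D →* Perm Λ) (a : Λ) (n : D)
    (hn : ∀ d, ρ d a = a → ρ (n⁻¹ * d * n) a = a) (hn' : ∀ d, ρ d a = a → ρ (n * d * n⁻¹) a = a) :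
    ∃ c : Perm Λ, (∀ d, c (ρ d a) = ρ (d * n) a) ∧ (∀ y, (¬ ∃ d, y = ρ d a) → c y = y) := by
  classical
  have mk : ∀ m : D, (∀ d, ρ d a = a → ρ (m⁻¹ * d * m) a = a) →
      ∃ f : Λ → Λ, (∀ d, f (ρ d a) = ρ (d * m) a) ∧ (∀ y, (¬ ∃ d, y = ρ d a) → f y = y) := by
    intro m hm
    refine ⟨fun y => if h : ∃ d, y = ρ d a then ρ (h.choose * m) a else y, ?_, ?_⟩
    · intro d
      have h : ∃ d', ρ d a = ρ d' a := ⟨d, rfl⟩
      simp only [dif_pos h]
      have hs := h.choose_spec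
      generalize h.choose = e at hs ⊢
      have h1 : ρ (e⁻¹ * d) a = a := by
        rw [map_mul, Perm.mul_apply, hs, ← Perm.mul_apply, ← map_mul, inv_mul_cancel,
          map_one, Perm.one_apply]
      have h2 := hm _ h1
      calc ρ (e * m) a = ρ (e * m) (ρ (m⁻¹ * (e⁻¹ * d) * m) a) := by rw [h2]
        _ = ρ (e * m * (m⁻¹ * (e⁻¹ * d) * m)) a := by
          rw [map_mul ρ (e * m), Perm.mul_apply]
        _ = ρ (d * m) a := by congr 2; group
    · intro y hy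
      simp only [dif_neg hy]
  obtain ⟨f, hf, hf'⟩ := mk n hn
  obtain ⟨g, hg, hg'⟩ := mk n⁻¹ (by intro d hd; rw [inv_inv]; exact hn' d hd)
  have hfg : ∀ y, f (g y) = y := by
    intro y
    by_cases hy : ∃ d, y = ρ d a
    · obtain ⟨d, rfl⟩ := hy
      rw [hg, hf, inv_mul_cancel_right]
    · rw [hg' y hy, hf' y hy]
  have hgf : ∀ y, g (f y) = y := by
    intro y
    by_cases hy : ∃ d, y = ρ d a
    · obtain ⟨d, rfl⟩ := hy
      rw [hf, hg, mul_inv_cancel_right]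
    · rw [hf' y hy, hg' y hy]
  exact ⟨⟨f, g, hgf, hfg⟩, hf, hf'⟩

theorem comm_of {ρ : D →* Perm Λ} {a : Λ} {n : D} {c : Perm Λ}
    (h1 : ∀ d, c (ρ d a) = ρ (d * n) a) (h2 : ∀ y, (¬ ∃ d, y = ρ d a) → c y = y) (d : D) (y : Λ) :
    c (ρ d y) = ρ d (c y) := by
  by_cases hy : ∃ d, y = ρ d a
  · obtain ⟨d', rfl⟩ := hy
    rw [h1 d', ← Perm.mul_apply (ρ d), ← map_mul, h1, ← Perm.mul_apply (ρ d), ← map_mul, mul_assoc]
  · rw [h2 y hy, h2]
    rintro ⟨d', hd'⟩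
    apply hy
    refine ⟨d⁻¹ * d', ?_⟩
    rw [map_mul, Perm.mul_apply, ← hd', ← Perm.mul_apply, ← map_mul, inv_mul_cancel, map_one,
      Perm.one_apply]

end Commuting

/-- An element of `N_P(S)` outside `S`, for a proper subgroup `S` of the `p`-group `P`. -/
theorem exists_normalizing {p : ℕ} [Fact p.Prime] {P : Type*} [Group P] [Finite P]
    (hP : IsPGroup p P) {S : Subgroup P} (hS : S ≠ ⊤) :
    ∃ n : P, n ∉ S ∧ (∀ s ∈ S, n * s * n⁻¹ ∈ S) ∧ (∀ s ∈ S, n⁻¹ * s * n ∈ S) := by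
  have hnil : Group.IsNilpotent P := hP.isNilpotent
  have h1 := Group.normalizerCondition_of_isNilpotent (G := P) S (lt_top_iff_ne_top.mpr hS)
  obtain ⟨n, hn, hnS⟩ := SetLike.exists_of_lt h1
  refine ⟨n, hnS, fun s hs => (Subgroup.mem_normalizer_iff.mp hn s).mp hs, fun s hs => ?_⟩
  have h2 := (Subgroup.mem_normalizer_iff.mp (Subgroup.inv_mem _ hn) s).mp hs
  rwa [inv_inv] at h2

end Vale.Agent.P180.R2.H12
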