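import Vale.Agent.P180.R2.H12.Fam

/-!
P180 R2 H12: `D`-stable idempotents in products of conjugate subgroups, from `D_j`-stable ones.
-/

namespace Vale.Agent.P180.R2.H12

open Equiv Vale.Agent.P180 Vale.Agent.P180.H768.Gd

section Br

variable {k : Type*} [Field k] {p : ℕ} [Fact p.Prime] [CharP k p] {G : Type*} [Group G] [Finite G]

omit [Finite G] [Fact p.Prime] [CharP k p] in
theorem br_of_cent {R : Subgroup G} {a : MonoidAlgebra k G}
    (ha : a ∈ SubAlg k (Subgroup.centralizer (R : Set G))) : br R a = a := by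
  apply ext_coeff
  intro x
  rw [br_coeff]
  by_cases hx : x ∈ Subgroup.centralizer (R : Set G)
  · rw [if_pos hx]
  · rw [if_neg hx]
    by_contra h
    exact hx (ha x fun h' => h h'.symm)

theorem br_mul_mul {R : Subgroup G} (hR : IsPGroup p R) {x a y : MonoidAlgebra k G}
    (hx : x ∈ SubAlg k (Subgroup.centralizer (R : Set G))) (ha : a ∈ Fix (cj k G) R)
    (hy : y ∈ SubAlg k (Subgroup.centralizer (R : Set G))) : br R (x * a * y) = x * br R a * y := by
  have hx' : x ∈ Fix (cj k G) R := fix_of_cent hx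
  have hy' : y ∈ Fix (cj k G) R := fix_of_cent hy
  rw [br_mul hR (Subalgebra.mul_mem _ hx' ha) hy', br_mul hR hx' ha, br_of_cent hx, br_of_cent hy]

end Br

set_option linter.unusedSectionVars false

namespace Fam

variable {G : Type*} [Group G] [Finite G] {r : ℕ} {D : Subgroup G} (F : Fam G r D)
variable {k : Type*} [Field k]

open scoped Classical in
/-- Spreading an element over the orbit of `j`. -/
noncomputable def spr (j : Fin r) (base : Fin r → MonoidAlgebra k G) (a : MonoidAlgebra k G) :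
    Fin r → MonoidAlgebra k G := fun i =>
  if h : ∃ d : D, F.σ d j = i then cj k G (h.choose : G) a else base i

variable {F}

theorem spr_of_σ {j : Fin r} (base : Fin r → MonoidAlgebra k G) {a : MonoidAlgebra k G}
    (ha : a ∈ Fix (cj k G) (F.st j)) (d : D) :
    F.spr j base a (F.σ d j) = cj k G (d : G) a := by
  classical
  have h : ∃ e : D, F.σ e j = F.σ d j := ⟨d, rfl⟩
  unfold spr
  rw [dif_pos h]
  have hs := h.choose_spec
  generalize h.choose = e at hs
  have h1 : ((d⁻¹ * e : D) : G) ∈ F.st j :=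
    ⟨d⁻¹ * e, by rw [F.σ_mul, hs, ← F.σ_mul, inv_mul_cancel, F.σ_one], rfl⟩
  have h2 : (e : G) = d * ((d⁻¹ * e : D) : G) := by push_cast; group
  rw [h2, map_mul_act, ha _ h1]

theorem spr_of_notMem {j : Fin r} (base : Fin r → MonoidAlgebra k G) (a : MonoidAlgebra k G)
    {i : Fin r} (hi : i ∉ F.orb j) : F.spr j base a i = base i := by
  classical
  exact dif_neg hi

theorem spr_eqv {j : Fin r} {base : Fin r → MonoidAlgebra k G} (hb : F.Eqv base)
    {a : MonoidAlgebra k G} (ha : a ∈ Fix (cj k G) (F.st j)) : F.Eqv (F.spr j base a) := by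
  intro d i
  by_cases hi : i ∈ F.orb j
  · obtain ⟨e, rfl⟩ := hi
    rw [spr_of_σ base ha, ← map_mul_act, ← F.σ_mul, spr_of_σ base ha]
    rfl
  · rw [spr_of_notMem base a hi, spr_of_notMem base a (fun h => hi ((F.σ_mem_orb d).mp h)), hb]

theorem spr_mem {j : Fin r} {base : Fin r → MonoidAlgebra k G}
    (hb : ∀ i, base i ∈ SubAlg k (F.A i))
    {a : MonoidAlgebra k G} (ha : a ∈ Fix (cj k G) (F.st j)) (haj : a ∈ SubAlg k (F.A j))
    (i : Fin r) : F.spr j base a i ∈ SubAlg k (F.A i) := by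
  by_cases hi : i ∈ F.orb j
  · obtain ⟨e, rfl⟩ := hi
    rw [spr_of_σ base ha]
    exact SuppIn.conj haj (e : G) fun s hs => F.conj e j s hs
  · rw [spr_of_notMem base a hi]
    exact hb i

theorem spr_idem {j : Fin r} {base : Fin r → MonoidAlgebra k G}
    (hb : ∀ i, base i * base i = base i)
    {a : MonoidAlgebra k G} (ha : a ∈ Fix (cj k G) (F.st j)) (haj : a * a = a)
    (i : Fin r) : F.spr j base a i * F.spr j base a i = F.spr j base a i := by
  by_cases hi : i ∈ F.orb j
  · obtain ⟨e, rfl⟩ := hi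
    rw [spr_of_σ base ha, ← map_mul, haj]
  · rw [spr_of_notMem base a hi]
    exact hb i

theorem spr_mul {j : Fin r} (base base' : Fin r → MonoidAlgebra k G)
    {a a' : MonoidAlgebra k G} (ha : a ∈ Fix (cj k G) (F.st j)) (ha' : a' ∈ Fix (cj k G) (F.st j)) :
    (fun i => F.spr j base a i * F.spr j base' a' i) =
      F.spr j (fun i => base i * base' i) (a * a') := by
  funext i
  by_cases hi : i ∈ F.orb j
  · obtain ⟨e, rfl⟩ := hi
    rw [spr_of_σ base ha, spr_of_σ base' ha', spr_of_σ _ (Subalgebra.mul_mem _ ha ha'), map_mul]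
  · rw [spr_of_notMem base a hi, spr_of_notMem base' a' hi, spr_of_notMem _ _ hi]

theorem one_eqv : F.Eqv (fun _ => (1 : MonoidAlgebra k G)) := fun _ _ => map_one _

variable {p : ℕ} [Fact p.Prime] [CharP k p]

theorem coeff_of_fixed {h : Fin r → MonoidAlgebra k G} (he : F.Eqv h) {τ : ∀ j, F.A j}
    (hτ : F.fixed τ) {i j : Fin r} (hi : i ∈ F.orb j) :
    (h i).coeff (τ i : G) = (h j).coeff (τ j : G) := by
  obtain ⟨d, rfl⟩ := hi
  rw [← he d j, hτ d j, cj_coeff]
  congr 1
  group

open scoped Classical in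
/-- The product over an orbit is additive after the Brauer map. -/
theorem br_spr (hD : IsPGroup p D) {h : Fin r → MonoidAlgebra k G}
    (hh : ∀ j, h j ∈ SubAlg k (F.A j)) (he : F.Eqv h) (j : Fin r) {n : ℕ}
    (a : Fin n → MonoidAlgebra k G) (ha : ∀ t, a t ∈ SubAlg k (F.A j))
    (haF : ∀ t, a t ∈ Fix (cj k G) (F.st j))
    (hsum : br (F.st j) (h j) = ∑ t, br (F.st j) (a t)) :
    br D (prd h) = ∑ t, br D (prd (F.spr j h (a t))) := by
  have _ := Fintype.ofFinite (∀ j, F.A j)
  apply ext_coeff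
  intro x
  have h1 : (∑ t, br D (prd (F.spr j h (a t)))).coeff x =
      ∑ t, (br D (prd (F.spr j h (a t)))).coeff x := by
    rw [MonoidAlgebra.coeff_sum, Finsupp.finsetSum_apply]
  rw [h1, F.br_prd hD hh he]
  have h2 : ∀ t, (br D (prd (F.spr j h (a t)))).coeff x = ∑ τ : ∀ j, F.A j,
      if F.fixed τ ∧ F.μ τ = x then ∏ i, (F.spr j h (a t) i).coeff (τ i : G) else 0 :=
    fun t => F.br_prd hD (spr_mem hh (haF t) (ha t)) (spr_eqv he (haF t)) x
  rw [Finset.sum_congr rfl fun t _ => h2 t, Finset.sum_comm]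
  refine Finset.sum_congr rfl fun τ _ => ?_
  by_cases hτ : F.fixed τ ∧ F.μ τ = x
  swap
  · rw [if_neg hτ]
    symm
    exact Finset.sum_eq_zero fun t _ => if_neg hτ
  rw [if_pos hτ, Finset.sum_congr rfl fun t _ => if_pos hτ]
  obtain ⟨m, hm⟩ := F.orb_card hD j
  have hprod : ∀ g : Fin r → MonoidAlgebra k G, F.Eqv g → (∀ i, i ∉ F.orb j → g i = h i) →
      ∏ i, (g i).coeff (τ i : G) = ((g j).coeff (τ j : G)) ^ p ^ m *
        ∏ i ∈ Finset.univ.filter (fun i => i ∉ F.orb j), (h i).coeff (τ i : G) := by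
    intro g hg hgh
    rw [← Finset.prod_filter_mul_prod_filter_not Finset.univ (fun i => i ∈ F.orb j)]
    congr 1
    · rw [Finset.prod_congr rfl fun i hi =>
        coeff_of_fixed hg hτ.1 (Finset.mem_filter.mp hi).2, Finset.prod_const]
      congr 1
      rw [← hm, ← Fintype.card_subtype, ← Nat.card_eq_fintype_card]
    · exact Finset.prod_congr rfl fun i hi => by rw [hgh i (Finset.mem_filter.mp hi).2]
  rw [hprod h he fun _ _ => rfl, Finset.sum_congr rfl fun t _ =>
    hprod _ (spr_eqv he (haF t)) fun i hi => spr_of_notMem h (a t) hi, ← Finset.sum_mul]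
  congr 1
  have hcent : (τ j : G) ∈ Subgroup.centralizer (F.st j : Set G) := F.fixed_cent hτ.1 j
  have hval : ∀ b : MonoidAlgebra k G, (br (F.st j) b).coeff (τ j : G) = b.coeff (τ j : G) := by
    intro b
    rw [br_coeff, if_pos hcent]
  have h3 : ∀ t, (F.spr j h (a t) j).coeff (τ j : G) = (a t).coeff (τ j : G) := by
    intro t
    have h4 := spr_of_σ (F := F) h (haF t) (1 : D)
    rw [F.σ_one] at h4
    rw [h4]
    change (cj k G ((1 : D) : G) (a t)).coeff _ = _
    rw [OneMemClass.coe_one, map_one_act]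
  rw [← hval, hsum, MonoidAlgebra.coeff_sum, Finsupp.finsetSum_apply,
    Finset.sum_congr rfl fun t _ => hval (a t), sum_pow_char_pow]
  exact Finset.sum_congr rfl fun t _ => by rw [h3]

omit [Fact p.Prime] [CharP k p] in
theorem prd_mem {h : Fin r → MonoidAlgebra k G} (hh : ∀ j, h j ∈ SubAlg k (F.A j)) :
    prd h ∈ SubAlg k F.μ.range := by
  rw [← F.μ_U hh]
  have h1 := tm_mem (φ := RingHom.id k) (f := F.μ) (SubAlg_top (F.U h))
  rwa [← MonoidHom.range_eq_map] at h1

omit [Fact p.Prime] [CharP k p] in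
variable (F) in
theorem br_prd_mem (R : Subgroup G) {h : Fin r → MonoidAlgebra k G}
    (hh : ∀ j, h j ∈ SubAlg k (F.A j)) :
    br R (prd h) ∈ SubAlg k (F.μ.range ⊓ Subgroup.centralizer (R : Set G)) := by
  classical
  intro x hx
  rw [br_coeff] at hx
  by_cases hxR : x ∈ Subgroup.centralizer (R : Set G)
  · rw [if_pos hxR] at hx
    exact ⟨prd_mem hh x hx, hxR⟩
  · exact absurd (if_neg hxR) hx

/-- The elements of the ideal generated by the images of the `f l`. -/
def Gens (k : Type*) [Field k] {G : Type*} [Group G] (A R : Subgroup G) {m : ℕ}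
    (f : Fin m → MonoidAlgebra k G) : Set (MonoidAlgebra k G) :=
  {z | ∃ l, ∃ x ∈ SubAlg k (A ⊓ Subgroup.centralizer (R : Set G)),
    ∃ y ∈ SubAlg k (A ⊓ Subgroup.centralizer (R : Set G)), z = x * br R (f l) * y}

/-- **The tame lemma.** -/
theorem tame (hD : IsPGroup p D) {e : Fin r → MonoidAlgebra k G}
    (hS : ∀ j, e j ∈ SubAlg k (F.A j)) (hE : F.Eqv e) (hI : ∀ j, e j * e j = e j)
    (P : Fin r → MonoidAlgebra k G → Prop)
    (hP : ∀ (d : D) (j : Fin r) (f : MonoidAlgebra k G), P j f → P (F.σ d j) (cj k G (d : G) f))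
    (hcor : ∀ j, ∃ (m : ℕ) (f : Fin m → MonoidAlgebra k G),
      (∀ l, f l ∈ SubAlg k (F.A j) ∧ f l ∈ Fix (cj k G) (F.st j) ∧ f l * f l = f l ∧ P j (f l)) ∧
      br (F.st j) (e j) ∈ Submodule.span k (Gens k (F.A j) (F.st j) f))
    {w : MonoidAlgebra k G}
    (hw : ∀ x ∈ SubAlg k (F.μ.range ⊓ Subgroup.centralizer (D : Set G)), x * w = w * x)
    (hne : w * br D (prd e) ≠ 0) :
    ∃ h : Fin r → MonoidAlgebra k G, (∀ j, h j ∈ SubAlg k (F.A j)) ∧ F.Eqv h ∧
      (∀ j, h j * h j = h j) ∧ (∀ j, P j (h j)) ∧ w * br D (prd h) ≠ 0 := by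
  classical
  have key : ∀ R : Finset (Set (Fin r)), (∀ o ∈ R, ∃ j, o = F.orb j) →
      ∃ h : Fin r → MonoidAlgebra k G, (∀ j, h j ∈ SubAlg k (F.A j)) ∧ F.Eqv h ∧
        (∀ j, h j * h j = h j) ∧ (∀ j, F.orb j ∈ R → P j (h j)) ∧
        (∀ j, F.orb j ∉ R → h j = e j) ∧ w * br D (prd h) ≠ 0 := by
    intro R
    induction R using Finset.induction_on with
    | empty =>
      intro _
      exact ⟨e, hS, hE, hI, fun j hj => absurd hj (Finset.notMem_empty _), fun _ _ => rfl, hne⟩
    | insert o R hoR ih =>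
      intro hR
      obtain ⟨h, h1, h2, h3, h4, h5, h6⟩ := ih fun o' ho' => hR o' (Finset.mem_insert_of_mem ho')
      obtain ⟨j, rfl⟩ := hR o (Finset.mem_insert_self _ _)
      obtain ⟨m, f, hf, hspan⟩ := hcor j
      obtain ⟨n, c, g, hg⟩ := Submodule.mem_span_set'.mp hspan
      choose l x hx y hy hz using fun t => (g t).2
      have hstp : IsPGroup p (F.st j) := hD.to_le (F.st_le j)
      have hxc : ∀ t, x t ∈ SubAlg k (Subgroup.centralizer (F.st j : Set G)) :=
        fun t => SubAlg_mono inf_le_right (hx t)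
      have hyc : ∀ t, y t ∈ SubAlg k (Subgroup.centralizer (F.st j : Set G)) :=
        fun t => SubAlg_mono inf_le_right (hy t)
      have hxc' : ∀ t, c t • x t ∈ SubAlg k (Subgroup.centralizer (F.st j : Set G)) :=
        fun t => Subalgebra.smul_mem _ (hxc t) _
      have hxF : ∀ t, c t • x t ∈ Fix (cj k G) (F.st j) := fun t => fix_of_cent (hxc' t)
      have hyF : ∀ t, y t ∈ Fix (cj k G) (F.st j) := fun t => fix_of_cent (hyc t)
      have hxA : ∀ t, c t • x t ∈ SubAlg k (F.A j) :=
        fun t => Subalgebra.smul_mem _ (SubAlg_mono inf_le_left (hx t)) _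
      have hyA : ∀ t, y t ∈ SubAlg k (F.A j) := fun t => SubAlg_mono inf_le_left (hy t)
      have hsum : br (F.st j) (h j) = ∑ t, br (F.st j) (c t • x t * f (l t) * y t) := by
        rw [h5 j hoR, ← hg]
        refine Finset.sum_congr rfl fun t _ => ?_
        rw [br_mul_mul hstp (hxc' t) (hf (l t)).2.1 (hyc t), hz t, smul_mul_assoc, smul_mul_assoc]
      have hbr := br_spr hD h1 h2 j (fun t => c t • x t * f (l t) * y t)
        (fun t => Subalgebra.mul_mem _ (Subalgebra.mul_mem _ (hxA t) (hf (l t)).1) (hyA t))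
        (fun t => Subalgebra.mul_mem _ (Subalgebra.mul_mem _ (hxF t) (hf (l t)).2.1) (hyF t)) hsum
      rw [hbr, Finset.mul_sum] at h6
      obtain ⟨t, -, ht⟩ := Finset.exists_ne_zero_of_sum_ne_zero h6
      have hS1 : ∀ i, F.spr j (fun _ => 1) (c t • x t) i ∈ SubAlg k (F.A i) :=
        spr_mem (fun _ => Subalgebra.one_mem _) (hxF t) (hxA t)
      have hS2 : ∀ i, F.spr j h (f (l t)) i ∈ SubAlg k (F.A i) :=
        spr_mem h1 (hf (l t)).2.1 (hf (l t)).1
      have hS3 : ∀ i, F.spr j (fun _ => 1) (y t) i ∈ SubAlg k (F.A i) :=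
        spr_mem (fun _ => Subalgebra.one_mem _) (hyF t) (hyA t)
      have hE1 : F.Eqv (F.spr j (fun _ => 1) (c t • x t)) := spr_eqv one_eqv (hxF t)
      have hE2 : F.Eqv (F.spr j h (f (l t))) := spr_eqv h2 (hf (l t)).2.1
      have hE3 : F.Eqv (F.spr j (fun _ => 1) (y t)) := spr_eqv one_eqv (hyF t)
      have hsplit : prd (F.spr j h (c t • x t * f (l t) * y t)) =
          prd (F.spr j (fun _ => 1) (c t • x t)) * prd (F.spr j h (f (l t))) *
            prd (F.spr j (fun _ => 1) (y t)) := by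
        have e1 := spr_mul (F := F) (fun _ => 1) h (hxF t) (hf (l t)).2.1
        have e2 := spr_mul (F := F) (fun i => 1 * h i) (fun _ => 1)
          (Subalgebra.mul_mem _ (hxF t) (hf (l t)).2.1) (hyF t)
        have hS4 : ∀ i, F.spr j (fun i => 1 * h i) (c t • x t * f (l t)) i ∈
            SubAlg k (F.A i) := by
          intro i
          rw [← congrFun e1 i]
          exact Subalgebra.mul_mem _ (hS1 i) (hS2 i)
        rw [F.prd_mul hS1 hS2, e1, F.prd_mul hS4 hS3, e2]
        congr 2
        funext i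
        rw [one_mul, mul_one]
      refine ⟨F.spr j h (f (l t)), hS2, hE2, spr_idem h3 (hf (l t)).2.1 (hf (l t)).2.2.1,
        ?_, ?_, ?_⟩
      · intro i hi
        by_cases hij : i ∈ F.orb j
        · obtain ⟨d, rfl⟩ := hij
          rw [spr_of_σ h (hf (l t)).2.1]
          exact hP d j _ (hf (l t)).2.2.2
        · rw [spr_of_notMem h _ hij]
          rcases Finset.mem_insert.mp hi with h7 | h7
          · exfalso
            apply hij
            rw [← h7]
            exact F.self_mem_orb i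
          · exact h4 i h7
      · intro i hi
        have hij : i ∉ F.orb j := by
          intro h7
          apply hi
          rw [F.orb_eq h7]
          exact Finset.mem_insert_self _ _
        rw [spr_of_notMem h _ hij]
        exact h5 i fun h7 => hi (Finset.mem_insert_of_mem h7)
      · intro h0
        apply ht
        have hF1 := F.prd_fix hS1 hE1
        have hF2 := F.prd_fix hS2 hE2
        have hF3 := F.prd_fix hS3 hE3
        rw [hsplit, br_mul hD (Subalgebra.mul_mem _ hF1 hF2) hF3, br_mul hD hF1 hF2]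
        have h7 := hw _ (F.br_prd_mem D hS1)
        calc w * (br D (prd (F.spr j (fun _ => 1) (c t • x t))) *
              br D (prd (F.spr j h (f (l t)))) * br D (prd (F.spr j (fun _ => 1) (y t))))
            = (w * br D (prd (F.spr j (fun _ => 1) (c t • x t)))) *
              br D (prd (F.spr j h (f (l t)))) * br D (prd (F.spr j (fun _ => 1) (y t))) := by
              simp only [mul_assoc]
          _ = br D (prd (F.spr j (fun _ => 1) (c t • x t))) *
              (w * br D (prd (F.spr j h (f (l t))))) * br D (prd (F.spr j (fun _ => 1) (y t))) := by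
              rw [← h7]; simp only [mul_assoc]
          _ = 0 := by rw [h0, mul_zero, zero_mul]
  obtain ⟨h, h1, h2, h3, h4, -, h6⟩ := key (Finset.univ.image fun j => F.orb j) (by
    intro o ho
    obtain ⟨j, -, hj⟩ := Finset.mem_image.mp ho
    exact ⟨j, hj.symm⟩)
  exact ⟨h, h1, h2, h3, fun j => h4 j (Finset.mem_image_of_mem _ (Finset.mem_univ j)), h6⟩

end Fam

end Vale.Agent.P180.R2.H12
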