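import Vale.Agent.P180.R2.H12.One
import Vale.Agent.P180.R2.H589.AltC
import Vale.Agent.P180.R2.H471.AltProd
import Vale.Agent.P180.R2.H954.LocCP

/-!
P180 R2 H12: the corner property of alternating groups.
-/

set_option linter.all false

namespace Vale.Agent.P180.R2.H12

open Equiv Vale.Agent.P180 Vale.Agent.P180.H768.Gd Vale.Agent.P180.R2.H799
open scoped commutatorElement

universe u

section Trans

variable {k : Type*} [Field k]

theorem tm_eq_mapDomain {P A : Type*} [Group P] [Group A] (f : P →* A) (a : MonoidAlgebra k P) :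
    tm (RingHom.id k) f a = MonoidAlgebra.mapDomainAlgHom k k f a := by
  induction a using MonoidAlgebra.induction_linear with
  | zero => rw [map_zero, map_zero]
  | add a b ha hb => rw [map_add, map_add, ha, hb]
  | single x c => rw [tm_single]; simp

variable {G : Type*} [Group G] {K : Subgroup G}

theorem br_incl (R : Subgroup K) (a : MonoidAlgebra k K) :
    br (R.map K.subtype) (incl k K a) = incl k K (br R a) := by
  classical
  apply ext_coeff
  intro x
  rw [br_coeff]
  by_cases hx : x ∈ K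
  · have h1 : (incl k K (br R a)).coeff x = (br R a).coeff ⟨x, hx⟩ := incl_coeff K ⟨x, hx⟩ _
    have h2 : (incl k K a).coeff x = a.coeff ⟨x, hx⟩ := incl_coeff K ⟨x, hx⟩ _
    rw [h1, h2, br_coeff]
    have h3 : x ∈ Subgroup.centralizer ((R.map K.subtype : Subgroup G) : Set G) ↔
        (⟨x, hx⟩ : K) ∈ Subgroup.centralizer (R : Set K) := by
      rw [mem_cent, mem_cent]
      constructor
      · intro h d hd
        exact Subtype.ext (h d ⟨d, hd, rfl⟩)
      · rintro h _ ⟨d, hd, rfl⟩
        exact congrArg Subtype.val (h d hd)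
    by_cases h4 : (⟨x, hx⟩ : K) ∈ Subgroup.centralizer (R : Set K)
    · rw [if_pos (h3.mpr h4), if_pos h4]
    · rw [if_neg (fun h => h4 (h3.mp h)), if_neg h4]
  · have h1 : ∀ c : MonoidAlgebra k K, (incl k K c).coeff x = 0 := by
      intro c
      by_contra h
      exact hx (incl_mem K c x h)
    rw [h1, h1, ite_self]

theorem incl_SubAlg {S : Subgroup K} {a : MonoidAlgebra k K} (ha : a ∈ SubAlg k S) :
    incl k K a ∈ SubAlg k (S.map K.subtype) := (incl_mem_SubAlg_iff K S a).mpr ha

theorem finrank_NN_incl (S : Subgroup K) (e f : MonoidAlgebra k K) :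
    Module.finrank k (NN (SubAlg k (S.map K.subtype)) (incl k K e) (incl k K f)) =
      Module.finrank k (NN (SubAlg k S) e f) := by
  have hinj : Function.Injective (incl k K) := incl_injective K
  have h1 : NN (SubAlg k (S.map K.subtype)) (incl k K e) (incl k K f) =
      (NN (SubAlg k S) e f).map (incl k K).toLinearMap := by
    ext x
    constructor
    · rintro ⟨h1, h2, h3⟩
      obtain ⟨x', rfl⟩ := exists_incl K (SubAlg_mono (Subgroup.map_subtype_le S) h1)
      refine ⟨x', ⟨(incl_mem_SubAlg_iff K S x').mp h1, ?_, ?_⟩, rfl⟩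
      · apply hinj
        rw [map_mul, h2]
      · apply hinj
        rw [map_mul, h3]
    · rintro ⟨x', ⟨h1, h2, h3⟩, rfl⟩
      refine ⟨incl_SubAlg h1, ?_, ?_⟩
      · change incl k K e * incl k K x' = incl k K x'
        rw [← map_mul, h2]
      · change incl k K x' * incl k K f = incl k K x'
        rw [← map_mul, h3]
  rw [h1]
  exact (Submodule.equivMapOfInjective (incl k K).toLinearMap hinj _).symm.finrank_eq

/-- Transport of the corner property from a subgroup. -/
theorem cor_incl {C : ℕ} {S R : Subgroup K} {e : MonoidAlgebra k K} (h : H954.Cor C S R e) :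
    H954.Cor C (S.map K.subtype) (R.map K.subtype) (incl k K e) := by
  obtain ⟨m, f, hf, hspan⟩ := h
  refine ⟨m, fun l => incl k K (f l), fun l => ⟨incl_SubAlg (hf l).1,
    (incl_mem_Fix_iff K R (f l)).mpr (hf l).2.1, by rw [← map_mul, (hf l).2.2.1], ?_⟩, ?_⟩
  · rw [← map_mul, finrank_NN_incl]
    exact (hf l).2.2.2
  · rw [br_incl]
    have h1 : incl k K (br R e) ∈ (Submodule.span k (Fam.Gens k S R f)).map
        (incl k K).toLinearMap := ⟨_, hspan, rfl⟩
    rw [Submodule.map_span] at h1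
    refine Submodule.span_mono ?_ h1
    rintro _ ⟨_, ⟨l, x, hx, y, hy, rfl⟩, rfl⟩
    have h2 : ∀ x ∈ SubAlg k (S ⊓ Subgroup.centralizer (R : Set K)), incl k K x ∈
        SubAlg k (S.map K.subtype ⊓
          Subgroup.centralizer ((R.map K.subtype : Subgroup G) : Set G)) := by
      intro x hx
      refine SubAlg_mono ?_ (incl_SubAlg hx)
      rintro _ ⟨y, hy, rfl⟩
      refine Subgroup.mem_inf.mpr ⟨⟨y, (Subgroup.mem_inf.mp hy).1, rfl⟩, ?_⟩
      rw [mem_cent]
      rintro _ ⟨d, hd, rfl⟩
      exact congrArg Subtype.val (mem_cent.mp (Subgroup.mem_inf.mp hy).2 d hd)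
    refine ⟨l, _, h2 x hx, _, h2 y hy, ?_⟩
    change incl k K (x * br R (f l) * y) = _
    rw [map_mul, map_mul, ← br_incl]

end Trans

/-- The centre of the group of even permutations of a set. -/
theorem AF_center {r : ℕ} {N : Fin r → ℕ} (F : Set (Σ j, Fin (N j))) (j : Fin r)
    (h : (∀ a : Fin (N j), (⟨j, a⟩ : Σ j, Fin (N j)) ∉ F) ∨
      5 ≤ Nat.card {a : Fin (N j) // (⟨j, a⟩ : Σ j, Fin (N j)) ∈ F})
    {u : alternatingGroup (Fin (N j))} (hu : u ∈ AltData.AF F j)
    (hc : ∀ v ∈ AltData.AF F j, u * v = v * u) : u = 1 := by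
  classical
  let s : Finset (Fin (N j)) := Finset.univ.filter fun a => (⟨j, a⟩ : Σ j, Fin (N j)) ∈ F
  have hAF : AltData.AF F j = (alternatingGroup.ofSubtype s).range := by
    ext x
    rw [alternatingGroup.mem_range_ofSubtype_iff]
    constructor
    · intro hx a ha
      refine Finset.mem_filter.mpr ⟨Finset.mem_univ _, ?_⟩
      by_contra h1
      exact Perm.mem_support.mp ha (hx a h1)
    · intro hx a ha
      by_contra h1
      exact ha (Finset.mem_filter.mp (hx (Perm.mem_support.mpr h1))).2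
  rcases h with h | h
  · apply Subtype.ext
    ext1 a
    exact hu a (h a)
  · have h1 : 4 ≤ Nat.card s := by
      rw [Nat.card_eq_fintype_card, Fintype.card_coe, ← Fintype.card_subtype,
        ← Nat.card_eq_fintype_card]
      omega
    rw [hAF] at hu hc
    obtain ⟨u', rfl⟩ := hu
    have h2 : u' ∈ Subgroup.center (alternatingGroup s) := by
      rw [Subgroup.mem_center_iff]
      intro v
      have h3 := hc _ ⟨v, rfl⟩
      rw [← map_mul, ← map_mul] at h3
      exact (alternatingGroup.ofSubtype_injective h3).symm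
    rw [alternatingGroup.center_eq_bot h1, Subgroup.mem_bot] at h2
    rw [h2, map_one]

/-- the constant -/
def CA (n : ℕ) : ℕ :=
  (Finset.range (n + 1)).sup fun s => (Finset.range (n * n + 4 + 1)).sup (H589.CC s)

theorem CC_le_CA {n s m : ℕ} (hs : s ≤ n) (hm : m ≤ n * n + 4) : H589.CC s m ≤ CA n := by
  refine le_trans ?_ (Finset.le_sup (f := fun s => (Finset.range (n * n + 4 + 1)).sup
    (H589.CC s)) (Finset.mem_range.mpr (Nat.lt_succ_of_le hs)))
  exact Finset.le_sup (f := H589.CC s) (Finset.mem_range.mpr (Nat.lt_succ_of_le hm))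

section Top

variable {k : Type u} [Field k] [IsAlgClosed k] {p : ℕ} [Fact p.Prime] [CharP k p]
variable {G : Type} [Group G] [Finite G]

/-- The data for one alternating group. -/
theorem exists_data {d : ℕ} (hd : 7 ≤ d) {S : Subgroup G} (hS : S.Normal)
    (φ : alternatingGroup (Fin d) →* G) (hφ : Function.Injective φ) (hφS : φ.range = S) :
    ∃ (A : AltData G 1 (fun _ => d)) (F : Fam G 1 ⊤), A.ι = φ.comp (Pi.evalMonoidHom _ 0) ∧
      F.A 0 = S ∧ CovData (MonoidHom.id G) A F := by
  classical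
  let ι : (∀ j : Fin 1, alternatingGroup (Fin ((fun _ => d) j))) →* G :=
    φ.comp (Pi.evalMonoidHom _ 0)
  have hι : Function.Injective ι := by
    intro x y h
    funext j
    rw [Subsingleton.elim j 0]
    exact hφ h
  have hιS : ι.range = S := by
    rw [← hφS]
    ext x
    constructor
    · rintro ⟨y, rfl⟩
      exact ⟨y 0, rfl⟩
    · rintro ⟨y, rfl⟩
      exact ⟨fun _ => y, rfl⟩
  have hn : ι.range.Normal := by rw [hιS]; exact hS
  obtain ⟨ρ, -, h2, h3, h4⟩ := H471.exists_rho (fun _ => hd) ι hι hn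
  let A : AltData G 1 (fun _ => d) :=
    { ι := ι
      inj := hι
      conj := fun g τ => hn.conj_mem _ ⟨τ, rfl⟩ g
      ρ := ρ
      σ := 1
      ρ_fst := fun g a => Subsingleton.elim _ _
      ρ_ι := by
        intro τ a
        rw [h2]
        rfl }
  let F : Fam G 1 ⊤ :=
    { A := fun _ => S
      σ := 1
      comm := fun i j hij => absurd (Subsingleton.elim i j) hij
      conj := fun g j x hx => hS.conj_mem x hx g }
  refine ⟨A, F, rfl, rfl, ⟨?_, ?_, fun g j => Subsingleton.elim _ _⟩⟩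
  · intro x hx j y hy
    have h5 : x = 1 := hx
    rw [h5, one_mul, mul_one]
  · intro j
    change S.map (MonoidHom.id G) = _
    rw [Subgroup.map_id, ← hφS]
    ext x
    constructor
    · rintro ⟨y, rfl⟩
      refine ⟨y, ?_⟩
      change φ ((Pi.mulSingle j y : ∀ j : Fin 1, alternatingGroup (Fin ((fun _ => d) j))) 0) = φ y
      rw [Subsingleton.elim j 0, Pi.mulSingle_eq_same]
    · rintro ⟨y, rfl⟩
      exact ⟨_, rfl⟩

/-- **The corner property of alternating groups**, in the group `S R`. -/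
theorem cor_alt_top {d n : ℕ} (hd : 7 ≤ d) {S R : Subgroup G} (hS : S.Normal)
    (φ : alternatingGroup (Fin d) →* G) (hφ : Function.Injective φ) (hφS : φ.range = S)
    (hR : IsPGroup p R) (hRn : Nat.card R ≤ n) {e : MonoidAlgebra k G} (he : IsBlockOf S e)
    (hbr : br R e ≠ 0)
    (h1 : ∃ z ∈ SubAlg k S, z ∈ Fix (cj k G) (S ⊓ R) ∧ e = tr (cj k G) (S ⊓ R) S z)
    (h2 : ∃ z, z ∈ Fix (cj k G) R ∧ e = tr (cj k G) R ⊤ z) :
    H954.Cor (CA n) S R e := by
  classical
  obtain ⟨A, F, hA, hF, C⟩ := exists_data hd hS φ hφ hφS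
  obtain ⟨z, hz, hez⟩ := h2
  obtain ⟨Y, m, β, f, hY1, hY2, hY3, hY4, hY5, hL, hfe, hfR, hspan⟩ := C.exists_one hR hRn hz
    he.idem.eq (by rw [hF]; exact he.mem.1) hez hbr
  rw [hF] at hspan
  refine ⟨m, f, fun l => ?_, hspan⟩
  have hA'map : CovData.A' (MonoidHom.id G) A F Y 0 = (AltData.AF Y 0).map φ := by
    have h3 := C.A'_map (hY1 0)
    rw [Subgroup.map_id] at h3
    rw [h3, CovData.YYb_eq, hA]
    ext x
    constructor
    · rintro ⟨u, hu, rfl⟩
      refine ⟨u, hu, ?_⟩
      change φ u = φ ((Pi.mulSingle 0 u : ∀ j : Fin 1, alternatingGroup (Fin ((fun _ => d) j))) 0)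
      rw [Pi.mulSingle_eq_same]
    · rintro ⟨u, hu, rfl⟩
      refine ⟨u, hu, ?_⟩
      change φ ((Pi.mulSingle 0 u : ∀ j : Fin 1, alternatingGroup (Fin ((fun _ => d) j))) 0) = φ u
      rw [Pi.mulSingle_eq_same]
  have hLl := hL l
  rw [hA'map] at hLl
  have hAS : (AltData.AF Y 0).map φ ≤ S := by
    rw [← hφS]
    rintro _ ⟨u, -, rfl⟩
    exact ⟨u, rfl⟩
  refine ⟨SubAlg_mono hAS hLl.mem, hfR l, hLl.idem, ?_⟩
  -- pull back to the alternating group
  have hid : Function.Surjective (RingHom.id k) := fun x => ⟨x, rfl⟩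
  have htop : (⊤ : Subgroup (alternatingGroup (Fin d))).map φ = S := by
    rw [← MonoidHom.range_eq_map, hφS]
  obtain ⟨f', hf', hff'⟩ := tm_surj hid hLl.mem
  obtain ⟨e', he', hee'⟩ := tm_surj (f := φ) (Y := ⊤) hid (b := e) (by rw [htop]; exact he.mem.1)
  obtain ⟨z₁, hz₁, hz₁F, hez₁⟩ := h1
  obtain ⟨z', hz', hzz'⟩ := tm_surj (f := φ) (Y := ⊤) hid (b := z₁) (by rw [htop]; exact hz₁)
  have hinj : ∀ {a b : MonoidAlgebra k (alternatingGroup (Fin d))},
      tm (RingHom.id k) φ a = tm (RingHom.id k) φ b → a = b := fun {a b} h =>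
    tm_inj (Y := ⊤) hφ.injOn (SubAlg_top a) (SubAlg_top b) h
  have he'blk : IsBlockOf ⊤ e' := by
    rw [← tm_block_iff hid hφ.injOn he', htop, hee']
    exact he
  have hz'F : z' ∈ Fix (cj k (alternatingGroup (Fin d))) (R.comap φ) := by
    intro x hx
    apply hinj
    rw [tm_cj, hzz']
    exact hz₁F _ ⟨by rw [← hφS]; exact ⟨x, rfl⟩, hx⟩
  have he'tr : e' = tr (cj k (alternatingGroup (Fin d))) (R.comap φ) ⊤ z' := by
    apply hinj
    rw [tm_tr_comap R hz'F, hee', hzz', hφS]
    exact hez₁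
  have hPp : IsPGroup p (R.comap φ) := hR.comap_of_injective φ hφ
  let Fs : Finset (Fin d) := Finset.univ.filter fun a => (⟨0, a⟩ : Σ j : Fin 1, Fin d) ∈ Y
  have hFF : H365.altF Fs = AltData.AF Y 0 := by
    ext τ
    constructor
    · intro hτ a ha
      exact hτ a fun h => ha (Finset.mem_filter.mp h).2
    · intro hτ a ha
      exact hτ a fun h => ha (Finset.mem_filter.mpr ⟨Finset.mem_univ _, h⟩)
  have hPF : ∀ h ∈ R.comap φ, ∀ x ∈ Fs, (h : Perm (Fin d)) x = x := by
    intro h hh x hx
    have h3 := hY4 (φ h) hh ⟨0, x⟩ (Finset.mem_filter.mp hx).2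
    have h4 : φ h = A.ι (fun _ => h) := by rw [hA]; rfl
    change A.ρ (φ h) ⟨0, x⟩ = ⟨0, x⟩ at h3
    rw [h4, A.ρ_ι] at h3
    simpa only [Sigma.mk.injEq, heq_eq_eq, true_and] using h3
  have hone : H365.OneF Fs f' := by
    refine ⟨by rw [hFF]; exact hf', ?_, ?_⟩
    · apply hinj
      rw [map_mul, hff', hLl.idem]
    · intro y hy
      rw [hFF] at hy
      obtain ⟨Z, hZp, hZA, hZc, -, hcor⟩ := hLl.corner
      obtain ⟨w, hw, hwe⟩ := hcor _ (tm_mem (φ := RingHom.id k) (f := φ) hy)
      have hZ1 : ∀ x ∈ Z, x = 1 := by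
        intro x hx
        obtain ⟨u, hu, rfl⟩ := hZA hx
        rw [AF_center Y 0 (hY1 0) hu (fun v hv => hφ (by
          rw [map_mul, map_mul]
          exact hZc _ hx _ ⟨v, hv, rfl⟩)), map_one]
      have hw1 : w = (w.coeff 1) • (1 : MonoidAlgebra k G) := by
        apply ext_coeff
        intro x
        rw [MonoidAlgebra.coeff_smul, Finsupp.smul_apply, MonoidAlgebra.one_def, coeff_single,
          smul_eq_mul]
        by_cases hx : 1 = x
        · rw [if_pos hx, mul_one, hx]
        · rw [if_neg hx, mul_zero]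
          by_contra h5
          exact hx (hZ1 x (hw x h5)).symm
      refine ⟨w.coeff 1, ?_⟩
      apply hinj
      rw [map_mul, map_mul, hff', hwe, tm_smul, hff']
      conv_lhs => rw [hw1]
      rw [smul_mul_assoc, one_mul]
      rfl
  have hbr' : br (R.comap φ) (f' * e') ≠ 0 := by
    intro h0
    apply hfe l
    apply ext_coeff
    intro x
    rw [br_coeff]
    by_cases hx : x ∈ Subgroup.centralizer (R : Set G)
    · rw [if_pos hx]
      by_cases hxS : x ∈ S
      · rw [← hφS] at hxS
        obtain ⟨u, rfl⟩ := hxS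
        have h5 : (f l * e).coeff (φ u) = (f' * e').coeff u := by
          rw [← hff', ← hee', ← map_mul]
          exact tm_coeff (Y := ⊤) hφ.injOn (SubAlg_top _) (Subgroup.mem_top u)
        have h6 : u ∈ Subgroup.centralizer ((R.comap φ : Subgroup (alternatingGroup (Fin d))) :
            Set (alternatingGroup (Fin d))) := by
          rw [mem_cent]
          intro v hv
          apply hφ
          rw [map_mul, map_mul, map_inv]
          exact mem_cent.mp hx _ hv
        have h7 : (br (R.comap φ) (f' * e')).coeff u = 0 := by rw [h0]; rfl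
        rw [br_coeff, if_pos h6] at h7
        rw [h5, h7]
        rfl
      · by_contra h5
        exact hxS (Subalgebra.mul_mem _ (SubAlg_mono hAS hLl.mem) he.mem.1 x h5)
    · rw [if_neg hx]
      rfl
  have hmain := H589.alt_corner Fs hPp hPF he'blk hz'F he'tr hone hbr'
  have hcard1 : Nat.card (R.comap φ) ≤ n := by
    refine le_trans (Nat.card_le_card_of_injective
      (fun x : R.comap φ => (⟨φ x, x.2⟩ : R)) ?_) hRn
    intro x y h
    exact Subtype.ext (hφ (congrArg Subtype.val h))
  have hcard2 : Fsᶜ.card ≤ n * n + 4 := by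
    refine le_trans (le_of_eq ?_) (hY2 0)
    rw [Nat.card_eq_fintype_card, Fintype.card_subtype]
    congr 1
    ext a
    simp [Fs]
  refine le_trans ?_ (hmain.trans (CC_le_CA hcard1 hcard2))
  have h8 : e * f l = MonoidAlgebra.mapDomainAlgHom k k φ (e' * f') := by
    rw [← tm_eq_mapDomain, map_mul, hee', hff']
  rw [h8, ← hφS, finrank_NN_hom hφ]
  refine Submodule.finrank_mono ?_
  rintro x ⟨-, h9, h10⟩
  refine H589.mem_crn.mpr ⟨x, ?_⟩
  rw [h9, h10]

end Top

/-- **The corner property of alternating groups.** -/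
theorem cor_alt {k : Type u} [Field k] [IsAlgClosed k] {p : ℕ} [Fact p.Prime] [CharP k p]
    {G : Type} [Group G] [Finite G] {d n : ℕ} (hd : 7 ≤ d) {S R : Subgroup G}
    (iso : S ≃* alternatingGroup (Fin d))
    (hR : IsPGroup p R) (hRn : Nat.card R ≤ n) (hRS : ∀ x ∈ R, ∀ s ∈ S, x * s * x⁻¹ ∈ S)
    {e : MonoidAlgebra k G} (he : IsBlockOf S e) (hbr : br R e ≠ 0)
    (h1 : ∃ z ∈ SubAlg k S, z ∈ Fix (cj k G) (S ⊓ R) ∧ e = tr (cj k G) (S ⊓ R) S z)
    (h2 : ∃ z ∈ SubAlg k S, z ∈ Fix (cj k G) R ∧ e = tr (cj k G) R (S ⊔ R) z) :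
    H954.Cor (CA n) S R e := by
  set K : Subgroup G := S ⊔ R with hK
  have hSK : S ≤ K := le_sup_left
  have hRK : R ≤ K := le_sup_right
  have hSm : (S.subgroupOf K).map K.subtype = S := Subgroup.map_subgroupOf_eq_of_le hSK
  have hRm : (R.subgroupOf K).map K.subtype = R := Subgroup.map_subgroupOf_eq_of_le hRK
  have hKm : (⊤ : Subgroup K).map K.subtype = K := by
    rw [← MonoidHom.range_eq_map, Subgroup.range_subtype]
  obtain ⟨e', rfl⟩ := exists_incl K (SubAlg_mono hSK he.mem.1)
  have hSn : (S.subgroupOf K).Normal := by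
    rw [Subgroup.normal_subgroupOf_iff_le_normalizer hSK]
    refine sup_le Subgroup.le_normalizer ?_
    intro x hx
    rw [Subgroup.mem_normalizer_iff]
    intro s
    constructor
    · exact fun hs => hRS x hx s hs
    · intro hs
      have h3 := hRS x⁻¹ (R.inv_mem hx) _ hs
      have h4 : x⁻¹ * (x * s * x⁻¹) * x⁻¹⁻¹ = s := by group
      rwa [h4] at h3
  have key : H954.Cor (CA n) (S.subgroupOf K) (R.subgroupOf K) e' := by
    refine cor_alt_top (p := p) hd hSn
      ((Subgroup.inclusion hSK).comp iso.symm.toMonoidHom)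
      ((Subgroup.inclusion_injective hSK).comp iso.symm.injective) ?_ ?_ ?_
      ((isBlockOf_subgroupOf_iff hSK e').mpr he) ?_ ?_ ?_
    · ext x
      rw [Subgroup.mem_subgroupOf]
      constructor
      · rintro ⟨y, rfl⟩
        exact (iso.symm y).2
      · intro hx
        exact ⟨iso ⟨x, hx⟩, by
          change Subgroup.inclusion hSK (iso.symm (iso ⟨x, hx⟩)) = x
          rw [MulEquiv.symm_apply_apply]
          rfl⟩
    · exact hR.comap_of_injective K.subtype K.subtype_injective
    · rw [Nat.card_congr (Subgroup.subgroupOfEquivOfLe hRK).toEquiv]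
      exact hRn
    · intro h0
      apply hbr
      rw [← hRm, br_incl, h0, map_zero]
    · obtain ⟨z, hz, hzF, hez⟩ := h1
      obtain ⟨z', rfl⟩ := exists_incl K (SubAlg_mono hSK hz)
      have hm : (S.subgroupOf K ⊓ R.subgroupOf K).map K.subtype = S ⊓ R :=
        Subgroup.map_subgroupOf_eq_of_le (inf_le_left.trans hSK)
      have hz'F : z' ∈ Fix (cj k K) (S.subgroupOf K ⊓ R.subgroupOf K) := by
        rw [← incl_mem_Fix_iff, hm]; exact hzF
      refine ⟨z', ?_, hz'F, ?_⟩
      · rw [← incl_mem_SubAlg_iff, hSm]; exact hz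
      · apply incl_injective (k := k) K
        rw [incl_tr_gen K hz'F, hm, hSm]
        exact hez
    · obtain ⟨z, hz, hzF, hez⟩ := h2
      obtain ⟨z', rfl⟩ := exists_incl K (SubAlg_mono hSK hz)
      have hz'F : z' ∈ Fix (cj k K) (R.subgroupOf K) := by
        rw [← incl_mem_Fix_iff, hRm]; exact hzF
      refine ⟨z', hz'F, ?_⟩
      apply incl_injective (k := k) K
      rw [incl_tr_gen K hz'F, hRm, hKm]
      exact hez
  have h3 := cor_incl key
  rwa [hSm, hRm] at h3

end Vale.Agent.P180.R2.H12
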