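import Vale.Agent.P180.R2.H12.TwoQ

/-!
P180 R2 H12: the corner property of double covers of alternating groups in characteristic two.
-/

set_option linter.all false

namespace Vale.Agent.P180.R2.H12

open Equiv Vale.Agent.P180 Vale.Agent.P180.H768.Gd Vale.Agent.P180.R2.H799
open scoped commutatorElement

universe u

section Data

variable {G H : Type} [Group G] [Group H]

/-- The data for one cover of an alternating group. -/
theorem exists_data_q {d : ℕ} (hd : 7 ≤ d) (q : G →* H) {S : Subgroup G} (hS : S.Normal)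
    (hSn : (S.map q).Normal) (hker : ∀ x, q x = 1 → ∀ y ∈ S, x * y = y * x)
    (φ : alternatingGroup (Fin d) →* H) (hφ : Function.Injective φ) (hφS : φ.range = S.map q) :
    ∃ (A : AltData H 1 (fun _ => d)) (F : Fam G 1 ⊤), A.ι = φ.comp (Pi.evalMonoidHom _ 0) ∧
      F.A 0 = S ∧ CovData q A F := by
  classical
  let ι : (∀ j : Fin 1, alternatingGroup (Fin ((fun _ => d) j))) →* H :=
    φ.comp (Pi.evalMonoidHom _ 0)
  have hι : Function.Injective ι := by
    intro x y h
    funext j
    rw [Subsingleton.elim j 0]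
    exact hφ h
  have hιS : ι.range = S.map q := by
    rw [← hφS]
    ext x
    constructor
    · rintro ⟨y, rfl⟩
      exact ⟨y 0, rfl⟩
    · rintro ⟨y, rfl⟩
      exact ⟨fun _ => y, rfl⟩
  have hn : ι.range.Normal := by rw [hιS]; exact hSn
  obtain ⟨ρ, -, h2, h3, h4⟩ := H471.exists_rho (fun _ => hd) ι hι hn
  let A : AltData H 1 (fun _ => d) :=
    { ι := ι
      inj := hι
      conj := fun g τ => hn.conj_mem _ ⟨τ, rfl⟩ g
      ρ := ρ
      σ := 1
      ρ_fst := fun g a => Subsingleton.elim _ _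
      ρ_ι := by
        intro τ a
        rw [h2]
        rfl }
  let F : Fam G 1 ⊤ :=
    { A := fun _ => S
      σ := 1
      comm := fun i j hij => absurd (Subsingleton.elim i j) hij
      conj := fun g j x hx => hS.conj_mem x hx g }
  refine ⟨A, F, rfl, rfl, ⟨fun x hx j y hy => hker x hx y hy, ?_,
    fun g j => Subsingleton.elim _ _⟩⟩
  intro j
  change S.map q = _
  rw [← hφS]
  ext x
  constructor
  · rintro ⟨y, rfl⟩
    refine ⟨y, ?_⟩
    change φ ((Pi.mulSingle j y : ∀ j : Fin 1, alternatingGroup (Fin ((fun _ => d) j))) 0) = φ y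
    rw [Subsingleton.elim j 0, Pi.mulSingle_eq_same]
  · rintro ⟨y, rfl⟩
    exact ⟨_, rfl⟩

end Data

section Dim

variable {k : Type u} [Field k] [IsAlgClosed k] {p : ℕ} [Fact p.Prime] [CharP k p]
variable {G : Type} [Group G] [Finite G]

/-- The bound of helper589, for a subgroup isomorphic to an alternating group. -/
theorem alt_dim {d n : ℕ} {S R : Subgroup G}
    (φ : alternatingGroup (Fin d) →* G) (hφ : Function.Injective φ) (hφS : φ.range = S)
    (hR : IsPGroup p R) (hRn : Nat.card R ≤ n) {e : MonoidAlgebra k G} (he : IsBlockOf S e)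
    (h1 : ∃ z ∈ SubAlg k S, z ∈ Fix (cj k G) (S ⊓ R) ∧ e = tr (cj k G) (S ⊓ R) S z)
    (Fs : Finset (Fin d)) (hPF : ∀ h, φ h ∈ R → ∀ x ∈ Fs, (h : Perm (Fin d)) x = x)
    (hcard2 : Fsᶜ.card ≤ n * n + 4) {f : MonoidAlgebra k G}
    (hf : f ∈ SubAlg k ((H365.altF Fs).map φ)) (hff : f * f = f)
    (hcor : ∀ y ∈ SubAlg k ((H365.altF Fs).map φ), ∃ c : k, f * y * f = c • f)
    (hfe : br R (f * e) ≠ 0) :
    Module.finrank k (NN (SubAlg k S) (e * f) (e * f)) ≤ CA n := by
  classical
  have hAS : (H365.altF Fs).map φ ≤ S := by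
    rw [← hφS]
    rintro _ ⟨u, -, rfl⟩
    exact ⟨u, rfl⟩
  have hid : Function.Surjective (RingHom.id k) := fun x => ⟨x, rfl⟩
  have htop : (⊤ : Subgroup (alternatingGroup (Fin d))).map φ = S := by
    rw [← MonoidHom.range_eq_map, hφS]
  obtain ⟨f', hf', hff'⟩ := tm_surj hid hf
  obtain ⟨e', he', hee'⟩ := tm_surj (f := φ) (Y := ⊤) hid (b := e) (by rw [htop]; exact he.mem.1)
  obtain ⟨z₁, hz₁, hz₁F, hez₁⟩ := h1
  obtain ⟨z', hz', hzz'⟩ := tm_surj (f := φ) (Y := ⊤) hid (b := z₁) (by rw [htop]; exact hz₁)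
  have hinj : ∀ {a b : MonoidAlgebra k (alternatingGroup (Fin d))},
      tm (RingHom.id k) φ a = tm (RingHom.id k) φ b → a = b := fun {a b} h =>
    tm_inj (Y := ⊤) hφ.injOn (SubAlg_top a) (SubAlg_top b) h
  have he'blk : IsBlockOf ⊤ e' := by
    rw [← tm_block_iff hid hφ.injOn he', htop, hee']
    exact he
  have hz'F : z' ∈ Fix (cj k (alternatingGroup (Fin d))) (R.comap φ) := by
    intro x hx
    apply hinj
    rw [tm_cj, hzz']
    exact hz₁F _ ⟨by rw [← hφS]; exact ⟨x, rfl⟩, hx⟩
  have he'tr : e' = tr (cj k (alternatingGroup (Fin d))) (R.comap φ) ⊤ z' := by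
    apply hinj
    rw [tm_tr_comap R hz'F, hee', hzz', hφS]
    exact hez₁
  have hPp : IsPGroup p (R.comap φ) := hR.comap_of_injective φ hφ
  have hone : H365.OneF Fs f' := by
    refine ⟨hf', ?_, ?_⟩
    · apply hinj
      rw [map_mul, hff', hff]
    · intro y hy
      obtain ⟨c, hc⟩ := hcor _ (tm_mem (φ := RingHom.id k) (f := φ) hy)
      refine ⟨c, ?_⟩
      apply hinj
      rw [map_mul, map_mul, hff', hc, tm_smul, hff']
      rfl
  have hbr' : br (R.comap φ) (f' * e') ≠ 0 := by
    intro h0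
    apply hfe
    apply ext_coeff
    intro x
    rw [br_coeff]
    by_cases hx : x ∈ Subgroup.centralizer (R : Set G)
    · rw [if_pos hx]
      by_cases hxS : x ∈ S
      · rw [← hφS] at hxS
        obtain ⟨u, rfl⟩ := hxS
        have h5 : (f * e).coeff (φ u) = (f' * e').coeff u := by
          rw [← hff', ← hee', ← map_mul]
          exact tm_coeff (Y := ⊤) hφ.injOn (SubAlg_top _) (Subgroup.mem_top u)
        have h6 : u ∈ Subgroup.centralizer ((R.comap φ : Subgroup (alternatingGroup (Fin d))) :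
            Set (alternatingGroup (Fin d))) := by
          rw [mem_cent]
          intro v hv
          apply hφ
          rw [map_mul, map_mul, map_inv]
          exact mem_cent.mp hx _ hv
        have h7 : (br (R.comap φ) (f' * e')).coeff u = 0 := by rw [h0]; rfl
        rw [br_coeff, if_pos h6] at h7
        rw [h5, h7]
        rfl
      · by_contra h5
        exact hxS (Subalgebra.mul_mem _ (SubAlg_mono hAS hf) he.mem.1 x h5)
    · rw [if_neg hx]
      rfl
  have hmain := H589.alt_corner Fs hPp (fun h hh x hx => hPF h hh x hx) he'blk hz'F he'tr hone hbr'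
  have hcard1 : Nat.card (R.comap φ) ≤ n := by
    refine le_trans (Nat.card_le_card_of_injective
      (fun x : R.comap φ => (⟨φ x, x.2⟩ : R)) ?_) hRn
    intro x y h
    exact Subtype.ext (hφ (congrArg Subtype.val h))
  refine le_trans ?_ (hmain.trans (CC_le_CA hcard1 hcard2))
  have h8 : e * f = MonoidAlgebra.mapDomainAlgHom k k φ (e' * f') := by
    rw [← tm_eq_mapDomain, map_mul, hee', hff']
  rw [h8, ← hφS, finrank_NN_hom hφ]
  refine Submodule.finrank_mono ?_
  rintro x ⟨-, h9, h10⟩
  refine H589.mem_crn.mpr ⟨x, ?_⟩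
  rw [h9, h10]

end Dim

section Two

variable {k : Type u} [Field k] [IsAlgClosed k] [CharP k 2]
variable {G H : Type} [Group G] [Finite G] [Group H] [Finite H]

instance : Fact (Nat.Prime 2) := ⟨Nat.prime_two⟩

/-- **The corner property of double covers of alternating groups**, `p = 2`, in the group
`S R`. -/
theorem cor_two_top {d n : ℕ} (hd : 7 ≤ d) {q : G →* H} {z : G} (hq : TwoK q z)
    {S R : Subgroup G} (hS : S.Normal) (hzS : z ∈ S) (hSn : (S.map q).Normal)
    (φ : alternatingGroup (Fin d) →* H) (hφ : Function.Injective φ) (hφS : φ.range = S.map q)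
    (hR : IsPGroup 2 R) (hRn : Nat.card R ≤ n) {e : MonoidAlgebra k G} (he : IsBlockOf S e)
    (hbr : br R e ≠ 0)
    (h1 : ∃ z ∈ SubAlg k S, z ∈ Fix (cj k G) (S ⊓ R) ∧ e = tr (cj k G) (S ⊓ R) S z)
    (h2 : ∃ z, z ∈ Fix (cj k G) R ∧ e = tr (cj k G) R ⊤ z) :
    H954.Cor (2 * CA n) S R e := by
  classical
  have hkc : ∀ x, q x = 1 → ∀ y ∈ S, x * y = y * x := by
    intro x hx y _
    rcases (hq.ker x).mp hx with rfl | rfl
    · rw [one_mul, mul_one]
    · exact hq.comm y
  obtain ⟨A, F, hA, hF, C⟩ := exists_data_q hd q hS hSn hkc φ hφ hφS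
  obtain ⟨w, hw, hew⟩ := h2
  obtain ⟨Y, m, β, f, hY1, hY2, hY3, hY4, hY5, hL, hfe, hfR, hspan⟩ := C.exists_one hR hRn hw
    he.idem.eq (by rw [hF]; exact he.mem.1) hew hbr
  rw [hF] at hspan
  refine ⟨m, f, fun l => ?_, hspan⟩
  have hLl := hL l
  have hAS : CovData.A' q A F Y 0 ≤ S := by
    rw [← hF]
    exact (CovData.A'_le Y 0).trans inf_le_left
  have heF : e ∈ Fix (cj k G) ⊤ := by rw [hew]; exact tr_mem_Fix hw
  refine ⟨SubAlg_mono hAS hLl.mem, hfR l, hLl.idem, ?_⟩
  -- the involution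
  have hZn : (Subgroup.zpowers z).Normal := by
    constructor
    intro x hx g
    have h3 : Subgroup.zpowers z ≤ Subgroup.centralizer {g} := by
      rw [Subgroup.zpowers_le, Subgroup.mem_centralizer_singleton_iff]
      first
        | exact hq.comm g
        | exact (hq.comm g).symm
    have h4 := Subgroup.mem_centralizer_singleton_iff.mp (h3 hx)
    have h5 : g * x = x * g := by
      first
        | exact h4
        | exact h4.symm
    rw [h5, mul_inv_cancel_right]
    exact hx
  have hzR : z ∈ R := by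
    have h3 : IsPGroup 2 (Subgroup.zpowers z) := by
      rintro ⟨_, m, rfl⟩
      refine ⟨1, Subtype.ext ?_⟩
      change (z ^ m) ^ 2 ^ 1 = 1
      rw [pow_one, ← zpow_natCast, ← zpow_mul, mul_comm, zpow_mul]
      change (z ^ (2 : ℤ)) ^ m = 1
      rw [zpow_two, hq.sq, one_zpow]
    exact op_le 2 h3 he.idem he.ne_zero hw hew (Subgroup.mem_zpowers z)
  -- the image
  have hmap : (CovData.A' q A F Y 0).map q = (AltData.AF Y 0).map φ := by
    rw [C.A'_map (hY1 0), CovData.YYb_eq, hA]
    ext x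
    constructor
    · rintro ⟨u, hu, rfl⟩
      refine ⟨u, hu, ?_⟩
      change φ u = φ ((Pi.mulSingle 0 u : ∀ j : Fin 1, alternatingGroup (Fin ((fun _ => d) j))) 0)
      rw [Pi.mulSingle_eq_same]
    · rintro ⟨u, hu, rfl⟩
      refine ⟨u, hu, ?_⟩
      change φ ((Pi.mulSingle 0 u : ∀ j : Fin 1, alternatingGroup (Fin ((fun _ => d) j))) 0) = φ u
      rw [Pi.mulSingle_eq_same]
  let Fs : Finset (Fin d) := Finset.univ.filter fun a => (⟨0, a⟩ : Σ j : Fin 1, Fin d) ∈ Y
  have hFF : H365.altF Fs = AltData.AF Y 0 := by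
    ext τ
    constructor
    · intro hτ a ha
      exact hτ a fun h => ha (Finset.mem_filter.mp h).2
    · intro hτ a ha
      exact hτ a fun h => ha (Finset.mem_filter.mpr ⟨Finset.mem_univ _, h⟩)
  have hid : Function.Surjective (RingHom.id k) := fun x => ⟨x, rfl⟩
  have hRq : IsPGroup 2 (R.map q) := hR.map q
  have hRqn : Nat.card (R.map q) ≤ n :=
    (Nat.card_le_card_of_surjective _ (q.subgroupMap_surjective R)).trans hRn
  have heblk : IsBlockOf (S.map q) (tm (RingHom.id k) q e) := hq.isBlockOf he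
  have hqR : ∀ x, q x ∈ R.map q → x ∈ R := by
    rintro x ⟨r, hr, hrx⟩
    rcases hq.eq_iff.mp hrx with h3 | h3
    · rwa [← h3]
    · have h4 : x = z * r := by
        rw [h3, ← mul_assoc, hq.sq, one_mul]
      rw [h4]
      exact R.mul_mem hzR hr
  have htr : ∃ z ∈ SubAlg k (S.map q), z ∈ Fix (cj k H) (S.map q ⊓ R.map q) ∧
      tm (RingHom.id k) q e = tr (cj k H) (S.map q ⊓ R.map q) (S.map q) z := by
    obtain ⟨w₁, hw₁, hw₁F, hew₁⟩ := h1
    refine ⟨tm (RingHom.id k) q w₁, tm_mem hw₁, ?_, ?_⟩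
    · intro y hy
      obtain ⟨⟨s, hs, rfl⟩, hyR⟩ := Subgroup.mem_inf.mp hy
      rw [← tm_cj, hw₁F s ⟨hs, hqR s hyR⟩]
    · obtain ⟨e₀, rfl⟩ := exists_incl S he.mem.1
      obtain ⟨w₀, rfl⟩ := exists_incl S hw₁
      have hcomp : ∀ a : MonoidAlgebra k S, tm (RingHom.id k) q (incl k S a) =
          tm (RingHom.id k) (q.comp S.subtype) a := by
        intro a
        induction a using MonoidAlgebra.induction_linear with
        | zero => rw [map_zero, map_zero, map_zero]
        | add a b ha hb => rw [map_add, map_add, map_add, ha, hb]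
        | single x c => rw [incl_single, tm_single, tm_single]; rfl
      have hcm : (R.map q).comap (q.comp S.subtype) = R.subgroupOf S := by
        ext s
        constructor
        · intro hs
          exact hqR _ hs
        · intro hs
          exact ⟨s, hs, rfl⟩
      have hrg : (q.comp S.subtype).range = S.map q := by
        rw [MonoidHom.range_comp, Subgroup.range_subtype]
      have hm1 : (R.subgroupOf S).map S.subtype = S ⊓ R := by
        rw [Subgroup.subgroupOf_map_subtype, inf_comm]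
      have hm2 : (⊤ : Subgroup S).map S.subtype = S := by
        rw [← MonoidHom.range_eq_map, Subgroup.range_subtype]
      have hw₀F : w₀ ∈ Fix (cj k S) (R.subgroupOf S) := by
        rw [← incl_mem_Fix_iff, hm1]; exact hw₁F
      have h3 : e₀ = tr (cj k S) (R.subgroupOf S) ⊤ w₀ := by
        apply incl_injective (k := k) S
        rw [incl_tr_gen S hw₀F, hm1, hm2]
        exact hew₁
      have h4 := tm_tr_comap (φ := RingHom.id k) (f := q.comp S.subtype) (R.map q) (a := w₀)
        (by rw [hcm]; exact hw₀F)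
      rw [hcm, hrg, ← h3] at h4
      rw [hcomp, hcomp]
      exact h4
  have hfm : tm (RingHom.id k) q (f l) ∈ SubAlg k ((H365.altF Fs).map φ) := by
    rw [hFF, ← hmap]
    exact tm_mem hLl.mem
  have hff : tm (RingHom.id k) q (f l) * tm (RingHom.id k) q (f l) =
      tm (RingHom.id k) q (f l) := by rw [← map_mul, hLl.idem]
  have hcor : ∀ y ∈ SubAlg k ((H365.altF Fs).map φ), ∃ c : k,
      tm (RingHom.id k) q (f l) * y * tm (RingHom.id k) q (f l) =
        c • tm (RingHom.id k) q (f l) := by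
    intro y hy
    rw [hFF, ← hmap] at hy
    obtain ⟨y', hy', rfl⟩ := tm_surj hid hy
    obtain ⟨Z, hZp, hZA, hZc, -, hcor⟩ := hLl.corner
    obtain ⟨v, hv, hve⟩ := hcor y' hy'
    have hZ1 : ∀ x ∈ Z, q x = 1 := by
      intro x hx
      have h3 : q x ∈ (AltData.AF Y 0).map φ := by
        rw [← hmap]
        exact ⟨x, hZA hx, rfl⟩
      obtain ⟨u, hu, hux⟩ := h3
      rw [← hux, AF_center Y 0 (hY1 0) hu (fun v hv => hφ (by
        have h4 : φ v ∈ (CovData.A' q A F Y 0).map q := by
          rw [hmap]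
          exact ⟨v, hv, rfl⟩
        obtain ⟨t, ht, htv⟩ := h4
        rw [map_mul, map_mul, hux, ← htv, ← map_mul, ← map_mul, hZc x hx t ht])), map_one]
    have hv1 : tm (RingHom.id k) q v =
        ((tm (RingHom.id k) q v).coeff 1) • (1 : MonoidAlgebra k H) := by
      apply ext_coeff
      intro x
      rw [MonoidAlgebra.coeff_smul, Finsupp.smul_apply, MonoidAlgebra.one_def, coeff_single,
        smul_eq_mul]
      by_cases hx : 1 = x
      · rw [if_pos hx, mul_one, hx]
      · rw [if_neg hx, mul_zero]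
        by_contra h5
        obtain ⟨t, ht, htx⟩ := tm_mem (φ := RingHom.id k) (f := q) hv x h5
        exact hx (by rw [← htx, hZ1 t ht])
    refine ⟨(tm (RingHom.id k) q v).coeff 1, ?_⟩
    rw [← map_mul, ← map_mul, hve, map_mul]
    conv_lhs => rw [hv1]
    rw [smul_mul_assoc, one_mul]
  have hfe' : br (R.map q) (tm (RingHom.id k) q (f l) * tm (RingHom.id k) q e) ≠ 0 := by
    have hfeF : f l * e ∈ Fix (cj k G) R :=
      Subalgebra.mul_mem _ (hfR l) (Fix_mono _ le_top heF)
    rw [← map_mul, br_tm q hR hfeF]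
    intro h0
    apply hfe l
    obtain ⟨y, -, hy⟩ := hq.exists_tz h0 (SubAlg_top _)
    have hfec : f l * e = e * f l := commute_of_mem (SubAlg_top _) heF
    have hidem : (f l * e) * (f l * e) = f l * e := by
      rw [mul_assoc, ← mul_assoc e, ← hfec, mul_assoc (f l) e e, he.idem.eq, ← mul_assoc,
        hLl.idem]
    have h3 : br R (f l * e) * br R (f l * e) = br R (f l * e) := by
      rw [← br_mul hR hfeF hfeF, hidem]
    rw [← h3, hy]
    calc tz k z * y * (tz k z * y) = tz k z * (y * tz k z) * y := by simp only [mul_assoc]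
      _ = 0 := by rw [← hq.tz_comm, ← mul_assoc, hq.tz_sq, zero_mul, zero_mul]
  have hPF : ∀ h, φ h ∈ R.map q → ∀ x ∈ Fs, (h : Perm (Fin d)) x = x := by
    rintro h ⟨r, hr, hrh⟩ x hx
    have h3 := hY4 r hr ⟨0, x⟩ (Finset.mem_filter.mp hx).2
    have h4 : q r = A.ι (fun _ => h) := by rw [hrh, hA]; rfl
    rw [h4, A.ρ_ι] at h3
    simpa only [Sigma.mk.injEq, heq_eq_eq, true_and] using h3
  have hcard2 : Fsᶜ.card ≤ n * n + 4 := by
    refine le_trans (le_of_eq ?_) (hY2 0)
    rw [Nat.card_eq_fintype_card, Fintype.card_subtype]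
    congr 1
    ext a
    simp [Fs]
  have hdim := alt_dim φ hφ hφS hRq hRqn heblk htr Fs hPF hcard2 hfm hff hcor hfe'
  have hfec : f l * e = e * f l := commute_of_mem (SubAlg_top _) heF
  have hidem : (e * f l) * (e * f l) = e * f l := by
    rw [mul_assoc, ← mul_assoc (f l), hfec, mul_assoc e (f l), hLl.idem, ← mul_assoc,
      he.idem.eq]
  refine (hq.finrank_le hzS hidem (Subalgebra.mul_mem _ he.mem.1
    (SubAlg_mono hAS hLl.mem))).trans ?_
  rw [map_mul]
  exact Nat.mul_le_mul_left 2 hdim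

end Two

end Vale.Agent.P180.R2.H12
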