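import Vale.Agent.P180.R2.H12.R4
import Vale.Agent.P180.H768.Brauer

/-!
P180 R2 H12: the Brauer correspondent in the normaliser of a defect group.
-/

namespace Vale.Agent.P180.R2.H12

open Vale.Agent.P180 Vale.Agent.P180.H768.Gd

variable {k : Type*} [Field k] {p : ℕ} [Fact p.Prime] [CharP k p] {G : Type*} [Group G] [Finite G]

omit [Finite G] in
theorem fix_of_cent {D : Subgroup G} {a : MonoidAlgebra k G}
    (ha : a ∈ SubAlg k (Subgroup.centralizer (D : Set G))) : a ∈ Fix (cj k G) D := by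
  intro d hd
  apply MonoidAlgebra.coeff_injective
  ext x
  rw [cj_coeff]
  by_cases hx : x ∈ Subgroup.centralizer (D : Set G)
  · have h1 := mem_cent.mp hx d⁻¹ (D.inv_mem hd)
    rw [inv_inv] at h1
    rw [h1]
  · have h1 : a.coeff x = 0 := by
      by_contra h
      exact hx (ha x h)
    rw [h1]
    by_contra h
    have h2 := ha _ h
    rw [SetLike.mem_coe, mem_cent] at h2
    have h3 : d⁻¹ * x * d = x := by
      have := h2 d hd
      calc d⁻¹ * x * d = d⁻¹ * (d⁻¹ * x * d) * (d⁻¹)⁻¹ := by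
            have h4 := h2 d⁻¹ (D.inv_mem hd)
            rw [h4]
        _ = d⁻¹ * x * d := h2 d⁻¹ (D.inv_mem hd)
        _ = d * (d⁻¹ * x * d) * d⁻¹ := this.symm
        _ = x := by group
    rw [h3] at h2
    exact hx (mem_cent.mpr h2)

omit [Finite G] [Fact p.Prime] [CharP k p] in
theorem Fix_top_le {H : Subgroup G} {b : MonoidAlgebra k G} (hb : b ∈ Fix (cj k G) ⊤) :
    b ∈ Fix (cj k G) H := Fix_mono _ le_top hb

/-- The Brauer correspondent. -/
theorem br_data {D : Subgroup G} (hD : IsPGroup p D) {a b : MonoidAlgebra k G}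
    (ha : a ∈ Fix (cj k G) D) (hb : b * b = b) (hba : b = tr (cj k G) D ⊤ a) :
    br D b * br D b = br D b ∧ br D b ∈ Fix (cj k G) (Subgroup.normalizer (D : Set G)) ∧
      br D a ∈ SubAlg k (Subgroup.normalizer (D : Set G)) ∧ br D a ∈ Fix (cj k G) D ∧
      br D b = tr (cj k G) D (Subgroup.normalizer (D : Set G)) (br D a) := by
  have hbF : b ∈ Fix (cj k G) ⊤ := by rw [hba]; exact tr_mem_Fix ha
  have h1 : br D a ∈ Fix (cj k G) D := fix_of_cent (br_mem D a)
  have h2 : br D b = tr (cj k G) D (Subgroup.normalizer (D : Set G)) (br D a) := by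
    rw [hba, br_tr hD ha]
  refine ⟨?_, ?_, ?_, h1, h2⟩
  · rw [← br_mul hD (Fix_top_le hbF) (Fix_top_le hbF), hb]
  · rw [h2]; exact tr_mem_Fix h1
  · refine SubAlg_mono ?_ (br_mem D a)
    intro x hx
    rw [Subgroup.mem_normalizer_iff]
    rw [Subgroup.mem_centralizer_iff] at hx
    intro d
    constructor
    · intro hd
      rw [← hx d hd, mul_inv_cancel_right]
      exact hd
    · intro hd
      have h3 := hx _ hd
      have h4 : d = x⁻¹ * (x * d * x⁻¹) * x := by group
      have h5 : x⁻¹ * (x * d * x⁻¹) * x = x * d * x⁻¹ := by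
        rw [mul_assoc, h3, inv_mul_cancel_left]
      rw [h4, h5]
      exact hd

theorem hop {D : Subgroup G} (hD : IsPGroup p D) {a b : MonoidAlgebra k G}
    (ha : a ∈ Fix (cj k G) D) (hb : b * b = b) (hba : b = tr (cj k G) D ⊤ a) (hne : br D b ≠ 0)
    (P : Subgroup G) (hP : IsPGroup p P) (hPN : P ≤ Subgroup.normalizer (D : Set G))
    (hn : ∀ g ∈ Subgroup.normalizer (D : Set G), ∀ x ∈ P, g * x * g⁻¹ ∈ P) : P ≤ D := by
  obtain ⟨hcc, -, haE, haF, hc⟩ := br_data hD ha hb hba
  set E := Subgroup.normalizer (D : Set G) with hE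
  have hDE : D ≤ E := Subgroup.le_normalizer
  obtain ⟨a', ha'⟩ := exists_incl E haE
  have hmapD : (D.subgroupOf E).map E.subtype = D := Subgroup.map_subgroupOf_eq_of_le hDE
  have htop : (⊤ : Subgroup E).map E.subtype = E := by
    rw [← MonoidHom.range_eq_map, Subgroup.range_subtype]
  have haF' : a' ∈ Fix (cj k E) (D.subgroupOf E) := by
    rw [← incl_mem_Fix_iff, hmapD, ha']; exact haF
  have hc' : br D b = incl k E (tr (cj k E) (D.subgroupOf E) ⊤ a') := by
    rw [incl_tr_gen E haF', hmapD, htop, ha', hc]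
  have hPnor : (P.subgroupOf E).Normal := by
    constructor
    intro s hs x
    rw [Subgroup.mem_subgroupOf] at hs ⊢
    exact hn x x.2 s hs
  have hPp : IsPGroup p (P.subgroupOf E) := by
    rintro ⟨x, hx⟩
    rw [Subgroup.mem_subgroupOf] at hx
    obtain ⟨m, hm⟩ := hP ⟨x, hx⟩
    refine ⟨m, Subtype.ext (Subtype.ext ?_)⟩
    have h := congrArg Subtype.val hm
    simpa using h
  have h1 := op_le p hPp (b := tr (cj k E) (D.subgroupOf E) ⊤ a')
    (by
      apply incl_injective (k := k) E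
      change incl k E (tr (cj k E) (D.subgroupOf E) ⊤ a' * tr (cj k E) (D.subgroupOf E) ⊤ a') = _
      rw [map_mul, ← hc', hcc])
    (by
      intro h0
      apply hne
      rw [hc', h0, map_zero]) haF' rfl
  intro x hx
  exact h1 (show (⟨x, hPN hx⟩ : E) ∈ P.subgroupOf E from hx)

end Vale.Agent.P180.R2.H12
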