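import Vale.Agent.P180.R2.H12.Orb
import Vale.Agent.P180.R2.H12.Hop

/-!
P180 R2 H12: the local idempotent.
-/

namespace Vale.Agent.P180.R2.H12

open Equiv Vale.Agent.P180 Vale.Agent.P180.H768.Gd

namespace AltData

variable {G : Type*} [Group G] {r : ℕ} {N : Fin r → ℕ} {S : AltData G r N}
variable {D : Subgroup G} {F : Set (Σ j, Fin (N j))} {k : Type*} [Field k]

theorem ι_coeff (a : MonoidAlgebra k (∀ j, alternatingGroup (Fin (N j))))
    (τ : ∀ j, alternatingGroup (Fin (N j))) :
    (tm (RingHom.id k) S.ι a).coeff (S.ι τ) = a.coeff τ :=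
  tm_coeff (Y := ⊤) (S.inj.injOn) (SubAlg_top a) (Subgroup.mem_top τ)

theorem ι_coeff_of_notMem (a : MonoidAlgebra k (∀ j, alternatingGroup (Fin (N j)))) {x : G}
    (hx : x ∉ S.ι.range) : (tm (RingHom.id k) S.ι a).coeff x = 0 := by
  refine tm_coeff_of_notMem (Y := ⊤) (SubAlg_top a) ?_
  rw [← MonoidHom.range_eq_map]
  exact hx

/-- For one orbit: the tensor product of the conjugates is stable under `D`, and its image under
the Brauer map is given. -/
theorem orbit_step (hF1 : ∀ d ∈ D, ∀ y ∈ F, S.ρ d y ∈ F)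
    (hF2 : ∀ d ∈ D, ∀ y ∈ F, S.σ d y.1 = y.1 → S.ρ d y = y) (j : Fin r) (φ : k →+* k)
    (hφ : ∀ x, φ x ^ Nat.card (S.orb D j) = x)
    {ε : MonoidAlgebra k (∀ j, alternatingGroup (Fin (N j)))}
    (hε : ε ∈ SubAlg k (S.YP D F (S.orb D j)))
    (h : ∀ i, MonoidAlgebra k (alternatingGroup (Fin (N i))))
    (h1 : ∀ i ∈ S.orb D j, h i = tm φ (pr N i) ε) (h2 : ∀ i, i ∉ S.orb D j → h i = 1) :
    tm (RingHom.id k) S.ι (T h) ∈ Fix (cj k G) D ∧
      br D (tm (RingHom.id k) S.ι (T h)) = tm (RingHom.id k) S.ι ε := by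
  classical
  have hone : ∀ i, i ∉ S.orb D j → ∀ x, (h i).coeff x = if x = 1 then 1 else 0 := by
    intro i hi x
    rw [h2 i hi, MonoidAlgebra.one_def, coeff_single]
    by_cases hx : x = 1
    · rw [if_pos hx, if_pos hx.symm]
    · rw [if_neg hx, if_neg fun h => hx h.symm]
  have hin : ∀ i ∈ S.orb D j, ∀ y ∈ S.YP D F (S.orb D j), (h i).coeff (y i) = φ (ε.coeff y) := by
    intro i hi y hy
    rw [h1 i hi]
    refine tm_coeff (Y := S.YP D F (S.orb D j)) ?_ hε hy
    rw [← orb_eq hi]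
    exact pr_injOn i
  have hmap : ∀ i ∈ S.orb D j, (S.YP D F (S.orb D j)).map (pr N i) = AF F i := by
    intro i hi
    rw [← orb_eq hi]
    exact YP_pr hF1 hF2 i
  have hout : ∀ i ∈ S.orb D j, ∀ u, u ∉ AF F i → (h i).coeff u = 0 := by
    intro i hi u hu
    rw [h1 i hi]
    refine tm_coeff_of_notMem hε ?_
    rw [hmap i hi]
    exact hu
  constructor
  · intro d hd
    apply ext_coeff
    intro x
    rw [cj_coeff]
    by_cases hx : x ∈ S.ι.range
    · obtain ⟨τ', rfl⟩ := hx
      obtain ⟨τ, hτ⟩ := S.conj d⁻¹ τ'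
      rw [inv_inv] at hτ
      have hτ' : S.ι τ' = d * S.ι τ * d⁻¹ := by rw [hτ]; group
      rw [← hτ, ι_coeff, ι_coeff, T_coeff, T_coeff,
        ← Equiv.prod_comp (S.σ d) (fun i => (h i).coeff (τ' i))]
      refine Finset.prod_congr rfl fun i _ => ?_
      by_cases hi : i ∈ S.orb D j
      · have hi' := orb_inv d hd i hi
        by_cases hu : τ i ∈ AF F i
        · rw [← hmap i hi] at hu
          obtain ⟨y, hy, hyi⟩ := hu
          have hyi' : y i = τ i := hyi
          have h3 := (comp_conj hτ' (conj_eq hd hy) i).mp hyi'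
          rw [← hyi', ← h3, hin i hi y hy, hin _ hi' y hy]
        · rw [hout i hi _ hu, hout _ hi']
          intro hu'
          apply hu
          rw [← hmap _ hi'] at hu'
          obtain ⟨y, hy, hyi⟩ := hu'
          have hyi' : y (S.σ d i) = τ' (S.σ d i) := hyi
          have h3 := (comp_conj hτ' (conj_eq hd hy) i).mpr hyi'
          rw [← h3]
          exact (mem_YP.mp hy).1 i
      · have hi' : S.σ d i ∉ S.orb D j := fun h => hi ((orb_inv_iff hd).mp h)
        rw [hone i hi, hone _ hi']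
        have h3 := comp_conj hτ' (y := 1) (y' := 1) (by rw [map_one, mul_one, mul_inv_cancel]) i
        rw [Pi.one_apply, Pi.one_apply] at h3
        by_cases h4 : τ i = 1
        · rw [if_pos h4, if_pos (h3.mp h4.symm).symm]
        · rw [if_neg h4, if_neg fun h5 => h4 (h3.mpr h5.symm).symm]
    · rw [ι_coeff_of_notMem _ hx, ι_coeff_of_notMem]
      intro h3
      apply hx
      have h4 := S.conj_mem d h3
      have h5 : d * (d⁻¹ * x * d) * d⁻¹ = x := by group
      rwa [h5] at h4
  · apply ext_coeff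
    intro x
    rw [br_coeff]
    by_cases hx : x ∈ S.ι.range
    · obtain ⟨τ, rfl⟩ := hx
      rw [ι_coeff, ι_coeff, T_coeff]
      by_cases hτ : τ ∈ S.YP D F (S.orb D j)
      · have hc : S.ι τ ∈ Subgroup.centralizer (D : Set G) := YY_le_cent hτ
        rw [if_pos hc]
        have h3 : ∀ i, (h i).coeff (τ i) = if i ∈ S.orb D j then φ (ε.coeff τ) else 1 := by
          intro i
          by_cases hi : i ∈ S.orb D j
          · rw [if_pos hi, hin i hi τ hτ]
          · rw [if_neg hi, hone i hi, if_pos ((mem_YP.mp hτ).2.1 i hi)]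
        rw [Finset.prod_congr rfl fun i _ => h3 i, Finset.prod_ite, Finset.prod_const_one, mul_one,
          Finset.prod_const]
        have h4 : (Finset.univ.filter fun i => i ∈ S.orb D j).card = Nat.card (S.orb D j) := by
          rw [← Fintype.card_subtype, ← Nat.card_eq_fintype_card]
        rw [h4, hφ]
      · have h3 : ε.coeff τ = 0 := by
          by_contra h4
          exact hτ (hε τ h4)
        rw [h3]
        by_cases hc : S.ι τ ∈ Subgroup.centralizer (D : Set G)
        · rw [if_pos hc]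
          by_contra h4
          rw [← ne_eq, Finset.prod_ne_zero_iff] at h4
          apply hτ
          rw [mem_YP]
          refine ⟨fun i => ?_, fun i hi => ?_, fun d hd => ?_⟩
          · by_cases hi : i ∈ S.orb D j
            · by_contra h5
              exact h4 i (Finset.mem_univ i) (hout i hi _ h5)
            · have h5 := h4 i (Finset.mem_univ i)
              rw [hone i hi] at h5
              by_cases h6 : τ i = 1
              · rw [h6]; exact Subgroup.one_mem _
              · exact absurd (if_neg h6) h5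
          · have h5 := h4 i (Finset.mem_univ i)
            rw [hone i hi] at h5
            by_contra h6
            exact h5 (if_neg h6)
          · exact Subgroup.mem_centralizer_iff.mp hc d hd
        · rw [if_neg hc]
    · rw [ι_coeff_of_notMem _ hx, ι_coeff_of_notMem _ hx, ite_self]

variable (k) in
theorem exists_frob (p : ℕ) [Fact p.Prime] [CharP k p] [IsAlgClosed k] (m : ℕ) :
    ∃ φ : k →+* k, Function.Surjective φ ∧ ∀ x, φ x ^ p ^ m = x := by
  have _ : PerfectField k := inferInstance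
  have _ : PerfectRing k p := PerfectField.toPerfectRing p
  refine ⟨(iterateFrobeniusEquiv k p m).symm.toRingHom,
    (iterateFrobeniusEquiv k p m).symm.surjective, fun x => ?_⟩
  have h := (iterateFrobeniusEquiv k p m).apply_symm_apply x
  rw [iterateFrobeniusEquiv_def] at h
  exact h

theorem fix_of_comm {H : Type*} [Group H] {Y₁ Y₂ : Subgroup H}
    (h : ∀ x ∈ Y₁, ∀ y ∈ Y₂, y * x = x * y) {a : MonoidAlgebra k H} (ha : a ∈ SubAlg k Y₁) :
    a ∈ Fix (cj k H) Y₂ := by
  rw [mem_Fix_cj_iff]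
  intro y hy
  refine SuppIn.induction (P := fun a => MonoidAlgebra.single y 1 * a =
    a * MonoidAlgebra.single y 1) ha ?_ ?_ ?_
  · rw [mul_zero, zero_mul]
  · intro a b ha hb
    rw [mul_add, add_mul, ha, hb]
  · intro x hx c
    rw [mul_smul_comm, smul_mul_assoc, MonoidAlgebra.single_mul_single,
      MonoidAlgebra.single_mul_single, h x hx y hy]

variable [Finite G] {p : ℕ} [Fact p.Prime] [CharP k p]

omit [Finite G] in
theorem cent_le_norm : Subgroup.centralizer (D : Set G) ≤ Subgroup.normalizer (D : Set G) := by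
  intro x hx
  have h1 := mem_cent.mp (Subgroup.inv_mem _ hx)
  have h2 := mem_cent.mp hx
  rw [Subgroup.mem_normalizer_iff]
  intro d
  constructor
  · intro hd
    have h3 := h2 d hd
    have h4 : x * d * x⁻¹ = d := by
      rw [mul_inv_eq_iff_eq_mul]
      rw [mul_inv_eq_iff_eq_mul] at h3
      exact h3.symm
    rwa [h4]
  · intro hd
    have h3 := h1 _ hd
    have h4 : x⁻¹ * (x * d * x⁻¹) * x = x * d * x⁻¹ := by
      rw [mul_inv_eq_iff_eq_mul] at h3
      rw [← h3, inv_mul_cancel_right]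
    have h5 : x⁻¹ * (x * d * x⁻¹) * x = d := by group
    rw [← h5, h4]
    exact hd

theorem exists_eY (hD : IsPGroup p D) {a b : MonoidAlgebra k G}
    (ha : a ∈ Fix (cj k G) D) (hb : b * b = b) (hba : b = tr (cj k G) D ⊤ a) (hne : br D b ≠ 0)
    (hF1 : ∀ g ∈ Subgroup.normalizer (D : Set G), ∀ y ∈ F, S.ρ g y ∈ F)
    (hF2 : ∀ d ∈ D, ∀ y ∈ F, S.σ d y.1 = y.1 → S.ρ d y = y) :
    ∃ e, IsBlockOf (S.YY D F Set.univ) e ∧ br D b * e ≠ 0 ∧
      ∃ z ∈ SubAlg k (S.YY D F Set.univ), e = tr (cj k G) ⊥ (S.YY D F Set.univ) z := by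
  obtain ⟨hcc, hcF, haE, haF, hc⟩ := br_data hD ha hb hba
  obtain ⟨e, he, hbe⟩ := exists_isPrimIn (ZAlg k (S.YY D F Set.univ)) (by exact ZAlg_comm) hne
  have hYE : S.YY D F Set.univ ≤ Subgroup.normalizer (D : Set G) := YY_le_cent.trans cent_le_norm
  have hcomm : e * br D b = br D b * e := commute_of_mem (SubAlg_mono hYE he.mem.1) hcF
  refine ⟨e, he, hbe, ?_⟩
  obtain ⟨x, hx, z, hz, -, hez⟩ := covering_rel hYE Subgroup.le_normalizer
    (fun x hx s hs => YY_normalized hF1 hx hs) he hcc (by rwa [hcomm]) haE haF hc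
  have h1 : S.YY D F Set.univ ⊓ conjS x D = ⊥ := by
    rw [← YY_inf hF2]
    congr 1
    ext y
    rw [mem_conjS]
    have h2 := (Subgroup.mem_normalizer_iff.mp (Subgroup.inv_mem _ hx) y)
    rw [inv_inv] at h2
    exact h2.symm
  rw [h1] at hez
  exact ⟨z, hz, hez⟩

theorem exists_eo {e : MonoidAlgebra k G} (he : IsBlockOf (S.YY D F Set.univ) e)
    (hz : ∃ z ∈ SubAlg k (S.YY D F Set.univ), e = tr (cj k G) ⊥ (S.YY D F Set.univ) z)
    {s : Set (Fin r)} (hs : ∀ d ∈ D, ∀ j, j ∈ s → S.σ d j ∈ s) :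
    ∃ e', IsBlockOf (S.YY D F s) e' ∧ e * e' = e ∧
      ∃ z ∈ SubAlg k (S.YY D F s), e' = tr (cj k G) ⊥ (S.YY D F s) z := by
  obtain ⟨z, hzY, hez⟩ := hz
  obtain ⟨e', he', hne⟩ := exists_isPrimIn (ZAlg k (S.YY D F s)) (by exact ZAlg_comm) he.ne_zero
  have hle : S.YY D F s ≤ S.YY D F Set.univ := YY_mono (Set.subset_univ _)
  -- `e'` is central
  have he'Z : e' ∈ ZAlg k (S.YY D F Set.univ) := by
    refine ⟨SubAlg_mono hle he'.mem.1, fun x hx => ?_⟩
    obtain ⟨y, hy, w, hw, rfl⟩ := YY_split hs hx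
    rw [map_mul_act]
    have h1 : cj k G w e' = e' := by
      refine fix_of_comm (Y₁ := S.YY D F s) (Y₂ := S.YY D F sᶜ) ?_ he'.mem.1 w hw
      intro x hx y hy
      exact (YY_comm (t := sᶜ) (fun j hj (h : j ∈ sᶜ) => h hj) hx hy).symm
    rw [h1, he'.mem.2 y hy]
  have hcomm : e * e' = e' * e := ZAlg_comm e he.mem e' he'Z
  refine ⟨e', he', ?_, ?_⟩
  · rcases he.primitive (e * e') (Subalgebra.mul_mem _ he.mem he'Z)
      (by
        change e * e' * (e * e') = e * e'
        rw [mul_assoc, ← mul_assoc e' e, ← hcomm, mul_assoc, he'.idem.eq, ← mul_assoc,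
          he.idem.eq])
      (by rw [hcomm, mul_assoc, he.idem.eq]) with h | h
    · exact absurd h hne
    · exact h
  · have hnorm : ∀ x ∈ S.YY D F Set.univ, ∀ y ∈ S.YY D F s, x * y * x⁻¹ ∈ S.YY D F s := by
      intro x hx y hy
      obtain ⟨u, hu, w, hw, rfl⟩ := YY_split hs hx
      have h1 : y * w = w * y := YY_comm (t := sᶜ) (fun j hj (h : j ∈ sᶜ) => h hj) hy hw
      have h2 : u * w * y * (u * w)⁻¹ = u * y * u⁻¹ := by
        rw [mul_assoc u, ← h1]; group
      rw [h2]
      exact Subgroup.mul_mem _ (Subgroup.mul_mem _ hu hy) (Subgroup.inv_mem _ hu)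
    obtain ⟨x, -, z', hz', -, he'z⟩ := covering_rel hle bot_le hnorm he' he.idem
      (by rwa [← hcomm]) hzY
      (by
        intro x hx
        rw [Subgroup.mem_bot.mp hx, map_one_act]) hez
    have h1 : S.YY D F s ⊓ conjS x ⊥ = ⊥ := by
      rw [eq_bot_iff]
      intro y hy
      have hy := (Subgroup.mem_inf.mp hy).2
      rw [mem_conjS, Subgroup.mem_bot] at hy
      rw [Subgroup.mem_bot]
      have : y = x * (x⁻¹ * y * x) * x⁻¹ := by group
      rw [this, hy]; group
    rw [h1] at he'z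
    exact ⟨z', hz', he'z⟩

end AltData

end Vale.Agent.P180.R2.H12
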