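import Vale.Agent.P180.R2.H12.Sec
import Vale.Agent.P180.R2.H12.Loc

/-!
P180 R2 H12: local idempotents for families of commuting perfect subgroups.
-/

namespace Vale.Agent.P180.R2.H12

open Equiv Vale.Agent.P180 Vale.Agent.P180.H768.Gd

set_option linter.unusedSectionVars false

section Blk

variable {k : Type*} [Field k] {G : Type*} [Group G] [Finite G]

theorem IsBlockOf.conjE {A A' : Subgroup G} {e : MonoidAlgebra k G} (h : IsBlockOf A e) (g : G)
    (hA : ∀ x, x ∈ A ↔ g * x * g⁻¹ ∈ A') : IsBlockOf A' (cj k G g e) := by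
  have hA1 : ∀ x ∈ A, g * x * g⁻¹ ∈ A' := fun x hx => (hA x).mp hx
  have hA2 : ∀ x ∈ A', g⁻¹ * x * g⁻¹⁻¹ ∈ A := by
    intro x hx
    rw [hA]
    have : g * (g⁻¹ * x * g⁻¹⁻¹) * g⁻¹ = x := by group
    rwa [this]
  have hfix : ∀ a ∈ Fix (cj k G) A, cj k G g a ∈ Fix (cj k G) A' := by
    intro a ha x hx
    rw [← map_mul_act]
    have h1 : x * g = g * (g⁻¹ * x * g⁻¹⁻¹) := by group
    rw [h1, map_mul_act, ha _ (hA2 x hx)]
  have hfix' : ∀ a ∈ Fix (cj k G) A', cj k G g⁻¹ a ∈ Fix (cj k G) A := by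
    intro a ha x hx
    rw [← map_mul_act]
    have h1 : x * g⁻¹ = g⁻¹ * (g * x * g⁻¹) := by group
    rw [h1, map_mul_act, ha _ (hA1 x hx)]
  refine ⟨⟨cj_SubAlg g hA1 h.mem.1, hfix _ h.mem.2⟩, ?_, ?_, ?_⟩
  · change cj k G g e * cj k G g e = _
    rw [← map_mul, h.idem.eq]
  · intro h0
    exact h.ne_zero ((map_eq_zero_iff _ (cj k G g).injective).mp h0)
  · intro c hc hcc hce
    have h1 : cj k G g⁻¹ c * e = cj k G g⁻¹ c := by
      conv_lhs => rw [← map_inv_act (cj k G) g e]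
      rw [← map_mul, hce]
    have h2 : IsIdempotentElem (cj k G g⁻¹ c) := by
      change cj k G g⁻¹ c * cj k G g⁻¹ c = _
      rw [← map_mul, hcc.eq]
    rcases h.primitive _ ⟨cj_SubAlg g⁻¹ hA2 hc.1, hfix' _ hc.2⟩ h2 h1 with h3 | h3
    · left
      exact (map_eq_zero_iff _ (cj k G g⁻¹).injective).mp h3
    · right
      rw [← h3, map_act_inv]

end Blk

namespace Fam

variable {G : Type*} [Group G] [Finite G] {r : ℕ} {D : Subgroup G} {F : Fam G r D}
variable {k : Type*} [Field k] {p : ℕ} [Fact p.Prime] [CharP k p]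

theorem mem_conj (F : Fam G r D) (d : D) (j : Fin r) (x : G) :
    x ∈ F.A j ↔ (d : G) * x * (d : G)⁻¹ ∈ F.A (F.σ d j) := by
  constructor
  · exact F.conj d j x
  · intro h
    have h1 := F.conj d⁻¹ _ _ h
    rw [← F.σ_mul, inv_mul_cancel, F.σ_one] at h1
    have h2 : ((d⁻¹ : D) : G) * ((d : G) * x * (d : G)⁻¹) * ((d⁻¹ : D) : G)⁻¹ = x := by
      push_cast
      group
    rwa [h2] at h1

omit [Fact p.Prime] [CharP k p] in
theorem SC.fix {j : Fin r} (h : F.SC j) {a : MonoidAlgebra k G} (ha : a ∈ SubAlg k (F.A j)) :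
    a ∈ Fix (cj k G) (F.st j) := fix_of_central h ha

omit [Fact p.Prime] [CharP k p] in
theorem SC.le {j : Fin r} (h : F.SC j) :
    F.A j ≤ F.A j ⊓ Subgroup.centralizer (F.st j : Set G) := by
  refine le_inf le_rfl ?_
  intro x hx
  rw [mem_cent]
  intro d hd
  rw [h d hd x hx, mul_inv_cancel_right]

omit [Fact p.Prime] [CharP k p] in
theorem SC.br {j : Fin r} (h : F.SC j) {a : MonoidAlgebra k G} (ha : a ∈ SubAlg k (F.A j)) :
    br (F.st j) a = a := br_of_cent (SubAlg_mono (h.le.trans inf_le_right) ha)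

/-- The Brauer map on the product over one orbit. -/
theorem br_orb (hD : IsPGroup p D) {j : Fin r} (hj : F.SC j) {m : ℕ}
    (hm : Nat.card (F.orb j) = p ^ m) {h : Fin r → MonoidAlgebra k G}
    (hh : ∀ i, h i ∈ SubAlg k (F.A i)) (he : F.Eqv h) (h1 : ∀ i, i ∉ F.orb j → h i = 1) :
    br D (prd h) = tm (iterateFrobenius k p m) (F.nu j) (rst (F.A j) (h j)) := by
  classical
  have _ := Fintype.ofFinite (∀ j, F.A j)
  have _ := Fintype.ofFinite (F.A j)
  apply ext_coeff
  intro x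
  rw [F.br_prd hD hh he, tm_coeff_eq_sum']
  symm
  have hone : ∀ i, i ∉ F.orb j → ∀ y : G, (h i).coeff y = if y = 1 then 1 else 0 := by
    intro i hi y
    rw [h1 i hi, MonoidAlgebra.one_def, coeff_single]
    by_cases hy : y = 1
    · rw [if_pos hy, if_pos hy.symm]
    · rw [if_neg hy, if_neg fun h => hy h.symm]
  refine Finset.sum_of_injOn (sec j) ((sec_injective hj).injOn)
    (fun _ _ => Finset.mem_coe.mpr (Finset.mem_univ _)) ?_ ?_
  · intro τ _ hτ
    by_cases h2 : F.fixed τ ∧ F.μ τ = x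
    swap
    · exact if_neg h2
    rw [if_pos h2]
    by_contra h3
    rw [← ne_eq, Finset.prod_ne_zero_iff] at h3
    apply hτ
    refine ⟨τ j, Finset.mem_coe.mpr (Finset.mem_univ _), ?_⟩
    symm
    refine eq_sec hj h2.1 fun i hi => ?_
    have h4 := h3 i (Finset.mem_univ i)
    rw [hone i hi] at h4
    by_contra h5
    exact h4 (if_neg fun h6 => h5 (Subtype.ext h6))
  · intro u _
    have hfix := sec_fixed hj u
    by_cases h2 : F.μ (sec j u) = x
    · rw [if_pos (show F.nu j u = x from h2), if_pos ⟨hfix, h2⟩, iterateFrobenius_def, rst_coeff,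
        ← Finset.prod_filter_mul_prod_filter_not Finset.univ (fun i => i ∈ F.orb j)]
      have e1 : ∏ i ∈ Finset.univ.filter (fun i => i ∉ F.orb j),
          (h i).coeff (sec j u i : G) = 1 := by
        refine Finset.prod_eq_one fun i hi => ?_
        have hi' := (Finset.mem_filter.mp hi).2
        rw [sec_notMem hi' u, hone i hi']
        exact if_pos rfl
      have e2 : ∏ i ∈ Finset.univ.filter (fun i => i ∈ F.orb j),
          (h i).coeff (sec j u i : G) = (h j).coeff (u : G) ^ p ^ m := by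
        rw [Finset.prod_congr rfl fun i hi =>
          coeff_of_fixed he hfix (Finset.mem_filter.mp hi).2, Finset.prod_const, sec_self hj u]
        congr 1
        rw [← hm, ← Fintype.card_subtype, ← Nat.card_eq_fintype_card]
      rw [e1, e2, mul_one]
    · rw [if_neg (show ¬ F.nu j u = x from h2), if_neg fun h => h2 h.2]

variable {E : Subgroup G}

omit [Finite G] [Fact p.Prime] [CharP k p] in
theorem fixedS_conj (F : Fam G r E) (hDE : D ≤ E) {g x : G}
    (hg : g ∈ E) (hgD : ∀ d ∈ D, g⁻¹ * d * g ∈ D)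
    (hx : x ∈ (F.res hDE).fixedS.map (F.res hDE).μ) :
    g * x * g⁻¹ ∈ (F.res hDE).fixedS.map (F.res hDE).μ := by
  obtain ⟨τ, hτ, rfl⟩ := hx
  refine ⟨F.th ⟨g, hg⟩ τ, ?_, F.μ_th ⟨g, hg⟩ τ⟩
  intro d j
  have hd' : g⁻¹ * d * g ∈ D := hgD d d.2
  have h1 : F.σ (⟨g, hg⟩ : E)⁻¹ ((F.res hDE).σ d j) =
      (F.res hDE).σ ⟨g⁻¹ * d * g, hd'⟩ (F.σ (⟨g, hg⟩ : E)⁻¹ j) := by
    change F.σ _ (F.σ (Subgroup.inclusion hDE d) j) = F.σ (Subgroup.inclusion hDE _) _
    rw [← F.σ_mul, ← F.σ_mul]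
    congr 2
    apply Subtype.ext
    change g⁻¹ * (d : G) = g⁻¹ * d * g * g⁻¹
    group
  have h2 : (F.th ⟨g, hg⟩ τ ((F.res hDE).σ d j) : G) =
      g * (τ (F.σ (⟨g, hg⟩ : E)⁻¹ ((F.res hDE).σ d j)) : G) * g⁻¹ := F.th_val _ τ _
  have h3 : (F.th ⟨g, hg⟩ τ j : G) =
      g * (τ (F.σ (⟨g, hg⟩ : E)⁻¹ j) : G) * g⁻¹ := F.th_val _ τ _
  have h4 := hτ ⟨g⁻¹ * d * g, hd'⟩ (F.σ (⟨g, hg⟩ : E)⁻¹ j)
  rw [h2, h3, F.val_congr τ h1, h4]
  group

/-- **The blocks of the family are traces from central `p`-subgroups.** -/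
theorem exists_trace [IsAlgClosed k] (hD : IsPGroup p D) (F : Fam G r E) (hDE : D ≤ E)
    (hED : ∀ g ∈ E, ∀ d ∈ D, g⁻¹ * d * g ∈ D) (hCE : Subgroup.centralizer (D : Set G) ≤ E)
    {j : Fin r}
    (hj : (F.res hDE).SC j) (hperf : commutator (F.A j) = ⊤)
    {a c : MonoidAlgebra k G} (haE : a ∈ SubAlg k E) (haF : a ∈ Fix (cj k G) D)
    (hcc : c * c = c) (hcF : c ∈ Fix (cj k G) E) (hc : c = tr (cj k G) D E a)
    {h : Fin r → MonoidAlgebra k G}
    (hh : ∀ i, h i ∈ SubAlg k (F.A i)) (he : (F.res hDE).Eqv h)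
    (hblk : IsBlockOf (F.A j) (h j)) (hne : c * br D (prd h) ≠ 0) :
    ∃ Z : Subgroup G, IsPGroup p Z ∧ Z ≤ F.A j ∧ (∀ z ∈ Z, ∀ x ∈ F.A j, z * x = x * z) ∧
      ∃ z ∈ SubAlg k (F.A j), h j = tr (cj k G) Z (F.A j) z := by
  classical
  have hconj := fun {g x : G} hg hx => fixedS_conj (D := D) F hDE (g := g) (x := x) hg (hED g hg) hx
  have hFA : F.A = (F.res hDE).A := rfl
  have hhD : ∀ i, h i ∈ SubAlg k ((F.res hDE).A i) := hh
  change IsBlockOf ((F.res hDE).A j) (h j) at hblk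
  change commutator ((F.res hDE).A j) = ⊤ at hperf
  change ∃ Z : Subgroup G, IsPGroup p Z ∧ Z ≤ (F.res hDE).A j ∧
    (∀ z ∈ Z, ∀ x ∈ (F.res hDE).A j, z * x = x * z) ∧
      ∃ z ∈ SubAlg k ((F.res hDE).A j), h j = tr (cj k G) Z ((F.res hDE).A j) z
  clear hFA hh
  generalize F.res hDE = FD at *
  clear F
  obtain ⟨m, hm⟩ := FD.orb_card hD j
  -- the part of one orbit
  have hob : ∀ i, (if i ∈ FD.orb j then h i else 1) ∈ SubAlg k (FD.A i) := by
    intro i
    by_cases hi : i ∈ FD.orb j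
    · rw [if_pos hi]; exact hhD i
    · rw [if_neg hi]; exact Subalgebra.one_mem _
  have hor : ∀ i, (if i ∈ FD.orb j then 1 else h i) ∈ SubAlg k (FD.A i) := by
    intro i
    by_cases hi : i ∈ FD.orb j
    · rw [if_pos hi]; exact Subalgebra.one_mem _
    · rw [if_neg hi]; exact hhD i
  have heb : FD.Eqv (fun i => if i ∈ FD.orb j then h i else 1) := by
    intro d i
    beta_reduce
    by_cases hi : i ∈ FD.orb j
    · rw [if_pos hi, if_pos ((FD.σ_mem_orb d).mpr hi), he d i]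
    · rw [if_neg hi, if_neg (fun h => hi ((FD.σ_mem_orb d).mp h)), map_one]
  have her : FD.Eqv (fun i => if i ∈ FD.orb j then 1 else h i) := by
    intro d i
    beta_reduce
    by_cases hi : i ∈ FD.orb j
    · rw [if_pos hi, if_pos ((FD.σ_mem_orb d).mpr hi), map_one]
    · rw [if_neg hi, if_neg (fun h => hi ((FD.σ_mem_orb d).mp h)), he d i]
  have hsplit : prd (fun i => if i ∈ FD.orb j then h i else 1) *
      prd (fun i => if i ∈ FD.orb j then 1 else h i) = prd h := by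
    rw [FD.prd_mul hob hor]
    congr 1
    funext i
    by_cases hi : i ∈ FD.orb j
    · rw [if_pos hi, if_pos hi, mul_one]
    · rw [if_neg hi, if_neg hi, one_mul]
  set q := br D (prd (fun i => if i ∈ FD.orb j then h i else 1)) with hq
  have hcq : c * q ≠ 0 := by
    intro h0
    apply hne
    rw [← hsplit, br_mul hD (FD.prd_fix hob heb) (FD.prd_fix hor her), ← mul_assoc, h0, zero_mul]
  have hqtm : q = tm (iterateFrobenius k p m) (FD.nu j) (rst (FD.A j) (h j)) := by
    rw [hq, br_orb hD hj hm hob heb (fun i hi => if_neg hi)]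
    rw [if_pos (FD.self_mem_orb j)]
  set β : MonoidAlgebra k (FD.A j) := rst (FD.A j) (h j) with hβ
  have hβh : incl k (FD.A j) β = h j := incl_rst (hhD j)
  have hβblk : IsBlockOf (⊤ : Subgroup (FD.A j)) β := by
    have h1 := (isBlockOf_incl_iff (FD.A j) β).mp (by rw [hβh]; exact hblk)
    rwa [← ZAlg_top] at h1
  set φ := iterateFrobenius k p m with hφ
  have hφs : Function.Surjective φ := by
    have _ : PerfectField k := inferInstance
    have _ : PerfectRing k p := PerfectField.toPerfectRing p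
    exact (bijective_iterateFrobenius k p m).2
  set β' : MonoidAlgebra k (FD.A j) := tm φ (MonoidHom.id (FD.A j)) β with hβ'
  have hβ'blk : IsBlockOf (⊤ : Subgroup (FD.A j)) β' := by
    have h1 := (tm_block_iff hφs (Y := (⊤ : Subgroup (FD.A j))) (f := MonoidHom.id (FD.A j))
      (fun x _ y _ h => h) (SubAlg_top β)).mpr hβblk
    rwa [Subgroup.map_id] at h1
  have hqβ' : q = tm (RingHom.id k) (FD.nu j) β' := by
    rw [hqtm, hβ', tm_comp]
    rfl
  -- the subgroups `Y` and `Yo`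
  set Y := FD.fixedS.map FD.μ with hY
  set Yo := (FD.nu j).range with hYo
  have hYoY : Yo ≤ Y := nu_range_le hj
  have hYC : Y ≤ Subgroup.centralizer (D : Set G) := fixedS_map_le
  have hYE : Y ≤ E := hYC.trans hCE
  have hYD : ∀ y ∈ Y, ∀ d ∈ D, d * y = y * d := by
    intro y hy d hd
    have h1 := mem_cent.mp (hYC hy) d hd
    rw [mul_inv_eq_iff_eq_mul] at h1
    exact h1
  have hqYo : q ∈ SubAlg k Yo := by
    rw [hqβ', hYo, MonoidHom.range_eq_map]
    exact tm_mem (SubAlg_top β')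
  have hfixY : ∀ x ∈ SubAlg k Yo, x ∈ Fix (cj k G) Yo → x ∈ Fix (cj k G) Y := by
    intro x hx hx' y hy
    obtain ⟨u, w, rfl, hw⟩ := exists_split hj hy
    have h1 : cj k G w x = x := by
      refine fix_of_central (Z := Subgroup.zpowers w) (A := Yo) ?_ hx w
        (Subgroup.mem_zpowers w)
      intro z hz y hy
      obtain ⟨v, rfl⟩ := hy
      have h2 : Subgroup.zpowers w ≤ Subgroup.centralizer {FD.nu j v} := by
        rw [Subgroup.zpowers_le, Subgroup.mem_centralizer_singleton_iff]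
        first
          | exact hw v
          | exact (hw v).symm
      have h3 := Subgroup.mem_centralizer_singleton_iff.mp (h2 hz)
      exact h3
    rw [map_mul_act, h1]
    exact hx' _ ⟨u, rfl⟩
  have hqF : q ∈ Fix (cj k G) Y := by
    refine hfixY q hqYo ?_
    rintro _ ⟨u, rfl⟩
    rw [hqβ', ← tm_cj, hβ'blk.mem.2 u (Subgroup.mem_top u)]
  have hqq : q * q = q := by
    rw [hqβ', ← map_mul, hβ'blk.idem.eq]
  have hqZ : q ∈ ZAlg k Y := ⟨SubAlg_mono hYoY hqYo, hqF⟩
  -- the block of `Y`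
  obtain ⟨eY, heY, hcqe⟩ := exists_isPrimIn (ZAlg k Y) (by exact ZAlg_comm) hcq
  have heYq : eY * q = eY := by
    have hcomm : eY * q = q * eY := ZAlg_comm eY heY.mem q hqZ
    rcases heY.primitive (eY * q) (Subalgebra.mul_mem _ heY.mem hqZ)
      (by
        change eY * q * (eY * q) = eY * q
        rw [mul_assoc, ← mul_assoc q eY, ← hcomm, mul_assoc, hqq, ← mul_assoc, heY.idem.eq])
      (by rw [hcomm, mul_assoc, heY.idem.eq]) with h1 | h1
    · exfalso
      apply hcqe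
      rw [mul_assoc, ← hcomm, h1, mul_zero]
    · exact h1
  have heYc : eY * c ≠ 0 := by
    intro h0
    apply hcqe
    have h1 : eY * c = c * eY := commute_of_mem (SubAlg_mono hYE heY.mem.1) hcF
    have h2 : q * eY = eY * q := ZAlg_comm q hqZ eY heY.mem
    rw [mul_assoc, h2, ← mul_assoc, ← h1, h0, zero_mul]
  obtain ⟨x, hx, z, hz, hzF, hez⟩ := covering_rel hYE hDE
    (fun g hg y hy => hconj hg hy) heY hcc heYc haE haF hc
  have hcs : conjS x D = D := by
    ext y
    rw [mem_conjS]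
    constructor
    · intro h1
      have h2 := hED x⁻¹ (E.inv_mem hx) _ h1
      rw [inv_inv] at h2
      have h3 : x * (x⁻¹ * y * x) * x⁻¹ = y := by group
      rwa [h3] at h2
    · exact hED x hx y
  rw [hcs] at hzF hez
  -- the block of `Yo`
  obtain ⟨eo, heo, hne2⟩ := exists_isPrimIn (ZAlg k Yo) (by exact ZAlg_comm) heY.ne_zero
  have heoZ : eo ∈ ZAlg k Y := ⟨SubAlg_mono hYoY heo.mem.1, hfixY eo heo.mem.1 heo.mem.2⟩
  have hcomm2 : eY * eo = eo * eY := ZAlg_comm eY heY.mem eo heoZ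
  have heYo : eY * eo = eY := by
    rcases heY.primitive (eY * eo) (Subalgebra.mul_mem _ heY.mem heoZ)
      (by
        change eY * eo * (eY * eo) = eY * eo
        rw [mul_assoc, ← mul_assoc eo eY, ← hcomm2, mul_assoc, heo.idem.eq, ← mul_assoc,
          heY.idem.eq])
      (by rw [hcomm2, mul_assoc, heY.idem.eq]) with h1 | h1
    · exact absurd h1 hne2
    · exact h1
  obtain ⟨x', hx', z', hz', -, heoz⟩ := covering_rel hYoY (inf_le_left : Y ⊓ D ≤ Y)
    (fun g hg y hy => by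
      obtain ⟨u, w, rfl, hw⟩ := exists_split hj hg
      obtain ⟨v, rfl⟩ := hy
      have h1 : FD.nu j u * w * FD.nu j v * (FD.nu j u * w)⁻¹ =
          FD.nu j u * FD.nu j v * (FD.nu j u)⁻¹ := by
        rw [mul_assoc (FD.nu j u), ← hw v]; group
      rw [h1]
      exact Subgroup.mul_mem _ (Subgroup.mul_mem _ ⟨u, rfl⟩ ⟨v, rfl⟩)
        (Subgroup.inv_mem _ ⟨u, rfl⟩)) heo heY.idem.eq
    (by rw [← hcomm2]; exact hne2) hz hzF hez
  have hcs' : Yo ⊓ conjS x' (Y ⊓ D) = Yo ⊓ D := by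
    have h1 : conjS x' (Y ⊓ D) = Y ⊓ D := by
      ext y
      rw [mem_conjS]
      have key : ∀ y, x'⁻¹ * y * x' ∈ Y ⊓ D ↔ y ∈ Y ⊓ D := by
        intro y
        constructor
        · intro h2
          have h3 := hYD x' hx' _ (Subgroup.mem_inf.mp h2).2
          have h4 : x'⁻¹ * y * x' = y := by
            calc x'⁻¹ * y * x' = x'⁻¹ * (x' * (x'⁻¹ * y * x')) := by group
              _ = x'⁻¹ * (x'⁻¹ * y * x' * x') := by rw [h3]
              _ = x'⁻¹ * (x' * (x'⁻¹ * (x'⁻¹ * y * x') * x')) := by group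
              _ = x'⁻¹ * (x'⁻¹ * y * x') * x' := by group
              _ = x'⁻¹ * y * x' := by
                  rw [mul_assoc, h3]
                  group
              _ = y := by
                  have h5 := congrArg (fun t => x' * t * x'⁻¹) h3
                  beta_reduce at h5
                  have h6 : x' * (x'⁻¹ * y * x' * x') * x'⁻¹ = y * x' := by group
                  have h7 : x' * (x' * (x'⁻¹ * y * x')) * x'⁻¹ = x' * y := by group
                  rw [h6, h7] at h5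
                  rw [mul_assoc, h5]
                  group
          rwa [h4] at h2
        · intro h2
          have h3 := hYD x' hx' _ (Subgroup.mem_inf.mp h2).2
          have h4 : x'⁻¹ * y * x' = y := by
            rw [mul_assoc, h3]; group
          rwa [h4]
      exact key y
    rw [h1, ← inf_assoc, inf_eq_left.mpr hYoY]
  rw [hcs'] at heoz
  have hqe : eo * q ≠ 0 := by
    intro h0
    apply heY.ne_zero
    rw [← heYq, ← heYo, mul_assoc, h0, mul_zero]
  -- lift to the component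
  obtain ⟨z'', -, hz''⟩ := tm_surj (φ := RingHom.id k) (f := FD.nu j)
    (Y := (⊤ : Subgroup (FD.A j))) (fun x => ⟨x, rfl⟩)
    (b := z') (by rw [← MonoidHom.range_eq_map]; exact hz')
  have hCc : ∀ u ∈ D.comap (FD.nu j), ∀ v : FD.A j, u * v = v * u := by
    intro u hu v
    refine central_of_perfect (FD.nu j) (fun x hx y => nu_ker hj hx y) hperf (fun x => ?_) v
    have h1 : FD.nu j u ∈ D := hu
    exact hYD _ (hYoY ⟨x, rfl⟩) _ h1
  have hfixC : ∀ x : MonoidAlgebra k (FD.A j), x ∈ Fix (cj k (FD.A j)) (D.comap (FD.nu j)) :=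
    fun x => fix_of_central (A := ⊤) (fun z hz y _ => hCc z hz y) (SubAlg_top x)
  have hT : tm (RingHom.id k) (FD.nu j) (tr (cj k (FD.A j)) (D.comap (FD.nu j)) ⊤ z'') = eo := by
    rw [tm_tr_comap D (hfixC z''), hz'']
    exact heoz.symm
  have hTZ : tr (cj k (FD.A j)) (D.comap (FD.nu j)) ⊤ z'' ∈ ZAlg k (⊤ : Subgroup (FD.A j)) :=
    ⟨SubAlg_top _, tr_mem_Fix (hfixC z'')⟩
  rcases hβ'blk.dichotomy (by exact ZAlg_comm) (Subalgebra.mul_mem _ hTZ hβ'blk.mem)
      (by rw [mul_assoc, hβ'blk.idem.eq]) with h1 | ⟨y, hy, hyb, hxy⟩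
  · exfalso
    have h2 := h1.map (tm (RingHom.id k) (FD.nu j))
    rw [map_mul, hT, ← hqβ'] at h2
    have hcomm3 : eo * q = q * eo := ZAlg_comm eo heoZ q hqZ
    have h3 : IsIdempotentElem (eo * q) := by
      change eo * q * (eo * q) = eo * q
      rw [mul_assoc, ← mul_assoc q eo, ← hcomm3, mul_assoc, hqq, ← mul_assoc, heo.idem.eq]
    obtain ⟨n, hn⟩ := h2
    rcases Nat.eq_zero_or_pos n with rfl | hpos
    · rw [pow_zero] at hn
      apply hqe
      rw [← mul_one (eo * q), hn, mul_zero]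
    · rw [h3.pow_eq hpos.ne'] at hn
      exact hqe hn
  · have hβtr : β' = tr (cj k (FD.A j)) (D.comap (FD.nu j)) ⊤ (z'' * (β' * y)) := by
      rw [← tr_mul (Subalgebra.mul_mem _ hβ'blk.mem.2 hy.2), ← mul_assoc, hxy]
    obtain ⟨P, hPC, hPp, a', ha'F, ha'⟩ := exists_sylow_trace (p := p) (hfixC _) hβtr
    obtain ⟨ψ, hψs, hψ⟩ := AltData.exists_frob k p m
    have hψφ : ∀ x, ψ (φ x) = x := by
      intro x
      apply φ.injective
      have h1 := hψ (φ x)
      rw [hφ, iterateFrobenius_def] at h1 ⊢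
      exact h1
    have hββ : β = tm ψ (MonoidHom.id (FD.A j)) β' := by
      rw [hβ', tm_comp]
      have h1 : ψ.comp φ = RingHom.id k := RingHom.ext hψφ
      rw [h1]
      exact (tm_id β).symm
    have hβP : β = tr (cj k (FD.A j)) P ⊤ (tm ψ (MonoidHom.id (FD.A j)) a') := by
      have h0 := tm_tr_comap (φ := ψ) (f := MonoidHom.id (FD.A j)) P (a := a') ha'F
      have h1 : (MonoidHom.id (FD.A j)).range = ⊤ :=
        MonoidHom.range_eq_top.mpr fun x => ⟨x, rfl⟩
      rw [Subgroup.comap_id, h1, top_inf_eq] at h0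
      rw [hββ, ha', h0]
    refine ⟨P.map (FD.A j).subtype, hPp.map _, Subgroup.map_subtype_le P, ?_,
      incl k (FD.A j) (tm ψ (MonoidHom.id (FD.A j)) a'), incl_mem _ _, ?_⟩
    · rintro _ ⟨u, hu, rfl⟩ x hx
      exact congrArg Subtype.val (hCc u (hPC hu) ⟨x, hx⟩)
    · conv_lhs => rw [← hβh, hβP]
      refine incl_tr _ P ?_
      exact Fix_mono _ hPC (hfixC _)

theorem br_one' : br D (1 : MonoidAlgebra k G) = 1 := br_of_cent (Subalgebra.one_mem _)

theorem prd_one {r : ℕ} : prd (fun _ : Fin r => (1 : MonoidAlgebra k G)) = 1 := by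
  unfold prd
  rw [List.prod_eq_one]
  intro x hx
  obtain ⟨_, _, rfl⟩ := List.mem_map.mp hx
  rfl

/-- **The local idempotents for commuting perfect subgroups.** -/
theorem exists_cov [IsAlgClosed k] (hD : IsPGroup p D) (F : Fam G r E) (hDE : D ≤ E)
    (hED : ∀ g ∈ E, ∀ d ∈ D, g⁻¹ * d * g ∈ D) (hCE : Subgroup.centralizer (D : Set G) ≤ E)
    (hj : ∀ j, (F.res hDE).SC j) (hperf : ∀ j, commutator (F.A j) = ⊤)
    {a c : MonoidAlgebra k G} (haE : a ∈ SubAlg k E) (haF : a ∈ Fix (cj k G) D)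
    (hcc : c * c = c) (hcF : c ∈ Fix (cj k G) E) (hc : c = tr (cj k G) D E a) (hne : c ≠ 0) :
    ∃ e h : Fin r → MonoidAlgebra k G, (∀ j, LocG p (F.A j) (e j) (h j)) ∧
      (F.res hDE).Eqv e ∧ (F.res hDE).Eqv h ∧ c * br D (prd h) ≠ 0 := by
  classical
  have hw : ∀ x ∈ SubAlg k ((F.res hDE).μ.range ⊓ Subgroup.centralizer (D : Set G)),
      x * c = c * x := fun x hx => commute_of_mem (SubAlg_mono (inf_le_right.trans hCE) hx) hcF
  -- the blocks
  obtain ⟨e, he1, he2, he3, he4, he5⟩ := tame (F := F.res hDE) hD (e := fun _ => 1)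
    (fun _ => Subalgebra.one_mem _) one_eqv (fun _ => one_mul 1)
    (fun j f => IsBlockOf ((F.res hDE).A j) f)
    (fun d j f hf => IsBlockOf.conjE hf (d : G) (mem_conj (F.res hDE) d j))
    (fun j => by
      obtain ⟨m, f, hf, hsum⟩ := exists_sum_prim (ZAlg k ((F.res hDE).A j)) ZAlg_comm _ 1
        (Subalgebra.one_mem _) (one_mul 1) rfl
      refine ⟨m, f, fun l => ⟨(hf l).mem.1, (hj j).fix (hf l).mem.1, (hf l).idem.eq, hf l⟩, ?_⟩
      rw [br_one', hsum]
      refine Submodule.sum_mem _ fun l _ => Submodule.subset_span ⟨l, 1, Subalgebra.one_mem _, 1,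
        Subalgebra.one_mem _, ?_⟩
      rw [one_mul, mul_one, (hj j).br (hf l).mem.1])
    hw (by rw [prd_one, br_one', mul_one]; exact hne)
  have hloc : ∀ j, ∃ ε, LocG p ((F.res hDE).A j) (e j) ε := by
    intro j
    obtain ⟨Z, hZ, hZA, hZc, htr⟩ := exists_trace hD F hDE hED hCE (hj j) (hperf j) haE haF hcc hcF
      hc he1 he2 (he4 j) he5
    exact exists_locG (he4 j) hZ hZA hZc (by
      obtain ⟨z, hz, h1⟩ := htr
      exact ⟨z, hz, h1⟩)
  obtain ⟨h, h1, h2, h3, h4, h5⟩ := tame (F := F.res hDE) hD (e := e) he1 he2 he3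
    (fun j f => LocG p ((F.res hDE).A j) (e j) f)
    (fun d j f hf => by
      have h1 := hf.conj (d : G) (mem_conj (F.res hDE) d j)
      rwa [he2 d j] at h1)
    (fun j => by
      obtain ⟨ε, hε⟩ := hloc j
      refine ⟨1, fun _ => ε, fun _ => ⟨hε.mem, (hj j).fix hε.mem, hε.idem, hε⟩, ?_⟩
      obtain ⟨n, u, v, hu, hv, huv⟩ := hε.full
      rw [(hj j).br (he1 j), huv]
      refine Submodule.sum_mem _ fun l _ => Submodule.subset_span ⟨0, u l,
        SubAlg_mono (hj j).le (hu l), v l, SubAlg_mono (hj j).le (hv l), ?_⟩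
      rw [(hj j).br hε.mem])
    hw he5
  exact ⟨e, h, h4, he2, h2, h5⟩

end Fam

end Vale.Agent.P180.R2.H12
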