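import Vale.Agent.P180.R2.H12.Cvd

/-!
P180 R2 H12: the local idempotent for a central product of covers of alternating groups.
-/

namespace Vale.Agent.P180.R2.H12

open Equiv Vale.Agent.P180 Vale.Agent.P180.H768.Gd
open scoped commutatorElement

namespace CovData

variable {G H : Type*} [Group G] [Group H] {r : ℕ} {N : Fin r → ℕ} {q : G →* H}
  {S : AltData H r N} {F : Fam G r ⊤} (C : CovData q S F)

theorem map_normalizer {D : Subgroup G} {g : G} (hg : g ∈ Subgroup.normalizer (D : Set G)) :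
    q g ∈ Subgroup.normalizer ((D.map q : Subgroup H) : Set H) := by
  rw [Subgroup.mem_normalizer_iff]
  intro y
  constructor
  · rintro ⟨d, hd, rfl⟩
    exact ⟨g * d * g⁻¹, (Subgroup.mem_normalizer_iff.mp hg d).mp hd, by
      rw [map_mul, map_mul, map_inv]⟩
  · rintro ⟨d, hd, hdy⟩
    refine ⟨g⁻¹ * d * g, ?_, ?_⟩
    · have := (Subgroup.mem_normalizer_iff.mp (Subgroup.inv_mem _ hg) d).mp hd
      rwa [inv_inv] at this
    · rw [map_mul, map_mul, map_inv, hdy]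
      group

/-- The family of the subgroups `A'`. -/
def fam (C : CovData q S F) (Y : Set (Σ j, Fin (N j))) (E : Subgroup G)
    (hE : ∀ g ∈ E, ∀ y ∈ Y, S.ρ (q g) y ∈ Y) : Fam G r E where
  A := A' q S F Y
  σ := F.σ.comp (Subgroup.inclusion le_top)
  comm := by
    intro i j hij x hx y hy
    exact F.comm i j hij x (Subgroup.mem_inf.mp (A'_le Y i hx)).1 y
      (Subgroup.mem_inf.mp (A'_le Y j hy)).1
  conj := by
    intro g j x hx
    have h1 := C.conj_A' (hE g g.2) hx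
    have h2 : (F.σ.comp (Subgroup.inclusion le_top)) g j = S.σ (q g) j := C.σ g j
    rw [h2]
    exact h1

/-- **R4 and R5 for covers.** -/
theorem exists_prd {n : ℕ} {p : ℕ} [Fact p.Prime] {k : Type*} [Field k] [CharP k p]
    [IsAlgClosed k] [Finite G] [Finite H] (C : CovData q S F) {D : Subgroup G}
    (hD : IsPGroup p D) (hDn : Nat.card D ≤ n) {a b : MonoidAlgebra k G}
    (ha : a ∈ Fix (cj k G) D) (hb : b * b = b) (hba : b = tr (cj k G) D ⊤ a) (hne : br D b ≠ 0) :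
    ∃ (Y : Set (Σ j, Fin (N j))) (e h : Fin r → MonoidAlgebra k G),
      (∀ j, (∀ a : Fin (N j), (⟨j, a⟩ : Σ j, Fin (N j)) ∉ Y) ∨
        5 ≤ Nat.card {a : Fin (N j) // (⟨j, a⟩ : Σ j, Fin (N j)) ∈ Y}) ∧
      (∀ j, Nat.card {a : Fin (N j) // (⟨j, a⟩ : Σ j, Fin (N j)) ∉ Y} ≤ n * n + 4) ∧
      (∀ g ∈ Subgroup.normalizer (D : Set G), ∀ y ∈ Y, S.ρ (q g) y ∈ Y) ∧
      (∀ d ∈ D, ∀ y ∈ Y, S.σ (q d) y.1 = y.1 → S.ρ (q d) y = y) ∧
      (∀ j, LocG p (A' q S F Y j) (e j) (h j)) ∧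
      (∀ d ∈ D, ∀ j, cj k G d (e j) = e (S.σ (q d) j)) ∧
      (∀ d ∈ D, ∀ j, cj k G d (h j) = h (S.σ (q d) j)) ∧
      Fam.prd h ∈ Fix (cj k G) D ∧ br D (Fam.prd h * b) ≠ 0 := by
  have hb0 : b ≠ 0 := by
    rintro rfl
    apply hne
    exact br_of_cent (Subalgebra.zero_mem _)
  have hbF : b ∈ Fix (cj k G) ⊤ := by rw [hba]; exact tr_mem_Fix ha
  have hcard := C.card_orbS_le hD
    (fun V hV hVp => op_le p hVp hb hb0 ha hba) (hop hD ha hb hba hne)
  obtain ⟨Y, hY1, hY2, hY3, hY4⟩ := S.exists_F_le (hD.map q) hcard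
  have hYN : ∀ g ∈ Subgroup.normalizer (D : Set G), ∀ y ∈ Y, S.ρ (q g) y ∈ Y :=
    fun g hg => hY1 _ (map_normalizer hg)
  have hYD : ∀ d ∈ D, ∀ y ∈ Y, S.σ (q d) y.1 = y.1 → S.ρ (q d) y = y :=
    fun d hd => hY2 _ ⟨d, hd, rfl⟩
  obtain ⟨hcc, hcF, haE, haF, hc⟩ := br_data hD ha hb hba
  set F' := C.fam Y (Subgroup.normalizer (D : Set G)) hYN with hF'
  have hσ : ∀ d : D, ∀ j, (F'.res Subgroup.le_normalizer).σ d j = S.σ (q d) j :=
    fun d j => C.σ d j
  obtain ⟨e, h, h1, h2, h3, h4⟩ := Fam.exists_cov (k := k)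
    hD F' Subgroup.le_normalizer
    (fun g hg d hd => by
      have := (Subgroup.mem_normalizer_iff.mp (Subgroup.inv_mem _ hg) d).mp hd
      rwa [inv_inv] at this)
    AltData.cent_le_norm
    (by
      rintro j _ ⟨d, hd, rfl⟩ x hx
      rw [hσ] at hd
      exact C.cent_A' hd (fun y hy hyj => hYD d d.2 y hy (by rw [hyj, hd])) hx)
    (fun j => (Group.isPerfect_def.mp (Subgroup.isPerfect_iff.mpr (C.A'_perfect (hY3 j)))))
    haE haF hcc hcF hc hne
  refine ⟨Y, e, h, hY3, ?_, hYN, hYD, h1, ?_, ?_, ?_, ?_⟩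
  · intro j
    refine (hY4 j).trans (Nat.add_le_add_right (Nat.mul_le_mul ?_ hDn) 4)
    exact (Nat.card_le_card_of_surjective _ (q.subgroupMap_surjective D)).trans hDn
  · intro d hd j
    have := h2 ⟨d, hd⟩ j
    rwa [hσ] at this
  · intro d hd j
    have := h3 ⟨d, hd⟩ j
    rwa [hσ] at this
  · exact (F'.res Subgroup.le_normalizer).prd_fix (fun j => (h1 j).mem) h3
  · have hfix := (F'.res Subgroup.le_normalizer).prd_fix (fun j => (h1 j).mem) h3
    rw [commute_of_mem (SubAlg_top _) hbF, br_mul hD (Fix_top_le hbF) hfix]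
    exact h4

end CovData

end Vale.Agent.P180.R2.H12
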