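import Vale.Agent.P180.R2.H12.Alt2

/-!
P180 R2 H12: the corner property of central extensions of alternating groups, from bounds for
the corners of the idempotents of the derived subgroups of the preimages of `Alt(Y)`.
-/

set_option linter.all false

namespace Vale.Agent.P180.R2.H12

open Equiv Vale.Agent.P180 Vale.Agent.P180.H768.Gd Vale.Agent.P180.R2.H799
open scoped commutatorElement

universe u

section BF

variable {G : Type} [Group G]

/-- The elements of `S` acting trivially outside `Fs`. -/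
def BF {S : Subgroup G} {d : ℕ} (π : S →* Perm (Fin d)) (Fs : Finset (Fin d)) : Subgroup G where
  carrier := {x | ∃ h : x ∈ S, ∀ a ∉ Fs, π ⟨x, h⟩ a = a}
  mul_mem' := by
    rintro x y ⟨hx, hx'⟩ ⟨hy, hy'⟩
    refine ⟨S.mul_mem hx hy, fun a ha => ?_⟩
    have h : (⟨x * y, S.mul_mem hx hy⟩ : S) = ⟨x, hx⟩ * ⟨y, hy⟩ := rfl
    rw [h, map_mul, Perm.mul_apply, hy' a ha, hx' a ha]
  one_mem' := ⟨S.one_mem, fun a _ => by
    have h : (⟨1, S.one_mem⟩ : S) = 1 := rfl
    rw [h, map_one, Perm.one_apply]⟩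
  inv_mem' := by
    rintro x ⟨hx, hx'⟩
    refine ⟨S.inv_mem hx, fun a ha => ?_⟩
    have h : (⟨x⁻¹, S.inv_mem hx⟩ : S) = ⟨x, hx⟩⁻¹ := rfl
    rw [h, map_inv, Perm.inv_eq_iff_eq, hx' a ha]

theorem mem_BF {S : Subgroup G} {d : ℕ} {π : S →* Perm (Fin d)} {Fs : Finset (Fin d)} {x : G} :
    x ∈ BF π Fs ↔ ∃ h : x ∈ S, ∀ a ∉ Fs, π ⟨x, h⟩ a = a := Iff.rfl

theorem BF_le {S : Subgroup G} {d : ℕ} (π : S →* Perm (Fin d)) (Fs : Finset (Fin d)) :
    BF π Fs ≤ S := fun _ h => h.1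

end BF

section Red

variable {k : Type u} [Field k] [IsAlgClosed k] {p : ℕ} [Fact p.Prime] [CharP k p]
variable {G : Type} [Group G] [Finite G]

/-- Reduction of the corner property to the group `S R`. -/
theorem cor_red {n C : ℕ} {S R : Subgroup G}
    (hR : IsPGroup p R) (hRn : Nat.card R ≤ n) (hRS : ∀ x ∈ R, ∀ s ∈ S, x * s * x⁻¹ ∈ S)
    {e : MonoidAlgebra k G} (he : IsBlockOf S e) (hbr : br R e ≠ 0)
    (h1 : ∃ z ∈ SubAlg k S, z ∈ Fix (cj k G) (S ⊓ R) ∧ e = tr (cj k G) (S ⊓ R) S z)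
    (h2 : ∃ z ∈ SubAlg k S, z ∈ Fix (cj k G) R ∧ e = tr (cj k G) R (S ⊔ R) z)
    (key : ∀ (K : Subgroup G) (hSK : S ≤ K) (hRK : R ≤ K) (e' : MonoidAlgebra k K),
      incl k K e' = e → (S.subgroupOf K).Normal →
      IsPGroup p (R.subgroupOf K) → Nat.card (R.subgroupOf K) ≤ n →
      IsBlockOf (S.subgroupOf K) e' → br (R.subgroupOf K) e' ≠ 0 →
      (∃ z ∈ SubAlg k (S.subgroupOf K), z ∈ Fix (cj k K) (S.subgroupOf K ⊓ R.subgroupOf K) ∧
        e' = tr (cj k K) (S.subgroupOf K ⊓ R.subgroupOf K) (S.subgroupOf K) z) →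
      (∃ z, z ∈ Fix (cj k K) (R.subgroupOf K) ∧ e' = tr (cj k K) (R.subgroupOf K) ⊤ z) →
      H954.Cor C (S.subgroupOf K) (R.subgroupOf K) e') :
    H954.Cor C S R e := by
  set K : Subgroup G := S ⊔ R with hK
  have hSK : S ≤ K := le_sup_left
  have hRK : R ≤ K := le_sup_right
  have hSm : (S.subgroupOf K).map K.subtype = S := Subgroup.map_subgroupOf_eq_of_le hSK
  have hRm : (R.subgroupOf K).map K.subtype = R := Subgroup.map_subgroupOf_eq_of_le hRK
  have hKm : (⊤ : Subgroup K).map K.subtype = K := by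
    rw [← MonoidHom.range_eq_map, Subgroup.range_subtype]
  obtain ⟨e', rfl⟩ := exists_incl K (SubAlg_mono hSK he.mem.1)
  have hSn : (S.subgroupOf K).Normal := by
    rw [Subgroup.normal_subgroupOf_iff_le_normalizer hSK]
    refine sup_le Subgroup.le_normalizer ?_
    intro x hx
    rw [Subgroup.mem_normalizer_iff]
    intro s
    constructor
    · exact fun hs => hRS x hx s hs
    · intro hs
      have h3 := hRS x⁻¹ (R.inv_mem hx) _ hs
      have h4 : x⁻¹ * (x * s * x⁻¹) * x⁻¹⁻¹ = s := by group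
      rwa [h4] at h3
  have h := key K hSK hRK e' rfl hSn (hR.comap_of_injective K.subtype K.subtype_injective)
    (by
      rw [Nat.card_congr (Subgroup.subgroupOfEquivOfLe hRK).toEquiv]
      exact hRn)
    ((isBlockOf_subgroupOf_iff hSK e').mpr he)
    (by
      intro h0
      apply hbr
      rw [← hRm, br_incl, h0, map_zero])
    (by
      obtain ⟨z, hz, hzF, hez⟩ := h1
      obtain ⟨z', rfl⟩ := exists_incl K (SubAlg_mono hSK hz)
      have hm : (S.subgroupOf K ⊓ R.subgroupOf K).map K.subtype = S ⊓ R :=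
        Subgroup.map_subgroupOf_eq_of_le (inf_le_left.trans hSK)
      have hz'F : z' ∈ Fix (cj k K) (S.subgroupOf K ⊓ R.subgroupOf K) := by
        rw [← incl_mem_Fix_iff, hm]; exact hzF
      refine ⟨z', ?_, hz'F, ?_⟩
      · rw [← incl_mem_SubAlg_iff, hSm]; exact hz
      · apply incl_injective (k := k) K
        rw [incl_tr_gen K hz'F, hm, hSm]
        exact hez)
    (by
      obtain ⟨z, hz, hzF, hez⟩ := h2
      obtain ⟨z', rfl⟩ := exists_incl K (SubAlg_mono hSK hz)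
      have hz'F : z' ∈ Fix (cj k K) (R.subgroupOf K) := by
        rw [← incl_mem_Fix_iff, hRm]; exact hzF
      refine ⟨z', hz'F, ?_⟩
      apply incl_injective (k := k) K
      rw [incl_tr_gen K hz'F, hRm, hKm]
      exact hez)
  have h3 := cor_incl h
  rwa [hSm, hRm] at h3

end Red

section Top

variable {k : Type u} [Field k] [IsAlgClosed k] {p : ℕ} [Fact p.Prime] [CharP k p]
variable {G : Type} [Group G] [Finite G]

/-- The centre of a central extension of an alternating group. -/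
theorem mem_center_iff_ker {L : Type} [Group L] {d : ℕ} (hd : 7 ≤ d) (π : L →* Perm (Fin d))
    (hπ : π.range = alternatingGroup (Fin d)) (hc : ∀ s, π s = 1 → ∀ t, s * t = t * s) (x : L) :
    x ∈ Subgroup.center L ↔ π x = 1 := by
  constructor
  · intro hx
    have h1 : π x ∈ alternatingGroup (Fin d) := by rw [← hπ]; exact ⟨x, rfl⟩
    have h2 := alternatingGroup.center_eq_bot (α := Fin d) (by
      rw [Nat.card_eq_fintype_card, Fintype.card_fin]; omega)
    have h3 : (⟨π x, h1⟩ : alternatingGroup (Fin d)) ∈ Subgroup.center _ := by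
      rw [Subgroup.mem_center_iff]
      rintro ⟨g, hg⟩
      rw [← hπ] at hg
      obtain ⟨y, rfl⟩ := hg
      apply Subtype.ext
      change π y * π x = π x * π y
      rw [← map_mul, ← map_mul, Subgroup.mem_center_iff.mp hx]
    rw [h2, Subgroup.mem_bot] at h3
    exact congrArg Subtype.val h3
  · intro hx
    rw [Subgroup.mem_center_iff]
    exact fun g => (hc x hx g).symm

/-- The quotient by the centre of `S`. -/
theorem exists_quot {d : ℕ} (hd : 7 ≤ d) {S : Subgroup G} (hS : S.Normal)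
    (π : S →* Perm (Fin d)) (hπ : π.range = alternatingGroup (Fin d))
    (hc : ∀ s, π s = 1 → ∀ t, s * t = t * s) :
    ∃ (H : Type) (_ : Group H) (_ : Finite H) (q : G →* H) (φ : alternatingGroup (Fin d) →* H),
      Function.Surjective q ∧ (∀ x, q x = 1 ↔ ∃ h : x ∈ S, π ⟨x, h⟩ = 1) ∧
      Function.Injective φ ∧ φ.range = S.map q ∧ (S.map q).Normal ∧
      ∀ (s : S) (u : alternatingGroup (Fin d)), (u : Perm (Fin d)) = π s → φ u = q s := by
  classical
  let Z : Subgroup G := (Subgroup.center S).map S.subtype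
  have hZn : Z.Normal := by
    constructor
    rintro _ ⟨x, hx, rfl⟩ g
    refine ⟨⟨g * x * g⁻¹, hS.conj_mem x x.2 g⟩, ?_, rfl⟩
    rw [SetLike.mem_coe, Subgroup.mem_center_iff] at hx ⊢
    rintro ⟨y, hy⟩
    apply Subtype.ext
    have h1 := congrArg Subtype.val (hx ⟨g⁻¹ * y * g, by
      have := hS.conj_mem y hy g⁻¹
      rwa [inv_inv] at this⟩)
    change g⁻¹ * y * g * x = x * (g⁻¹ * y * g) at h1
    change y * (g * x * g⁻¹) = g * x * g⁻¹ * y
    calc y * (g * x * g⁻¹) = g * (g⁻¹ * y * g * x) * g⁻¹ := by group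
      _ = g * x * g⁻¹ * y := by rw [h1]; group
  let q : G →* G ⧸ Z := QuotientGroup.mk' Z
  have hq : Function.Surjective q := QuotientGroup.mk'_surjective Z
  have hqk : ∀ x, q x = 1 ↔ ∃ h : x ∈ S, π ⟨x, h⟩ = 1 := by
    intro x
    rw [← MonoidHom.mem_ker, QuotientGroup.ker_mk']
    constructor
    · rintro ⟨y, hy, rfl⟩
      exact ⟨y.2, (mem_center_iff_ker hd π hπ hc y).mp hy⟩
    · rintro ⟨h, h1⟩
      exact ⟨⟨x, h⟩, (mem_center_iff_ker hd π hπ hc _).mpr h1, rfl⟩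
  let π' : S →* alternatingGroup (Fin d) := π.codRestrict _ (fun s => by
    rw [← hπ]; exact ⟨s, rfl⟩)
  have hπ' : Function.Surjective π' := by
    rintro ⟨u, hu⟩
    rw [← hπ] at hu
    obtain ⟨s, rfl⟩ := hu
    exact ⟨s, rfl⟩
  have hker : ∀ s : S, π' s = 1 ↔ q s = 1 := by
    intro s
    rw [hqk]
    constructor
    · intro h
      exact ⟨s.2, congrArg Subtype.val h⟩
    · rintro ⟨h0, h⟩
      exact Subtype.ext h
  let φ : alternatingGroup (Fin d) →* G ⧸ Z := π'.liftOfSurjective hπ' ⟨q.comp S.subtype, by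
    intro s hs
    rw [MonoidHom.mem_ker] at hs ⊢
    exact (hker s).mp hs⟩
  have hφ : ∀ s : S, φ (π' s) = q s := fun s =>
    MonoidHom.liftOfRightInverse_comp_apply _ _ _ _ _
  refine ⟨G ⧸ Z, inferInstance, inferInstance, q, φ, hq, hqk, ?_, ?_, hS.map q hq, ?_⟩
  · rw [injective_iff_map_eq_one]
    intro u hu
    obtain ⟨s, rfl⟩ := hπ' u
    rw [hφ] at hu
    exact (hker s).mpr hu
  · ext x
    constructor
    · rintro ⟨u, rfl⟩
      obtain ⟨s, rfl⟩ := hπ' u
      exact ⟨s, s.2, (hφ s).symm⟩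
    · rintro ⟨s, hs, rfl⟩
      exact ⟨π' ⟨s, hs⟩, hφ _⟩
  · intro s u hu
    have : u = π' s := Subtype.ext hu
    rw [this, hφ]

/-- **The corner property of central extensions of alternating groups**, in the group `S R`. -/
theorem cover_top {d n C : ℕ} (hd : 7 ≤ d) {S R : Subgroup G} (hS : S.Normal)
    (π : S →* Perm (Fin d)) (hπ : π.range = alternatingGroup (Fin d))
    (hc : ∀ s, π s = 1 → ∀ t, s * t = t * s)
    (hR : IsPGroup p R) (hRn : Nat.card R ≤ n) {e : MonoidAlgebra k G} (he : IsBlockOf S e)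
    (hbr : br R e ≠ 0)
    (h2 : ∃ z, z ∈ Fix (cj k G) R ∧ e = tr (cj k G) R ⊤ z)
    (hdim : ∀ (Fs : Finset (Fin d)) (β f : MonoidAlgebra k G), (Fs = ∅ ∨ 5 ≤ Fs.card) →
      Fsᶜ.card ≤ n * n + 4 → (∀ s : S, (s : G) ∈ R → ∀ x ∈ Fs, π s x = x) →
      (∀ r ∈ R, ∀ x ∈ ⁅BF π Fs, BF π Fs⁆, r * x = x * r) → LocG p ⁅BF π Fs, BF π Fs⁆ β f →
      f ∈ Fix (cj k G) R → br R (f * e) ≠ 0 →
      Module.finrank k (NN (SubAlg k S) (e * f) (e * f)) ≤ C) :
    H954.Cor C S R e := by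
  classical
  obtain ⟨H, _, _, q, φ, hq, hqk, hφ, hφS, hSn, hφπ⟩ := exists_quot hd hS π hπ hc
  have hkc : ∀ x, q x = 1 → ∀ y ∈ S, x * y = y * x := by
    intro x hx y hy
    obtain ⟨h, h'⟩ := (hqk x).mp hx
    exact congrArg Subtype.val (hc _ h' ⟨y, hy⟩)
  obtain ⟨A, F, hA, hF, CD⟩ := exists_data_q hd q hS hSn hkc φ hφ hφS
  obtain ⟨w, hw, hew⟩ := h2
  obtain ⟨Y, m, β, f, hY1, hY2, hY3, hY4, hY5, hL, hfe, hfR, hspan⟩ := CD.exists_one hR hRn hw
    he.idem.eq (by rw [hF]; exact he.mem.1) hew hbr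
  rw [hF] at hspan
  let Fs : Finset (Fin d) := Finset.univ.filter fun a => (⟨0, a⟩ : Σ j : Fin 1, Fin d) ∈ Y
  have hFsm : ∀ a, a ∈ Fs ↔ (⟨0, a⟩ : Σ j : Fin 1, Fin d) ∈ Y := fun a =>
    ⟨fun h => (Finset.mem_filter.mp h).2, fun h => Finset.mem_filter.mpr ⟨Finset.mem_univ _, h⟩⟩
  have hπA : ∀ s : S, π s ∈ alternatingGroup (Fin d) := fun s => by
    rw [← hπ]; exact ⟨s, rfl⟩
  have hB : CovData.B q A F Y 0 = BF π Fs := by
    ext x
    rw [CovData.B, hF, Subgroup.mem_inf, mem_BF, CovData.YYb_eq, hA]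
    constructor
    · rintro ⟨hx, u, hu, hux⟩
      refine ⟨hx, fun a ha => ?_⟩
      have h3 : φ u = q x := by
        rw [← hux]
        change φ u = φ ((Pi.mulSingle 0 u :
          ∀ j : Fin 1, alternatingGroup (Fin ((fun _ => d) j))) 0)
        rw [Pi.mulSingle_eq_same]
      have h4 : u = ⟨π ⟨x, hx⟩, hπA _⟩ := by
        apply hφ
        rw [h3]
        exact (hφπ ⟨x, hx⟩ _ rfl).symm
      have h5 := hu a (fun h => ha ((hFsm a).mpr h))
      rw [h4] at h5
      exact h5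
    · rintro ⟨hx, h3⟩
      refine ⟨hx, ⟨π ⟨x, hx⟩, hπA _⟩, fun a ha => h3 a (fun h => ha ((hFsm a).mp h)), ?_⟩
      change φ ((Pi.mulSingle 0 (⟨π ⟨x, hx⟩, hπA _⟩ : alternatingGroup (Fin d)) :
          ∀ j : Fin 1, alternatingGroup (Fin ((fun _ => d) j))) 0) = q x
      rw [Pi.mulSingle_eq_same]
      exact hφπ ⟨x, hx⟩ _ rfl
  have hA' : CovData.A' q A F Y 0 = ⁅BF π Fs, BF π Fs⁆ := by rw [CovData.A', hB]
  rw [hA'] at hY5 hL
  have hcardF : Fs.card = Nat.card {a : Fin d // (⟨0, a⟩ : Σ j : Fin 1, Fin d) ∈ Y} := by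
    rw [Nat.card_eq_fintype_card, Fintype.card_subtype]
  have hFs1 : Fs = ∅ ∨ 5 ≤ Fs.card := by
    rcases hY1 0 with h | h
    · left
      rw [Finset.eq_empty_iff_forall_notMem]
      exact fun a ha => h a ((hFsm a).mp ha)
    · right
      rw [hcardF]
      exact h
  have hFs2 : Fsᶜ.card ≤ n * n + 4 := by
    refine le_trans (le_of_eq ?_) (hY2 0)
    rw [Nat.card_eq_fintype_card, Fintype.card_subtype]
    congr 1
    ext a
    simp [Fs]
  have hFs3 : ∀ s : S, (s : G) ∈ R → ∀ x ∈ Fs, π s x = x := by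
    intro s hs x hx
    have h3 := hY4 s hs ⟨0, x⟩ ((hFsm x).mp hx)
    have h4 : q s = A.ι (fun _ => ⟨π s, hπA s⟩) := by
      rw [hA]
      exact (hφπ s _ rfl).symm
    rw [h4, A.ρ_ι] at h3
    simpa only [Sigma.mk.injEq, heq_eq_eq, true_and] using h3
  have hAS : ⁅BF π Fs, BF π Fs⁆ ≤ S := (Subgroup.commutator_le_self _).trans (BF_le π Fs)
  exact ⟨m, f, fun l => ⟨SubAlg_mono hAS (hL l).mem, hfR l, (hL l).idem,
    hdim Fs (β l) (f l) hFs1 hFs2 hFs3 hY5 (hL l) (hfR l) (hfe l)⟩, hspan⟩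

end Top

end Vale.Agent.P180.R2.H12
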