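import Vale.Agent.P180.R2.H12.CovC

/-!
P180 R2 H12: the corner property of central extensions of alternating groups, in arbitrary
groups.
-/

set_option linter.all false

namespace Vale.Agent.P180.R2.H12

open Equiv Vale.Agent.P180 Vale.Agent.P180.H768.Gd Vale.Agent.P180.R2.H799
open scoped commutatorElement

universe u

section Incl

variable {k : Type*} [Field k] {p : ℕ} [Fact p.Prime] [CharP k p]
variable {G : Type*} [Group G] [Finite G] {K : Subgroup G}

theorem LocG.incl {A : Subgroup K} {β f : MonoidAlgebra k K} (h : LocG p A β f) :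
    LocG p (A.map K.subtype) (incl k K β) (incl k K f) := by
  have hA : (A.map K.subtype).subgroupOf K = A := by
    rw [Subgroup.subgroupOf]
    exact Subgroup.comap_map_eq_self_of_injective K.subtype_injective A
  refine ⟨?_, incl_SubAlg h.mem, by rw [← map_mul, h.idem], by rw [← map_mul, h.le], ?_, ?_⟩
  · rw [← isBlockOf_subgroupOf_iff (Subgroup.map_subtype_le A), hA]
    exact h.block
  · obtain ⟨Z, hZ, hZA, hZc, ⟨a, ha, hea⟩, hcor⟩ := h.corner
    refine ⟨Z.map K.subtype, hZ.map _, Subgroup.map_mono hZA, ?_, ⟨Vale.Agent.P180.incl k K a,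
      incl_SubAlg ha, ?_⟩, ?_⟩
    · rintro _ ⟨z, hz, rfl⟩ _ ⟨x, hx, rfl⟩
      exact congrArg Subtype.val (hZc z hz x hx)
    · rw [← incl_tr_gen K (fix_of_central hZc ha), ← hea]
    · intro y hy
      obtain ⟨y', rfl⟩ := exists_incl K (SubAlg_mono (Subgroup.map_subtype_le A) hy)
      obtain ⟨l, hl, hle⟩ := hcor y' ((incl_mem_SubAlg_iff K A y').mp hy)
      refine ⟨Vale.Agent.P180.incl k K l, incl_SubAlg hl, ?_⟩
      rw [← map_mul, ← map_mul, hle, map_mul]
  · obtain ⟨n, u, v, hu, hv, huv⟩ := h.full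
    refine ⟨n, fun a => Vale.Agent.P180.incl k K (u a), fun a => Vale.Agent.P180.incl k K (v a),
      fun a => incl_SubAlg (hu a), fun a => incl_SubAlg (hv a), ?_⟩
    rw [huv, map_sum]
    exact Finset.sum_congr rfl fun a _ => by rw [map_mul, map_mul]

end Incl

section Main

variable {k : Type u} [Field k] [IsAlgClosed k] {p : ℕ} [Fact p.Prime] [CharP k p]
variable {G : Type} [Group G] [Finite G]

theorem BF_map {S K : Subgroup G} (hSK : S ≤ K) {d : ℕ} (π : S →* Perm (Fin d))
    (Fs : Finset (Fin d)) :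
    (BF (π.comp (Subgroup.subgroupOfEquivOfLe hSK).toMonoidHom) Fs).map K.subtype = BF π Fs := by
  ext x
  constructor
  · rintro ⟨y, ⟨hy, h⟩, rfl⟩
    exact ⟨hy, h⟩
  · rintro ⟨hx, h⟩
    exact ⟨⟨x, hSK hx⟩, ⟨hx, h⟩, rfl⟩

theorem range_comp_equiv {S K : Subgroup G} (hSK : S ≤ K) {d : ℕ} (π : S →* Perm (Fin d)) :
    (π.comp (Subgroup.subgroupOfEquivOfLe hSK).toMonoidHom).range = π.range := by
  ext x
  constructor
  · rintro ⟨y, rfl⟩
    exact ⟨_, rfl⟩
  · rintro ⟨y, rfl⟩
    obtain ⟨z, rfl⟩ := (Subgroup.subgroupOfEquivOfLe hSK).surjective y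
    exact ⟨z, rfl⟩

/-- **The corner property of central extensions of alternating groups**, from bounds for the
corners of the idempotents of the derived subgroups of the preimages of `Alt(Y)`. -/
theorem cover_cor {d n C : ℕ} (hd : 7 ≤ d) {S R : Subgroup G}
    (π : S →* Perm (Fin d)) (hπ : π.range = alternatingGroup (Fin d))
    (hc : ∀ s, π s = 1 → ∀ t, s * t = t * s)
    (hR : IsPGroup p R) (hRn : Nat.card R ≤ n) (hRS : ∀ x ∈ R, ∀ s ∈ S, x * s * x⁻¹ ∈ S)
    {e : MonoidAlgebra k G} (he : IsBlockOf S e) (hbr : br R e ≠ 0)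
    (h1 : ∃ z ∈ SubAlg k S, z ∈ Fix (cj k G) (S ⊓ R) ∧ e = tr (cj k G) (S ⊓ R) S z)
    (h2 : ∃ z ∈ SubAlg k S, z ∈ Fix (cj k G) R ∧ e = tr (cj k G) R (S ⊔ R) z)
    (hdim : ∀ (Fs : Finset (Fin d)) (β f : MonoidAlgebra k G), (Fs = ∅ ∨ 5 ≤ Fs.card) →
      Fsᶜ.card ≤ n * n + 4 → (∀ s : S, (s : G) ∈ R → ∀ x ∈ Fs, π s x = x) →
      (∀ r ∈ R, ∀ x ∈ ⁅BF π Fs, BF π Fs⁆, r * x = x * r) → LocG p ⁅BF π Fs, BF π Fs⁆ β f →
      f ∈ Fix (cj k G) R → br R (f * e) ≠ 0 →
      Module.finrank k (NN (SubAlg k S) (e * f) (e * f)) ≤ C) :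
    H954.Cor C S R e := by
  refine cor_red (p := p) hR hRn hRS he hbr h1 h2 ?_
  intro K hSK hRK e' hee' hSn hR' hRn' he' hbr' _ h2'
  have hSm : (S.subgroupOf K).map K.subtype = S := Subgroup.map_subgroupOf_eq_of_le hSK
  have hRm : (R.subgroupOf K).map K.subtype = R := Subgroup.map_subgroupOf_eq_of_le hRK
  set π' := π.comp (Subgroup.subgroupOfEquivOfLe hSK).toMonoidHom with hπ'
  refine cover_top (p := p) hd hSn π' ((range_comp_equiv hSK π).trans hπ) ?_ hR' hRn' he' hbr'
    h2' ?_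
  · intro s hs t
    have h3 := hc _ hs ((Subgroup.subgroupOfEquivOfLe hSK) t)
    apply (Subgroup.subgroupOfEquivOfLe hSK).injective
    rw [map_mul, map_mul]
    exact h3
  · intro Fs β f hF1 hF2 hF3 hF4 hL hfR hbrf
    have hB : ⁅BF π' Fs, BF π' Fs⁆.map K.subtype = ⁅BF π Fs, BF π Fs⁆ := by
      rw [Subgroup.map_commutator, BF_map]
    have h3 := hdim Fs (incl k K β) (incl k K f) hF1 hF2
      (by
        intro s hs x hx
        exact hF3 ⟨⟨s, hSK s.2⟩, s.2⟩ hs x hx)
      (by
        intro r hr x hx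
        rw [← hB] at hx
        obtain ⟨x', hx', rfl⟩ := hx
        exact congrArg Subtype.val (hF4 ⟨r, hRK hr⟩ hr x' hx'))
      (by
        have := hL.incl
        rwa [hB] at this)
      (by
        rw [← hRm, incl_mem_Fix_iff]
        exact hfR)
      (by
        rw [← hee', ← map_mul, ← hRm, br_incl]
        intro h0
        apply hbrf
        apply incl_injective (k := k) K
        rw [h0, map_zero])
    rw [← hee', ← map_mul, ← hSm, finrank_NN_incl] at h3
    exact h3

end Main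

section Two

variable {k : Type u} [Field k] [IsAlgClosed k] [CharP k 2]
variable {G : Type} [Group G] [Finite G]

/-- **The corner property of double covers of alternating groups**, `p = 2`. -/
theorem cor_two {d n : ℕ} (hd : 7 ≤ d) {S R : Subgroup G}
    (π : S →* Perm (Fin d)) (hπ : π.range = alternatingGroup (Fin d)) (z : S) (hz : z ≠ 1)
    (hk : ∀ s, π s = 1 ↔ s = 1 ∨ s = z)
    (hR : IsPGroup 2 R) (hRn : Nat.card R ≤ n) (hRS : ∀ x ∈ R, ∀ s ∈ S, x * s * x⁻¹ ∈ S)
    {e : MonoidAlgebra k G} (he : IsBlockOf S e) (hbr : br R e ≠ 0)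
    (h1 : ∃ z ∈ SubAlg k S, z ∈ Fix (cj k G) (S ⊓ R) ∧ e = tr (cj k G) (S ⊓ R) S z)
    (h2 : ∃ z ∈ SubAlg k S, z ∈ Fix (cj k G) R ∧ e = tr (cj k G) R (S ⊔ R) z) :
    H954.Cor (2 * CA n) S R e := by
  have hπz : π z = 1 := (hk z).mpr (Or.inr rfl)
  have hzc : ∀ t : S, z * t = t * z := by
    intro t
    have h3 : π (t * z * t⁻¹) = 1 := by
      rw [map_mul, map_mul, hπz, mul_one, ← map_mul, mul_inv_cancel, map_one]
    rcases (hk _).mp h3 with h4 | h4
    · exact absurd (conj_eq_one_iff.mp h4) hz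
    · have h5 := congrArg (fun x => x * t) h4
      simp only [inv_mul_cancel_right] at h5
      exact h5.symm
  have hzz : z * z = 1 := by
    have h3 : π (z * z) = 1 := by rw [map_mul, hπz, mul_one]
    rcases (hk _).mp h3 with h4 | h4
    · exact h4
    · exact absurd (mul_eq_left.mp h4) hz
  have hc : ∀ s, π s = 1 → ∀ t, s * t = t * s := by
    intro s hs t
    rcases (hk s).mp hs with rfl | rfl
    · rw [one_mul, mul_one]
    · exact hzc t
  refine cor_red (p := 2) hR hRn hRS he hbr h1 h2 ?_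
  intro K hSK hRK e' hee' hSn hR' hRn' he' hbr' h1' h2'
  set π' := π.comp (Subgroup.subgroupOfEquivOfLe hSK).toMonoidHom with hπ'
  have hc' : ∀ s, π' s = 1 → ∀ t, s * t = t * s := by
    intro s hs t
    have h3 := hc _ hs ((Subgroup.subgroupOfEquivOfLe hSK) t)
    apply (Subgroup.subgroupOfEquivOfLe hSK).injective
    rw [map_mul, map_mul]
    exact h3
  obtain ⟨H, _, _, q, φ, hq, hqk, hφ, hφS, hSn', hφπ⟩ := exists_quot hd hSn π'
    ((range_comp_equiv hSK π).trans hπ) hc'
  let zK : K := ⟨z, hSK z.2⟩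
  have hzK : zK ≠ 1 := by
    intro h
    apply hz
    have h3 := congrArg (fun x : K => (x : G)) h
    exact Subtype.ext h3
  have hker : ∀ x, q x = 1 ↔ x = 1 ∨ x = zK := by
    intro x
    rw [hqk]
    constructor
    · rintro ⟨h, h'⟩
      rcases (hk _).mp h' with h3 | h3
      · left
        have h4 := congrArg (fun s : S => (s : G)) h3
        exact Subtype.ext h4
      · right
        have h4 := congrArg (fun s : S => (s : G)) h3
        exact Subtype.ext h4
    · rintro (rfl | rfl)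
      · exact ⟨(S.subgroupOf K).one_mem, map_one π'⟩
      · exact ⟨z.2, hπz⟩
  have hT : TwoK q zK := by
    refine ⟨hker, hzK, ?_, ?_⟩
    · have h3 := congrArg (fun s : S => (s : G)) hzz
      exact Subtype.ext h3
    · intro x
      have h3 : q (x * zK * x⁻¹) = 1 := by
        rw [map_mul, map_mul, (hker zK).mpr (Or.inr rfl), mul_one, ← map_mul, mul_inv_cancel,
          map_one]
      rcases (hker _).mp h3 with h4 | h4
      · exact absurd (conj_eq_one_iff.mp h4) hzK
      · have h5 := congrArg (fun y => y * x) h4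
        simp only [inv_mul_cancel_right] at h5
        exact h5.symm
  exact cor_two_top hd hT hSn z.2 hSn' φ hφ hφS hR' hRn' he' hbr' h1' h2'

end Two

end Vale.Agent.P180.R2.H12
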