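import Vale.Agent.P180.R2.H12.R4b
import Vale.Agent.P180.R2.H12.Cov
import Mathlib.GroupTheory.SpecificGroups.Alternating.Simple
import Mathlib.GroupTheory.IsPerfect

/-!
P180 R2 H12: families of central extensions of alternating groups.
-/

namespace Vale.Agent.P180.R2.H12

open Equiv Vale.Agent.P180 Vale.Agent.P180.H768.Gd
open scoped commutatorElement

/-- Simple nonabelian groups are perfect. -/
theorem alt_perfect {α : Type*} [Fintype α] [DecidableEq α] (h : 5 ≤ Nat.card α) :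
    commutator (alternatingGroup α) = ⊤ := by
  have hs : IsSimpleGroup (alternatingGroup α) := alternatingGroup.isSimpleGroup h
  rcases hs.eq_bot_or_eq_top_of_normal (commutator (alternatingGroup α)) inferInstance with h1 | h1
  · exfalso
    have h2 : IsMulCommutative (alternatingGroup α) := by
      constructor
      constructor
      intro x y
      have h3 : ⁅x, y⁆ ∈ commutator (alternatingGroup α) :=
        Subgroup.commutator_mem_commutator (Subgroup.mem_top x) (Subgroup.mem_top y)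
      rw [h1, Subgroup.mem_bot, commutatorElement_eq_one_iff_mul_comm] at h3
      exact h3
    have h3 := alternatingGroup.isMulCommutative_iff_card_le_three.mp h2
    omega
  · exact h1

theorem AF_perfect {r : ℕ} {N : Fin r → ℕ} (F : Set (Σ j, Fin (N j))) (j : Fin r)
    (h : (∀ a : Fin (N j), (⟨j, a⟩ : Σ j, Fin (N j)) ∉ F) ∨
      5 ≤ Nat.card {a : Fin (N j) // (⟨j, a⟩ : Σ j, Fin (N j)) ∈ F}) :
    ⁅AltData.AF F j, AltData.AF F j⁆ = AltData.AF F j := by
  classical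
  let s : Finset (Fin (N j)) := Finset.univ.filter fun a => (⟨j, a⟩ : Σ j, Fin (N j)) ∈ F
  have hAF : AltData.AF F j = (alternatingGroup.ofSubtype s).range := by
    ext x
    rw [alternatingGroup.mem_range_ofSubtype_iff]
    constructor
    · intro hx a ha
      refine Finset.mem_filter.mpr ⟨Finset.mem_univ _, ?_⟩
      by_contra h1
      exact Perm.mem_support.mp ha (hx a h1)
    · intro hx a ha
      by_contra h1
      exact ha (Finset.mem_filter.mp (hx (Perm.mem_support.mpr h1))).2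
  rcases h with h | h
  · have h1 : AltData.AF F j = ⊥ := by
      rw [eq_bot_iff]
      intro x hx
      rw [Subgroup.mem_bot]
      apply Subtype.ext
      ext1 a
      exact hx a (h a)
    rw [h1, Subgroup.commutator_bot_right]
  · have h1 : 5 ≤ Nat.card s := by
      rw [Nat.card_eq_fintype_card, Fintype.card_coe, ← Fintype.card_subtype,
        ← Nat.card_eq_fintype_card]
      exact h
    rw [hAF, MonoidHom.range_eq_map, ← Subgroup.map_commutator]
    congr 1
    exact alt_perfect h1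

/-- `q : G → H` is a homomorphism whose kernel centralises the commuting subgroups `F.A j`,
which are mapped to the components of the product of alternating groups of `S`. -/
structure CovData {G H : Type*} [Group G] [Group H] {r : ℕ} {N : Fin r → ℕ} (q : G →* H)
    (S : AltData H r N) (F : Fam G r ⊤) : Prop where
  ker : ∀ x, q x = 1 → ∀ j, ∀ y ∈ F.A j, x * y = y * x
  map : ∀ j, (F.A j).map q = (S.ι.comp (MonoidHom.mulSingle _ j)).range
  σ : ∀ (g : G) (j : Fin r), F.σ ⟨g, Subgroup.mem_top g⟩ j = S.σ (q g) j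

namespace CovData

variable {G H : Type*} [Group G] [Group H] {r : ℕ} {N : Fin r → ℕ} {q : G →* H}
  {S : AltData H r N} {F : Fam G r ⊤} (C : CovData q S F)

/-- The elements of the component `j` supported in `Y`. -/
def B (q : G →* H) (S : AltData H r N) (F : Fam G r ⊤) (Y : Set (Σ j, Fin (N j)))
    (j : Fin r) : Subgroup G := F.A j ⊓ (S.YY ⊥ Y {j}).comap q

theorem mem_YYb {Y : Set (Σ j, Fin (N j))} {j : Fin r} {x : H} :
    x ∈ S.YY ⊥ Y {j} ↔ x ∈ S.ι.range ∧ ∀ y : Σ j, Fin (N j), (y ∉ Y ∨ y.1 ≠ j) → S.ρ x y = y := by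
  constructor
  · rintro ⟨h1, h2, -⟩
    exact ⟨h1, h2⟩
  · rintro ⟨h1, h2⟩
    refine ⟨h1, h2, ?_⟩
    intro d hd
    rw [Subgroup.mem_bot.mp hd, one_mul, mul_one]

theorem mem_single_iff {j : Fin r} {x : H} :
    x ∈ (S.ι.comp (MonoidHom.mulSingle _ j)).range ↔
      x ∈ S.ι.range ∧ ∀ y : Σ j, Fin (N j), y.1 ≠ j → S.ρ x y = y := by
  constructor
  · rintro ⟨u, rfl⟩
    exact ⟨⟨_, rfl⟩, fun y hy => AltData.emb_ρ_ne u hy⟩
  · rintro ⟨⟨τ, rfl⟩, h⟩
    refine ⟨τ j, ?_⟩
    change S.ι (Pi.mulSingle j (τ j)) = S.ι τ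
    congr 1
    funext i
    by_cases hi : i = j
    · subst hi
      rw [Pi.mulSingle_eq_same]
    · rw [Pi.mulSingle_eq_of_ne hi]
      apply Subtype.ext
      ext1 a
      have h1 := h ⟨i, a⟩ hi
      rw [S.ρ_ι] at h1
      have h2 : (τ i : Perm (Fin (N i))) a = a := by
        simpa only [Sigma.mk.injEq, heq_eq_eq, true_and] using h1
      rw [h2]
      rfl

include C

theorem B_map (Y : Set (Σ j, Fin (N j))) (j : Fin r) : (B q S F Y j).map q = S.YY ⊥ Y {j} := by
  apply le_antisymm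
  · rintro _ ⟨x, hx, rfl⟩
    exact (Subgroup.mem_inf.mp hx).2
  · intro y hy
    have h1 : y ∈ (S.ι.comp (MonoidHom.mulSingle _ j)).range := by
      rw [mem_single_iff]
      rw [mem_YYb] at hy
      exact ⟨hy.1, fun z hz => hy.2 z (Or.inr hz)⟩
    rw [← C.map j] at h1
    obtain ⟨x, hx, rfl⟩ := h1
    exact ⟨x, Subgroup.mem_inf.mpr ⟨hx, hy⟩, rfl⟩

omit C in
theorem YYb_eq (Y : Set (Σ j, Fin (N j))) (j : Fin r) :
    S.YY ⊥ Y {j} = (AltData.AF Y j).map (S.ι.comp (MonoidHom.mulSingle _ j)) := by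
  ext x
  constructor
  · intro hx
    rw [mem_YYb] at hx
    have h1 : x ∈ (S.ι.comp (MonoidHom.mulSingle _ j)).range :=
      mem_single_iff.mpr ⟨hx.1, fun y hy => hx.2 y (Or.inr hy)⟩
    obtain ⟨u, rfl⟩ := h1
    refine ⟨u, ?_, rfl⟩
    intro a ha
    have h2 := hx.2 ⟨j, a⟩ (Or.inl ha)
    have h3 : S.ρ (S.ι (Pi.mulSingle j u)) ⟨j, a⟩ = ⟨j, a⟩ := h2
    rw [AltData.emb_ρ] at h3
    simpa only [Sigma.mk.injEq, heq_eq_eq, true_and] using h3
  · rintro ⟨u, hu, rfl⟩
    rw [mem_YYb]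
    refine ⟨⟨_, rfl⟩, ?_⟩
    rintro y (hy | hy)
    · exact AltData.emb_fix hu hy
    · exact AltData.emb_ρ_ne u hy

omit C in
theorem YYb_perfect {Y : Set (Σ j, Fin (N j))} {j : Fin r}
    (h : (∀ a : Fin (N j), (⟨j, a⟩ : Σ j, Fin (N j)) ∉ Y) ∨
      5 ≤ Nat.card {a : Fin (N j) // (⟨j, a⟩ : Σ j, Fin (N j)) ∈ Y}) :
    ⁅S.YY ⊥ Y {j}, S.YY ⊥ Y {j}⁆ = S.YY ⊥ Y {j} := by
  rw [YYb_eq, ← Subgroup.map_commutator, AF_perfect Y j h]

/-- The derived subgroup. -/
def _root_.Vale.Agent.P180.R2.H12.CovData.A' (q : G →* H) (S : AltData H r N) (F : Fam G r ⊤)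
    (Y : Set (Σ j, Fin (N j))) (j : Fin r) : Subgroup G := ⁅B q S F Y j, B q S F Y j⁆

omit C in
theorem A'_le (Y : Set (Σ j, Fin (N j))) (j : Fin r) : A' q S F Y j ≤ B q S F Y j :=
  Subgroup.commutator_le_self _

theorem A'_map {Y : Set (Σ j, Fin (N j))} {j : Fin r}
    (h : (∀ a : Fin (N j), (⟨j, a⟩ : Σ j, Fin (N j)) ∉ Y) ∨
      5 ≤ Nat.card {a : Fin (N j) // (⟨j, a⟩ : Σ j, Fin (N j)) ∈ Y}) :
    (A' q S F Y j).map q = S.YY ⊥ Y {j} := by
  rw [A', Subgroup.map_commutator, C.B_map, YYb_perfect h]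

theorem A'_perfect {Y : Set (Σ j, Fin (N j))} {j : Fin r}
    (h : (∀ a : Fin (N j), (⟨j, a⟩ : Σ j, Fin (N j)) ∉ Y) ∨
      5 ≤ Nat.card {a : Fin (N j) // (⟨j, a⟩ : Σ j, Fin (N j)) ∈ Y}) :
    ⁅A' q S F Y j, A' q S F Y j⁆ = A' q S F Y j := by
  apply le_antisymm (Subgroup.commutator_le_self _)
  conv_lhs => rw [A']
  rw [Subgroup.commutator_le]
  intro x hx y hy
  -- modulo the kernel
  have key : ∀ x ∈ B q S F Y j, ∃ z ∈ A' q S F Y j, ∃ w, (∀ y ∈ F.A j, w * y = y * w) ∧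
      x = w * z := by
    intro x hx
    have h1 : q x ∈ (A' q S F Y j).map q := by
      rw [C.A'_map h, ← C.B_map]
      exact ⟨x, hx, rfl⟩
    obtain ⟨z, hz, hzx⟩ := h1
    refine ⟨z, hz, x * z⁻¹, ?_, by rw [inv_mul_cancel_right]⟩
    intro y hy
    exact C.ker _ (by rw [map_mul, map_inv, hzx, mul_inv_cancel]) j y hy
  obtain ⟨z, hz, w, hw, rfl⟩ := key x hx
  obtain ⟨z', hz', w', hw', hxy⟩ := key y hy
  have hA : A' q S F Y j ≤ F.A j := (A'_le Y j).trans inf_le_left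
  have hy' : w' * z' ∈ F.A j := by rw [← hxy]; exact (Subgroup.mem_inf.mp hy).1
  have hx' : w * z ∈ F.A j := (Subgroup.mem_inf.mp hx).1
  have hwA : w ∈ F.A j := by
    have := (F.A j).mul_mem hx' ((F.A j).inv_mem (hA hz))
    rwa [mul_inv_cancel_right] at this
  have h1 : ⁅w * z, y⁆ = ⁅z, z'⁆ := by
    rw [hxy, commutatorElement_def, commutatorElement_def]
    have e1 : w * z * (w' * z') * (w * z)⁻¹ = w' * (z * z' * z⁻¹) := by
      have e2 : w * z * (w' * z') * (w * z)⁻¹ = w * (z * (w' * z') * z⁻¹) * w⁻¹ := by group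
      have e3 : z * (w' * z') * z⁻¹ ∈ F.A j :=
        (F.A j).mul_mem ((F.A j).mul_mem (hA hz) hy') ((F.A j).inv_mem (hA hz))
      rw [e2, hw _ e3, mul_inv_cancel_right]
      calc z * (w' * z') * z⁻¹ = (z * w') * z' * z⁻¹ := by group
        _ = w' * (z * z' * z⁻¹) := by rw [← hw' z (hA hz)]; group
    rw [e1]
    have e4 : z * z' * z⁻¹ ∈ F.A j :=
      (F.A j).mul_mem ((F.A j).mul_mem (hA hz) (hA hz')) ((F.A j).inv_mem (hA hz))
    calc w' * (z * z' * z⁻¹) * (w' * z')⁻¹ = w' * ((z * z' * z⁻¹) * z'⁻¹) * w'⁻¹ := by group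
      _ = z * z' * z⁻¹ * z'⁻¹ := by
        rw [hw' _ ((F.A j).mul_mem e4 ((F.A j).inv_mem (hA hz'))), mul_inv_cancel_right]
  rw [h1]
  exact Subgroup.commutator_mem_commutator hz hz'

theorem conj_B {Y : Set (Σ j, Fin (N j))} {g : G} (hY : ∀ y ∈ Y, S.ρ (q g) y ∈ Y) {j : Fin r} {x : G} (hx : x ∈ B q S F Y j) :
    g * x * g⁻¹ ∈ B q S F Y (S.σ (q g) j) := by
  obtain ⟨h1, h2⟩ := Subgroup.mem_inf.mp hx
  refine Subgroup.mem_inf.mpr ⟨?_, ?_⟩
  · rw [← C.σ]
    exact F.conj ⟨g, Subgroup.mem_top g⟩ j x h1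
  · rw [Subgroup.mem_comap, mem_YYb] at h2 ⊢
    rw [map_mul, map_mul, map_inv]
    refine ⟨S.conj_mem _ h2.1, ?_⟩
    intro y hy
    rw [S.ρ_mul, S.ρ_mul, h2.2, ← S.ρ_mul, mul_inv_cancel, map_one, Perm.one_apply]
    rcases hy with hy | hy
    · left
      intro h3
      apply hy
      have := hY _ h3
      rwa [← S.ρ_mul, mul_inv_cancel, map_one, Perm.one_apply] at this
    · right
      rw [S.ρ_fst]
      intro h3
      apply hy
      rw [← h3, ← S.σ_mul, mul_inv_cancel, map_one, Perm.one_apply]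

theorem conj_A' {Y : Set (Σ j, Fin (N j))} {g : G} (hY : ∀ y ∈ Y, S.ρ (q g) y ∈ Y) {j : Fin r}
    {x : G} (hx : x ∈ A' q S F Y j) :
    g * x * g⁻¹ ∈ A' q S F Y (S.σ (q g) j) := by
  have h1 : A' q S F Y j ≤ (A' q S F Y (S.σ (q g) j)).comap (MulAut.conj g).toMonoidHom := by
    rw [A', Subgroup.commutator_le]
    intro x hx y hy
    have h2 := Subgroup.commutator_mem_commutator (C.conj_B hY hx) (C.conj_B hY hy)
    change g * ⁅x, y⁆ * g⁻¹ ∈ A' q S F Y (S.σ (q g) j)
    have h3 : g * ⁅x, y⁆ * g⁻¹ = ⁅g * x * g⁻¹, g * y * g⁻¹⁆ := by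
      rw [commutatorElement_def, commutatorElement_def]
      group
    rw [h3, A']
    exact h2
  exact h1 hx

/-- elements of the stabiliser of `j` which fix the points of `Y` in the component `j` -/
theorem cent_A' {Y : Set (Σ j, Fin (N j))} {j : Fin r} {d : G} (hd : S.σ (q d) j = j)
    (hY : ∀ y ∈ Y, y.1 = j → S.ρ (q d) y = y) {x : G} (hx : x ∈ A' q S F Y j) :
    d * x = x * d := by
  have hB : ∀ x ∈ B q S F Y j, ∃ z : G, (∀ y ∈ F.A j, z * y = y * z) ∧ d * x * d⁻¹ = z * x := by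
    intro x hx
    obtain ⟨h1, h2⟩ := Subgroup.mem_inf.mp hx
    refine ⟨d * x * d⁻¹ * x⁻¹, ?_, by group⟩
    have h3 : q d * q x = q x * q d := by
      rw [Subgroup.mem_comap, mem_YYb] at h2
      refine S.commute_of_ρ h2.1 fun y => ?_
      by_cases hy : y ∈ Y ∧ y.1 = j
      · rw [hY y hy.1 hy.2]
        have h4 : S.ρ (q x) y ∈ Y ∧ (S.ρ (q x) y).1 = j := by
          have h5 : (S.ρ (q x) y).1 = j := by
            by_contra h6
            have h7 := h2.2 _ (Or.inr h6)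
            have h8 := (S.ρ (q x)).injective h7
            rw [h8] at h6
            exact h6 hy.2
          refine ⟨?_, h5⟩
          by_contra h6
          have h7 := h2.2 _ (Or.inl h6)
          have h8 := (S.ρ (q x)).injective h7
          rw [h8] at h6
          exact h6 hy.1
        rw [hY _ h4.1 h4.2]
      · have h5 : y ∉ Y ∨ y.1 ≠ j := by
          by_contra h6
          push Not at h6
          exact hy h6
        rw [h2.2 y h5, h2.2]
        by_contra h6
        push Not at h6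
        obtain ⟨h7, h8⟩ := h6
        have h9 := hY _ h7 h8
        have h10 := (S.ρ (q d)).injective h9
        rw [h10] at h7 h8
        rcases h5 with h5 | h5
        · exact h5 h7
        · exact h5 h8
    intro y hy
    refine C.ker _ ?_ j y hy
    rw [map_mul, map_mul, map_mul, map_inv, map_inv, h3, mul_inv_cancel_right, mul_inv_cancel]
  have h1 : A' q S F Y j ≤ Subgroup.centralizer {d} := by
    rw [A', Subgroup.commutator_le]
    intro x hx y hy
    obtain ⟨z, hz, hzx⟩ := hB x hx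
    obtain ⟨z', hz', hzy⟩ := hB y hy
    rw [Subgroup.mem_centralizer_singleton_iff]
    have hxA := (Subgroup.mem_inf.mp hx).1
    have hyA := (Subgroup.mem_inf.mp hy).1
    have h2 : d * ⁅x, y⁆ * d⁻¹ = ⁅x, y⁆ := by
      have h3 : d * ⁅x, y⁆ * d⁻¹ = ⁅d * x * d⁻¹, d * y * d⁻¹⁆ := by
        rw [commutatorElement_def, commutatorElement_def]
        group
      rw [h3, hzx, hzy, commutatorElement_def, commutatorElement_def]
      have hz'A : z' * y ∈ F.A j := by
        rw [← hzy]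
        have h4 := F.conj ⟨d, Subgroup.mem_top d⟩ j y hyA
        rw [C.σ, hd] at h4
        exact h4
      have e1 : z * x * (z' * y) * (z * x)⁻¹ = z' * (x * y * x⁻¹) := by
        have e2 : z * x * (z' * y) * (z * x)⁻¹ = z * (x * (z' * y) * x⁻¹) * z⁻¹ := by group
        have e3 : x * (z' * y) * x⁻¹ ∈ F.A j :=
          (F.A j).mul_mem ((F.A j).mul_mem hxA hz'A) ((F.A j).inv_mem hxA)
        rw [e2, hz _ e3, mul_inv_cancel_right]
        calc x * (z' * y) * x⁻¹ = (x * z') * y * x⁻¹ := by group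
          _ = z' * (x * y * x⁻¹) := by rw [← hz' x hxA]; group
      rw [e1]
      have e4 : x * y * x⁻¹ ∈ F.A j :=
        (F.A j).mul_mem ((F.A j).mul_mem hxA hyA) ((F.A j).inv_mem hxA)
      calc z' * (x * y * x⁻¹) * (z' * y)⁻¹ = z' * ((x * y * x⁻¹) * y⁻¹) * z'⁻¹ := by group
        _ = x * y * x⁻¹ * y⁻¹ := by
          rw [hz' _ ((F.A j).mul_mem e4 ((F.A j).inv_mem hyA)), mul_inv_cancel_right]
    have h3 : d * ⁅x, y⁆ = ⁅x, y⁆ * d := by
      calc d * ⁅x, y⁆ = d * ⁅x, y⁆ * d⁻¹ * d := by group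
        _ = ⁅x, y⁆ * d := by rw [h2]
    first
      | exact h3
      | exact h3.symm
  have h2 := Subgroup.mem_centralizer_singleton_iff.mp (h1 hx)
  first
    | exact h2
    | exact h2.symm

omit C in
theorem X_conj (F : Fam G r ⊤) (g : G) {x : G} (hx : x ∈ F.μ.range) :
    g * x * g⁻¹ ∈ F.μ.range := by
  obtain ⟨τ, rfl⟩ := hx
  exact ⟨F.th ⟨g, Subgroup.mem_top g⟩ τ, F.μ_th _ τ⟩

omit C in
theorem A_le_X (F : Fam G r ⊤) (j : Fin r) : F.A j ≤ F.μ.range := by
  intro x hx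
  exact ⟨Pi.mulSingle j ⟨x, hx⟩, F.μ_single j _⟩

theorem range_le : S.ι.range ≤ F.μ.range.map q := by
  rintro _ ⟨τ, rfl⟩
  have h1 : τ ∈ (F.μ.range.map q).comap S.ι := by
    refine Subgroup.pi_mem_of_mulSingle_mem τ fun j => ?_
    rw [Subgroup.mem_comap]
    have h2 : S.ι (Pi.mulSingle j (τ j)) ∈ (S.ι.comp (MonoidHom.mulSingle _ j)).range :=
      ⟨τ j, rfl⟩
    rw [← C.map j] at h2
    exact Subgroup.map_mono (A_le_X F j) h2
  exact h1

theorem ker_comm {x : G} (hx : q x = 1) {y : G} (hy : y ∈ F.μ.range) : x * y = y * x := by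
  have h1 : F.μ.range ≤ Subgroup.centralizer {x} := by
    have h2 : F.μ.range = ⨆ j, F.A j := Subgroup.noncommPiCoprod_range
    rw [h2]
    refine iSup_le fun j y hy => ?_
    rw [Subgroup.mem_centralizer_singleton_iff]
    first
      | exact C.ker x hx j y hy
      | exact (C.ker x hx j y hy).symm
  have h2 := Subgroup.mem_centralizer_singleton_iff.mp (h1 hy)
  first
    | exact h2
    | exact h2.symm

variable [Finite G] [Finite H] {p : ℕ} [Fact p.Prime] {D : Subgroup G}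

theorem card_orbS_le (hD : IsPGroup p D)
    (hV : ∀ V : Subgroup G, V.Normal → IsPGroup p V → V ≤ D)
    (hop : ∀ P : Subgroup G, IsPGroup p P → P ≤ Subgroup.normalizer (D : Set G) →
      (∀ g ∈ Subgroup.normalizer (D : Set G), ∀ x ∈ P, g * x * g⁻¹ ∈ P) → P ≤ D) :
    Nat.card (S.orbS (D.map q)) ≤ Nat.card D := by
  classical
  have hDq : IsPGroup p (D.map q) := hD.map q
  have hqN : ∀ g ∈ Subgroup.normalizer (D : Set G),
      q g ∈ Subgroup.normalizer ((D.map q : Subgroup H) : Set H) := by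
    intro g hg
    rw [Subgroup.mem_normalizer_iff]
    intro y
    constructor
    · rintro ⟨d, hd, rfl⟩
      exact ⟨g * d * g⁻¹, (Subgroup.mem_normalizer_iff.mp hg d).mp hd, by
        rw [map_mul, map_mul, map_inv]⟩
    · rintro ⟨d, hd, hdy⟩
      refine ⟨g⁻¹ * d * g, ?_, ?_⟩
      · have := (Subgroup.mem_normalizer_iff.mp (Subgroup.inv_mem _ hg) d).mp hd
        rwa [inv_inv] at this
      · rw [map_mul, map_mul, map_inv, hdy]
        group
  set Ph : Subgroup G := F.μ.range ⊓ (S.orbS (D.map q)).comap q with hPh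
  -- the map to `orbS`
  let f : Ph →* S.orbS (D.map q) :=
    { toFun := fun x => ⟨q x, (Subgroup.mem_inf.mp x.2).2⟩
      map_one' := Subtype.ext (map_one q)
      map_mul' := fun x y => Subtype.ext (map_mul q _ _) }
  have hf : Function.Surjective f := by
    rintro ⟨y, hy⟩
    obtain ⟨x, hx, hxy⟩ := C.range_le hy.1
    exact ⟨⟨x, Subgroup.mem_inf.mpr ⟨hx, by rw [Subgroup.mem_comap, hxy]; exact hy⟩⟩,
      Subtype.ext hxy⟩
  have hfk : f.ker ≤ Subgroup.center Ph := by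
    intro x hx
    rw [Subgroup.mem_center_iff]
    intro y
    have h1 : q x = 1 := congrArg Subtype.val (MonoidHom.mem_ker.mp hx)
    exact Subtype.ext (C.ker_comm h1 (Subgroup.mem_inf.mp y.2).1).symm
  have horb : IsPGroup p (S.orbS (D.map q)) := S.orbS_pgroup hDq
  have _ : Group.IsNilpotent (S.orbS (D.map q)) := horb.isNilpotent
  have hnil : Group.IsNilpotent Ph := Subgroup.isNilpotent_of_ker_le_center f hfk
  let P : Sylow p Ph := default
  have hPn : (P : Subgroup Ph).Normal := by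
    have h1 := (Group.isNilpotent_of_finite_tfae (G := Ph)).out 0 3
    exact h1.mp hnil p inferInstance P
  have hPmem : ∀ x : Ph, (∃ n : ℕ, x ^ p ^ n = 1) → x ∈ (P : Subgroup Ph) := by
    rintro x ⟨n, hn⟩
    have h1 : IsPGroup p (Subgroup.zpowers x) := by
      rintro ⟨_, m, rfl⟩
      refine ⟨n, Subtype.ext ?_⟩
      change (x ^ m) ^ p ^ n = 1
      rw [← zpow_natCast, ← zpow_mul, mul_comm, zpow_mul, zpow_natCast, hn, one_zpow]
    obtain ⟨Q, hQ⟩ := h1.exists_le_sylow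
    have _ := Sylow.unique_of_normal P hPn
    have h2 : Q = P := Subsingleton.elim _ _
    rw [← h2]
    exact hQ (Subgroup.mem_zpowers x)
  set PG : Subgroup G := (P : Subgroup Ph).map Ph.subtype with hPG
  have hPGp : IsPGroup p PG := P.2.map _
  have hmem : ∀ x, x ∈ PG ↔ x ∈ Ph ∧ ∃ n : ℕ, x ^ p ^ n = 1 := by
    intro x
    constructor
    · intro hx
      obtain ⟨n, hn⟩ := hPGp ⟨x, hx⟩
      exact ⟨Subgroup.map_subtype_le _ hx, n, congrArg Subtype.val hn⟩
    · rintro ⟨hx, n, hn⟩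
      exact ⟨⟨x, hx⟩, hPmem _ ⟨n, Subtype.ext hn⟩, rfl⟩
  have hPhN : ∀ g ∈ Subgroup.normalizer (D : Set G), ∀ x ∈ Ph, g * x * g⁻¹ ∈ Ph := by
    intro g hg x hx
    obtain ⟨h1, h2⟩ := Subgroup.mem_inf.mp hx
    refine Subgroup.mem_inf.mpr ⟨X_conj F g h1, ?_⟩
    rw [Subgroup.mem_comap, map_mul, map_mul, map_inv]
    exact S.orbS_conj (hqN g hg) h2
  have hPGN : ∀ g ∈ Subgroup.normalizer (D : Set G), ∀ x ∈ PG, g * x * g⁻¹ ∈ PG := by
    intro g hg x hx
    rw [hmem] at hx ⊢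
    obtain ⟨h1, n, hn⟩ := hx
    exact ⟨hPhN g hg x h1, n, by rw [conj_pow, hn, mul_one, mul_inv_cancel]⟩
  -- the normal `p`-subgroup
  let V : Subgroup G :=
    { carrier := {x | x ∈ F.μ.range ∧ q x = 1 ∧ ∃ n : ℕ, x ^ p ^ n = 1}
      one_mem' := ⟨Subgroup.one_mem _, map_one q, 0, one_pow _⟩
      mul_mem' := by
        rintro x y ⟨hx1, hx2, n, hn⟩ ⟨hy1, hy2, m, hm⟩
        refine ⟨Subgroup.mul_mem _ hx1 hy1, by rw [map_mul, hx2, hy2, mul_one], n + m, ?_⟩
        have h1 : Commute x y := C.ker_comm hx2 hy1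
        have h2 : y ^ p ^ (n + m) = (y ^ p ^ m) ^ p ^ n := by
          rw [← pow_mul, ← pow_add, add_comm]
        rw [h1.mul_pow, h2, hm, one_pow, mul_one, pow_add, pow_mul, hn, one_pow]
      inv_mem' := by
        rintro x ⟨hx1, hx2, n, hn⟩
        exact ⟨Subgroup.inv_mem _ hx1, by rw [map_inv, hx2, inv_one], n, by
          rw [inv_pow, hn, inv_one]⟩ }
  have hVn : V.Normal := by
    constructor
    rintro x ⟨hx1, hx2, n, hn⟩ g
    exact ⟨X_conj F g hx1, by rw [map_mul, map_mul, map_inv, hx2, mul_one, mul_inv_cancel], n, by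
      rw [conj_pow, hn, mul_one, mul_inv_cancel]⟩
  have hVp : IsPGroup p V := by
    rintro ⟨x, hx1, hx2, n, hn⟩
    exact ⟨n, Subtype.ext hn⟩
  have hVD := hV V hVn hVp
  have hnorm : ∀ x ∈ PG, ∀ d ∈ D, x * d * x⁻¹ ∈ D := by
    intro x hx d hd
    have h1 : x * (d * x⁻¹ * d⁻¹) ∈ PG :=
      PG.mul_mem hx (hPGN d (Subgroup.le_normalizer hd) _ (PG.inv_mem hx))
    have h2 : x * (d * x⁻¹ * d⁻¹) ∈ V := by
      obtain ⟨h3, n, hn⟩ := (hmem _).mp h1
      refine ⟨(Subgroup.mem_inf.mp h3).1, ?_, n, hn⟩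
      have h4 : q x ∈ S.orbS (D.map q) := (Subgroup.mem_inf.mp ((hmem x).mp hx).1).2
      have h5 := h4.2.1 (q d) ⟨d, hd, rfl⟩
      rw [map_mul, map_mul, map_mul, map_inv, map_inv]
      calc q x * (q d * (q x)⁻¹ * (q d)⁻¹) = q x * q d * (q x)⁻¹ * (q d)⁻¹ := by group
        _ = 1 := by rw [← h5]; group
    have h3 : x * d * x⁻¹ = x * (d * x⁻¹ * d⁻¹) * d := by group
    rw [h3]
    exact D.mul_mem (hVD h2) hd
  have hPGle : PG ≤ D := by
    refine hop PG hPGp ?_ hPGN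
    intro x hx
    rw [Subgroup.mem_normalizer_iff]
    intro d
    constructor
    · exact fun hd => hnorm x hx d hd
    · intro hd
      have h1 := hnorm x⁻¹ (PG.inv_mem hx) _ hd
      have h2 : x⁻¹ * (x * d * x⁻¹) * x⁻¹⁻¹ = d := by group
      rwa [h2] at h1
  -- counting
  obtain ⟨m, hm⟩ := IsPGroup.iff_card.mp horb
  have h1 : Nat.card (S.orbS (D.map q)) ∣ Nat.card Ph := Subgroup.card_dvd_of_surjective f hf
  rw [hm] at h1 ⊢
  have h2 := P.pow_dvd_card_of_pow_dvd_card h1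
  have h3 : Nat.card PG = Nat.card P :=
    Nat.card_congr ((P : Subgroup Ph).equivMapOfInjective _ Ph.subtype_injective).symm.toEquiv
  calc p ^ m ≤ Nat.card P := Nat.le_of_dvd Nat.card_pos h2
    _ = Nat.card PG := h3.symm
    _ ≤ Nat.card D := Nat.card_le_card_of_injective _ (Subgroup.inclusion_injective hPGle)

end CovData

end Vale.Agent.P180.R2.H12
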