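import Vale.Agent.P180.R2.H12.Tame

/-!
P180 R2 H12: decomposition into primitive idempotents; blocks with central defect groups.
-/

namespace Vale.Agent.P180.R2.H12

open Vale.Agent.P180 Vale.Agent.P180.H768.Gd

section Dec

variable {k : Type*} [Field k] {A : Type*} [Ring A] [Algebra k A] [FiniteDimensional k A]

/-- Every idempotent of a commutative subalgebra is a sum of primitive ones. -/
theorem exists_sum_prim (S : Subalgebra k A) (hS : ∀ x ∈ S, ∀ y ∈ S, x * y = y * x) (n : ℕ) :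
    ∀ e ∈ S, e * e = e → Module.finrank k (LinearMap.range (LinearMap.mulLeft k e)) = n →
      ∃ (m : ℕ) (f : Fin m → A), (∀ l, IsPrimIn S (f l)) ∧ e = ∑ l, f l := by
  induction n using Nat.strong_induction_on with
  | _ n ih =>
    intro e he hee hn
    by_cases h0 : e = 0
    · exact ⟨0, Fin.elim0, fun l => Fin.elim0 l, by rw [h0, Fin.sum_univ_zero]⟩
    obtain ⟨f, hf, hef⟩ := exists_isPrimIn S hS h0
    have hff : f * f = f := hf.idem.eq
    have hcomm : e * f = f * e := hS e he f hf.mem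
    have h1 : e * f = f := by
      rcases hf.primitive (e * f) (S.mul_mem he hf.mem)
        (by
          change e * f * (e * f) = e * f
          rw [mul_assoc, ← mul_assoc f e, ← hcomm, mul_assoc, hff, ← mul_assoc, hee])
        (by rw [mul_assoc, hff]) with h | h
      · exact absurd h hef
      · exact h
    have h2 : f * e = f := by rw [← hcomm, h1]
    have hg : (e - f) * (e - f) = e - f := by
      rw [sub_mul, mul_sub, mul_sub, hee, h1, h2, hff, sub_self, sub_zero]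
    have hlt : Module.finrank k (LinearMap.range (LinearMap.mulLeft k (e - f))) < n := by
      rw [← hn]
      apply Submodule.finrank_lt_finrank_of_lt
      refine lt_of_le_of_ne ?_ ?_
      · rintro _ ⟨y, rfl⟩
        refine ⟨(e - f) * y, ?_⟩
        simp only [LinearMap.mulLeft_apply]
        rw [← mul_assoc, mul_sub, hee, h1]
      · intro heq
        have h3 : f ∈ LinearMap.range (LinearMap.mulLeft k (e - f)) := by
          rw [heq]; exact ⟨f, by simp only [LinearMap.mulLeft_apply]; exact h1⟩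
        obtain ⟨y, hy⟩ := h3
        simp only [LinearMap.mulLeft_apply] at hy
        have h4 : (e - f) * f = f :=
          calc (e - f) * f = (e - f) * ((e - f) * y) := by rw [hy]
            _ = f := by rw [← mul_assoc, hg, hy]
        rw [sub_mul, h1, hff, sub_self] at h4
        exact hf.ne_zero h4.symm
    obtain ⟨m, g, hg1, hg2⟩ := ih _ hlt (e - f) (S.sub_mem he hf.mem) hg rfl
    refine ⟨m + 1, Fin.cons f g, ?_, ?_⟩
    · intro l
      refine Fin.cases ?_ ?_ l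
      · rw [Fin.cons_zero]; exact hf
      · intro i
        rw [Fin.cons_succ]; exact hg1 i
    · rw [Fin.sum_univ_succ, Fin.cons_zero]
      simp only [Fin.cons_succ]
      rw [← hg2]
      abel

end Dec

section LocG

variable {k : Type*} [Field k] {G : Type*} [Group G] [Finite G]

omit [Finite G] in
theorem cj_SubAlg (g : G) {B : Subgroup G} {B' : Subgroup G} (h : ∀ x ∈ B, g * x * g⁻¹ ∈ B')
    {a : MonoidAlgebra k G} (ha : a ∈ SubAlg k B) : cj k G g a ∈ SubAlg k B' :=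
  SuppIn.conj ha g h

theorem cj_trS (g : G) {Z B Z' B' : Subgroup G} (hZ : ∀ x, x ∈ Z ↔ g * x * g⁻¹ ∈ Z')
    (hB : ∀ x, x ∈ B ↔ g * x * g⁻¹ ∈ B') {a : MonoidAlgebra k G} (ha : a ∈ Fix (cj k G) Z) :
    cj k G g (tr (cj k G) Z B a) = tr (cj k G) Z' B' (cj k G g a) := by
  classical
  have _ := Fintype.ofFinite (B ⧸ Z.subgroupOf B)
  have hZ' : ∀ x, x ∈ Z' ↔ g⁻¹ * x * g ∈ Z := by
    intro x
    rw [hZ]
    have : g * (g⁻¹ * x * g) * g⁻¹ = x := by group
    rw [this]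
  have hB' : ∀ x, x ∈ B' ↔ g⁻¹ * x * g ∈ B := by
    intro x
    rw [hB]
    have : g * (g⁻¹ * x * g) * g⁻¹ = x := by group
    rw [this]
  have ha' : cj k G g a ∈ Fix (cj k G) Z' := by
    intro x hx
    rw [← map_mul_act]
    have h1 : x * g = g * (g⁻¹ * x * g) := by group
    rw [h1, map_mul_act, ha _ ((hZ' x).mp hx)]
  rw [tr_def, map_sum, tr_eq_sum' ha' (fun q : B ⧸ Z.subgroupOf B => g * (q.out : B) * g⁻¹)]
  · refine Finset.sum_congr rfl fun q _ => ?_
    rw [← map_mul_act, ← map_mul_act]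
    congr 2
    group
  · intro q
    exact (hB _).mp (q.out : B).2
  · intro q q' h
    rw [hZ'] at h
    have h1 : g⁻¹ * ((g * (q.out : B) * g⁻¹)⁻¹ * (g * (q'.out : B) * g⁻¹)) * g =
        ((q.out : B) : G)⁻¹ * (q'.out : B) := by group
    rw [h1] at h
    rw [← QuotientGroup.out_eq' q, ← QuotientGroup.out_eq' q', QuotientGroup.eq,
      Subgroup.mem_subgroupOf]
    exact h
  · intro x hx
    have h1 := (hB' x).mp hx
    refine ⟨((⟨g⁻¹ * x * g, h1⟩ : B) : B ⧸ Z.subgroupOf B), ?_⟩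
    have h2 : ((((⟨g⁻¹ * x * g, h1⟩ : B) : B ⧸ Z.subgroupOf B).out : B) : B ⧸ Z.subgroupOf B) =
        ((⟨g⁻¹ * x * g, h1⟩ : B) : B ⧸ Z.subgroupOf B) := QuotientGroup.out_eq' _
    rw [QuotientGroup.eq, Subgroup.mem_subgroupOf] at h2
    rw [hZ']
    have h3 := h2
    push_cast at h3
    have h4 : ∀ y : G, g⁻¹ * ((g * y * g⁻¹)⁻¹ * x) * g = y⁻¹ * (g⁻¹ * x * g) := by
      intro y; group
    rw [h4]
    exact h3

/-- `ε` is an idempotent of the block `e` of `A`; the block has a central defect group `Z`, and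
the corner of `ε` is `kZ ε`. -/
structure LocG (p : ℕ) (A : Subgroup G) (e ε : MonoidAlgebra k G) : Prop where
  block : IsBlockOf A e
  mem : ε ∈ SubAlg k A
  idem : ε * ε = ε
  le : ε * e = ε
  corner : ∃ Z : Subgroup G, IsPGroup p Z ∧ Z ≤ A ∧ (∀ z ∈ Z, ∀ x ∈ A, z * x = x * z) ∧
    (∃ a ∈ SubAlg k A, e = tr (cj k G) Z A a) ∧
    ∀ a ∈ SubAlg k A, ∃ l ∈ SubAlg k Z, ε * a * ε = l * ε
  full : ∃ (n : ℕ) (u v : Fin n → MonoidAlgebra k G), (∀ a, u a ∈ SubAlg k A) ∧
    (∀ a, v a ∈ SubAlg k A) ∧ e = ∑ a, u a * ε * v a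

omit [Finite G] in
theorem fix_of_central {Z A : Subgroup G} (h : ∀ z ∈ Z, ∀ x ∈ A, z * x = x * z)
    {a : MonoidAlgebra k G} (ha : a ∈ SubAlg k A) : a ∈ Fix (cj k G) Z := by
  refine Fix_mono (cj k G) (K := Z) (H := Z) le_rfl ?_
  intro z hz
  refine SuppIn.induction (P := fun a => cj k G z a = a) ha (map_zero _) ?_ ?_
  · intro a b ha hb
    rw [map_add, ha, hb]
  · intro x hx c
    rw [map_smul, cj_single, h z hz x hx, mul_inv_cancel_right]

theorem LocG.conj {p : ℕ} {A A' : Subgroup G} {e ε : MonoidAlgebra k G} (h : LocG p A e ε) (g : G)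
    (hA : ∀ x, x ∈ A ↔ g * x * g⁻¹ ∈ A') : LocG p A' (cj k G g e) (cj k G g ε) := by
  have hA1 : ∀ x ∈ A, g * x * g⁻¹ ∈ A' := fun x hx => (hA x).mp hx
  have hA2 : ∀ x ∈ A', g⁻¹ * x * g⁻¹⁻¹ ∈ A := by
    intro x hx
    rw [hA]
    have : g * (g⁻¹ * x * g⁻¹⁻¹) * g⁻¹ = x := by group
    rwa [this]
  have hback : ∀ a ∈ SubAlg k A', ∃ a' ∈ SubAlg k A, cj k G g a' = a := fun a ha =>
    ⟨cj k G g⁻¹ a, cj_SubAlg g⁻¹ hA2 ha, map_act_inv _ _ _⟩
  have hfix : ∀ a ∈ Fix (cj k G) A, cj k G g a ∈ Fix (cj k G) A' := by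
    intro a ha x hx
    rw [← map_mul_act]
    have h1 : x * g = g * (g⁻¹ * x * g⁻¹⁻¹) := by group
    rw [h1, map_mul_act, ha _ (hA2 x hx)]
  have hfix' : ∀ a ∈ Fix (cj k G) A', cj k G g⁻¹ a ∈ Fix (cj k G) A := by
    intro a ha x hx
    rw [← map_mul_act]
    have h1 : x * g⁻¹ = g⁻¹ * (g * x * g⁻¹) := by group
    rw [h1, map_mul_act, ha _ (hA1 x hx)]
  refine ⟨⟨⟨cj_SubAlg g hA1 h.block.mem.1, hfix _ h.block.mem.2⟩, ?_, ?_, ?_⟩, cj_SubAlg g hA1 h.mem,
    by rw [← map_mul, h.idem], by rw [← map_mul, h.le], ?_, ?_⟩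
  · change cj k G g e * cj k G g e = _
    rw [← map_mul, h.block.idem.eq]
  · intro h0
    exact h.block.ne_zero ((map_eq_zero_iff _ (cj k G g).injective).mp h0)
  · intro c hc hcc hce
    have h1 : cj k G g⁻¹ c * e = cj k G g⁻¹ c := by
      conv_lhs => rw [← map_inv_act (cj k G) g e]
      rw [← map_mul, hce]
    have h2 : IsIdempotentElem (cj k G g⁻¹ c) := by
      change cj k G g⁻¹ c * cj k G g⁻¹ c = _
      rw [← map_mul, hcc.eq]
    rcases h.block.primitive _ ⟨cj_SubAlg g⁻¹ hA2 hc.1, hfix' _ hc.2⟩ h2 h1 with h3 | h3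
    · left
      exact (map_eq_zero_iff _ (cj k G g⁻¹).injective).mp h3
    · right
      rw [← h3, map_act_inv]
  · obtain ⟨Z, hZp, hZA, hZc, ⟨a, ha, hea⟩, hcor⟩ := h.corner
    have hmem : ∀ x, x ∈ Z ↔ g * x * g⁻¹ ∈ Z.map (MulAut.conj g).toMonoidHom := by
      intro x
      constructor
      · intro hx
        exact ⟨x, hx, rfl⟩
      · rintro ⟨y, hy, hyx⟩
        have h1 : g * y * g⁻¹ = g * x * g⁻¹ := hyx
        have h2 : y = x := by
          have := congrArg (fun t => g⁻¹ * t * g) h1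
          simpa [mul_assoc] using this
        rwa [← h2]
    refine ⟨Z.map (MulAut.conj g).toMonoidHom, hZp.map _, ?_, ?_, ?_, ?_⟩
    · rintro _ ⟨z, hz, rfl⟩
      exact hA1 z (hZA hz)
    · rintro _ ⟨z, hz, rfl⟩ x hx
      have h1 := hZc z hz _ (hA2 x hx)
      change g * z * g⁻¹ * x = x * (g * z * g⁻¹)
      calc g * z * g⁻¹ * x = g * (z * (g⁻¹ * x * g⁻¹⁻¹)) * g⁻¹ := by group
        _ = x * (g * z * g⁻¹) := by rw [h1]; group
    · refine ⟨cj k G g a, cj_SubAlg g hA1 ha, ?_⟩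
      conv_lhs => rw [hea]
      exact cj_trS g hmem hA (fix_of_central hZc ha)
    · intro a' ha'
      obtain ⟨a'', ha'', rfl⟩ := hback a' ha'
      obtain ⟨l, hl, h1⟩ := hcor a'' ha''
      refine ⟨cj k G g l, cj_SubAlg g (fun x hx => (hmem x).mp hx) hl, ?_⟩
      rw [← map_mul, ← map_mul, h1, map_mul]
  · obtain ⟨n, u, v, hu, hv, h1⟩ := h.full
    refine ⟨n, fun a => cj k G g (u a), fun a => cj k G g (v a), fun a => cj_SubAlg g hA1 (hu a),
      fun a => cj_SubAlg g hA1 (hv a), ?_⟩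
    conv_lhs => rw [h1]
    rw [map_sum]
    exact Finset.sum_congr rfl fun a _ => by rw [map_mul, map_mul]

/-- existence of the idempotent -/
theorem exists_locG [IsAlgClosed k] {p : ℕ} [Fact p.Prime] [CharP k p] {A : Subgroup G}
    {e : MonoidAlgebra k G} (he : IsBlockOf A e) {Z : Subgroup G} (hZ : IsPGroup p Z) (hZA : Z ≤ A)
    (hZc : ∀ z ∈ Z, ∀ x ∈ A, z * x = x * z) (htr : ∃ a ∈ SubAlg k A, e = tr (cj k G) Z A a) :
    ∃ ε, LocG p A e ε := by
  let _ : CommGroup Z :=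
    { (inferInstance : Group Z) with
      mul_comm := fun a b => Subtype.ext (hZc a a.2 b (hZA b.2)) }
  obtain ⟨a, ha, hea⟩ := htr
  have hCB : KP.CB A (Z.subtype : Z →* G) e :=
    { inj := Z.subtype_injective
      mem := fun c => hZA c.2
      comm := fun c n hn => hZc c c.2 n hn
      block := he
      trace := ⟨a, ha, by rw [Subgroup.range_subtype]; exact hea⟩ }
  obtain ⟨d, _, ψ, i, -, hi, -⟩ := KP.exists_CIdem hCB hZ
  refine ⟨i, he, hi.mem, hi.idem, hi.ie, ⟨Z, hZ, hZA, hZc, ⟨a, ha, hea⟩, ?_⟩, hi.full⟩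
  intro b hb
  obtain ⟨l, hl⟩ := hi.corner b hb
  exact ⟨KP.kap k (Z.subtype : Z →* G) l, KP.kap_mem (fun c => c.2) l, hl⟩

end LocG

end Vale.Agent.P180.R2.H12
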