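import Vale.Agent.P180.R2.H12.R4

/-!
P180 R2 H12: the set of points which are used for the local idempotent.
-/

namespace Vale.Agent.P180.R2.H12

open Equiv

variable {G : Type*} [Group G] {r : ℕ} {N : Fin r → ℕ} (S : AltData G r N)

namespace AltData

theorem σ_mul (g h : G) (j : Fin r) : S.σ (g * h) j = S.σ g (S.σ h j) := by
  rw [map_mul, Perm.mul_apply]

theorem ρ_mul (g h : G) (y : Σ j, Fin (N j)) : S.ρ (g * h) y = S.ρ g (S.ρ h y) := by
  rw [map_mul, Perm.mul_apply]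

theorem moved_conj {D : Subgroup G} {g : G} (hg : g ∈ Subgroup.normalizer (D : Set G))
    {y : Σ j, Fin (N j)} (hy : S.Moved D y.1 y.2) : S.Moved D (S.ρ g y).1 (S.ρ g y).2 := by
  obtain ⟨d, hd, h1, h2⟩ := hy
  refine ⟨g * d * g⁻¹, (Subgroup.mem_normalizer_iff.mp hg d).mp hd, ?_, ?_⟩
  · rw [S.ρ_fst, ← S.σ_mul, inv_mul_cancel_right, S.σ_mul, h1]
  · intro h
    apply h2
    have h3 : S.ρ (g * d * g⁻¹) (S.ρ g y) = S.ρ g y := h
    rw [← S.ρ_mul, inv_mul_cancel_right, S.ρ_mul] at h3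
    exact (S.ρ g).injective h3

/-- The subset of points used for the local idempotent. -/
theorem exists_F [Finite G] {p : ℕ} [Fact p.Prime] {D : Subgroup G} (hD : IsPGroup p D)
    (hop : ∀ P : Subgroup G, IsPGroup p P → P ≤ Subgroup.normalizer (D : Set G) →
      (∀ g ∈ Subgroup.normalizer (D : Set G), ∀ x ∈ P, g * x * g⁻¹ ∈ P) → P ≤ D) :
    ∃ F : Set (Σ j, Fin (N j)),
      (∀ g ∈ Subgroup.normalizer (D : Set G), ∀ y ∈ F, S.ρ g y ∈ F) ∧
      (∀ d ∈ D, ∀ y ∈ F, S.σ d y.1 = y.1 → S.ρ d y = y) ∧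
      (∀ j, (∀ a : Fin (N j), (⟨j, a⟩ : Σ j, Fin (N j)) ∉ F) ∨
        5 ≤ Nat.card {a : Fin (N j) // (⟨j, a⟩ : Σ j, Fin (N j)) ∈ F}) ∧
      ∀ j, Nat.card {a : Fin (N j) // (⟨j, a⟩ : Σ j, Fin (N j)) ∉ F} ≤
        Nat.card D * Nat.card D + 4 := by
  classical
  let c : Fin r → ℕ := fun j => Nat.card {z : Σ j, Fin (N j) // z.1 = j ∧ ¬ S.Moved D z.1 z.2}
  have hc : ∀ j, c j = Nat.card {a : Fin (N j) // ¬ S.Moved D j a} := by
    intro j
    refine Nat.card_congr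
      { toFun := fun z => ⟨Equiv.sigmaSubtype (β := fun j => Fin (N j)) j ⟨z.1, z.2.1⟩, ?_⟩
        invFun := fun a => ⟨⟨j, a.1⟩, rfl, a.2⟩
        left_inv := ?_
        right_inv := ?_ }
    · obtain ⟨⟨i, b⟩, h, h'⟩ := z
      subst h
      exact h'
    · rintro ⟨⟨i, b⟩, h, h'⟩
      subst h
      rfl
    · rintro ⟨b, h⟩
      rfl
  have hcg : ∀ g ∈ Subgroup.normalizer (D : Set G), ∀ j, c j ≤ c (S.σ g j) := by
    intro g hg j
    refine Nat.card_le_card_of_injective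
      (fun z : {z : Σ j, Fin (N j) // z.1 = j ∧ ¬ S.Moved D z.1 z.2} =>
        (⟨S.ρ g z.1, by rw [S.ρ_fst, z.2.1], ?_⟩ :
          {z : Σ j, Fin (N j) // z.1 = S.σ g j ∧ ¬ S.Moved D z.1 z.2})) ?_
    · intro h
      apply z.2.2
      have h1 := S.moved_conj (Subgroup.inv_mem _ hg) h
      rwa [← S.ρ_mul, inv_mul_cancel, map_one, Perm.one_apply] at h1
    · intro z z' h
      have h1 := congrArg Subtype.val h
      exact Subtype.ext ((S.ρ g).injective h1)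
  refine ⟨{y | ¬ S.Moved D y.1 y.2 ∧ 5 ≤ c y.1}, ?_, ?_, ?_, ?_⟩
  · rintro g hg y ⟨h1, h2⟩
    refine ⟨fun h => h1 ?_, ?_⟩
    · have h3 := S.moved_conj (Subgroup.inv_mem _ hg) h
      rwa [← S.ρ_mul, inv_mul_cancel, map_one, Perm.one_apply] at h3
    · rw [S.ρ_fst]
      exact h2.trans (hcg g hg _)
  · rintro d hd y ⟨h1, h2⟩ h3
    by_contra h
    exact h1 ⟨d, hd, h3, h⟩
  · intro j
    by_cases h5 : 5 ≤ c j
    · right
      have e : {a : Fin (N j) // (⟨j, a⟩ : Σ j, Fin (N j)) ∈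
          {y : Σ j, Fin (N j) | ¬ S.Moved D y.1 y.2 ∧ 5 ≤ c y.1}} ≃
          {a : Fin (N j) // ¬ S.Moved D j a} :=
        Equiv.subtypeEquivRight fun a => ⟨fun h => h.1, fun h => ⟨h, h5⟩⟩
      rw [Nat.card_congr e, ← hc]
      exact h5
    · left
      intro a ha
      exact h5 ha.2
  · intro j
    have hmv := S.moved_points hD hop j
    by_cases h5 : 5 ≤ c j
    · have e : {a : Fin (N j) // (⟨j, a⟩ : Σ j, Fin (N j)) ∉
          {y : Σ j, Fin (N j) | ¬ S.Moved D y.1 y.2 ∧ 5 ≤ c y.1}} ≃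
          {a : Fin (N j) // S.Moved D j a} :=
        Equiv.subtypeEquivRight fun a => ⟨fun h => by
          by_contra h'
          exact h ⟨h', h5⟩, fun h h' => h'.1 h⟩
      rw [Nat.card_congr e]
      omega
    · have h1 : Nat.card {a : Fin (N j) // (⟨j, a⟩ : Σ j, Fin (N j)) ∉
          {y : Σ j, Fin (N j) | ¬ S.Moved D y.1 y.2 ∧ 5 ≤ c y.1}} ≤ N j := by
        have := Nat.card_le_card_of_injective (fun a : {a : Fin (N j) //
          (⟨j, a⟩ : Σ j, Fin (N j)) ∉ {y : Σ j, Fin (N j) | ¬ S.Moved D y.1 y.2 ∧ 5 ≤ c y.1}} =>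
          a.1) Subtype.val_injective
        rwa [Nat.card_eq_fintype_card (α := Fin (N j)), Fintype.card_fin] at this
      have h2 : N j = Nat.card {a : Fin (N j) // S.Moved D j a} + c j := by
        rw [hc, ← Nat.card_sum, Nat.card_congr (Equiv.sumCompl fun a => S.Moved D j a),
          Nat.card_eq_fintype_card, Fintype.card_fin]
      omega

end AltData

end Vale.Agent.P180.R2.H12
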