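import Vale.Agent.P180.R2.H12.Tm
import Vale.Agent.P180.R2.H12.Hop
import Mathlib.GroupTheory.NoncommPiCoprod

/-!
P180 R2 H12: pairwise commuting subgroups permuted by a `p`-group; the Brauer map on products of
conjugates.
-/

namespace Vale.Agent.P180.R2.H12

open Equiv Vale.Agent.P180 Vale.Agent.P180.H768.Gd

/-- Pairwise commuting subgroups, permuted by `E`. -/
structure Fam (G : Type*) [Group G] (r : ℕ) (E : Subgroup G) where
  A : Fin r → Subgroup G
  σ : E →* Perm (Fin r)
  comm : ∀ i j, i ≠ j → ∀ x ∈ A i, ∀ y ∈ A j, x * y = y * x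
  conj : ∀ (g : E) (j : Fin r), ∀ x ∈ A j, (g : G) * x * (g : G)⁻¹ ∈ A (σ g j)

namespace Fam

variable {G : Type*} [Group G] {r : ℕ} {D : Subgroup G} (F : Fam G r D)

/-- The restriction to a smaller group. -/
def res {G : Type*} [Group G] {r : ℕ} {E : Subgroup G} (F : Fam G r E) {D : Subgroup G}
    (h : D ≤ E) : Fam G r D where
  A := F.A
  σ := F.σ.comp (Subgroup.inclusion h)
  comm := F.comm
  conj := fun g j x hx => F.conj (Subgroup.inclusion h g) j x hx

theorem σ_mul (g h : D) (j : Fin r) : F.σ (g * h) j = F.σ g (F.σ h j) := by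
  rw [map_mul, Perm.mul_apply]

theorem σ_one (j : Fin r) : F.σ 1 j = j := by rw [map_one, Perm.one_apply]

/-- The multiplication map. -/
def μ : (∀ j, F.A j) →* G :=
  Subgroup.noncommPiCoprod (H := F.A) (fun i j hij x y hx hy => F.comm i j hij x hx y hy)

theorem μ_single (j : Fin r) (x : F.A j) : F.μ (Pi.mulSingle j x) = x :=
  Subgroup.noncommPiCoprod_mulSingle j x

theorem val_congr (τ : ∀ j, F.A j) {i j : Fin r} (h : i = j) : (τ i : G) = τ j := by
  subst h
  rfl

theorem single_val (j : Fin r) (x : F.A j) (i : Fin r) :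
    ((Pi.mulSingle (M := fun j => F.A j) j x : ∀ j, F.A j) i : G) = if i = j then (x : G) else 1 := by
  by_cases h : i = j
  · subst h
    rw [Pi.mulSingle_eq_same, if_pos rfl]
  · rw [Pi.mulSingle_eq_of_ne h, if_neg h]
    rfl

theorem conj' (g : D) (i : Fin r) {x : G} (hx : x ∈ F.A (F.σ g⁻¹ i)) :
    (g : G) * x * (g : G)⁻¹ ∈ F.A i := by
  have h := F.conj g _ x hx
  rwa [← F.σ_mul, mul_inv_cancel, F.σ_one] at h

/-- The action on the direct product. -/
def th (g : D) : (∀ j, F.A j) →* (∀ j, F.A j) where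
  toFun τ := fun i => ⟨(g : G) * τ (F.σ g⁻¹ i) * (g : G)⁻¹, F.conj' g i (τ _).2⟩
  map_one' := by
    funext i
    apply Subtype.ext
    change (g : G) * 1 * (g : G)⁻¹ = 1
    rw [mul_one, mul_inv_cancel]
  map_mul' := by
    intro τ τ'
    funext i
    apply Subtype.ext
    change (g : G) * (τ (F.σ g⁻¹ i) * τ' (F.σ g⁻¹ i)) * (g : G)⁻¹ =
      (g : G) * τ (F.σ g⁻¹ i) * (g : G)⁻¹ * ((g : G) * τ' (F.σ g⁻¹ i) * (g : G)⁻¹)
    group

theorem th_val (g : D) (τ : ∀ j, F.A j) (i : Fin r) :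
    (F.th g τ i : G) = (g : G) * τ (F.σ g⁻¹ i) * (g : G)⁻¹ := rfl

theorem th_val' (g : D) (τ : ∀ j, F.A j) (i : Fin r) :
    (F.th g τ (F.σ g i) : G) = (g : G) * τ i * (g : G)⁻¹ := by
  rw [th_val, F.val_congr τ (show F.σ g⁻¹ (F.σ g i) = i by
    rw [← F.σ_mul, inv_mul_cancel, F.σ_one])]

theorem th_mul (g h : D) (τ : ∀ j, F.A j) : F.th (g * h) τ = F.th g (F.th h τ) := by
  funext i
  apply Subtype.ext
  rw [th_val, th_val, th_val, F.val_congr τ (show F.σ (g * h)⁻¹ i = F.σ h⁻¹ (F.σ g⁻¹ i) by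
    rw [mul_inv_rev, F.σ_mul])]
  push_cast
  group

theorem th_one (τ : ∀ j, F.A j) : F.th 1 τ = τ := by
  funext i
  apply Subtype.ext
  rw [th_val, F.val_congr τ (show F.σ (1 : D)⁻¹ i = i by rw [inv_one, F.σ_one])]
  push_cast
  group

/-- The action as a homomorphism to the group of permutations. -/
def thP : D →* Perm (∀ j, F.A j) where
  toFun g :=
    { toFun := F.th g
      invFun := F.th g⁻¹
      left_inv := fun τ => by rw [← F.th_mul, inv_mul_cancel, F.th_one]
      right_inv := fun τ => by rw [← F.th_mul, mul_inv_cancel, F.th_one] }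
  map_one' := by
    ext1 τ
    exact F.th_one τ
  map_mul' g h := by
    ext1 τ
    exact F.th_mul g h τ

theorem μ_th (g : D) (τ : ∀ j, F.A j) : F.μ (F.th g τ) = (g : G) * F.μ τ * (g : G)⁻¹ := by
  have h : F.μ.comp (F.th g) = (MulAut.conj (g : G)).toMonoidHom.comp F.μ := by
    refine MonoidHom.pi_ext fun j x => ?_
    rw [MonoidHom.comp_apply, MonoidHom.comp_apply, F.μ_single]
    have h1 : F.th g (Pi.mulSingle j x) =
        Pi.mulSingle (F.σ g j) (⟨(g : G) * x * (g : G)⁻¹, F.conj g j x x.2⟩ : F.A (F.σ g j)) := by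
      funext i
      apply Subtype.ext
      rw [th_val, F.single_val, F.single_val]
      by_cases hi : i = F.σ g j
      · rw [if_pos hi, if_pos]
        rw [hi, ← F.σ_mul, inv_mul_cancel, F.σ_one]
      · rw [if_neg hi, if_neg, mul_one, mul_inv_cancel]
        intro h'
        apply hi
        rw [← h', ← F.σ_mul, mul_inv_cancel, F.σ_one]
    rw [h1, F.μ_single]
    rfl
  exact DFunLike.congr_fun h τ

/-- The tuples fixed by `D`. -/
def fixed (τ : ∀ j, F.A j) : Prop := ∀ (d : D) (j : Fin r), (τ (F.σ d j) : G) = d * τ j * (d : G)⁻¹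

theorem fixed_iff (τ : ∀ j, F.A j) : F.fixed τ ↔ ∀ d : D, F.thP d τ = τ := by
  constructor
  · intro h d
    funext i
    apply Subtype.ext
    change (F.th d τ i : G) = _
    rw [th_val, ← h d, F.val_congr τ (show F.σ d (F.σ d⁻¹ i) = i by
      rw [← F.σ_mul, mul_inv_cancel, F.σ_one])]
  · intro h d j
    have h1 := congrFun (h d) (F.σ d j)
    have h2 : (F.th d τ (F.σ d j) : G) = τ (F.σ d j) := congrArg Subtype.val h1
    rw [← h2, th_val']

theorem μ_fixed {τ : ∀ j, F.A j} (h : F.fixed τ) :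
    F.μ τ ∈ Subgroup.centralizer (D : Set G) := by
  rw [mem_cent]
  intro d hd
  have h1 := (F.fixed_iff τ).mp h ⟨d, hd⟩
  have h2 := F.μ_th ⟨d, hd⟩ τ
  have h3 : F.th ⟨d, hd⟩ τ = τ := h1
  rw [h3] at h2
  exact h2.symm

/-- The stabiliser of `j`. -/
def st (j : Fin r) : Subgroup G where
  carrier := {x | ∃ d : D, F.σ d j = j ∧ (d : G) = x}
  one_mem' := ⟨1, F.σ_one j, rfl⟩
  mul_mem' := by
    rintro _ _ ⟨d, hd, rfl⟩ ⟨e, he, rfl⟩
    exact ⟨d * e, by rw [F.σ_mul, he, hd], rfl⟩
  inv_mem' := by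
    rintro _ ⟨d, hd, rfl⟩
    refine ⟨d⁻¹, ?_, rfl⟩
    rw [map_inv, Perm.inv_eq_iff_eq, hd]

theorem mem_st {j : Fin r} {x : G} : x ∈ F.st j ↔ ∃ d : D, F.σ d j = j ∧ (d : G) = x := Iff.rfl

theorem st_le (j : Fin r) : F.st j ≤ D := by
  rintro _ ⟨d, -, rfl⟩
  exact d.2

theorem fixed_cent {τ : ∀ j, F.A j} (h : F.fixed τ) (j : Fin r) :
    (τ j : G) ∈ Subgroup.centralizer (F.st j : Set G) := by
  rw [mem_cent]
  rintro _ ⟨d, hd, rfl⟩
  rw [← h d j, F.val_congr τ hd]

/-- The orbit of `j`. -/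
def orb (j : Fin r) : Set (Fin r) := {i | ∃ d : D, F.σ d j = i}

theorem self_mem_orb (j : Fin r) : j ∈ F.orb j := ⟨1, F.σ_one j⟩

theorem orb_eq {i j : Fin r} (h : i ∈ F.orb j) : F.orb i = F.orb j := by
  obtain ⟨d, rfl⟩ := h
  ext l
  constructor
  · rintro ⟨e, rfl⟩
    exact ⟨e * d, F.σ_mul e d j⟩
  · rintro ⟨e, rfl⟩
    exact ⟨e * d⁻¹, by rw [← F.σ_mul, inv_mul_cancel_right]⟩

theorem σ_mem_orb (d : D) {i j : Fin r} : F.σ d i ∈ F.orb j ↔ i ∈ F.orb j := by
  constructor
  · rintro ⟨e, he⟩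
    exact ⟨d⁻¹ * e, by rw [F.σ_mul, he, ← F.σ_mul, inv_mul_cancel, F.σ_one]⟩
  · rintro ⟨e, rfl⟩
    exact ⟨d * e, F.σ_mul d e j⟩

theorem orb_σ (d : D) (j : Fin r) : F.orb (F.σ d j) = F.orb j := F.orb_eq ⟨d, rfl⟩

theorem orb_card [Finite G] {p : ℕ} [Fact p.Prime] (hD : IsPGroup p D) (j : Fin r) :
    ∃ m : ℕ, Nat.card (F.orb j) = p ^ m := by
  let _ : MulAction D (Fin r) :=
    { smul := fun d i => F.σ d i
      one_smul := fun i => F.σ_one i
      mul_smul := fun d e i => F.σ_mul d e i }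
  obtain ⟨m, hm⟩ := hD.card_orbit j
  refine ⟨m, ?_⟩
  rw [← hm]
  congr 1

variable {k : Type*} [Field k]

/-- Restriction of the support to a subgroup, as an element of its group algebra. -/
noncomputable def _root_.Vale.Agent.P180.R2.H12.rst [Finite G] (B : Subgroup G)
    (a : MonoidAlgebra k G) : MonoidAlgebra k B := ofFun fun x => a.coeff (x : G)

theorem _root_.Vale.Agent.P180.R2.H12.rst_coeff [Finite G] (B : Subgroup G)
    (a : MonoidAlgebra k G) (x : B) : (rst B a).coeff x = a.coeff (x : G) := rfl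

theorem _root_.Vale.Agent.P180.R2.H12.rst_incl [Finite G] (B : Subgroup G)
    (a : MonoidAlgebra k B) : rst B (incl k B a) = a := by
  apply ext_coeff
  intro x
  rw [rst_coeff, incl_coeff]

theorem _root_.Vale.Agent.P180.R2.H12.incl_rst [Finite G] {B : Subgroup G}
    {a : MonoidAlgebra k G} (ha : a ∈ SubAlg k B) : incl k B (rst B a) = a := by
  obtain ⟨a', rfl⟩ := exists_incl B ha
  rw [rst_incl]

theorem _root_.Vale.Agent.P180.R2.H12.rst_mul [Finite G] {B : Subgroup G}
    {a b : MonoidAlgebra k G} (ha : a ∈ SubAlg k B) (hb : b ∈ SubAlg k B) :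
    rst B (a * b) = rst B a * rst B b := by
  obtain ⟨a', rfl⟩ := exists_incl B ha
  obtain ⟨b', rfl⟩ := exists_incl B hb
  rw [← map_mul, rst_incl, rst_incl, rst_incl]

theorem _root_.Vale.Agent.P180.R2.H12.rst_one [Finite G] (B : Subgroup G) :
    rst B (1 : MonoidAlgebra k G) = 1 := by
  rw [← map_one (incl k B), rst_incl]

/-- The product of the elements of a family. -/
noncomputable def prd {r : ℕ} (h : Fin r → MonoidAlgebra k G) : MonoidAlgebra k G :=
  ((List.finRange r).map h).prod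

theorem _root_.Vale.Agent.P180.R2.H12.Ti_list' {J : Type*} [Fintype J] [DecidableEq J]
    {H : J → Type*} [∀ j, Group (H j)]
    [∀ j, Finite (H j)] (f : ∀ j, MonoidAlgebra k (H j)) (l : List J) (hl : l.Nodup) :
    (l.map fun j => Ti j (f j)).prod = T (fun j => if j ∈ l then f j else 1) := by
  induction l with
  | nil =>
    rw [List.map_nil, List.prod_nil, ← T_one]
    congr 1
  | cons i l ih =>
    rw [List.map_cons, List.prod_cons, ih hl.of_cons, Ti_mul_T]
    congr 1
    funext j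
    by_cases hj : j = i
    · subst hj
      rw [Function.update_self, if_neg (List.nodup_cons.mp hl).1, mul_one,
        if_pos List.mem_cons_self]
    · rw [Function.update_of_ne hj]
      by_cases h : j ∈ l
      · rw [if_pos h, if_pos (List.mem_cons_of_mem _ h)]
      · rw [if_neg h, if_neg]
        intro h'
        rcases List.mem_cons.mp h' with h'' | h''
        · exact hj h''
        · exact h h''

variable [Finite G]

theorem μ_Ti (j : Fin r) (a : MonoidAlgebra k (F.A j)) :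
    tm (RingHom.id k) F.μ (Ti j a) = incl k (F.A j) a := by
  induction a using MonoidAlgebra.induction_linear with
  | zero =>
    have h := Ti_sum (k := k) (H := fun j => F.A j) j (∅ : Finset ℕ) (fun _ => 0)
    rw [Finset.sum_empty, Finset.sum_empty] at h
    rw [map_zero, h, map_zero]
  | add a b ha hb =>
    rw [map_add, ← ha, ← hb, Ti, Ti, Ti, T_update_add, map_add]
  | single x c =>
    rw [Ti_single, tm_single, F.μ_single, incl_single]
    rfl

/-- The element of the group algebra of the direct product. -/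
noncomputable def U (h : Fin r → MonoidAlgebra k G) : MonoidAlgebra k (∀ j, F.A j) :=
  T fun j => rst (F.A j) (h j)

theorem U_coeff (h : Fin r → MonoidAlgebra k G) (τ : ∀ j, F.A j) :
    (F.U h).coeff τ = ∏ j, (h j).coeff (τ j : G) := rfl

theorem μ_U {h : Fin r → MonoidAlgebra k G} (hh : ∀ j, h j ∈ SubAlg k (F.A j)) :
    tm (RingHom.id k) F.μ (F.U h) = prd h := by
  have h1 := Ti_list' (fun j => rst (F.A j) (h j)) (List.finRange r) (List.nodup_finRange _)
  have h2 : (T fun j => if j ∈ List.finRange r then rst (F.A j) (h j) else 1) = F.U h := by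
    unfold U
    congr 1
    funext j
    exact if_pos (List.mem_finRange j)
  rw [h2] at h1
  rw [← h1, map_list_prod, List.map_map, prd]
  congr 1
  refine List.map_congr_left fun j _ => ?_
  change tm (RingHom.id k) F.μ (Ti j (rst (F.A j) (h j))) = _
  rw [F.μ_Ti, incl_rst (hh j)]

theorem U_mul {g h : Fin r → MonoidAlgebra k G} (hg : ∀ j, g j ∈ SubAlg k (F.A j))
    (hh : ∀ j, h j ∈ SubAlg k (F.A j)) : F.U g * F.U h = F.U fun j => g j * h j := by
  unfold U
  rw [T_mul]
  congr 1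
  funext j
  rw [rst_mul (hg j) (hh j)]

theorem prd_mul {g h : Fin r → MonoidAlgebra k G} (hg : ∀ j, g j ∈ SubAlg k (F.A j))
    (hh : ∀ j, h j ∈ SubAlg k (F.A j)) : prd g * prd h = prd fun j => g j * h j := by
  rw [← F.μ_U hg, ← F.μ_U hh, ← map_mul, F.U_mul hg hh, F.μ_U]
  exact fun j => Subalgebra.mul_mem _ (hg j) (hh j)

/-- Equivariant families. -/
def Eqv (h : Fin r → MonoidAlgebra k G) : Prop :=
  ∀ (d : D) (j : Fin r), cj k G (d : G) (h j) = h (F.σ d j)

theorem U_inv {h : Fin r → MonoidAlgebra k G} (he : F.Eqv h) (d : D) (τ : ∀ j, F.A j) :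
    (F.U h).coeff (F.th d τ) = (F.U h).coeff τ := by
  rw [U_coeff, U_coeff, ← Equiv.prod_comp (F.σ d)]
  refine Finset.prod_congr rfl fun j _ => ?_
  rw [F.th_val', ← he d j, cj_coeff]
  congr 1
  group

end Fam

variable {k : Type*} [Field k]

theorem tm_coeff_eq_sum {P A : Type*} [Group P] [Group A] [Fintype P] [DecidableEq A]
    (f : P →* A) (a : MonoidAlgebra k P) (x : A) :
    (tm (RingHom.id k) f a).coeff x = ∑ y : P, if f y = x then a.coeff y else 0 := by
  classical
  induction a using MonoidAlgebra.induction_linear with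
  | zero =>
    rw [map_zero]
    symm
    apply Finset.sum_eq_zero
    intro y _
    by_cases h : f y = x
    · rw [if_pos h]; rfl
    · rw [if_neg h]
  | add a b ha hb =>
    rw [map_add, MonoidAlgebra.coeff_add, Finsupp.add_apply, ha, hb, ← Finset.sum_add_distrib]
    refine Finset.sum_congr rfl fun y _ => ?_
    by_cases h : f y = x
    · rw [if_pos h, if_pos h, if_pos h, MonoidAlgebra.coeff_add, Finsupp.add_apply]
    · rw [if_neg h, if_neg h, if_neg h, add_zero]
  | single z c =>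
    rw [tm_single, coeff_single, Finset.sum_eq_single z]
    · rw [coeff_single, if_pos rfl]
      rfl
    · intro y _ hy
      by_cases h : f y = x
      · rw [if_pos h, coeff_single, if_neg (fun h => hy h.symm)]
      · rw [if_neg h]
    · intro h
      exact absurd (Finset.mem_univ z) h

namespace Fam

variable {G : Type*} [Group G] [Finite G] {r : ℕ} {D : Subgroup G} (F : Fam G r D)

theorem prd_fix {h : Fin r → MonoidAlgebra k G} (hh : ∀ j, h j ∈ SubAlg k (F.A j))
    (he : F.Eqv h) : prd h ∈ Fix (cj k G) D := by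
  classical
  have _ := Fintype.ofFinite (∀ j, F.A j)
  rw [← F.μ_U hh]
  intro d hd
  apply ext_coeff
  intro x
  rw [cj_coeff, tm_coeff_eq_sum, tm_coeff_eq_sum]
  refine (Fintype.sum_bijective (F.thP ⟨d, hd⟩) (F.thP ⟨d, hd⟩).bijective _ _ fun τ => ?_)
  change _ = if F.μ (F.th ⟨d, hd⟩ τ) = x then (F.U h).coeff (F.th ⟨d, hd⟩ τ) else 0
  rw [F.μ_th, F.U_inv he]
  have h1 : F.μ τ = d⁻¹ * x * d ↔ d * F.μ τ * d⁻¹ = x := by
    constructor
    · intro h
      rw [h]; group
    · intro h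
      rw [← h]; group
  by_cases h2 : F.μ τ = d⁻¹ * x * d
  · rw [if_pos h2, if_pos (h1.mp h2)]
  · rw [if_neg h2, if_neg fun h3 => h2 (h1.mpr h3)]

open scoped Classical in
/-- The Brauer map on a product of an equivariant family. -/
theorem br_prd {p : ℕ} [Fact p.Prime] [CharP k p] (hD : IsPGroup p D)
    [Fintype (∀ j, F.A j)] {h : Fin r → MonoidAlgebra k G}
    (hh : ∀ j, h j ∈ SubAlg k (F.A j)) (he : F.Eqv h) (x : G) :
    (br D (prd h)).coeff x =
      ∑ τ : ∀ j, F.A j, if F.fixed τ ∧ F.μ τ = x then ∏ j, (h j).coeff (τ j : G) else 0 := by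
  rw [br_coeff, ← F.μ_U hh, tm_coeff_eq_sum]
  by_cases hx : x ∈ Subgroup.centralizer (D : Set G)
  · rw [if_pos hx, sum_fixed hD F.thP _ ?_ (fun τ => F.fixed τ) F.fixed_iff]
    · refine Finset.sum_congr rfl fun τ _ => ?_
      by_cases h1 : F.fixed τ
      · rw [if_pos h1]
        by_cases h2 : F.μ τ = x
        · rw [if_pos h2, if_pos ⟨h1, h2⟩]
          rfl
        · rw [if_neg h2, if_neg fun h => h2 h.2]
      · rw [if_neg h1, if_neg fun h => h1 h.1]
    · intro d τ
      change (if F.μ (F.th d τ) = x then (F.U h).coeff (F.th d τ) else 0) = _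
      rw [F.μ_th, F.U_inv he]
      have h1 : F.μ τ = x ↔ (d : G) * F.μ τ * (d : G)⁻¹ = x := by
        have h3 := mem_cent.mp hx d d.2
        constructor
        · intro h
          rw [h, h3]
        · intro h
          have h4 : F.μ τ = (d : G)⁻¹ * x * d := by rw [← h]; group
          rw [h4]
          have h5 := mem_cent.mp hx (d : G)⁻¹ (D.inv_mem d.2)
          rwa [inv_inv] at h5
      by_cases h2 : F.μ τ = x
      · rw [if_pos h2, if_pos (h1.mp h2)]
      · rw [if_neg h2, if_neg fun h3 => h2 (h1.mpr h3)]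
  · rw [if_neg hx]
    symm
    apply Finset.sum_eq_zero
    intro τ _
    rw [if_neg]
    rintro ⟨h1, rfl⟩
    exact hx (F.μ_fixed h1)

end Fam

end Vale.Agent.P180.R2.H12
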