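import Vale.Agent.P180.R2.H12.R5
import Vale.Agent.P180.R2.H365.Itf

/-!
P180 R2 H12: the local idempotent, in the common notation.
-/

namespace Vale.Agent.P180.R2.H12

open Equiv Vale.Agent.P180 Vale.Agent.P180.H768.Gd Vale.Agent.P180.R2.H47
open Vale.Agent.P180.R2.H365 (altF OneF emb up FixF)

section Conv

variable {G : Type} [Group G] (𝒜 : AltStr G)

theorem N_pos (j : Fin 𝒜.r) : 0 < 𝒜.N j := lt_of_lt_of_le (by decide) (𝒜.big j)

/-- the action on the factors -/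
def act (g : G) (j : Fin 𝒜.r) : Fin 𝒜.r := (𝒜.ρ g ⟨j, ⟨0, N_pos 𝒜 j⟩⟩).1

theorem act_eq (g : G) (y : Σ j, Fin (𝒜.N j)) : (𝒜.ρ g y).1 = act 𝒜 g y.1 := 𝒜.blk g y.1 _ _

theorem act_mul (g h : G) (j : Fin 𝒜.r) : act 𝒜 (g * h) j = act 𝒜 g (act 𝒜 h j) := by
  have h1 : act 𝒜 (g * h) j = (𝒜.ρ g (𝒜.ρ h ⟨j, ⟨0, N_pos 𝒜 j⟩⟩)).1 := by
    rw [act, map_mul, Perm.mul_apply]
  rw [h1, act_eq]
  rfl

theorem act_one (j : Fin 𝒜.r) : act 𝒜 1 j = j := by
  rw [act, map_one, Perm.one_apply]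

/-- the action on the factors, as a homomorphism -/
def actHom : G →* Perm (Fin 𝒜.r) where
  toFun g :=
    { toFun := act 𝒜 g
      invFun := act 𝒜 g⁻¹
      left_inv := fun j => by rw [← act_mul, inv_mul_cancel, act_one]
      right_inv := fun j => by rw [← act_mul, mul_inv_cancel, act_one] }
  map_one' := by
    ext1 j
    exact act_one 𝒜 j
  map_mul' g h := by
    ext1 j
    exact act_mul 𝒜 g h j

/-- Conversion to `AltData`. -/
def toData : AltData G 𝒜.r 𝒜.N where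
  ι := 𝒜.ι
  inj := by
    intro x y h
    have h1 : 𝒜.ρ (𝒜.ι x) = 𝒜.ρ (𝒜.ι y) := by rw [h]
    rw [𝒜.ρι, 𝒜.ρι] at h1
    funext j
    apply Subtype.ext
    ext1 a
    have h2 := congrFun (congrArg DFunLike.coe h1) ⟨j, a⟩
    simpa using h2
  conj := fun g τ => 𝒜.nrm.conj_mem _ ⟨τ, rfl⟩ g
  ρ := 𝒜.ρ
  σ := actHom 𝒜
  ρ_fst := act_eq 𝒜
  ρ_ι := by
    intro τ a
    rw [𝒜.ρι]
    rfl

end Conv

section Prod

variable {k : Type*} [Field k]

theorem Ti_list {J : Type*} [Fintype J] [DecidableEq J] {H : J → Type*} [∀ j, Group (H j)]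
    [∀ j, Finite (H j)] (f : ∀ j, MonoidAlgebra k (H j)) (l : List J) (hl : l.Nodup) :
    (l.map fun j => Ti j (f j)).prod = T (fun j => if j ∈ l then f j else 1) := by
  induction l with
  | nil =>
    rw [List.map_nil, List.prod_nil, ← T_one]
    congr 1
  | cons i l ih =>
    rw [List.map_cons, List.prod_cons, ih hl.of_cons, Ti_mul_T]
    congr 1
    funext j
    by_cases hj : j = i
    · subst hj
      rw [Function.update_self, if_neg (List.nodup_cons.mp hl).1, mul_one,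
        if_pos List.mem_cons_self]
    · rw [Function.update_of_ne hj]
      by_cases h : j ∈ l
      · rw [if_pos h, if_pos (List.mem_cons_of_mem _ h)]
      · rw [if_neg h, if_neg]
        intro h'
        rcases List.mem_cons.mp h' with h'' | h''
        · exact hj h''
        · exact h h''

variable {G : Type} [Group G] (𝒜 : AltStr G)

theorem up_eq (j : Fin 𝒜.r) (a : MonoidAlgebra k (alternatingGroup (Fin (𝒜.N j)))) :
    up k 𝒜 j a = tm (RingHom.id k) 𝒜.ι (Ti j a) := by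
  induction a using MonoidAlgebra.induction_linear with
  | zero =>
    have h := Ti_sum (k := k) (H := fun j => alternatingGroup (Fin (𝒜.N j))) j
      (∅ : Finset ℕ) (fun _ => 0)
    rw [Finset.sum_empty, Finset.sum_empty] at h
    rw [map_zero, h, map_zero]
  | add a b ha hb =>
    rw [map_add, ha, hb, Ti, Ti, Ti, T_update_add, map_add]
  | single x c =>
    rw [Ti_single, tm_single]
    simp [up, emb]

theorem pr_eq (f : ∀ j, MonoidAlgebra k (alternatingGroup (Fin (𝒜.N j)))) :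
    H365.pr 𝒜 f = tm (RingHom.id k) 𝒜.ι (T f) := by
  have h1 := Ti_list f (List.finRange 𝒜.r) (List.nodup_finRange _)
  have h2 : (T fun j => if j ∈ List.finRange 𝒜.r then f j else 1) = T f := by
    congr 1
    funext j
    exact if_pos (List.mem_finRange j)
  rw [h2] at h1
  rw [← h1, map_list_prod, List.map_map, H365.pr]
  congr 1
  refine List.map_congr_left fun j _ => ?_
  rw [up_eq]
  rfl

end Prod

/-- **R4 and R5.** -/
theorem exists_pr {n : ℕ} {p : ℕ} [Fact p.Prime] {k : Type*} [Field k] [CharP k p]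
    [IsAlgClosed k] {G : Type} [Group G] [Finite G] (𝒜 : AltStr G) {D : Subgroup G}
    (hD : IsPGroup p D) (hDn : Nat.card D ≤ n) {a b : MonoidAlgebra k G}
    (ha : a ∈ Fix (cj k G) D) (hb : b * b = b) (hba : b = tr (cj k G) D ⊤ a) (hne : br D b ≠ 0) :
    ∃ (F : ∀ j, Finset (Fin (𝒜.N j)))
      (f e : ∀ j, MonoidAlgebra k (alternatingGroup (Fin (𝒜.N j)))),
      (∀ j, (F j)ᶜ.card ≤ n * n + 4) ∧ (∀ j, F j = ∅ ∨ 5 ≤ (F j).card) ∧ FixF 𝒜 D F ∧
      (∀ j, OneF (F j) (f j)) ∧ (∀ j, Loc k (altF (F j)) (e j) (f j)) ∧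
      H365.pr 𝒜 f ∈ Fix (cj k G) D ∧ br D (H365.pr 𝒜 f * b) ≠ 0 := by
  classical
  have hbF : b ∈ Fix (cj k G) ⊤ := by rw [hba]; exact tr_mem_Fix ha
  obtain ⟨F, hF1, hF2, hF3, hF4⟩ := (toData 𝒜).exists_F hD (hop hD ha hb hba hne)
  obtain ⟨e, h, hL, hfix, hbr⟩ := AltData.exists_f hD ha hb hba hne hF1 hF2
  have hFF : ∀ j, altF (Finset.univ.filter fun a : Fin (𝒜.N j) =>
      (⟨j, a⟩ : Σ j, Fin (𝒜.N j)) ∈ F) = AltData.AF F j := by
    intro j
    ext τ
    constructor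
    · intro hτ a ha
      exact hτ a fun h => ha (Finset.mem_filter.mp h).2
    · intro hτ a ha
      exact hτ a fun h => ha (Finset.mem_filter.mpr ⟨Finset.mem_univ _, h⟩)
  have hLoc : ∀ j, Loc k (altF (Finset.univ.filter fun a : Fin (𝒜.N j) =>
      (⟨j, a⟩ : Σ j, Fin (𝒜.N j)) ∈ F)) (e j) (h j) := by
    intro j
    rw [hFF]
    exact hL j
  refine ⟨fun j => Finset.univ.filter fun a => (⟨j, a⟩ : Σ j, Fin (𝒜.N j)) ∈ F, h, e, ?_, ?_, ?_,
    ?_, hLoc, ?_, ?_⟩
  · intro j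
    have h1 := hF4 j
    have h2 : (Finset.univ.filter fun a : Fin (𝒜.N j) => (⟨j, a⟩ : Σ j, Fin (𝒜.N j)) ∈ F)ᶜ.card =
        Nat.card {a : Fin (𝒜.N j) // (⟨j, a⟩ : Σ j, Fin (𝒜.N j)) ∉ F} := by
      rw [Nat.card_eq_fintype_card, Fintype.card_subtype]
      congr 1
      ext a
      simp
    rw [h2]
    exact h1.trans (Nat.add_le_add_right (Nat.mul_le_mul hDn hDn) 4)
  · intro j
    rcases hF3 j with h1 | h1
    · left
      rw [Finset.filter_eq_empty_iff]
      intro a _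
      exact h1 a
    · right
      rw [← Fintype.card_subtype, ← Nat.card_eq_fintype_card]
      exact h1
  · intro g hg j x hx hj
    have hx' := (Finset.mem_filter.mp hx).2
    refine hF2 g hg _ hx' ?_
    change act 𝒜 g j = j
    rw [← act_eq 𝒜 g ⟨j, x⟩]
    exact hj
  · intro j
    exact ⟨(hLoc j).mem, (hLoc j).idem, (hLoc j).corner⟩
  · rw [pr_eq]
    exact hfix
  · rw [pr_eq, commute_of_mem (SubAlg_top _) hbF]
    exact hbr

end Vale.Agent.P180.R2.H12
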