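import Vale.Agent.P180.R2.H12.CovA

/-!
P180 R2 H12: fullness for one factor.
-/

namespace Vale.Agent.P180.R2.H12

open Equiv Vale.Agent.P180 Vale.Agent.P180.H768.Gd

section Full

variable {k : Type*} [Field k] {p : ℕ} [Fact p.Prime] [CharP k p] {G : Type*} [Group G] [Finite G]

omit [Fact p.Prime] [CharP k p] [Finite G] in
theorem br_mem_inf {S R : Subgroup G} {e : MonoidAlgebra k G} (he : e ∈ SubAlg k S) :
    br R e ∈ SubAlg k (S ⊓ Subgroup.centralizer (R : Set G)) := by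
  classical
  intro x hx
  rw [br_coeff] at hx
  by_cases hxR : x ∈ Subgroup.centralizer (R : Set G)
  · rw [if_pos hxR] at hx
    exact ⟨he x hx, hxR⟩
  · exact absurd (if_neg hxR) hx

/-- **Fullness.** -/
theorem full_of_cent [IsAlgClosed k] {S R A : Subgroup G} (hR : IsPGroup p R) (hAS : A ≤ S)
    (hAR : ∀ d ∈ R, ∀ x ∈ A, d * x = x * d)
    (hN : ∀ g ∈ Subgroup.normalizer (R : Set G), ∀ x ∈ A, g * x * g⁻¹ ∈ A)
    {e z : MonoidAlgebra k G} (he : e * e = e) (heS : e ∈ SubAlg k S)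
    (hz : z ∈ Fix (cj k G) R) (hez : e = tr (cj k G) R ⊤ z) :
    ∃ (m : ℕ) (β f : Fin m → MonoidAlgebra k G), (∀ l, LocG p A (β l) (f l)) ∧
      (∀ l, br R (f l * e) ≠ 0) ∧ (∀ l, f l ∈ Fix (cj k G) R) ∧
      br R e ∈ Submodule.span k (Fam.Gens k S R f) := by
  classical
  obtain ⟨hcc, hcF, haE, haF, hc⟩ := br_data hR hz he hez
  have heF : e ∈ Fix (cj k G) ⊤ := by rw [hez]; exact tr_mem_Fix hz
  have hAC : A ≤ Subgroup.centralizer (R : Set G) := by
    intro x hx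
    rw [mem_cent]
    intro d hd
    rw [hAR d hd x hx, mul_inv_cancel_right]
  have hAE : A ≤ Subgroup.normalizer (R : Set G) := hAC.trans AltData.cent_le_norm
  have hcA : ∀ x ∈ SubAlg k A, x * br R e = br R e * x := fun x hx =>
    commute_of_mem (SubAlg_mono hAE hx) hcF
  have hfixA : ∀ x ∈ SubAlg k A, x ∈ Fix (cj k G) R := fun x hx => fix_of_central hAR hx
  have hbrA : ∀ x ∈ SubAlg k A, br R x = x := fun x hx => br_of_cent (SubAlg_mono hAC hx)
  -- the blocks of `kA`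
  obtain ⟨m, β, hβ, hsum⟩ := exists_sum_prim (ZAlg k A) ZAlg_comm _ 1 (Subalgebra.one_mem _)
    (one_mul 1) rfl
  have hloc : ∀ l, β l * br R e ≠ 0 → ∃ ε, LocG p A (β l) ε := by
    intro l hl
    obtain ⟨x, hx, z', hz', hzF', hez'⟩ := covering_rel hAE Subgroup.le_normalizer
      (fun g hg x hx => hN g hg x hx) (hβ l) hcc hl haE haF hc
    have hcs : conjS x R = R := by
      ext y
      rw [mem_conjS]
      have h1 := Subgroup.mem_normalizer_iff.mp (Subgroup.inv_mem _ hx) y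
      rw [inv_inv] at h1
      exact h1.symm
    rw [hcs] at hez'
    refine exists_locG (hβ l) (hR.to_le inf_le_right : IsPGroup p (A ⊓ R : Subgroup G))
      inf_le_left ?_ ⟨z', hz', hez'⟩
    intro z hz x hx
    exact hAR z (Subgroup.mem_inf.mp hz).2 x hx
  let I := {l : Fin m // β l * br R e ≠ 0}
  have _ : Fintype I := Fintype.ofFinite I
  choose ε hε using fun l : I => hloc l.1 l.2
  let u := (Fintype.equivFin I).symm
  refine ⟨Fintype.card I, fun i => β (u i).1, fun i => ε (u i), fun i => hε (u i), ?_,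
    fun i => hfixA _ (hε (u i)).mem, ?_⟩
  · intro i h0
    rw [br_mul hR (hfixA _ (hε (u i)).mem) (Fix_top_le heF), hbrA _ (hε (u i)).mem] at h0
    apply (u i).2
    obtain ⟨n, x, y, hx, hy, hxy⟩ := (hε (u i)).full
    rw [hxy, Finset.sum_mul]
    refine Finset.sum_eq_zero fun t _ => ?_
    rw [mul_assoc, hcA _ (hy t), ← mul_assoc, mul_assoc (x t), h0, mul_zero, zero_mul]
  · have hce : br R e ∈ SubAlg k (S ⊓ Subgroup.centralizer (R : Set G)) := br_mem_inf heS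
    have hA' : ∀ x ∈ SubAlg k A, x ∈ SubAlg k (S ⊓ Subgroup.centralizer (R : Set G)) :=
      fun x hx => SubAlg_mono (le_inf hAS hAC) hx
    have hsum' : br R e = ∑ l, β l * br R e := by
      rw [← Finset.sum_mul, ← hsum, one_mul]
    rw [hsum']
    refine Submodule.sum_mem _ fun l _ => ?_
    by_cases hl : β l * br R e = 0
    · rw [hl]; exact Submodule.zero_mem _
    · obtain ⟨n, x, y, hx, hy, hxy⟩ := (hε ⟨l, hl⟩).full
      rw [hxy, Finset.sum_mul]
      refine Submodule.sum_mem _ fun t _ => Submodule.subset_span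
        ⟨Fintype.equivFin I ⟨l, hl⟩, x t, hA' _ (hx t), y t * br R e,
          Subalgebra.mul_mem _ (hA' _ (hy t)) hce, ?_⟩
      have h1 : u (Fintype.equivFin I ⟨l, hl⟩) = ⟨l, hl⟩ := Equiv.symm_apply_apply _ _
      beta_reduce
      rw [h1, hbrA _ (hε ⟨l, hl⟩).mem, mul_assoc (x t * _)]

end Full

namespace CovData

variable {G H : Type*} [Group G] [Group H] {N : Fin 1 → ℕ} {q : G →* H}
  {S : AltData H 1 N} {F : Fam G 1 ⊤} (C : CovData q S F)

/-- **The local idempotents for one cover of an alternating group.** -/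
theorem exists_one {n : ℕ} {p : ℕ} [Fact p.Prime] {k : Type*} [Field k] [CharP k p]
    [IsAlgClosed k] [Finite G] [Finite H] (C : CovData q S F) {D : Subgroup G}
    (hD : IsPGroup p D) (hDn : Nat.card D ≤ n) {a b : MonoidAlgebra k G}
    (ha : a ∈ Fix (cj k G) D) (hb : b * b = b) (hbS : b ∈ SubAlg k (F.A 0))
    (hba : b = tr (cj k G) D ⊤ a) (hne : br D b ≠ 0) :
    ∃ (Y : Set (Σ j, Fin (N j))) (m : ℕ) (β f : Fin m → MonoidAlgebra k G),
      (∀ j, (∀ a : Fin (N j), (⟨j, a⟩ : Σ j, Fin (N j)) ∉ Y) ∨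
        5 ≤ Nat.card {a : Fin (N j) // (⟨j, a⟩ : Σ j, Fin (N j)) ∈ Y}) ∧
      (∀ j, Nat.card {a : Fin (N j) // (⟨j, a⟩ : Σ j, Fin (N j)) ∉ Y} ≤ n * n + 4) ∧
      (∀ g ∈ Subgroup.normalizer (D : Set G), ∀ y ∈ Y, S.ρ (q g) y ∈ Y) ∧
      (∀ d ∈ D, ∀ y ∈ Y, S.ρ (q d) y = y) ∧
      (∀ d ∈ D, ∀ x ∈ A' q S F Y 0, d * x = x * d) ∧
      (∀ l, LocG p (A' q S F Y 0) (β l) (f l)) ∧ (∀ l, br D (f l * b) ≠ 0) ∧
      (∀ l, f l ∈ Fix (cj k G) D) ∧ br D b ∈ Submodule.span k (Fam.Gens k (F.A 0) D f) := by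
  have hb0 : b ≠ 0 := by
    rintro rfl
    apply hne
    exact br_of_cent (Subalgebra.zero_mem _)
  have hcard := C.card_orbS_le hD
    (fun V hV hVp => op_le p hVp hb hb0 ha hba) (hop hD ha hb hba hne)
  obtain ⟨Y, hY1, hY2, hY3, hY4⟩ := S.exists_F_le (hD.map q) hcard
  have hYN : ∀ g ∈ Subgroup.normalizer (D : Set G), ∀ y ∈ Y, S.ρ (q g) y ∈ Y :=
    fun g hg => hY1 _ (map_normalizer hg)
  have hYD : ∀ d ∈ D, ∀ y ∈ Y, S.ρ (q d) y = y :=
    fun d hd y hy => hY2 _ ⟨d, hd, rfl⟩ y hy (Subsingleton.elim _ _)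
  have hcent : ∀ d ∈ D, ∀ x ∈ A' q S F Y 0, d * x = x * d := fun d hd x hx =>
    C.cent_A' (Subsingleton.elim _ _) (fun y hy _ => hYD d hd y hy) hx
  obtain ⟨m, β, f, h1, h2, h3, h4⟩ := full_of_cent (S := F.A 0) (A := A' q S F Y 0) hD
    ((A'_le Y 0).trans inf_le_left) hcent
    (fun g hg x hx => by
      have h := C.conj_A' (hYN g hg) hx
      rwa [Subsingleton.elim (S.σ (q g) 0) 0] at h) hb hbS ha hba
  refine ⟨Y, m, β, f, hY3, ?_, hYN, hYD, hcent, h1, h2, h3, h4⟩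
  intro j
  refine (hY4 j).trans (Nat.add_le_add_right (Nat.mul_le_mul ?_ hDn) 4)
  exact (Nat.card_le_card_of_surjective _ (q.subgroupMap_surjective D)).trans hDn

end CovData

end Vale.Agent.P180.R2.H12
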