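import Vale.Agent.P180.R2.H12.Ten

/-!
P180 R2 H12: maps of group algebras induced by a homomorphism of groups and an automorphism of
the field.
-/

namespace Vale.Agent.P180.R2.H12

open Vale.Agent.P180 Vale.Agent.P180.KP

variable {k : Type*} [Field k] {P A : Type*} [Group P] [Group A]

/-- The map of group algebras induced by `f : P →* A` and a homomorphism `φ` of the field. -/
noncomputable def tm (φ : k →+* k) (f : P →* A) : MonoidAlgebra k P →+* MonoidAlgebra k A :=
  (MonoidAlgebra.mapDomainRingHom k f).comp (MonoidAlgebra.mapRingHom P φ)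

variable (φ : k →+* k) (f : P →* A)

theorem tm_single (x : P) (c : k) :
    tm φ f (MonoidAlgebra.single x c) = MonoidAlgebra.single (f x) (φ c) := by
  simp [tm]

theorem tm_smul (c : k) (a : MonoidAlgebra k P) : tm φ f (c • a) = φ c • tm φ f a := by
  have h1 : c • a = MonoidAlgebra.single 1 c * a := by
    rw [← one_mul a, ← smul_mul_assoc, MonoidAlgebra.one_def, MonoidAlgebra.smul_single,
      smul_eq_mul, mul_one, ← MonoidAlgebra.one_def, one_mul]
  have h2 : φ c • tm φ f a = MonoidAlgebra.single 1 (φ c) * tm φ f a := by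
    rw [← one_mul (tm φ f a), ← smul_mul_assoc, MonoidAlgebra.one_def, MonoidAlgebra.smul_single,
      smul_eq_mul, mul_one, ← MonoidAlgebra.one_def, one_mul]
  rw [h1, map_mul, tm_single, map_one, h2]

theorem tm_cj (x : P) (a : MonoidAlgebra k P) :
    tm φ f (cj k P x a) = cj k A (f x) (tm φ f a) := by
  rw [cj_eq, cj_eq, map_mul, map_mul, tm_single, tm_single, map_one, map_inv]

variable {φ f}

theorem tm_mem {Y : Subgroup P} {a : MonoidAlgebra k P} (ha : a ∈ SubAlg k Y) :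
    tm φ f a ∈ SubAlg k (Y.map f) := by
  refine SuppIn.induction (P := fun a => tm φ f a ∈ SubAlg k (Y.map f)) ha ?_ ?_ ?_
  · rw [map_zero]; exact Subalgebra.zero_mem _
  · intro a b ha hb
    rw [map_add]; exact Subalgebra.add_mem _ ha hb
  · intro x hx c
    rw [tm_smul, tm_single]
    exact Subalgebra.smul_mem _ (single_mem_SubAlg (Subgroup.mem_map_of_mem f hx) _) _

theorem tm_coeff {Y : Subgroup P} (hf : Set.InjOn f (Y : Set P)) {a : MonoidAlgebra k P}
    (ha : a ∈ SubAlg k Y) {y : P} (hy : y ∈ Y) : (tm φ f a).coeff (f y) = φ (a.coeff y) := by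
  classical
  refine SuppIn.induction (P := fun a => (tm φ f a).coeff (f y) = φ (a.coeff y)) ha ?_ ?_ ?_
  · rw [map_zero]; exact (map_zero φ).symm
  · intro a b ha hb
    rw [map_add, MonoidAlgebra.coeff_add, Finsupp.add_apply, ha, hb, MonoidAlgebra.coeff_add,
      Finsupp.add_apply, map_add]
  · intro x hx c
    rw [tm_smul, tm_single, MonoidAlgebra.coeff_smul, Finsupp.smul_apply, MonoidAlgebra.coeff_smul,
      Finsupp.smul_apply, coeff_single, coeff_single, smul_eq_mul, smul_eq_mul, map_mul]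
    congr 1
    by_cases h : x = y
    · rw [if_pos h, if_pos (by rw [h])]
    · rw [if_neg h, if_neg fun h' => h (hf hx hy h'), map_zero]

theorem tm_coeff_of_notMem {Y : Subgroup P} {a : MonoidAlgebra k P}
    (ha : a ∈ SubAlg k Y) {x : A} (hx : x ∉ Y.map f) : (tm φ f a).coeff x = 0 := by
  by_contra h
  exact hx (tm_mem ha x h)

theorem tm_surj (hφ : Function.Surjective φ) {Y : Subgroup P} {b : MonoidAlgebra k A}
    (hb : b ∈ SubAlg k (Y.map f)) : ∃ a ∈ SubAlg k Y, tm φ f a = b := by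
  refine SuppIn.induction (P := fun b => ∃ a ∈ SubAlg k Y, tm φ f a = b) hb ?_ ?_ ?_
  · exact ⟨0, Subalgebra.zero_mem _, map_zero _⟩
  · rintro _ _ ⟨a, ha, rfl⟩ ⟨a', ha', rfl⟩
    exact ⟨a + a', Subalgebra.add_mem _ ha ha', map_add _ _ _⟩
  · rintro _ ⟨x, hx, rfl⟩ c
    obtain ⟨c', rfl⟩ := hφ c
    refine ⟨c' • MonoidAlgebra.single x 1, Subalgebra.smul_mem _ (single_mem_SubAlg hx 1) _, ?_⟩
    rw [tm_smul, tm_single, map_one]

theorem tm_inj {Y : Subgroup P} (hf : Set.InjOn f (Y : Set P)) {a b : MonoidAlgebra k P}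
    (ha : a ∈ SubAlg k Y) (hb : b ∈ SubAlg k Y) (h : tm φ f a = tm φ f b) : a = b := by
  apply ext_coeff
  intro x
  by_cases hx : x ∈ Y
  · apply φ.injective
    rw [← tm_coeff hf ha hx, ← tm_coeff hf hb hx, h]
  · have h1 : a.coeff x = 0 := by
      by_contra h'
      exact hx (ha x h')
    have h2 : b.coeff x = 0 := by
      by_contra h'
      exact hx (hb x h')
    rw [h1, h2]

theorem cj_mem_SubAlg' {Y : Subgroup P} {y : P} (hy : y ∈ Y) {a : MonoidAlgebra k P}
    (ha : a ∈ SubAlg k Y) : cj k P y a ∈ SubAlg k Y :=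
  SuppIn.conj ha y fun _ hs => Y.mul_mem (Y.mul_mem hy hs) (Y.inv_mem hy)

theorem tm_ZAlg_iff {Y : Subgroup P} (hf : Set.InjOn f (Y : Set P)) {a : MonoidAlgebra k P}
    (ha : a ∈ SubAlg k Y) : tm φ f a ∈ ZAlg k (Y.map f) ↔ a ∈ ZAlg k Y := by
  rw [mem_ZAlg, mem_ZAlg]
  constructor
  · rintro ⟨-, h⟩
    refine ⟨ha, fun y hy => ?_⟩
    apply tm_inj (φ := φ) hf (cj_mem_SubAlg' hy ha) ha
    rw [tm_cj]
    exact h _ ⟨y, hy, rfl⟩
  · rintro ⟨-, h⟩
    refine ⟨tm_mem ha, ?_⟩
    rintro _ ⟨y, hy, rfl⟩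
    rw [← tm_cj, h y hy]

theorem tm_block_iff (hφ : Function.Surjective φ) {Y : Subgroup P}
    (hf : Set.InjOn f (Y : Set P)) {e : MonoidAlgebra k P} (he : e ∈ SubAlg k Y) :
    IsBlockOf (Y.map f) (tm φ f e) ↔ IsBlockOf Y e := by
  constructor
  · intro h
    refine ⟨(tm_ZAlg_iff hf he).mp h.mem, ?_, ?_, ?_⟩
    · apply tm_inj (φ := φ) hf (Subalgebra.mul_mem _ he he) he
      rw [map_mul]
      exact h.idem
    · intro h0
      apply h.ne_zero
      rw [h0, map_zero]
    · intro c hc hcc hce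
      rcases h.primitive (tm φ f c) ((tm_ZAlg_iff hf hc.1).mpr hc)
        (by change tm φ f c * tm φ f c = _; rw [← map_mul, hcc.eq])
        (by rw [← map_mul, hce]) with h1 | h1
      · left
        apply tm_inj (φ := φ) hf hc.1 (Subalgebra.zero_mem _)
        rw [h1, map_zero]
      · right
        exact tm_inj (φ := φ) hf hc.1 he h1
  · intro h
    refine ⟨(tm_ZAlg_iff hf he).mpr h.mem, ?_, ?_, ?_⟩
    · change tm φ f e * tm φ f e = _
      rw [← map_mul, h.idem.eq]
    · intro h0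
      apply h.ne_zero
      apply tm_inj (φ := φ) hf he (Subalgebra.zero_mem _)
      rw [h0, map_zero]
    · intro c hc hcc hce
      obtain ⟨c', hc', rfl⟩ := tm_surj hφ hc.1
      rcases h.primitive c' ((tm_ZAlg_iff hf hc').mp hc)
        (by
          change c' * c' = c'
          apply tm_inj (φ := φ) hf (Subalgebra.mul_mem _ hc' hc') hc'
          rw [map_mul]
          exact hcc)
        (by
          apply tm_inj (φ := φ) hf (Subalgebra.mul_mem _ hc' he) hc'
          rw [map_mul]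
          exact hce) with h1 | h1
      · left; rw [h1, map_zero]
      · right; rw [h1]

theorem tr_bot_eq_sum [Finite P] {Y : Subgroup P} [Fintype Y] (a : MonoidAlgebra k P) :
    tr (cj k P) ⊥ Y a = ∑ y : Y, cj k P (y : P) a := by
  refine tr_eq_sum' ?_ _ (fun y => y.2) ?_ ?_
  · intro x hx
    rw [Subgroup.mem_bot.mp hx, map_one_act]
  · intro x y h
    rw [Subgroup.mem_bot, inv_mul_eq_one] at h
    exact Subtype.ext h
  · intro x hx
    exact ⟨⟨x, hx⟩, by rw [inv_mul_cancel]; exact Subgroup.one_mem _⟩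

theorem tm_tr [Finite P] [Finite A] {Y : Subgroup P} (hf : Set.InjOn f (Y : Set P))
    (a : MonoidAlgebra k P) :
    tm φ f (tr (cj k P) ⊥ Y a) = tr (cj k A) ⊥ (Y.map f) (tm φ f a) := by
  classical
  have _ := Fintype.ofFinite Y
  have _ := Fintype.ofFinite (Y.map f)
  rw [tr_bot_eq_sum, tr_bot_eq_sum, map_sum]
  refine Fintype.sum_bijective (fun y : Y => (⟨f y, y, y.2, rfl⟩ : Y.map f)) ?_ _ _ ?_
  · constructor
    · intro y y' h
      exact Subtype.ext (hf y.2 y'.2 (congrArg Subtype.val h))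
    · rintro ⟨_, y, hy, rfl⟩
      exact ⟨⟨y, hy⟩, rfl⟩
  · intro y
    exact tm_cj φ f _ _

/-- An idempotent of rank one in a block of defect zero of the subgroup `Y`. -/
structure Loc (k : Type*) [Field k] {H : Type*} [Group H] [Finite H] (Y : Subgroup H)
    (e ε : MonoidAlgebra k H) : Prop where
  block : IsBlockOf Y e
  tr : ∃ z ∈ SubAlg k Y, e = tr (cj k H) ⊥ Y z
  mem : ε ∈ SubAlg k Y
  idem : ε * ε = ε
  le : ε * e = ε
  corner : ∀ a ∈ SubAlg k Y, ∃ c : k, ε * a * ε = c • ε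
  full : ∃ (n : ℕ) (u v : Fin n → MonoidAlgebra k H), (∀ a, u a ∈ SubAlg k Y) ∧
    (∀ a, v a ∈ SubAlg k Y) ∧ e = ∑ a, u a * ε * v a

theorem Loc.ne_zero {H : Type*} [Group H] [Finite H] {Y : Subgroup H}
    {e ε : MonoidAlgebra k H} (h : Loc k Y e ε) : ε ≠ 0 := by
  intro h0
  obtain ⟨n, u, v, -, -, h1⟩ := h.full
  apply h.block.ne_zero
  rw [h1]
  refine Finset.sum_eq_zero fun a _ => ?_
  rw [h0, mul_zero, zero_mul]

theorem Loc.tm [Finite P] [Finite A] {Y : Subgroup P} {e ε : MonoidAlgebra k P}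
    (h : Loc k Y e ε) (hφ : Function.Surjective φ) (hf : Set.InjOn f (Y : Set P)) :
    Loc k (Y.map f) (tm φ f e) (tm φ f ε) where
  block := (tm_block_iff hφ hf h.block.mem.1).mpr h.block
  tr := by
    obtain ⟨z, hz, h1⟩ := h.tr
    refine ⟨H12.tm φ f z, tm_mem hz, ?_⟩
    conv_lhs => rw [h1]
    rw [tm_tr hf]
  mem := tm_mem h.mem
  idem := by rw [← map_mul, h.idem]
  le := by rw [← map_mul, h.le]
  corner := by
    intro a ha
    obtain ⟨a', ha', rfl⟩ := tm_surj hφ ha
    obtain ⟨c, hc⟩ := h.corner a' ha'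
    exact ⟨φ c, by rw [← map_mul, ← map_mul, hc, tm_smul]⟩
  full := by
    obtain ⟨n, u, v, hu, hv, h1⟩ := h.full
    refine ⟨n, fun a => H12.tm φ f (u a), fun a => H12.tm φ f (v a), fun a => tm_mem (hu a),
      fun a => tm_mem (hv a), ?_⟩
    conv_lhs => rw [h1]
    rw [map_sum]
    exact Finset.sum_congr rfl fun a _ => by rw [map_mul, map_mul]

theorem kap_unit {H : Type*} [Group H] (κ : Unit →* H) (l : MonoidAlgebra k Unit) :
    ∃ c : k, kap k κ l = c • (1 : MonoidAlgebra k H) := by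
  induction l using MonoidAlgebra.induction_linear with
  | zero => exact ⟨0, by rw [map_zero, zero_smul]⟩
  | add a b ha hb =>
    obtain ⟨c, hc⟩ := ha
    obtain ⟨d, hd⟩ := hb
    exact ⟨c + d, by rw [map_add, hc, hd, add_smul]⟩
  | single x r =>
    refine ⟨r, ?_⟩
    rw [kap_single]
    have h1 : κ x = 1 := by
      have : x = 1 := rfl
      rw [this, map_one]
    rw [h1, MonoidAlgebra.one_def, MonoidAlgebra.smul_single, smul_eq_mul, mul_one]

theorem exists_loc [IsAlgClosed k] {p : ℕ} [Fact p.Prime] [CharP k p] {H : Type*} [Group H]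
    [Finite H] {Y : Subgroup H} {e : MonoidAlgebra k H} (he : IsBlockOf Y e)
    (hz : ∃ z ∈ SubAlg k Y, e = tr (cj k H) ⊥ Y z) : ∃ ε, Loc k Y e ε := by
  obtain ⟨z, hzY, hez⟩ := hz
  have hbot : (1 : Unit →* H).range = ⊥ := by
    ext x
    constructor
    · rintro ⟨c, rfl⟩
      exact Subgroup.mem_bot.mpr rfl
    · intro hx
      rw [Subgroup.mem_bot.mp hx]
      exact Subgroup.one_mem _
  have hCB : CB Y (1 : Unit →* H) e :=
    { inj := fun _ _ _ => rfl
      mem := fun _ => Y.one_mem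
      comm := fun _ n _ => by simp
      block := he
      trace := ⟨z, hzY, by rw [hbot]; exact hez⟩ }
  have hU : IsPGroup p Unit := IsPGroup.of_card (n := 0) (by simp)
  obtain ⟨d, _, ψ, i, -, hi, -⟩ := exists_CIdem hCB hU
  refine ⟨i, he, ⟨z, hzY, hez⟩, hi.mem, hi.idem, hi.ie, ?_, ?_⟩
  · intro a ha
    obtain ⟨l, hl⟩ := hi.corner a ha
    obtain ⟨c, hc⟩ := kap_unit (k := k) (1 : Unit →* H) l
    exact ⟨c, by rw [hl, hc, smul_mul_assoc, one_mul]⟩
  · exact hi.full

end Vale.Agent.P180.R2.H12
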