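import Vale.Agent.P180.R2.H12.YY
import Vale.Agent.P180.R2.H12.Tm

/-!
P180 R2 H12: the components of the elements of `YY`, for one orbit of `D` on the set of the
components.
-/

namespace Vale.Agent.P180.R2.H12

open Equiv

variable {G : Type*} [Group G] {r : ℕ} {N : Fin r → ℕ} (S : AltData G r N)

namespace AltData

/-- The orbit of the component `j`. -/
def orb (D : Subgroup G) (j : Fin r) : Set (Fin r) := {i | ∃ d ∈ D, i = S.σ d j}

variable {S} {D : Subgroup G}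

variable (S) in
theorem σ_one (j : Fin r) : S.σ 1 j = j := by rw [map_one, Perm.one_apply]

theorem ρ_one (y : Σ j, Fin (N j)) : S.ρ 1 y = y := by rw [map_one, Perm.one_apply]

theorem self_mem_orb (j : Fin r) : j ∈ S.orb D j := ⟨1, D.one_mem, (S.σ_one j).symm⟩

theorem orb_eq {i j : Fin r} (h : i ∈ S.orb D j) : S.orb D i = S.orb D j := by
  obtain ⟨d, hd, rfl⟩ := h
  ext l
  constructor
  · rintro ⟨e, he, rfl⟩
    exact ⟨e * d, D.mul_mem he hd, by rw [S.σ_mul]⟩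
  · rintro ⟨e, he, rfl⟩
    exact ⟨e * d⁻¹, D.mul_mem he (D.inv_mem hd), by rw [← S.σ_mul, inv_mul_cancel_right]⟩

theorem orb_inv {j : Fin r} : ∀ d ∈ D, ∀ i, i ∈ S.orb D j → S.σ d i ∈ S.orb D j := by
  rintro d hd i ⟨e, he, rfl⟩
  exact ⟨d * e, D.mul_mem hd he, by rw [S.σ_mul]⟩

theorem orb_inv_iff {j : Fin r} {d : G} (hd : d ∈ D) {i : Fin r} :
    S.σ d i ∈ S.orb D j ↔ i ∈ S.orb D j := by
  constructor
  · intro h
    have := orb_inv d⁻¹ (D.inv_mem hd) _ h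
    rwa [← S.σ_mul, inv_mul_cancel, σ_one] at this
  · exact orb_inv d hd i

theorem orb_card [Finite G] {p : ℕ} [Fact p.Prime] (hD : IsPGroup p D) (j : Fin r) :
    ∃ m : ℕ, Nat.card (S.orb D j) = p ^ m := by
  let _ : MulAction D (Fin r) :=
    { smul := fun d i => S.σ (d : G) i
      one_smul := fun i => S.σ_one i
      mul_smul := fun d e i => S.σ_mul d e i }
  obtain ⟨m, hm⟩ := hD.card_orbit j
  refine ⟨m, ?_⟩
  rw [← hm]
  congr 1
  have : S.orb D j = MulAction.orbit D j := by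
    ext i
    constructor
    · rintro ⟨d, hd, rfl⟩
      exact ⟨⟨d, hd⟩, rfl⟩
    · rintro ⟨d, rfl⟩
      exact ⟨d, d.2, rfl⟩
  rw [this]

variable (S D) in
/-- `YY` as a subgroup of the direct product -/
def YP (F : Set (Σ j, Fin (N j))) (s : Set (Fin r)) :
    Subgroup (∀ j, alternatingGroup (Fin (N j))) := (S.YY D F s).comap S.ι

variable {F : Set (Σ j, Fin (N j))}

theorem YP_map (s : Set (Fin r)) : (S.YP D F s).map S.ι = S.YY D F s := by
  ext x
  constructor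
  · rintro ⟨τ, hτ, rfl⟩
    exact hτ
  · intro hx
    obtain ⟨⟨τ, rfl⟩, -⟩ := id hx
    exact ⟨τ, hx, rfl⟩

theorem mem_YP {s : Set (Fin r)} {τ : ∀ j, alternatingGroup (Fin (N j))} :
    τ ∈ S.YP D F s ↔ (∀ j, τ j ∈ AF F j) ∧ (∀ j, j ∉ s → τ j = 1) ∧
      ∀ d ∈ D, d * S.ι τ = S.ι τ * d := mem_YY_iff τ

/-- the projection to a component -/
def pr {r : ℕ} (N : Fin r → ℕ) (j : Fin r) :
    (∀ j, alternatingGroup (Fin (N j))) →* alternatingGroup (Fin (N j)) :=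
  Pi.evalMonoidHom _ j

theorem pr_apply {j : Fin r} (τ : ∀ j, alternatingGroup (Fin (N j))) : pr N j τ = τ j := rfl

theorem conj_eq {d : G} (hd : d ∈ D) {s : Set (Fin r)} {τ : ∀ j, alternatingGroup (Fin (N j))}
    (hτ : τ ∈ S.YP D F s) : S.ι τ = d * S.ι τ * d⁻¹ := by
  rw [(mem_YP.mp hτ).2.2 d hd, mul_inv_cancel_right]

theorem pr_injOn (j : Fin r) : Set.InjOn (pr N j) (S.YP D F (S.orb D j) : Set _) := by
  intro τ hτ τ' hτ' h
  funext i
  by_cases hi : i ∈ S.orb D j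
  · obtain ⟨d, hd, rfl⟩ := hi
    exact (comp_conj (conj_eq hd hτ') (conj_eq hd hτ) j).mp h
  · rw [(mem_YP.mp hτ).2.1 i hi, (mem_YP.mp hτ').2.1 i hi]

theorem emb_ρ {j : Fin r} (u : alternatingGroup (Fin (N j))) (a : Fin (N j)) :
    S.ρ (S.ι (Pi.mulSingle j u)) ⟨j, a⟩ = ⟨j, (u : Perm (Fin (N j))) a⟩ := by
  rw [S.ρ_ι]
  simp only [Pi.mulSingle_eq_same]

theorem emb_ρ_ne {j : Fin r} (u : alternatingGroup (Fin (N j))) {y : Σ j, Fin (N j)}
    (hy : y.1 ≠ j) : S.ρ (S.ι (Pi.mulSingle j u)) y = y := by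
  obtain ⟨i, a⟩ := y
  rw [S.ρ_ι]
  simp only [Pi.mulSingle_eq_of_ne hy]
  rfl

theorem emb_fix {j : Fin r} {u : alternatingGroup (Fin (N j))} (hu : u ∈ AF F j)
    {y : Σ j, Fin (N j)} (hy : y ∉ F) : S.ρ (S.ι (Pi.mulSingle j u)) y = y := by
  obtain ⟨i, a⟩ := y
  by_cases h : i = j
  · subst h
    rw [emb_ρ, hu a hy]
  · exact emb_ρ_ne u h

theorem emb_mem {j : Fin r} {u : alternatingGroup (Fin (N j))} (hu : u ∈ AF F j)
    {y : Σ j, Fin (N j)} (hy : y ∈ F) : S.ρ (S.ι (Pi.mulSingle j u)) y ∈ F := by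
  by_contra h
  have h1 := emb_fix (S := S) hu h
  have h2 := (S.ρ (S.ι (Pi.mulSingle j u))).injective h1
  rw [h2] at h
  exact h hy

theorem emb_comm (hF1 : ∀ d ∈ D, ∀ y ∈ F, S.ρ d y ∈ F)
    (hF2 : ∀ d ∈ D, ∀ y ∈ F, S.σ d y.1 = y.1 → S.ρ d y = y) {j : Fin r}
    {u : alternatingGroup (Fin (N j))} (hu : u ∈ AF F j) {e : G} (he : e ∈ D) (hej : S.σ e j = j) :
    e * S.ι (Pi.mulSingle j u) = S.ι (Pi.mulSingle j u) * e := by
  refine S.commute_of_ρ ⟨_, rfl⟩ fun y => ?_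
  by_cases hy : y ∈ F
  · by_cases hj : y.1 = j
    · have h1 : S.ρ e y = y := hF2 e he y hy (by rw [hj, hej])
      rw [h1]
      symm
      refine hF2 e he _ (emb_mem hu hy) ?_
      rw [S.ρ_fst, ← S.σ_mul, S.σ_mul, hj, σ_of_mem_range ⟨_, rfl⟩ j
        (by subst hj; exact lt_of_le_of_lt (Nat.zero_le _) y.2.2), hej]
    · rw [emb_ρ_ne u hj, emb_ρ_ne]
      rw [S.ρ_fst]
      intro h
      apply hj
      have h2 : S.σ e y.1 = S.σ e j := by rw [h, hej]
      exact (S.σ e).injective h2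
  · rw [emb_fix hu hy, emb_fix hu]
    intro h
    apply hy
    have := hF1 e⁻¹ (D.inv_mem he) _ h
    rwa [← S.ρ_mul, inv_mul_cancel, ρ_one] at this

theorem YP_pr (hF1 : ∀ d ∈ D, ∀ y ∈ F, S.ρ d y ∈ F)
    (hF2 : ∀ d ∈ D, ∀ y ∈ F, S.σ d y.1 = y.1 → S.ρ d y = y) (j : Fin r) :
    (S.YP D F (S.orb D j)).map (pr N j) = AF F j := by
  classical
  ext u
  constructor
  · rintro ⟨τ, hτ, rfl⟩
    exact (mem_YP.mp hτ).1 j
  · intro hu
    have hex : ∀ i : Fin r, ∃ v : alternatingGroup (Fin (N i)),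
        (∀ d ∈ D, S.σ d j = i → ∀ a, S.ρ (d * S.ι (Pi.mulSingle j u) * d⁻¹) ⟨i, a⟩ =
          ⟨i, (v : Perm (Fin (N i))) a⟩) ∧ (i ∉ S.orb D j → v = 1) := by
      intro i
      by_cases hi : i ∈ S.orb D j
      · obtain ⟨d, hd, h⟩ := id hi
        obtain ⟨w, hw⟩ := S.conj d (Pi.mulSingle j u)
        refine ⟨w i, ?_, fun h' => absurd hi h'⟩
        intro e he hei a
        have h1 : e * S.ι (Pi.mulSingle j u) * e⁻¹ = d * S.ι (Pi.mulSingle j u) * d⁻¹ := by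
          have h2 := emb_comm hF1 hF2 hu (D.mul_mem (D.inv_mem hd) he)
            (by rw [S.σ_mul, hei, h, ← S.σ_mul, inv_mul_cancel, σ_one])
          calc e * S.ι (Pi.mulSingle j u) * e⁻¹
              = d * (d⁻¹ * e * S.ι (Pi.mulSingle j u)) * e⁻¹ := by group
            _ = d * S.ι (Pi.mulSingle j u) * d⁻¹ := by rw [h2]; group
        rw [h1, ← hw, S.ρ_ι]
      · exact ⟨1, fun d hd h => absurd ⟨d, hd, h.symm⟩ hi, fun _ => rfl⟩
    choose τ h1 h2 using hex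
    have hform : ∀ d ∈ D, ∀ y : Σ j, Fin (N j), S.σ d j = y.1 →
        S.ρ (S.ι τ) y = S.ρ (d * S.ι (Pi.mulSingle j u) * d⁻¹) y := by
      rintro d hd ⟨i, a⟩ h
      rw [h1 i d hd h, S.ρ_ι]
    refine ⟨τ, mem_YP.mpr ⟨?_, h2, ?_⟩, ?_⟩
    · intro i a ha
      by_cases hi : i ∈ S.orb D j
      · obtain ⟨d, hd, h⟩ := id hi
        have h3 := h1 i d hd h.symm a
        rw [S.ρ_mul, S.ρ_mul, emb_fix hu, ← S.ρ_mul, mul_inv_cancel, ρ_one] at h3
        · simpa only [Sigma.mk.injEq, heq_eq_eq, true_and] using h3.symm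
        · intro h4
          apply ha
          have := hF1 d hd _ h4
          rwa [← S.ρ_mul, mul_inv_cancel, ρ_one] at this
      · rw [h2 i hi]; rfl
    · intro d hd
      refine S.commute_of_ρ ⟨_, rfl⟩ fun y => ?_
      by_cases hy : y.1 ∈ S.orb D j
      · obtain ⟨e, he, h⟩ := id hy
        rw [hform (d * e) (D.mul_mem hd he) (S.ρ d y) (by rw [S.σ_mul, S.ρ_fst, h]),
          hform e he y h.symm, ← S.ρ_mul, ← S.ρ_mul]
        congr 2
        group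
      · have hz : ∀ z : Σ j, Fin (N j), z.1 ∉ S.orb D j → S.ρ (S.ι τ) z = z := by
          rintro ⟨i, a⟩ hi
          rw [S.ρ_ι]
          simp only [h2 i hi]
          rfl
        rw [hz y hy, hz]
        rw [S.ρ_fst, orb_inv_iff hd]
        exact hy
    · apply Subtype.ext
      ext1 a
      have h3 := h1 j 1 D.one_mem (S.σ_one j) a
      rw [one_mul, inv_one, mul_one, emb_ρ] at h3
      change (τ j : Perm (Fin (N j))) a = _
      simpa only [Sigma.mk.injEq, heq_eq_eq, true_and] using h3.symm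

end AltData

end Vale.Agent.P180.R2.H12
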