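import Vale.Agent.P180.R2.H12.Act
import Mathlib.GroupTheory.SpecificGroups.Alternating

/-!
P180 R2 H12: normal subgroups which are direct products of alternating groups; the number of
points moved by a defect group is bounded.
-/

namespace Vale.Agent.P180.R2.H12

open Equiv

/-- A normal subgroup `ι.range` of `G`, a direct product of alternating groups of the finite sets
`Fin (N j)`, together with an action `ρ` of `G` on the disjoint union of these sets extending the
natural action of `ι.range`; `σ` is the action of `G` on the set of the direct factors. -/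
structure AltData (G : Type*) [Group G] (r : ℕ) (N : Fin r → ℕ) where
  ι : (∀ j, alternatingGroup (Fin (N j))) →* G
  inj : Function.Injective ι
  conj : ∀ (g : G) (τ : ∀ j, alternatingGroup (Fin (N j))), g * ι τ * g⁻¹ ∈ ι.range
  ρ : G →* Perm (Σ j, Fin (N j))
  σ : G →* Perm (Fin r)
  ρ_fst : ∀ (g : G) (a : Σ j, Fin (N j)), (ρ g a).1 = σ g a.1
  ρ_ι : ∀ (τ : ∀ j, alternatingGroup (Fin (N j))) (a : Σ j, Fin (N j)),
    ρ (ι τ) a = ⟨a.1, (τ a.1 : Perm (Fin (N a.1))) a.2⟩

variable {G : Type*} [Group G] {r : ℕ} {N : Fin r → ℕ} (S : AltData G r N)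

namespace AltData

theorem eq_of_ρ {x y : G} (hx : x ∈ S.ι.range) (hy : y ∈ S.ι.range) (h : S.ρ x = S.ρ y) :
    x = y := by
  obtain ⟨τ, rfl⟩ := hx
  obtain ⟨τ', rfl⟩ := hy
  congr 1
  funext j
  apply Subtype.ext
  ext a
  have h1 := congrFun (congrArg DFunLike.coe h) ⟨j, a⟩
  rw [S.ρ_ι, S.ρ_ι] at h1
  simp only [Sigma.mk.injEq, heq_eq_eq, true_and] at h1
  rw [h1]

theorem conj_mem (g : G) {x : G} (hx : x ∈ S.ι.range) : g * x * g⁻¹ ∈ S.ι.range := by
  obtain ⟨τ, rfl⟩ := hx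
  exact S.conj g τ

theorem commute_of_ρ {x d : G} (hx : x ∈ S.ι.range) (h : ∀ y, S.ρ x (S.ρ d y) = S.ρ d (S.ρ x y)) :
    d * x = x * d := by
  have h1 : d * x * d⁻¹ = x := by
    refine S.eq_of_ρ (S.conj_mem d hx) hx ?_
    ext1 y
    rw [map_mul, map_mul, Perm.mul_apply, Perm.mul_apply, ← h, ← Perm.mul_apply (S.ρ d), ← map_mul,
      mul_inv_cancel, map_one, Perm.one_apply]
  calc d * x = d * x * d⁻¹ * d := by group
    _ = x * d := by rw [h1]

/-- The restriction of a permutation to a component. -/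
def res {r : ℕ} {N : Fin r → ℕ} (c : Perm (Σ j, Fin (N j))) (hc : ∀ y, (c y).1 = y.1) (j : Fin r) :
    Perm (Fin (N j)) :=
  (Equiv.sigmaSubtype (β := fun j => Fin (N j)) j).permCongr
    (c.subtypePerm (p := fun y => y.1 = j) (fun y => by rw [hc y]))

theorem res_spec {r : ℕ} {N : Fin r → ℕ} (c : Perm (Σ j, Fin (N j))) (hc : ∀ y, (c y).1 = y.1)
    (j : Fin r) (a : Fin (N j)) : (⟨j, res c hc j a⟩ : Σ j, Fin (N j)) = c ⟨j, a⟩ := by
  have h1 : ∀ z : {s : Σ j, Fin (N j) // s.1 = j},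
      (⟨j, Equiv.sigmaSubtype (β := fun j => Fin (N j)) j z⟩ : Σ j, Fin (N j)) = z.1 := by
    rintro ⟨⟨i, b⟩, h⟩
    simp only at h
    subst h
    rfl
  rw [res, Equiv.permCongr_apply, h1]
  rfl

/-- A permutation which is even on all components comes from `G`. -/
theorem exists_of_even (c : Perm (Σ j, Fin (N j))) (hc : ∀ y, (c y).1 = y.1)
    (hs : ∀ j, Perm.sign (res c hc j) = 1) : ∃ x ∈ S.ι.range, S.ρ x = c := by
  refine ⟨S.ι fun j => ⟨res c hc j, hs j⟩, ⟨_, rfl⟩, ?_⟩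
  ext1 y
  rw [S.ρ_ι]
  exact res_spec c hc y.1 y.2

end AltData

theorem sign_res_one {r : ℕ} {N : Fin r → ℕ} (c : Perm (Σ j, Fin (N j))) (hc : ∀ y, (c y).1 = y.1)
    (j : Fin r) (h : ∀ a, c ⟨j, a⟩ = ⟨j, a⟩) : Perm.sign (AltData.res c hc j) = 1 := by
  have h1 : AltData.res c hc j = 1 := by
    ext a
    have h2 := AltData.res_spec c hc j a
    rw [h a] at h2
    simp only [Sigma.mk.injEq, heq_eq_eq, true_and] at h2
    rw [h2, Perm.one_apply]
  rw [h1, map_one]

theorem sign_res_mul {r : ℕ} {N : Fin r → ℕ} (c c' : Perm (Σ j, Fin (N j)))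
    (hc : ∀ y, (c y).1 = y.1) (hc' : ∀ y, (c' y).1 = y.1) (hcc : ∀ y, ((c * c') y).1 = y.1)
    (j : Fin r) : Perm.sign (AltData.res (c * c') hcc j) =
      Perm.sign (AltData.res c hc j) * Perm.sign (AltData.res c' hc' j) := by
  have h1 : AltData.res (c * c') hcc j = AltData.res c hc j * AltData.res c' hc' j := by
    ext a
    have h2 := AltData.res_spec (c * c') hcc j a
    rw [Perm.mul_apply, ← AltData.res_spec c' hc' j a, ← AltData.res_spec c hc j] at h2
    simp only [Sigma.mk.injEq, heq_eq_eq, true_and] at h2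
    rw [h2, Perm.mul_apply]
  rw [h1, map_mul]

/-- conjugate components have the same sign -/
theorem sign_res_conj (c : Perm (Σ j, Fin (N j))) (hc : ∀ y, (c y).1 = y.1) (d : G)
    (hd : ∀ y, c (S.ρ d y) = S.ρ d (c y)) (j : Fin r) :
    Perm.sign (AltData.res c hc (S.σ d j)) = Perm.sign (AltData.res c hc j) := by
  have key : ∀ a : Fin (N j), ((S.ρ d ⟨j, a⟩).1 : Fin r) = S.σ d j := fun a => S.ρ_fst d ⟨j, a⟩
  -- the bijection of components
  let e : Fin (N j) ≃ Fin (N (S.σ d j)) :=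
    ((Equiv.sigmaSubtype (β := fun j => Fin (N j)) j).symm.trans
      ((S.ρ d).subtypeEquiv (p := fun y => y.1 = j) (q := fun y => y.1 = S.σ d j) (by
        intro y
        rw [S.ρ_fst]
        exact (Equiv.apply_eq_iff_eq (S.σ d)).symm))).trans
      (Equiv.sigmaSubtype (β := fun j => Fin (N j)) (S.σ d j))
  have he : ∀ a, (⟨S.σ d j, e a⟩ : Σ j, Fin (N j)) = S.ρ d ⟨j, a⟩ := by
    intro a
    have h1 : ∀ z : {s : Σ j, Fin (N j) // s.1 = S.σ d j},
        (⟨S.σ d j, Equiv.sigmaSubtype (β := fun j => Fin (N j)) (S.σ d j) z⟩ :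
          Σ j, Fin (N j)) = z.1 := by
      rintro ⟨⟨i, b⟩, h⟩
      simp only at h
      subst h
      rfl
    simp only [e, Equiv.trans_apply]
    rw [h1]
    rfl
  symm
  refine Perm.sign_eq_sign_of_equiv _ _ e ?_
  intro a
  have h2 : (⟨S.σ d j, e (AltData.res c hc j a)⟩ : Σ j, Fin (N j)) =
      ⟨S.σ d j, AltData.res c hc (S.σ d j) (e a)⟩ := by
    rw [he, AltData.res_spec, AltData.res_spec, he, hd]
  simpa only [Sigma.mk.injEq, heq_eq_eq, true_and] using h2

namespace AltData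

/-- The elements of `ι.range` which commute with `D` and preserve the `D`-orbits. -/
def orbS (D : Subgroup G) : Subgroup G where
  carrier := {x | x ∈ S.ι.range ∧ (∀ d ∈ D, d * x = x * d) ∧ ∀ a, ∃ d ∈ D, S.ρ x a = S.ρ d a}
  one_mem' := ⟨S.ι.range.one_mem, fun d _ => by rw [mul_one, one_mul],
    fun a => ⟨1, D.one_mem, rfl⟩⟩
  mul_mem' := by
    rintro x y ⟨hx, hx', hx''⟩ ⟨hy, hy', hy''⟩
    refine ⟨S.ι.range.mul_mem hx hy, fun d hd => ?_, fun a => ?_⟩
    · rw [← mul_assoc, hx' d hd, mul_assoc, hy' d hd, mul_assoc]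
    · obtain ⟨d, hd, h1⟩ := hy'' a
      obtain ⟨d', hd', h2⟩ := hx'' a
      refine ⟨d * d', D.mul_mem hd hd', ?_⟩
      rw [map_mul, Perm.mul_apply, h1, ← Perm.mul_apply, ← map_mul, ← hx' d hd, map_mul,
        Perm.mul_apply, h2, map_mul, Perm.mul_apply]
  inv_mem' := by
    rintro x ⟨hx, hx', hx''⟩
    refine ⟨S.ι.range.inv_mem hx, fun d hd => ?_, fun a => ?_⟩
    · rw [mul_inv_eq_iff_eq_mul, mul_assoc, hx' d hd, inv_mul_cancel_left]
    · obtain ⟨d, hd, h⟩ := hx'' a
      refine ⟨d⁻¹, D.inv_mem hd, ?_⟩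
      have h1 : S.ρ (x * d⁻¹) a = a := by
        rw [← hx' _ (D.inv_mem hd), map_mul, Perm.mul_apply, h, ← Perm.mul_apply, ← map_mul,
          inv_mul_cancel, map_one, Perm.one_apply]
      have h2 : S.ρ x⁻¹ (S.ρ (x * d⁻¹) a) = S.ρ d⁻¹ a := by
        rw [← Perm.mul_apply, ← map_mul, inv_mul_cancel_left]
      rwa [h1] at h2

theorem orbS_pgroup {p : ℕ} {D : Subgroup G} (hD : IsPGroup p D) [Finite D] [Fact p.Prime] :
    IsPGroup p (S.orbS D) := by
  obtain ⟨k, hk⟩ := IsPGroup.iff_card.mp hD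
  rintro ⟨x, hx, hx', hx''⟩
  refine ⟨k, Subtype.ext ?_⟩
  change x ^ p ^ k = 1
  refine S.eq_of_ρ (Subgroup.pow_mem _ hx _) (Subgroup.one_mem _) ?_
  ext1 a
  obtain ⟨d, hd, h⟩ := hx'' a
  have h1 : ∀ m : ℕ, S.ρ (x ^ m) a = S.ρ (d ^ m) a := by
    intro m
    induction m with
    | zero => rw [pow_zero, pow_zero]
    | succ m ih =>
      have h3 : d ^ m * x = x * d ^ m := hx' _ (D.pow_mem hd m)
      rw [pow_succ', map_mul, Perm.mul_apply, ih, ← Perm.mul_apply, ← map_mul, ← h3, map_mul,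
        Perm.mul_apply, h, ← Perm.mul_apply, ← map_mul, ← pow_succ]
  rw [h1, ← hk]
  have h2 : d ^ Nat.card D = 1 := by
    have := pow_card_eq_one' (x := (⟨d, hd⟩ : D))
    exact congrArg Subtype.val this
  rw [h2]

theorem orbS_conj {D : Subgroup G} {g : G} (hg : g ∈ Subgroup.normalizer (D : Set G)) {x : G}
    (hx : x ∈ S.orbS D) : g * x * g⁻¹ ∈ S.orbS D := by
  obtain ⟨hx, hx', hx''⟩ := hx
  refine ⟨S.conj_mem g hx, fun d hd => ?_, fun a => ?_⟩
  · have h1 : g⁻¹ * d * g ∈ D := by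
      have := (Subgroup.mem_normalizer_iff.mp (Subgroup.inv_mem _ hg) d).mp hd
      rwa [inv_inv] at this
    have h2 := hx' _ h1
    calc d * (g * x * g⁻¹) = g * (g⁻¹ * d * g * x) * g⁻¹ := by group
      _ = g * x * g⁻¹ * d := by rw [h2]; group
  · obtain ⟨d, hd, h⟩ := hx'' (S.ρ g⁻¹ a)
    refine ⟨g * d * g⁻¹, (Subgroup.mem_normalizer_iff.mp hg d).mp hd, ?_⟩
    rw [map_mul, Perm.mul_apply, map_mul, Perm.mul_apply, h, map_mul (S.ρ) (g * d),
      Perm.mul_apply, map_mul, Perm.mul_apply]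

/-- The points of the component `j` moved by the stabiliser of `j` in `D`. -/
def Moved (D : Subgroup G) (j : Fin r) (a : Fin (N j)) : Prop :=
  ∃ d ∈ D, S.σ d j = j ∧ S.ρ d ⟨j, a⟩ ≠ ⟨j, a⟩

/-- For a moved point there is a permutation of its orbit commuting with `D`. -/
theorem exists_perm {p : ℕ} [Fact p.Prime] {D : Subgroup G} (hD : IsPGroup p D) [Finite D]
    {j : Fin r} {a : Fin (N j)} (ha : S.Moved D j a) :
    ∃ c : Perm (Σ j, Fin (N j)), (∀ d ∈ D, ∀ y, c (S.ρ d y) = S.ρ d (c y)) ∧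
      (∀ y, (c y).1 = y.1) ∧ (∀ y, ∃ d ∈ D, c y = S.ρ d y) ∧
      (∀ y, c y ≠ y ↔ ∃ d ∈ D, y = S.ρ d ⟨j, a⟩) := by
  -- the stabilisers
  let Dj : Subgroup D :=
    { carrier := {d | S.σ (d : G) j = j}
      one_mem' := by
        change S.σ ((1 : D) : G) j = j
        rw [Subgroup.coe_one, map_one, Perm.one_apply]
      mul_mem' := by
        intro x y (hx : S.σ (x : G) j = j) (hy : S.σ (y : G) j = j)
        change S.σ ((x * y : D) : G) j = j
        rw [Subgroup.coe_mul, map_mul, Perm.mul_apply, hy, hx]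
      inv_mem' := by
        intro x (hx : S.σ (x : G) j = j)
        change S.σ ((x⁻¹ : D) : G) j = j
        rw [Subgroup.coe_inv, map_inv, Perm.inv_eq_iff_eq, hx] }
  let St : Subgroup Dj :=
    { carrier := {d | S.ρ ((d : D) : G) ⟨j, a⟩ = ⟨j, a⟩}
      one_mem' := by
        change S.ρ (((1 : Dj) : D) : G) ⟨j, a⟩ = ⟨j, a⟩
        rw [Subgroup.coe_one, Subgroup.coe_one, map_one, Perm.one_apply]
      mul_mem' := by
        intro x y (hx : S.ρ ((x : D) : G) ⟨j, a⟩ = ⟨j, a⟩) (hy : S.ρ ((y : D) : G) ⟨j, a⟩ = ⟨j, a⟩)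
        change S.ρ (((x * y : Dj) : D) : G) ⟨j, a⟩ = ⟨j, a⟩
        rw [Subgroup.coe_mul, Subgroup.coe_mul, map_mul, Perm.mul_apply, hy, hx]
      inv_mem' := by
        intro x (hx : S.ρ ((x : D) : G) ⟨j, a⟩ = ⟨j, a⟩)
        change S.ρ (((x⁻¹ : Dj) : D) : G) ⟨j, a⟩ = ⟨j, a⟩
        rw [Subgroup.coe_inv, Subgroup.coe_inv, map_inv, Perm.inv_eq_iff_eq, hx] }
  have hSt : St ≠ ⊤ := by
    obtain ⟨d, hd, h1, h2⟩ := ha
    intro h
    have h3 : (⟨⟨d, hd⟩, h1⟩ : Dj) ∈ St := by rw [h]; exact Subgroup.mem_top _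
    exact h2 h3
  obtain ⟨n, hnS, hn1, hn2⟩ := exists_normalizing (hD.to_subgroup Dj) hSt
  have hfst : ∀ d ∈ D, S.ρ d ⟨j, a⟩ = ⟨j, a⟩ → S.σ d j = j := by
    intro d _ h
    have := S.ρ_fst d ⟨j, a⟩
    rw [h] at this
    exact this.symm
  have hmem : ∀ d : D, S.ρ (d : G) ⟨j, a⟩ = ⟨j, a⟩ → ∃ s ∈ St, (s : D) = d := by
    intro d h
    exact ⟨⟨d, hfst d d.2 h⟩, h, rfl⟩
  obtain ⟨c, hc1, hc2⟩ := exists_comm_perm (S.ρ.comp D.subtype) ⟨j, a⟩ (n : D)
    (by
      intro d h
      obtain ⟨s, hs, rfl⟩ := hmem d h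
      exact hn2 s hs)
    (by
      intro d h
      obtain ⟨s, hs, rfl⟩ := hmem d h
      exact hn1 s hs)
  have hc1' : ∀ d ∈ D, c (S.ρ d ⟨j, a⟩) = S.ρ (d * (n : D)) ⟨j, a⟩ := fun d hd => hc1 ⟨d, hd⟩
  have hc2' : ∀ y, (¬ ∃ d ∈ D, y = S.ρ d ⟨j, a⟩) → c y = y := by
    intro y hy
    refine hc2 y ?_
    rintro ⟨d, hd⟩
    exact hy ⟨d, d.2, hd⟩
  refine ⟨c, ?_, ?_, ?_, ?_⟩
  · intro d hd y
    exact comm_of hc1 hc2 ⟨d, hd⟩ y
  · intro y
    by_cases hy : ∃ d ∈ D, y = S.ρ d ⟨j, a⟩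
    · obtain ⟨d, hd, rfl⟩ := hy
      rw [hc1' d hd, S.ρ_fst, S.ρ_fst, map_mul, Perm.mul_apply]
      exact congrArg _ n.2
    · rw [hc2' y hy]
  · intro y
    by_cases hy : ∃ d ∈ D, y = S.ρ d ⟨j, a⟩
    · obtain ⟨d, hd, rfl⟩ := hy
      refine ⟨d * (n : D) * d⁻¹, D.mul_mem (D.mul_mem hd (n : D).2) (D.inv_mem hd), ?_⟩
      rw [hc1' d hd, ← Perm.mul_apply, ← map_mul, inv_mul_cancel_right]
    · exact ⟨1, D.one_mem, by rw [hc2' y hy, map_one, Perm.one_apply]⟩
  · intro y
    constructor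
    · intro h
      by_contra hy
      exact h (hc2' y hy)
    · rintro ⟨d, hd, rfl⟩ h
      rw [hc1' d hd, map_mul, Perm.mul_apply] at h
      exact hnS ((S.ρ d).injective h)

/-- The number of points moved by `D` is bounded. -/
theorem moved_points [Finite G] {p : ℕ} [Fact p.Prime] {D : Subgroup G} (hD : IsPGroup p D)
    (hop : ∀ P : Subgroup G, IsPGroup p P → P ≤ Subgroup.normalizer (D : Set G) →
      (∀ g ∈ Subgroup.normalizer (D : Set G), ∀ x ∈ P, g * x * g⁻¹ ∈ P) → P ≤ D) (j : Fin r) :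
    Nat.card {a : Fin (N j) // S.Moved D j a} ≤ Nat.card D * Nat.card D := by
  classical
  have hMD : S.orbS D ≤ D := by
    refine hop _ (S.orbS_pgroup hD) ?_ fun g hg x hx => S.orbS_conj hg hx
    intro x hx
    rw [Subgroup.mem_normalizer_iff]
    have h1 : ∀ d ∈ D, x * d * x⁻¹ = d := by
      intro d hd
      rw [← hx.2.1 d hd, mul_inv_cancel_right]
    intro d
    constructor
    · intro hd
      rwa [h1 d hd]
    · intro hd
      have h2 := (hx.2.1 _ hd)
      have h3 : d = x⁻¹ * (x * d * x⁻¹) * x := by group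
      have h4 : x⁻¹ * (x * d * x⁻¹) * x = x * d * x⁻¹ := by
        rw [mul_assoc, h2, inv_mul_cancel_left]
      rw [h3, h4]
      exact hd
  have _ := Fintype.ofFinite (S.orbS D)
  have _ := Fintype.ofFinite D
  -- the orbits
  let orb : Fin (N j) → Set (Σ j, Fin (N j)) := fun a => {y | ∃ d ∈ D, y = S.ρ d ⟨j, a⟩}
  let T : Finset (Fin (N j)) := Finset.univ.filter fun a => S.Moved D j a
  have hself : ∀ a, (⟨j, a⟩ : Σ j, Fin (N j)) ∈ orb a := fun a => ⟨1, D.one_mem, by
    rw [map_one, Perm.one_apply]⟩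
  have horb : ∀ (a : Fin (N j)) (b : Fin (N j)) (y), y ∈ orb a → y ∈ orb b → orb a = orb b := by
    intro a b y ⟨d, hd, h1⟩ ⟨d', hd', h2⟩
    have h3 : (⟨j, a⟩ : Σ j, Fin (N j)) = S.ρ (d⁻¹ * d') ⟨j, b⟩ := by
      rw [map_mul, Perm.mul_apply, ← h2, h1, ← Perm.mul_apply, ← map_mul, inv_mul_cancel, map_one,
        Perm.one_apply]
    have h4 : (⟨j, b⟩ : Σ j, Fin (N j)) = S.ρ (d'⁻¹ * d) ⟨j, a⟩ := by
      rw [map_mul, Perm.mul_apply, ← h1, h2, ← Perm.mul_apply, ← map_mul, inv_mul_cancel, map_one,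
        Perm.one_apply]
    ext z
    constructor
    · rintro ⟨e, he, rfl⟩
      refine ⟨e * (d⁻¹ * d'), D.mul_mem he (D.mul_mem (D.inv_mem hd) hd'), ?_⟩
      rw [map_mul S.ρ e, Perm.mul_apply, ← h3]
    · rintro ⟨e, he, rfl⟩
      refine ⟨e * (d'⁻¹ * d), D.mul_mem he (D.mul_mem (D.inv_mem hd') hd), ?_⟩
      rw [map_mul S.ρ e, Perm.mul_apply, ← h4]
  have hfib : ∀ o ∈ T.image orb, (T.filter fun a => orb a = o).card ≤ Nat.card D := by
    intro o ho
    obtain ⟨b, hb, rfl⟩ := Finset.mem_image.mp ho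
    have h1 : ∀ a ∈ T.filter (fun a => orb a = orb b), ∃ d : D,
        (⟨j, a⟩ : Σ j, Fin (N j)) = S.ρ (d : G) ⟨j, b⟩ := by
      intro a ha
      have h2 := (Finset.mem_filter.mp ha).2
      have h3 := hself a
      rw [h2] at h3
      obtain ⟨d, hd, h4⟩ := h3
      exact ⟨⟨d, hd⟩, h4⟩
    choose! f hf using h1
    rw [Nat.card_eq_fintype_card]
    refine Finset.card_le_card_of_injOn f (fun a _ => Finset.mem_univ _) ?_
    intro a ha a' ha' h
    have h5 := hf a ha
    have h6 := hf a' ha'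
    rw [h, ← h6] at h5
    simpa only [Sigma.mk.injEq, heq_eq_eq, true_and] using h5
  have hcard := Finset.card_le_mul_card_image T _ hfib
  -- the elements commuting with `D`
  have hex : ∀ o ∈ T.image orb, ∃ c : Perm (Σ j, Fin (N j)),
      (∀ d ∈ D, ∀ y, c (S.ρ d y) = S.ρ d (c y)) ∧ (∀ y, (c y).1 = y.1) ∧
      (∀ y, ∃ d ∈ D, c y = S.ρ d y) ∧ (∀ y, c y ≠ y ↔ y ∈ o) := by
    intro o ho
    obtain ⟨b, hb, rfl⟩ := Finset.mem_image.mp ho
    exact S.exists_perm hD (Finset.mem_filter.mp hb).2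
  choose! c hc1 hc2 hc3 hc4 using hex
  -- from even permutations to elements of `orbS`
  have hlift : ∀ c : Perm (Σ j, Fin (N j)), (∀ d ∈ D, ∀ y, c (S.ρ d y) = S.ρ d (c y)) →
      ∀ hc : ∀ y, (c y).1 = y.1, (∀ y, ∃ d ∈ D, c y = S.ρ d y) →
      (∀ y, c y ≠ y → ∃ d ∈ D, y.1 = S.σ d j) → Perm.sign (res c hc j) = 1 →
      ∃ x ∈ S.orbS D, S.ρ x = c := by
    intro c h1 hc h2 h3 h4
    obtain ⟨x, hx, hxc⟩ := S.exists_of_even c hc (by
      intro i
      by_cases hi : ∃ d ∈ D, i = S.σ d j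
      · obtain ⟨d, hd, rfl⟩ := hi
        rw [sign_res_conj S c hc d (h1 d hd), h4]
      · refine sign_res_one c hc i ?_
        intro a
        by_contra h
        exact hi (h3 _ h))
    refine ⟨x, ⟨hx, fun d hd => S.commute_of_ρ hx ?_, ?_⟩, hxc⟩
    · intro y
      rw [hxc]
      exact h1 d hd y
    · intro a
      rw [hxc]
      exact h2 a
  have hcomp : ∀ o ∈ T.image orb, ∀ y, c o y ≠ y → ∃ d ∈ D, y.1 = S.σ d j := by
    intro o ho y hy
    rw [hc4 o ho] at hy
    obtain ⟨b, hb, rfl⟩ := Finset.mem_image.mp ho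
    obtain ⟨d, hd, rfl⟩ := hy
    exact ⟨d, hd, S.ρ_fst d _⟩
  have hdisj : ∀ o ∈ T.image orb, ∀ o' ∈ T.image orb, ∀ y, y ∈ o → y ∈ o' → o = o' := by
    intro o ho o' ho' y h1 h2
    obtain ⟨b, hb, rfl⟩ := Finset.mem_image.mp ho
    obtain ⟨b', hb', rfl⟩ := Finset.mem_image.mp ho'
    exact horb b b' y h1 h2
  have hne : ∀ o ∈ T.image orb, ∃ y, y ∈ o := by
    intro o ho
    obtain ⟨b, hb, rfl⟩ := Finset.mem_image.mp ho
    exact ⟨_, hself b⟩
  -- the supports
  have main : (T.image orb).card ≤ Nat.card D := by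
    have hle : Nat.card (S.orbS D) ≤ Nat.card D :=
      Nat.card_le_card_of_injective _ (Subgroup.inclusion_injective hMD)
    refine le_trans ?_ hle
    rw [Nat.card_eq_fintype_card, ← Finset.card_univ]
    -- for each orbit an element of `orbS` with prescribed support
    by_cases hall : ∀ o, ∀ ho : o ∈ T.image orb, Perm.sign (res (c o) (hc2 o ho) j) = 1
    · have h1 : ∀ o ∈ T.image orb, ∃ x : S.orbS D, S.ρ (x : G) = c o := by
        intro o ho
        obtain ⟨x, hx, h2⟩ := hlift (c o) (hc1 o ho) (hc2 o ho) (hc3 o ho) (hcomp o ho) (hall o ho)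
        exact ⟨⟨x, hx⟩, h2⟩
      choose! f hf using h1
      refine Finset.card_le_card_of_injOn f (fun a _ => Finset.mem_univ _) ?_
      intro o ho o' ho' h
      obtain ⟨y, hy⟩ := hne o ho
      refine hdisj o ho o' ho' y hy ?_
      rw [← hc4 o' ho', ← hf o' ho', ← h, hf o ho, hc4 o ho]
      exact hy
    · push Not at hall
      obtain ⟨o₀, ho₀, hs₀⟩ := hall
      have h1 : ∀ o ∈ T.image orb, ∃ x : S.orbS D, ∀ y, S.ρ (x : G) y ≠ y ↔
          (y ∈ o ∧ o ≠ o₀ ∨ (y ∈ o₀ ∧ o ≠ o₀ ∧ ∃ hc : ∀ y, (c o y).1 = y.1,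
            Perm.sign (res (c o) hc j) ≠ 1)) := by
        intro o ho
        by_cases hoo : o = o₀
        · refine ⟨1, fun y => ?_⟩
          simp [hoo]
        · by_cases hso : Perm.sign (res (c o) (hc2 o ho) j) = 1
          · obtain ⟨x, hx, h2⟩ := hlift (c o) (hc1 o ho) (hc2 o ho) (hc3 o ho) (hcomp o ho) hso
            refine ⟨⟨x, hx⟩, fun y => ?_⟩
            rw [h2, hc4 o ho]
            constructor
            · intro h; exact Or.inl ⟨h, hoo⟩
            · rintro (⟨h, -⟩ | ⟨-, -, hc, h⟩)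
              · exact h
              · exact absurd hso h
          · have hmul : ∀ y, ((c o * c o₀) y).1 = y.1 := by
              intro y
              rw [Perm.mul_apply, hc2 o ho, hc2 o₀ ho₀]
            have hnot : ∀ y, y ∈ o → y ∉ o₀ := fun y h1 h2 => hoo (hdisj o ho o₀ ho₀ y h1 h2)
            have hfix : ∀ y, y ∉ o → c o y = y := by
              intro y hy
              by_contra h
              exact hy ((hc4 o ho y).mp h)
            have hfix₀ : ∀ y, y ∉ o₀ → c o₀ y = y := by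
              intro y hy
              by_contra h
              exact hy ((hc4 o₀ ho₀ y).mp h)
            have hst₀ : ∀ y, y ∈ o₀ → c o₀ y ∈ o₀ := by
              intro y hy
              rw [← hc4 o₀ ho₀] at hy ⊢
              intro h
              exact hy ((c o₀).injective h)
            have hval : ∀ y, y ∈ o₀ → (c o * c o₀) y = c o₀ y := by
              intro y hy
              rw [Perm.mul_apply]
              refine hfix _ fun h => hnot _ h (hst₀ y hy)
            have hval' : ∀ y, y ∉ o₀ → (c o * c o₀) y = c o y := by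
              intro y hy
              rw [Perm.mul_apply, hfix₀ y hy]
            obtain ⟨x, hx, h2⟩ := hlift (c o * c o₀)
              (by
                intro d hd y
                rw [Perm.mul_apply, Perm.mul_apply, hc1 o₀ ho₀ d hd, hc1 o ho d hd])
              hmul
              (by
                intro y
                by_cases hy : y ∈ o₀
                · rw [hval y hy]; exact hc3 o₀ ho₀ y
                · rw [hval' y hy]; exact hc3 o ho y)
              (by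
                intro y hy
                by_cases hy' : y ∈ o₀
                · rw [hval y hy'] at hy; exact hcomp o₀ ho₀ y hy
                · rw [hval' y hy'] at hy; exact hcomp o ho y hy)
              (by
                rw [sign_res_mul (c o) (c o₀) (hc2 o ho) (hc2 o₀ ho₀) hmul]
                rcases Int.units_eq_one_or (Perm.sign (res (c o) (hc2 o ho) j)) with h | h
                · exact absurd h hso
                · rcases Int.units_eq_one_or (Perm.sign (res (c o₀) (hc2 o₀ ho₀) j)) with h' | h'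
                  · exact absurd h' hs₀
                  · rw [h, h']; rfl)
            refine ⟨⟨x, hx⟩, fun y => ?_⟩
            rw [h2]
            by_cases hy : y ∈ o₀
            · rw [hval y hy, hc4 o₀ ho₀]
              constructor
              · intro h; exact Or.inr ⟨h, hoo, hc2 o ho, hso⟩
              · intro _; exact hy
            · rw [hval' y hy, hc4 o ho]
              constructor
              · intro h; exact Or.inl ⟨h, hoo⟩
              · rintro (⟨h, -⟩ | ⟨h, -⟩)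
                · exact h
                · exact absurd h hy
      choose! f hf using h1
      refine Finset.card_le_card_of_injOn f (fun a _ => Finset.mem_univ _) ?_
      intro o ho o' ho' h
      have key : ∀ y, (y ∈ o ∧ o ≠ o₀ ∨ (y ∈ o₀ ∧ o ≠ o₀ ∧ ∃ hc : ∀ y, (c o y).1 = y.1,
            Perm.sign (res (c o) hc j) ≠ 1)) ↔
          (y ∈ o' ∧ o' ≠ o₀ ∨ (y ∈ o₀ ∧ o' ≠ o₀ ∧ ∃ hc : ∀ y, (c o' y).1 = y.1,
            Perm.sign (res (c o') hc j) ≠ 1)) := by
        intro y
        rw [← hf o ho, ← hf o' ho', h]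
      by_cases hoo : o = o₀
      · by_cases hoo' : o' = o₀
        · rw [hoo, hoo']
        · obtain ⟨y, hy⟩ := hne o' ho'
          rcases (key y).mpr (Or.inl ⟨hy, hoo'⟩) with h | h
          · exact absurd hoo h.2
          · exact absurd hoo h.2.1
      · obtain ⟨y, hy⟩ := hne o ho
        rcases (key y).mp (Or.inl ⟨hy, hoo⟩) with h | h
        · exact hdisj o ho o' ho' y hy h.1
        · exact absurd (hdisj o ho o₀ ho₀ y hy h.1) hoo
  have hT : Nat.card {a : Fin (N j) // S.Moved D j a} = T.card := by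
    rw [Nat.card_eq_fintype_card, Fintype.card_subtype]
  rw [hT]
  exact hcard.trans (Nat.mul_le_mul_left _ main)

end AltData

end Vale.Agent.P180.R2.H12
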