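import Vale.Agent.P180.R2.H12.FSet

/-!
P180 R2 H12: the number of points moved by a `p`-group, in terms of the subgroup `orbS`.
-/

namespace Vale.Agent.P180.R2.H12

open Equiv

variable {G : Type*} [Group G] {r : ℕ} {N : Fin r → ℕ} (S : AltData G r N)

namespace AltData

/-- The number of points moved by `D` is bounded. -/
theorem moved_points_le [Finite G] {p : ℕ} [Fact p.Prime] {D : Subgroup G} (hD : IsPGroup p D)
    {M : ℕ} (hM : Nat.card (S.orbS D) ≤ M) (j : Fin r) :
    Nat.card {a : Fin (N j) // S.Moved D j a} ≤ Nat.card D * M := by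
  classical
  have _ := Fintype.ofFinite (S.orbS D)
  have _ := Fintype.ofFinite D
  -- the orbits
  let orb : Fin (N j) → Set (Σ j, Fin (N j)) := fun a => {y | ∃ d ∈ D, y = S.ρ d ⟨j, a⟩}
  let T : Finset (Fin (N j)) := Finset.univ.filter fun a => S.Moved D j a
  have hself : ∀ a, (⟨j, a⟩ : Σ j, Fin (N j)) ∈ orb a := fun a => ⟨1, D.one_mem, by
    rw [map_one, Perm.one_apply]⟩
  have horb : ∀ (a : Fin (N j)) (b : Fin (N j)) (y), y ∈ orb a → y ∈ orb b → orb a = orb b := by
    intro a b y ⟨d, hd, h1⟩ ⟨d', hd', h2⟩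
    have h3 : (⟨j, a⟩ : Σ j, Fin (N j)) = S.ρ (d⁻¹ * d') ⟨j, b⟩ := by
      rw [map_mul, Perm.mul_apply, ← h2, h1, ← Perm.mul_apply, ← map_mul, inv_mul_cancel, map_one,
        Perm.one_apply]
    have h4 : (⟨j, b⟩ : Σ j, Fin (N j)) = S.ρ (d'⁻¹ * d) ⟨j, a⟩ := by
      rw [map_mul, Perm.mul_apply, ← h1, h2, ← Perm.mul_apply, ← map_mul, inv_mul_cancel, map_one,
        Perm.one_apply]
    ext z
    constructor
    · rintro ⟨e, he, rfl⟩
      refine ⟨e * (d⁻¹ * d'), D.mul_mem he (D.mul_mem (D.inv_mem hd) hd'), ?_⟩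
      rw [map_mul S.ρ e, Perm.mul_apply, ← h3]
    · rintro ⟨e, he, rfl⟩
      refine ⟨e * (d'⁻¹ * d), D.mul_mem he (D.mul_mem (D.inv_mem hd') hd), ?_⟩
      rw [map_mul S.ρ e, Perm.mul_apply, ← h4]
  have hfib : ∀ o ∈ T.image orb, (T.filter fun a => orb a = o).card ≤ Nat.card D := by
    intro o ho
    obtain ⟨b, hb, rfl⟩ := Finset.mem_image.mp ho
    have h1 : ∀ a ∈ T.filter (fun a => orb a = orb b), ∃ d : D,
        (⟨j, a⟩ : Σ j, Fin (N j)) = S.ρ (d : G) ⟨j, b⟩ := by
      intro a ha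
      have h2 := (Finset.mem_filter.mp ha).2
      have h3 := hself a
      rw [h2] at h3
      obtain ⟨d, hd, h4⟩ := h3
      exact ⟨⟨d, hd⟩, h4⟩
    choose! f hf using h1
    rw [Nat.card_eq_fintype_card]
    refine Finset.card_le_card_of_injOn f (fun a _ => Finset.mem_univ _) ?_
    intro a ha a' ha' h
    have h5 := hf a ha
    have h6 := hf a' ha'
    rw [h, ← h6] at h5
    simpa only [Sigma.mk.injEq, heq_eq_eq, true_and] using h5
  have hcard := Finset.card_le_mul_card_image T _ hfib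
  -- the elements commuting with `D`
  have hex : ∀ o ∈ T.image orb, ∃ c : Perm (Σ j, Fin (N j)),
      (∀ d ∈ D, ∀ y, c (S.ρ d y) = S.ρ d (c y)) ∧ (∀ y, (c y).1 = y.1) ∧
      (∀ y, ∃ d ∈ D, c y = S.ρ d y) ∧ (∀ y, c y ≠ y ↔ y ∈ o) := by
    intro o ho
    obtain ⟨b, hb, rfl⟩ := Finset.mem_image.mp ho
    exact S.exists_perm hD (Finset.mem_filter.mp hb).2
  choose! c hc1 hc2 hc3 hc4 using hex
  -- from even permutations to elements of `orbS`
  have hlift : ∀ c : Perm (Σ j, Fin (N j)), (∀ d ∈ D, ∀ y, c (S.ρ d y) = S.ρ d (c y)) →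
      ∀ hc : ∀ y, (c y).1 = y.1, (∀ y, ∃ d ∈ D, c y = S.ρ d y) →
      (∀ y, c y ≠ y → ∃ d ∈ D, y.1 = S.σ d j) → Perm.sign (res c hc j) = 1 →
      ∃ x ∈ S.orbS D, S.ρ x = c := by
    intro c h1 hc h2 h3 h4
    obtain ⟨x, hx, hxc⟩ := S.exists_of_even c hc (by
      intro i
      by_cases hi : ∃ d ∈ D, i = S.σ d j
      · obtain ⟨d, hd, rfl⟩ := hi
        rw [sign_res_conj S c hc d (h1 d hd), h4]
      · refine sign_res_one c hc i ?_
        intro a
        by_contra h
        exact hi (h3 _ h))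
    refine ⟨x, ⟨hx, fun d hd => S.commute_of_ρ hx ?_, ?_⟩, hxc⟩
    · intro y
      rw [hxc]
      exact h1 d hd y
    · intro a
      rw [hxc]
      exact h2 a
  have hcomp : ∀ o ∈ T.image orb, ∀ y, c o y ≠ y → ∃ d ∈ D, y.1 = S.σ d j := by
    intro o ho y hy
    rw [hc4 o ho] at hy
    obtain ⟨b, hb, rfl⟩ := Finset.mem_image.mp ho
    obtain ⟨d, hd, rfl⟩ := hy
    exact ⟨d, hd, S.ρ_fst d _⟩
  have hdisj : ∀ o ∈ T.image orb, ∀ o' ∈ T.image orb, ∀ y, y ∈ o → y ∈ o' → o = o' := by
    intro o ho o' ho' y h1 h2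
    obtain ⟨b, hb, rfl⟩ := Finset.mem_image.mp ho
    obtain ⟨b', hb', rfl⟩ := Finset.mem_image.mp ho'
    exact horb b b' y h1 h2
  have hne : ∀ o ∈ T.image orb, ∃ y, y ∈ o := by
    intro o ho
    obtain ⟨b, hb, rfl⟩ := Finset.mem_image.mp ho
    exact ⟨_, hself b⟩
  -- the supports
  have main : (T.image orb).card ≤ M := by
    refine le_trans ?_ hM
    rw [Nat.card_eq_fintype_card, ← Finset.card_univ]
    -- for each orbit an element of `orbS` with prescribed support
    by_cases hall : ∀ o, ∀ ho : o ∈ T.image orb, Perm.sign (res (c o) (hc2 o ho) j) = 1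
    · have h1 : ∀ o ∈ T.image orb, ∃ x : S.orbS D, S.ρ (x : G) = c o := by
        intro o ho
        obtain ⟨x, hx, h2⟩ := hlift (c o) (hc1 o ho) (hc2 o ho) (hc3 o ho) (hcomp o ho) (hall o ho)
        exact ⟨⟨x, hx⟩, h2⟩
      choose! f hf using h1
      refine Finset.card_le_card_of_injOn f (fun a _ => Finset.mem_univ _) ?_
      intro o ho o' ho' h
      obtain ⟨y, hy⟩ := hne o ho
      refine hdisj o ho o' ho' y hy ?_
      rw [← hc4 o' ho', ← hf o' ho', ← h, hf o ho, hc4 o ho]
      exact hy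
    · push Not at hall
      obtain ⟨o₀, ho₀, hs₀⟩ := hall
      have h1 : ∀ o ∈ T.image orb, ∃ x : S.orbS D, ∀ y, S.ρ (x : G) y ≠ y ↔
          (y ∈ o ∧ o ≠ o₀ ∨ (y ∈ o₀ ∧ o ≠ o₀ ∧ ∃ hc : ∀ y, (c o y).1 = y.1,
            Perm.sign (res (c o) hc j) ≠ 1)) := by
        intro o ho
        by_cases hoo : o = o₀
        · refine ⟨1, fun y => ?_⟩
          simp [hoo]
        · by_cases hso : Perm.sign (res (c o) (hc2 o ho) j) = 1
          · obtain ⟨x, hx, h2⟩ := hlift (c o) (hc1 o ho) (hc2 o ho) (hc3 o ho) (hcomp o ho) hso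
            refine ⟨⟨x, hx⟩, fun y => ?_⟩
            rw [h2, hc4 o ho]
            constructor
            · intro h; exact Or.inl ⟨h, hoo⟩
            · rintro (⟨h, -⟩ | ⟨-, -, hc, h⟩)
              · exact h
              · exact absurd hso h
          · have hmul : ∀ y, ((c o * c o₀) y).1 = y.1 := by
              intro y
              rw [Perm.mul_apply, hc2 o ho, hc2 o₀ ho₀]
            have hnot : ∀ y, y ∈ o → y ∉ o₀ := fun y h1 h2 => hoo (hdisj o ho o₀ ho₀ y h1 h2)
            have hfix : ∀ y, y ∉ o → c o y = y := by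
              intro y hy
              by_contra h
              exact hy ((hc4 o ho y).mp h)
            have hfix₀ : ∀ y, y ∉ o₀ → c o₀ y = y := by
              intro y hy
              by_contra h
              exact hy ((hc4 o₀ ho₀ y).mp h)
            have hst₀ : ∀ y, y ∈ o₀ → c o₀ y ∈ o₀ := by
              intro y hy
              rw [← hc4 o₀ ho₀] at hy ⊢
              intro h
              exact hy ((c o₀).injective h)
            have hval : ∀ y, y ∈ o₀ → (c o * c o₀) y = c o₀ y := by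
              intro y hy
              rw [Perm.mul_apply]
              refine hfix _ fun h => hnot _ h (hst₀ y hy)
            have hval' : ∀ y, y ∉ o₀ → (c o * c o₀) y = c o y := by
              intro y hy
              rw [Perm.mul_apply, hfix₀ y hy]
            obtain ⟨x, hx, h2⟩ := hlift (c o * c o₀)
              (by
                intro d hd y
                rw [Perm.mul_apply, Perm.mul_apply, hc1 o₀ ho₀ d hd, hc1 o ho d hd])
              hmul
              (by
                intro y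
                by_cases hy : y ∈ o₀
                · rw [hval y hy]; exact hc3 o₀ ho₀ y
                · rw [hval' y hy]; exact hc3 o ho y)
              (by
                intro y hy
                by_cases hy' : y ∈ o₀
                · rw [hval y hy'] at hy; exact hcomp o₀ ho₀ y hy
                · rw [hval' y hy'] at hy; exact hcomp o ho y hy)
              (by
                rw [sign_res_mul (c o) (c o₀) (hc2 o ho) (hc2 o₀ ho₀) hmul]
                rcases Int.units_eq_one_or (Perm.sign (res (c o) (hc2 o ho) j)) with h | h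
                · exact absurd h hso
                · rcases Int.units_eq_one_or (Perm.sign (res (c o₀) (hc2 o₀ ho₀) j)) with h' | h'
                  · exact absurd h' hs₀
                  · rw [h, h']; rfl)
            refine ⟨⟨x, hx⟩, fun y => ?_⟩
            rw [h2]
            by_cases hy : y ∈ o₀
            · rw [hval y hy, hc4 o₀ ho₀]
              constructor
              · intro h; exact Or.inr ⟨h, hoo, hc2 o ho, hso⟩
              · intro _; exact hy
            · rw [hval' y hy, hc4 o ho]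
              constructor
              · intro h; exact Or.inl ⟨h, hoo⟩
              · rintro (⟨h, -⟩ | ⟨h, -⟩)
                · exact h
                · exact absurd h hy
      choose! f hf using h1
      refine Finset.card_le_card_of_injOn f (fun a _ => Finset.mem_univ _) ?_
      intro o ho o' ho' h
      have key : ∀ y, (y ∈ o ∧ o ≠ o₀ ∨ (y ∈ o₀ ∧ o ≠ o₀ ∧ ∃ hc : ∀ y, (c o y).1 = y.1,
            Perm.sign (res (c o) hc j) ≠ 1)) ↔
          (y ∈ o' ∧ o' ≠ o₀ ∨ (y ∈ o₀ ∧ o' ≠ o₀ ∧ ∃ hc : ∀ y, (c o' y).1 = y.1,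
            Perm.sign (res (c o') hc j) ≠ 1)) := by
        intro y
        rw [← hf o ho, ← hf o' ho', h]
      by_cases hoo : o = o₀
      · by_cases hoo' : o' = o₀
        · rw [hoo, hoo']
        · obtain ⟨y, hy⟩ := hne o' ho'
          rcases (key y).mpr (Or.inl ⟨hy, hoo'⟩) with h | h
          · exact absurd hoo h.2
          · exact absurd hoo h.2.1
      · obtain ⟨y, hy⟩ := hne o ho
        rcases (key y).mp (Or.inl ⟨hy, hoo⟩) with h | h
        · exact hdisj o ho o' ho' y hy h.1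
        · exact absurd (hdisj o ho o₀ ho₀ y hy h.1) hoo
  have hT : Nat.card {a : Fin (N j) // S.Moved D j a} = T.card := by
    rw [Nat.card_eq_fintype_card, Fintype.card_subtype]
  rw [hT]
  exact hcard.trans (Nat.mul_le_mul_left _ main)

/-- The subset of points used for the local idempotent. -/
theorem exists_F_le [Finite G] {p : ℕ} [Fact p.Prime] {D : Subgroup G} (hD : IsPGroup p D)
    {M : ℕ} (hM : Nat.card (S.orbS D) ≤ M) :
    ∃ F : Set (Σ j, Fin (N j)),
      (∀ g ∈ Subgroup.normalizer (D : Set G), ∀ y ∈ F, S.ρ g y ∈ F) ∧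
      (∀ d ∈ D, ∀ y ∈ F, S.σ d y.1 = y.1 → S.ρ d y = y) ∧
      (∀ j, (∀ a : Fin (N j), (⟨j, a⟩ : Σ j, Fin (N j)) ∉ F) ∨
        5 ≤ Nat.card {a : Fin (N j) // (⟨j, a⟩ : Σ j, Fin (N j)) ∈ F}) ∧
      ∀ j, Nat.card {a : Fin (N j) // (⟨j, a⟩ : Σ j, Fin (N j)) ∉ F} ≤
        Nat.card D * M + 4 := by
  classical
  let c : Fin r → ℕ := fun j => Nat.card {z : Σ j, Fin (N j) // z.1 = j ∧ ¬ S.Moved D z.1 z.2}
  have hc : ∀ j, c j = Nat.card {a : Fin (N j) // ¬ S.Moved D j a} := by
    intro j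
    refine Nat.card_congr
      { toFun := fun z => ⟨Equiv.sigmaSubtype (β := fun j => Fin (N j)) j ⟨z.1, z.2.1⟩, ?_⟩
        invFun := fun a => ⟨⟨j, a.1⟩, rfl, a.2⟩
        left_inv := ?_
        right_inv := ?_ }
    · obtain ⟨⟨i, b⟩, h, h'⟩ := z
      subst h
      exact h'
    · rintro ⟨⟨i, b⟩, h, h'⟩
      subst h
      rfl
    · rintro ⟨b, h⟩
      rfl
  have hcg : ∀ g ∈ Subgroup.normalizer (D : Set G), ∀ j, c j ≤ c (S.σ g j) := by
    intro g hg j
    refine Nat.card_le_card_of_injective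
      (fun z : {z : Σ j, Fin (N j) // z.1 = j ∧ ¬ S.Moved D z.1 z.2} =>
        (⟨S.ρ g z.1, by rw [S.ρ_fst, z.2.1], ?_⟩ :
          {z : Σ j, Fin (N j) // z.1 = S.σ g j ∧ ¬ S.Moved D z.1 z.2})) ?_
    · intro h
      apply z.2.2
      have h1 := S.moved_conj (Subgroup.inv_mem _ hg) h
      rwa [← S.ρ_mul, inv_mul_cancel, map_one, Perm.one_apply] at h1
    · intro z z' h
      have h1 := congrArg Subtype.val h
      exact Subtype.ext ((S.ρ g).injective h1)
  refine ⟨{y | ¬ S.Moved D y.1 y.2 ∧ 5 ≤ c y.1}, ?_, ?_, ?_, ?_⟩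
  · rintro g hg y ⟨h1, h2⟩
    refine ⟨fun h => h1 ?_, ?_⟩
    · have h3 := S.moved_conj (Subgroup.inv_mem _ hg) h
      rwa [← S.ρ_mul, inv_mul_cancel, map_one, Perm.one_apply] at h3
    · rw [S.ρ_fst]
      exact h2.trans (hcg g hg _)
  · rintro d hd y ⟨h1, h2⟩ h3
    by_contra h
    exact h1 ⟨d, hd, h3, h⟩
  · intro j
    by_cases h5 : 5 ≤ c j
    · right
      have e : {a : Fin (N j) // (⟨j, a⟩ : Σ j, Fin (N j)) ∈
          {y : Σ j, Fin (N j) | ¬ S.Moved D y.1 y.2 ∧ 5 ≤ c y.1}} ≃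
          {a : Fin (N j) // ¬ S.Moved D j a} :=
        Equiv.subtypeEquivRight fun a => ⟨fun h => h.1, fun h => ⟨h, h5⟩⟩
      rw [Nat.card_congr e, ← hc]
      exact h5
    · left
      intro a ha
      exact h5 ha.2
  · intro j
    have hmv := S.moved_points_le hD hM j
    by_cases h5 : 5 ≤ c j
    · have e : {a : Fin (N j) // (⟨j, a⟩ : Σ j, Fin (N j)) ∉
          {y : Σ j, Fin (N j) | ¬ S.Moved D y.1 y.2 ∧ 5 ≤ c y.1}} ≃
          {a : Fin (N j) // S.Moved D j a} :=
        Equiv.subtypeEquivRight fun a => ⟨fun h => by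
          by_contra h'
          exact h ⟨h', h5⟩, fun h h' => h'.1 h⟩
      rw [Nat.card_congr e]
      omega
    · have h1 : Nat.card {a : Fin (N j) // (⟨j, a⟩ : Σ j, Fin (N j)) ∉
          {y : Σ j, Fin (N j) | ¬ S.Moved D y.1 y.2 ∧ 5 ≤ c y.1}} ≤ N j := by
        have := Nat.card_le_card_of_injective (fun a : {a : Fin (N j) //
          (⟨j, a⟩ : Σ j, Fin (N j)) ∉ {y : Σ j, Fin (N j) | ¬ S.Moved D y.1 y.2 ∧ 5 ≤ c y.1}} =>
          a.1) Subtype.val_injective
        rwa [Nat.card_eq_fintype_card (α := Fin (N j)), Fintype.card_fin] at this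
      have h2 : N j = Nat.card {a : Fin (N j) // S.Moved D j a} + c j := by
        rw [hc, ← Nat.card_sum, Nat.card_congr (Equiv.sumCompl fun a => S.Moved D j a),
          Nat.card_eq_fintype_card, Fintype.card_fin]
      omega

end AltData

end Vale.Agent.P180.R2.H12
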