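import Vale.Agent.P180.R2.H12.Loc

/-!
P180 R2 H12: the local idempotent, main theorem.
-/

namespace Vale.Agent.P180.R2.H12

open Equiv Vale.Agent.P180 Vale.Agent.P180.H768.Gd

namespace AltData

variable {G : Type*} [Group G] {r : ℕ} {N : Fin r → ℕ} {S : AltData G r N}
variable {D : Subgroup G} {F : Set (Σ j, Fin (N j))} {k : Type*} [Field k]
variable [Finite G] {p : ℕ} [Fact p.Prime] [CharP k p]

/-- The data for one orbit. -/
theorem exists_orb [IsAlgClosed k] (hD : IsPGroup p D) {e : MonoidAlgebra k G}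
    (he : IsBlockOf (S.YY D F Set.univ) e)
    (hz : ∃ z ∈ SubAlg k (S.YY D F Set.univ), e = tr (cj k G) ⊥ (S.YY D F Set.univ) z)
    (j : Fin r) :
    ∃ (e' ε : MonoidAlgebra k (∀ j, alternatingGroup (Fin (N j)))) (φ : k →+* k),
      Loc k (S.YP D F (S.orb D j)) e' ε ∧ e * tm (RingHom.id k) S.ι e' = e ∧
      Function.Surjective φ ∧ ∀ x, φ x ^ Nat.card (S.orb D j) = x := by
  obtain ⟨eo, heo, hee, z, hz, heoz⟩ := exists_eo he hz (s := S.orb D j) orb_inv
  have hid : Function.Surjective (RingHom.id k) := fun x => ⟨x, rfl⟩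
  have hinj : Set.InjOn S.ι (S.YP D F (S.orb D j) : Set _) := S.inj.injOn
  have h1 : eo ∈ SubAlg k ((S.YP D F (S.orb D j)).map S.ι) := by
    rw [YP_map]; exact heo.mem.1
  have h2 : z ∈ SubAlg k ((S.YP D F (S.orb D j)).map S.ι) := by
    rw [YP_map]; exact hz
  obtain ⟨e', he', rfl⟩ := tm_surj hid h1
  obtain ⟨z', hz', rfl⟩ := tm_surj hid h2
  have _ : Finite (∀ j, alternatingGroup (Fin (N j))) := inferInstance
  have htr : tr (cj k (∀ j, alternatingGroup (Fin (N j)))) ⊥ (S.YP D F (S.orb D j)) z' ∈
      SubAlg k (S.YP D F (S.orb D j)) := by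
    classical
    have _ := Fintype.ofFinite (S.YP D F (S.orb D j))
    rw [tr_bot_eq_sum]
    exact Subalgebra.sum_mem _ fun y _ => cj_mem_SubAlg' y.2 hz'
  have hblock : IsBlockOf (S.YP D F (S.orb D j)) e' := by
    rw [← tm_block_iff hid hinj he', YP_map]
    exact heo
  have htr' : e' = tr (cj k (∀ j, alternatingGroup (Fin (N j)))) ⊥ (S.YP D F (S.orb D j)) z' := by
    refine tm_inj (φ := RingHom.id k) hinj he' htr ?_
    rw [tm_tr hinj, YP_map]
    exact heoz
  obtain ⟨ε, hε⟩ := exists_loc (p := p) hblock ⟨z', hz', htr'⟩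
  obtain ⟨m, hm⟩ := orb_card (S := S) hD j
  obtain ⟨φ, hφ, hφ'⟩ := exists_frob k p m
  exact ⟨e', ε, φ, hε, hee, hφ, by rw [hm]; exact hφ'⟩

/-- **The local idempotent.** -/
theorem exists_f [IsAlgClosed k] (hD : IsPGroup p D) {a b : MonoidAlgebra k G}
    (ha : a ∈ Fix (cj k G) D) (hb : b * b = b) (hba : b = tr (cj k G) D ⊤ a) (hne : br D b ≠ 0)
    (hF1 : ∀ g ∈ Subgroup.normalizer (D : Set G), ∀ y ∈ F, S.ρ g y ∈ F)
    (hF2 : ∀ d ∈ D, ∀ y ∈ F, S.σ d y.1 = y.1 → S.ρ d y = y) :
    ∃ e h : ∀ j, MonoidAlgebra k (alternatingGroup (Fin (N j))),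
      (∀ j, Loc k (AF F j) (e j) (h j)) ∧
      tm (RingHom.id k) S.ι (T h) ∈ Fix (cj k G) D ∧
      br D (b * tm (RingHom.id k) S.ι (T h)) ≠ 0 := by
  classical
  have hbF : b ∈ Fix (cj k G) D := by
    rw [hba]; exact Fix_top_le (tr_mem_Fix ha)
  obtain ⟨-, hcF, -, -, -⟩ := br_data hD ha hb hba
  have hF1' : ∀ d ∈ D, ∀ y ∈ F, S.ρ d y ∈ F := fun d hd => hF1 d (Subgroup.le_normalizer hd)
  obtain ⟨e, he, hce, hez⟩ := exists_eY hD ha hb hba hne hF1 hF2
  have hex : ∀ o : Set (Fin r), ∃ (e' ε : MonoidAlgebra k (∀ j, alternatingGroup (Fin (N j))))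
      (φ : k →+* k), (∃ j, o = S.orb D j) →
      (Loc k (S.YP D F o) e' ε ∧ e * tm (RingHom.id k) S.ι e' = e ∧
        Function.Surjective φ ∧ ∀ x, φ x ^ Nat.card o = x) := by
    intro o
    by_cases ho : ∃ j, o = S.orb D j
    · obtain ⟨j, rfl⟩ := ho
      obtain ⟨e', ε, φ, h⟩ := exists_orb hD he hez j
      exact ⟨e', ε, φ, fun _ => h⟩
    · exact ⟨0, 0, RingHom.id k, fun h => absurd h ho⟩
  choose eP εP φ hL using hex
  let h : ∀ i, MonoidAlgebra k (alternatingGroup (Fin (N i))) := fun i =>
    tm (φ (S.orb D i)) (pr N i) (εP (S.orb D i))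
  have hLoc : ∀ j, Loc k (AF F j) (tm (φ (S.orb D j)) (pr N j) (eP (S.orb D j))) (h j) := by
    intro j
    obtain ⟨h1, -, h3, -⟩ := hL (S.orb D j) ⟨j, rfl⟩
    have h4 := h1.tm h3 (pr_injOn (F := F) (D := D) j)
    rwa [YP_pr hF1' hF2 j] at h4
  -- the induction
  have key : ∀ R : Finset (Set (Fin r)), (∀ o ∈ R, ∃ j, o = S.orb D j) →
      tm (RingHom.id k) S.ι (T fun i => if S.orb D i ∈ R then h i else 1) ∈ Fix (cj k G) D ∧
      br D b * br D (tm (RingHom.id k) S.ι (T fun i => if S.orb D i ∈ R then h i else 1)) * e ≠ 0 ∧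
      ∀ o, (∃ j, o = S.orb D j) → o ∉ R → ∀ u ∈ SubAlg k (S.YY D F o),
        br D (tm (RingHom.id k) S.ι (T fun i => if S.orb D i ∈ R then h i else 1)) * u =
        u * br D (tm (RingHom.id k) S.ι (T fun i => if S.orb D i ∈ R then h i else 1)) := by
    intro R
    induction R using Finset.induction_on with
    | empty =>
      intro _
      have h1 : (T fun i => if S.orb D i ∈ (∅ : Finset (Set (Fin r))) then h i else 1) =
          (1 : MonoidAlgebra k (∀ j, alternatingGroup (Fin (N j)))) := by
        rw [← T_one]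
        congr 1
      have h2 : br D (1 : MonoidAlgebra k G) = 1 := by
        apply ext_coeff
        intro x
        rw [br_coeff, MonoidAlgebra.one_def, coeff_single]
        by_cases hx : 1 = x
        · rw [if_pos hx, if_pos (by rw [← hx]; exact Subgroup.one_mem _)]
        · rw [if_neg hx, ite_self]
      rw [h1, map_one, h2]
      refine ⟨Subalgebra.one_mem _, ?_, fun o _ _ u _ => ?_⟩
      · rw [mul_one]; exact hce
      · rw [one_mul, mul_one]
    | insert o R hoR ih =>
      intro hR
      obtain ⟨ih1, ih2, ih3⟩ := ih fun o' ho' => hR o' (Finset.mem_insert_of_mem ho')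
      obtain ⟨j, hj⟩ := hR o (Finset.mem_insert_self o R)
      obtain ⟨hl1, hl2, hl3, hl4⟩ := hL o ⟨j, hj⟩
      have hprod : (T fun i => if S.orb D i ∈ insert o R then h i else 1) =
          (T fun i => if S.orb D i ∈ R then h i else 1) *
          T (fun i => if S.orb D i = o then h i else 1) := by
        rw [T_mul]
        congr 1
        funext i
        by_cases h1 : S.orb D i = o
        · rw [if_pos (show S.orb D i ∈ insert o R by
            rw [h1]; exact Finset.mem_insert_self o R), if_pos h1,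
            if_neg (show S.orb D i ∉ R by rw [h1]; exact hoR), one_mul]
        · rw [if_neg h1, mul_one]
          by_cases h2 : S.orb D i ∈ R
          · rw [if_pos h2, if_pos (Finset.mem_insert_of_mem h2)]
          · rw [if_neg h2, if_neg]
            intro h3
            rcases Finset.mem_insert.mp h3 with h4 | h4
            · exact h1 h4
            · exact h2 h4
      have hl1' : εP o ∈ SubAlg k (S.YP D F (S.orb D j)) := by rw [← hj]; exact hl1.mem
      have hl4' : ∀ x, φ o x ^ Nat.card (S.orb D j) = x := by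
        intro x
        rw [← hj]
        exact hl4 x
      obtain ⟨hs1, hs2⟩ := orbit_step hF1' hF2 j (φ o) hl4' hl1'
        (fun i => if S.orb D i = o then h i else 1)
        (by
          intro i hi
          have h1 : S.orb D i = o := by rw [hj]; exact orb_eq hi
          change (if S.orb D i = o then h i else 1) = _
          rw [if_pos h1]
          change tm (φ (S.orb D i)) (pr N i) (εP (S.orb D i)) = _
          rw [h1])
        (by
          intro i hi
          refine if_neg fun h1 => hi ?_
          rw [← hj, ← h1]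
          exact self_mem_orb i)
      have hlocG : Loc k (S.YY D F o) (tm (RingHom.id k) S.ι (eP o))
          (tm (RingHom.id k) S.ι (εP o)) := by
        have h1 := hl1.tm (φ := RingHom.id k) (f := S.ι) (fun x => ⟨x, rfl⟩) S.inj.injOn
        rwa [YP_map] at h1
      rw [hprod, map_mul, br_mul hD ih1 hs1, hs2]
      generalize br D (tm (RingHom.id k) S.ι (T fun i => if S.orb D i ∈ R then h i else 1)) = B
        at ih2 ih3
      generalize tm (RingHom.id k) S.ι (εP o) = ε at hlocG
      generalize tm (RingHom.id k) S.ι (eP o) = eo at hlocG hl2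
      refine ⟨Subalgebra.mul_mem _ ih1 hs1, ?_, ?_⟩
      · intro h0
        apply ih2
        obtain ⟨n, u, v, hu, hv, huv⟩ := hlocG.full
        have hYle : S.YY D F o ≤ S.YY D F Set.univ := YY_mono (Set.subset_univ _)
        have h1 : e = eo * e := by
          conv_lhs => rw [← hl2]
          exact (commute_of_mem (SubAlg_mono hYle hlocG.block.mem.1) he.mem.2).symm
        conv_lhs => rw [h1, huv, Finset.sum_mul, Finset.mul_sum]
        refine Finset.sum_eq_zero fun l _ => ?_
        have h2 : v l * e = e * v l := commute_of_mem (SubAlg_mono hYle (hv l)) he.mem.2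
        have h3 : B * u l = u l * B := ih3 o ⟨j, hj⟩ hoR _ (hu l)
        have h4 : u l * br D b = br D b * u l :=
          commute_of_mem (SubAlg_mono (YY_le_cent.trans cent_le_norm) (hu l)) hcF
        calc br D b * B * (u l * ε * v l * e)
            = br D b * (B * u l) * ε * (v l * e) := by simp only [mul_assoc]
          _ = br D b * (u l * B) * ε * (e * v l) := by rw [h2, h3]
          _ = (br D b * u l) * B * ε * e * v l := by simp only [mul_assoc]
          _ = u l * (br D b * (B * ε) * e) * v l := by rw [← h4]; simp only [mul_assoc]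
          _ = 0 := by rw [h0, mul_zero, zero_mul]
      · intro o' ho' ho'R u hu
        have h1 : o' ≠ o := fun h => ho'R (by rw [h]; exact Finset.mem_insert_self o R)
        have h2 : o' ∉ R := fun h => ho'R (Finset.mem_insert_of_mem h)
        have h3 : B * u = u * B := ih3 o' ho' h2 u hu
        have h4 : u * ε = ε * u := by
          refine commute_of_mem hu (fix_of_comm (Y₁ := S.YY D F o) ?_ hlocG.mem)
          intro x hx y hy
          refine YY_comm ?_ hy hx
          intro i hi hi'
          apply h1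
          obtain ⟨j', hj'⟩ := ho'
          rw [hj'] at hi ⊢
          rw [hj] at hi' ⊢
          rw [← orb_eq hi, ← orb_eq hi']
        rw [mul_assoc, ← h4, ← mul_assoc, h3, mul_assoc]
  have hfin := key (Finset.univ.image fun j => S.orb D j) (by
    intro o ho
    obtain ⟨j, -, hj⟩ := Finset.mem_image.mp ho
    exact ⟨j, hj.symm⟩)
  have hT : (T fun i => if S.orb D i ∈ (Finset.univ.image fun j => S.orb D j) then h i else 1) =
      T h := by
    congr 1
    funext i
    exact if_pos (Finset.mem_image_of_mem _ (Finset.mem_univ i))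
  rw [hT] at hfin
  refine ⟨fun j => tm (φ (S.orb D j)) (pr N j) (eP (S.orb D j)), h, hLoc, hfin.1, ?_⟩
  rw [br_mul hD hbF hfin.1]
  intro h0
  apply hfin.2.1
  rw [h0, zero_mul]

end AltData

end Vale.Agent.P180.R2.H12
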