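import Vale.Agent.P180.R2.H12.Dec

/-!
P180 R2 H12: the diagonal embedding of a component which is centralised by its stabiliser.
-/

namespace Vale.Agent.P180.R2.H12

open Equiv Vale.Agent.P180 Vale.Agent.P180.H768.Gd
open scoped commutatorElement

/-- Elements commuting with everything after a central quotient. -/
theorem central_of_perfect {P A : Type*} [Group P] [Group A] (f : P →* A)
    (hker : ∀ x, f x = 1 → ∀ y, x * y = y * x) (hperf : commutator P = ⊤) {u : P}
    (hu : ∀ x, f u * f x = f x * f u) (x : P) : u * x = x * u := by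
  have h1 : ∀ x : P, ∃ z : P, (∀ y, z * y = y * z) ∧ u * x * u⁻¹ = z * x := by
    intro x
    refine ⟨u * x * u⁻¹ * x⁻¹, hker _ ?_, by group⟩
    rw [map_mul, map_mul, map_mul, map_inv, map_inv, hu x, mul_inv_cancel_right, mul_inv_cancel]
  have h2 : commutator P ≤ Subgroup.centralizer {u} := by
    rw [commutator_def, Subgroup.commutator_le]
    intro x _ y _
    obtain ⟨a, ha, hax⟩ := h1 x
    obtain ⟨b, hb, hby⟩ := h1 y
    rw [Subgroup.mem_centralizer_singleton_iff]
    have h3 : u * ⁅x, y⁆ * u⁻¹ = ⁅x, y⁆ := by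
      have h4 : u * ⁅x, y⁆ * u⁻¹ = ⁅u * x * u⁻¹, u * y * u⁻¹⁆ := by
        rw [commutatorElement_def, commutatorElement_def]
        group
      rw [h4, hax, hby, commutatorElement_def, commutatorElement_def, mul_inv_rev, mul_inv_rev]
      have hai : ∀ y, a⁻¹ * y = y * a⁻¹ := by
        intro y
        rw [inv_mul_eq_iff_eq_mul, ← mul_assoc, ha, mul_assoc, mul_inv_cancel, mul_one]
      have hbi : ∀ y, b⁻¹ * y = y * b⁻¹ := by
        intro y
        rw [inv_mul_eq_iff_eq_mul, ← mul_assoc, hb, mul_assoc, mul_inv_cancel, mul_one]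
      calc a * x * (b * y) * (x⁻¹ * a⁻¹) * (y⁻¹ * b⁻¹)
          = a * (x * (b * y) * x⁻¹) * a⁻¹ * (y⁻¹ * b⁻¹) := by group
        _ = (x * (b * y) * x⁻¹) * (a * a⁻¹) * (y⁻¹ * b⁻¹) := by
            rw [ha (x * (b * y) * x⁻¹)]; simp only [mul_assoc]
        _ = x * (b * (y * x⁻¹)) * y⁻¹ * b⁻¹ := by
            rw [mul_inv_cancel]; simp only [mul_assoc, one_mul]
        _ = x * (y * x⁻¹ * b) * y⁻¹ * b⁻¹ := by rw [hb (y * x⁻¹)]
        _ = x * y * x⁻¹ * (b * y⁻¹) * b⁻¹ := by simp only [mul_assoc]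
        _ = x * y * x⁻¹ * y⁻¹ := by rw [hb]; simp only [mul_assoc, mul_inv_cancel, mul_one]
    have h5 : u * ⁅x, y⁆ = ⁅x, y⁆ * u := by
      calc u * ⁅x, y⁆ = u * ⁅x, y⁆ * u⁻¹ * u := by group
        _ = ⁅x, y⁆ * u := by rw [h3]
    first
      | exact h5
      | exact h5.symm
  have h6 : x ∈ Subgroup.centralizer {u} := h2 (by rw [hperf]; exact Subgroup.mem_top x)
  rw [Subgroup.mem_centralizer_singleton_iff] at h6
  first
    | exact h6
    | exact h6.symm

section Tm

variable {k : Type*} [Field k] {P A : Type*} [Group P] [Group A] {φ : k →+* k} {f : P →* A}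

theorem tm_tr_comap [Finite P] [Finite A] (C : Subgroup A)
    {a : MonoidAlgebra k P} (ha : a ∈ Fix (cj k P) (C.comap f)) :
    tm φ f (tr (cj k P) (C.comap f) ⊤ a) = tr (cj k A) (f.range ⊓ C) f.range (tm φ f a) := by
  classical
  have _ := Fintype.ofFinite ((⊤ : Subgroup P) ⧸ (C.comap f).subgroupOf ⊤)
  have ha' : tm φ f a ∈ Fix (cj k A) (f.range ⊓ C) := by
    intro y hy
    obtain ⟨⟨x, rfl⟩, hx⟩ := Subgroup.mem_inf.mp hy
    rw [← tm_cj, ha x hx]
  rw [tr_def, map_sum, tr_eq_sum' ha' (fun q : (⊤ : Subgroup P) ⧸ (C.comap f).subgroupOf ⊤ =>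
    f ((q.out : (⊤ : Subgroup P)) : P))]
  · refine Finset.sum_congr rfl fun q _ => ?_
    exact tm_cj φ f _ _
  · intro q
    exact ⟨_, rfl⟩
  · intro q q' h
    rw [← QuotientGroup.out_eq' q, ← QuotientGroup.out_eq' q', QuotientGroup.eq,
      Subgroup.mem_subgroupOf]
    change f _ ∈ C
    rw [← map_inv, ← map_mul] at h
    exact (Subgroup.mem_inf.mp h).2
  · rintro _ ⟨x, rfl⟩
    have h2 := QuotientGroup.out_eq' (((⟨x, Subgroup.mem_top x⟩ : (⊤ : Subgroup P)) :
      (⊤ : Subgroup P) ⧸ (C.comap f).subgroupOf ⊤))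
    refine ⟨((⟨x, Subgroup.mem_top x⟩ : (⊤ : Subgroup P)) :
      (⊤ : Subgroup P) ⧸ (C.comap f).subgroupOf ⊤), ?_⟩
    rw [QuotientGroup.eq, Subgroup.mem_subgroupOf] at h2
    rw [← map_inv, ← map_mul, Subgroup.mem_inf]
    exact ⟨⟨_, rfl⟩, h2⟩

theorem tm_comp (φ ψ : k →+* k) {B : Type*} [Group B] (f : P →* A) (g : A →* B)
    (a : MonoidAlgebra k P) : tm φ g (tm ψ f a) = tm (φ.comp ψ) (g.comp f) a := by
  induction a using MonoidAlgebra.induction_linear with
  | zero => rw [map_zero, map_zero, map_zero]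
  | add a b ha hb => rw [map_add, map_add, map_add, ha, hb]
  | single x c => rw [tm_single, tm_single, tm_single]; rfl

theorem tm_id (a : MonoidAlgebra k P) : tm (RingHom.id k) (MonoidHom.id P) a = a := by
  induction a using MonoidAlgebra.induction_linear with
  | zero => rw [map_zero]
  | add a b ha hb => rw [map_add, ha, hb]
  | single x c => rw [tm_single]; rfl

theorem tm_coeff_eq_sum' [Fintype P] [DecidableEq A] (φ : k →+* k)
    (f : P →* A) (a : MonoidAlgebra k P) (x : A) :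
    (tm φ f a).coeff x = ∑ y : P, if f y = x then φ (a.coeff y) else 0 := by
  have h1 : tm φ f a = tm (RingHom.id k) f (tm φ (MonoidHom.id P) a) := by
    rw [tm_comp]
    rfl
  rw [h1, tm_coeff_eq_sum]
  refine Finset.sum_congr rfl fun y _ => ?_
  have h2 := tm_coeff (φ := φ) (f := MonoidHom.id P) (Y := ⊤) (a := a)
    (fun x _ y _ h => h) (SubAlg_top a) (Subgroup.mem_top y)
  rw [MonoidHom.id_apply] at h2
  rw [h2]

end Tm

namespace Fam

variable {G : Type*} [Group G] {r : ℕ} {D : Subgroup G} (F : Fam G r D)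

/-- The stabiliser of `j` centralises the component. -/
def SC (j : Fin r) : Prop := ∀ d ∈ F.st j, ∀ x ∈ F.A j, d * x = x * d

variable {F}

theorem SC.eq {j : Fin r} (h : F.SC j) {d e : D} (hde : F.σ d j = F.σ e j) {x : G}
    (hx : x ∈ F.A j) : (d : G) * x * (d : G)⁻¹ = e * x * (e : G)⁻¹ := by
  have h1 : ((e⁻¹ * d : D) : G) ∈ F.st j :=
    ⟨e⁻¹ * d, by rw [F.σ_mul, hde, ← F.σ_mul, inv_mul_cancel, F.σ_one], rfl⟩
  have h2 := h _ h1 x hx
  push_cast at h2
  calc (d : G) * x * (d : G)⁻¹ = e * ((e : G)⁻¹ * d * x) * (d : G)⁻¹ := by group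
    _ = e * x * (e : G)⁻¹ := by rw [h2]; group

open scoped Classical in
/-- The diagonal embedding. -/
noncomputable def sec (j : Fin r) : F.A j →* (∀ i, F.A i) where
  toFun u := fun i => if h : ∃ d : D, F.σ d j = i then
    ⟨(h.choose : G) * u * (h.choose : G)⁻¹, by
      have h1 := F.conj h.choose j u u.2
      rwa [h.choose_spec] at h1⟩ else 1
  map_one' := by
    funext i
    by_cases h : ∃ d : D, F.σ d j = i
    · rw [dif_pos h]
      apply Subtype.ext
      change (h.choose : G) * 1 * (h.choose : G)⁻¹ = 1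
      rw [mul_one, mul_inv_cancel]
    · rw [dif_neg h]
      rfl
  map_mul' := by
    intro u v
    funext i
    rw [Pi.mul_apply]
    by_cases h : ∃ d : D, F.σ d j = i
    · rw [dif_pos h, dif_pos h, dif_pos h]
      apply Subtype.ext
      change (h.choose : G) * (u * v) * (h.choose : G)⁻¹ =
        (h.choose : G) * u * (h.choose : G)⁻¹ * ((h.choose : G) * v * (h.choose : G)⁻¹)
      group
    · rw [dif_neg h, dif_neg h, dif_neg h, mul_one]

theorem sec_σ {j : Fin r} (hj : F.SC j) (u : F.A j) (d : D) :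
    (sec j u (F.σ d j) : G) = d * u * (d : G)⁻¹ := by
  classical
  have h : ∃ e : D, F.σ e j = F.σ d j := ⟨d, rfl⟩
  have h1 : sec j u (F.σ d j) = ⟨(h.choose : G) * u * (h.choose : G)⁻¹, by
      have h1 := F.conj h.choose j u u.2
      rwa [h.choose_spec] at h1⟩ := dif_pos h
  rw [h1]
  exact hj.eq h.choose_spec u.2

theorem sec_self {j : Fin r} (hj : F.SC j) (u : F.A j) : (sec j u j : G) = u := by
  have h := sec_σ hj u 1
  rw [F.val_congr (sec j u) (F.σ_one j)] at h
  rw [h]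
  push_cast
  group

theorem sec_notMem {j i : Fin r} (hi : i ∉ F.orb j) (u : F.A j) : sec j u i = 1 := by
  classical
  exact dif_neg hi

theorem sec_fixed {j : Fin r} (hj : F.SC j) (u : F.A j) : F.fixed (sec j u) := by
  intro d i
  by_cases hi : i ∈ F.orb j
  · obtain ⟨e, rfl⟩ := hi
    rw [F.val_congr (sec j u) (show F.σ d (F.σ e j) = F.σ (d * e) j by rw [F.σ_mul]),
      sec_σ hj, sec_σ hj]
    push_cast
    group
  · rw [sec_notMem hi, sec_notMem (fun h => hi ((F.σ_mem_orb d).mp h))]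
    rw [OneMemClass.coe_one, OneMemClass.coe_one, mul_one, mul_inv_cancel]

theorem eq_sec {j : Fin r} (hj : F.SC j) {τ : ∀ i, F.A i} (hτ : F.fixed τ)
    (h1 : ∀ i, i ∉ F.orb j → τ i = 1) : τ = sec j (τ j) := by
  funext i
  by_cases hi : i ∈ F.orb j
  · obtain ⟨e, rfl⟩ := hi
    apply Subtype.ext
    rw [sec_σ hj, hτ e j]
  · rw [sec_notMem hi, h1 i hi]

theorem sec_injective {j : Fin r} (hj : F.SC j) : Function.Injective (sec (F := F) j) := by
  intro u v h
  apply Subtype.ext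
  rw [← sec_self hj u, ← sec_self hj v, h]

/-- the fixed tuples -/
def fixedS (F : Fam G r D) : Subgroup (∀ i, F.A i) where
  carrier := {τ | F.fixed τ}
  one_mem' := by
    intro d i
    change (1 : G) = d * 1 * (d : G)⁻¹
    rw [mul_one, mul_inv_cancel]
  mul_mem' := by
    intro τ τ' h h' d i
    change (τ (F.σ d i) : G) * τ' (F.σ d i) = d * (τ i * τ' i) * (d : G)⁻¹
    rw [h d i, h' d i]
    group
  inv_mem' := by
    intro τ h d i
    change (τ (F.σ d i) : G)⁻¹ = d * (τ i : G)⁻¹ * (d : G)⁻¹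
    rw [h d i]
    group

theorem mem_fixedS {τ : ∀ i, F.A i} : τ ∈ F.fixedS ↔ F.fixed τ := Iff.rfl

/-- the map from the component to the centraliser of `D` -/
noncomputable def nu (F : Fam G r D) (j : Fin r) : F.A j →* G := F.μ.comp (sec j)

theorem nu_range_le {j : Fin r} (hj : F.SC j) : (F.nu j).range ≤ F.fixedS.map F.μ := by
  rintro _ ⟨u, rfl⟩
  exact ⟨sec j u, sec_fixed hj u, rfl⟩

theorem fixedS_map_le : F.fixedS.map F.μ ≤ Subgroup.centralizer (D : Set G) := by
  rintro _ ⟨τ, hτ, rfl⟩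
  exact F.μ_fixed hτ

/-- tuples with disjoint supports commute -/
theorem μ_comm_of_disjoint {τ τ' : ∀ i, F.A i} (h : ∀ i, τ i = 1 ∨ τ' i = 1) :
    F.μ τ * F.μ τ' = F.μ τ' * F.μ τ := by
  rw [← map_mul, ← map_mul]
  congr 1
  funext i
  rw [Pi.mul_apply, Pi.mul_apply]
  rcases h i with h1 | h1 <;> rw [h1, mul_one, one_mul]

/-- splitting off one orbit -/
theorem exists_split {j : Fin r} (hj : F.SC j) {x : G} (hx : x ∈ F.fixedS.map F.μ) :
    ∃ u : F.A j, ∃ y, x = F.nu j u * y ∧ ∀ v, F.nu j v * y = y * F.nu j v := by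
  obtain ⟨τ, hτ, rfl⟩ := hx
  refine ⟨τ j, F.μ ((sec j (τ j))⁻¹ * τ), ?_, ?_⟩
  · change _ = F.μ (sec j (τ j)) * _
    rw [← map_mul, mul_inv_cancel_left]
  · intro v
    refine μ_comm_of_disjoint (F := F) (τ := sec j v) fun i => ?_
    by_cases hi : i ∈ F.orb j
    · right
      obtain ⟨e, rfl⟩ := hi
      apply Subtype.ext
      change (sec j (τ j) (F.σ e j) : G)⁻¹ * τ (F.σ e j) = 1
      rw [sec_σ hj, hτ e j, inv_mul_cancel]
    · left
      exact sec_notMem hi v

/-- the kernel is central -/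
theorem nu_ker {j : Fin r} (hj : F.SC j) {u : F.A j} (hu : F.nu j u = 1) (v : F.A j) :
    u * v = v * u := by
  have h1 : sec j u = Pi.mulSingle j u * ((Pi.mulSingle j u)⁻¹ * sec j u) := by
    rw [mul_inv_cancel_left]
  have h2 : F.nu j u = u * F.μ ((Pi.mulSingle j u)⁻¹ * sec j u) := by
    change F.μ (sec j u) = _
    conv_lhs => rw [h1]
    rw [map_mul, F.μ_single]
  have h3 : (v : G) * F.μ ((Pi.mulSingle j u)⁻¹ * sec j u) =
      F.μ ((Pi.mulSingle j u)⁻¹ * sec j u) * v := by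
    rw [← F.μ_single j v]
    refine μ_comm_of_disjoint (F := F) (τ := Pi.mulSingle j v) fun i => ?_
    by_cases hi : i = j
    · right
      subst hi
      apply Subtype.ext
      rw [Pi.mul_apply, Pi.inv_apply, Pi.mulSingle_eq_same]
      change (u : G)⁻¹ * (sec i u i : G) = 1
      rw [sec_self hj, inv_mul_cancel]
    · left
      exact Pi.mulSingle_eq_of_ne (M := fun i => F.A i) hi v
  rw [h2] at hu
  have h4 : F.μ ((Pi.mulSingle j u)⁻¹ * sec j u) = (u : G)⁻¹ := by
    exact eq_inv_of_mul_eq_one_right hu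
  rw [h4] at h3
  apply Subtype.ext
  change (u : G) * v = v * u
  calc (u : G) * v = u * (v * (u : G)⁻¹) * u := by group
    _ = v * u := by rw [h3]; group

end Fam

end Vale.Agent.P180.R2.H12
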