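import Vale.Agent.P180.R2.H12.Dec
import Vale.Agent.P180.R2.H799.Nilp5
import Vale.Agent.P180.R2.H589.Alg

/-!
P180 R2 H12: idempotents of the group algebra of a commutative group with few characters.
-/

set_option linter.all false

namespace Vale.Agent.P180.R2.H12.Sl

open Finset Vale.Agent.P180 Vale.Agent.P180.H768.Gd

variable {k : Type*} [Field k] [IsAlgClosed k] {p : ℕ} [Fact p.Prime] [CharP k p]
variable {T : Type*} [CommGroup T] [Finite T]

theorem charP_mon (k : Type*) [Field k] (p : ℕ) [CharP k p] (T : Type*) [CommGroup T] :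
    CharP (MonoidAlgebra k T) p :=
  charP_of_injective_algebraMap (algebraMap k (MonoidAlgebra k T)).injective p

/-- elements of order prime to `p` act as scalars on primitive idempotents -/
theorem single_mul_eq {f : MonoidAlgebra k T} {lam : MonoidAlgebra k T →ₐ[k] k}
    (hff : f * f = f) (hlam : ∀ z, IsNilpotent ((z - algebraMap k _ (lam z)) * f)) {w : T}
    {m : ℕ} (hm : m.Coprime p) (hw : w ^ m = 1) :
    MonoidAlgebra.single w (1 : k) * f = lam (MonoidAlgebra.single w 1) • f := by
  have _ := charP_mon k p T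
  obtain ⟨K, hK⟩ := hlam (MonoidAlgebra.single w 1)
  have hp := (Fact.out : p.Prime)
  set N := m.totient * (K + 1) with hN
  have hm0 : 0 < m := Nat.pos_of_ne_zero (by
    rintro rfl
    rw [Nat.coprime_zero_left] at hm
    exact hp.one_lt.ne' hm)
  have hNK : K ≤ p ^ N := by
    have h1 : N < p ^ N := Nat.lt_pow_self hp.one_lt
    have h2 : K + 1 ≤ N := by
      rw [hN]
      exact Nat.le_mul_of_pos_left _ (Nat.totient_pos.mpr hm0)
    omega
  have hpN : p ^ N ≡ 1 [MOD m] := by
    rw [hN, pow_mul]
    have := (Nat.ModEq.pow_totient hm.symm).pow (K + 1)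
    rwa [one_pow] at this
  have hwN : w ^ p ^ N = w := by
    have h1 : w ^ (p ^ N) = w ^ 1 := by
      rw [pow_eq_pow_iff_modEq]
      exact hpN.of_dvd (orderOf_dvd_of_pow_eq_one hw)
    rwa [pow_one] at h1
  have hfN : ∀ n : ℕ, f ^ (n + 1) = f := by
    intro n
    induction n with
    | zero => rw [zero_add, pow_one]
    | succ n ih => rw [pow_succ, ih, hff]
  have hfN' : f ^ p ^ N = f := by
    obtain ⟨n, hn⟩ : ∃ n, p ^ N = n + 1 := ⟨p ^ N - 1, by
      have := Nat.pos_of_ne_zero (pow_ne_zero N hp.ne_zero)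
      omega⟩
    rw [hn, hfN]
  set ν := (MonoidAlgebra.single w (1 : k) - algebraMap k _ (lam (MonoidAlgebra.single w 1))) * f
    with hν
  have hνN : ν ^ p ^ N = 0 := pow_eq_zero_of_le hNK hK
  have h1 : MonoidAlgebra.single w (1 : k) * f =
      algebraMap k _ (lam (MonoidAlgebra.single w 1)) * f + ν := by
    rw [hν, sub_mul, add_sub_cancel]
  have h2 : (MonoidAlgebra.single w (1 : k) * f) ^ p ^ N = MonoidAlgebra.single w (1 : k) * f := by
    rw [mul_pow, hfN', MonoidAlgebra.single_pow, one_pow, hwN]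
  have h3 : (algebraMap k _ (lam (MonoidAlgebra.single w 1)) * f + ν) ^ p ^ N =
      algebraMap k _ (lam (MonoidAlgebra.single w 1)) * f := by
    rw [add_pow_char_pow, hνN, add_zero, mul_pow, hfN', ← map_pow]
    congr 2
    rw [← map_pow, MonoidAlgebra.single_pow, one_pow, hwN]
  rw [← h2, h1, h3, Algebra.smul_def]

/-- The elements of a commutative group as products. -/
theorem exists_decomp (t : T) : ∃ v w : T, t = v * w ∧ (∃ a, v ^ p ^ a = 1) ∧
    ∃ m : ℕ, m.Coprime p ∧ w ^ m = 1 := by
  have hp := (Fact.out : p.Prime)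
  obtain ⟨a, m, hm, hN⟩ := Nat.exists_eq_pow_mul_and_not_dvd (Nat.card_pos (α := T)).ne' p
    hp.one_lt.ne'
  have hcop : (p ^ a).Coprime m := Nat.Coprime.pow_left a ((Nat.Prime.coprime_iff_not_dvd hp).mpr hm)
  have hb := Nat.gcd_eq_gcd_ab (p ^ a) m
  rw [hcop] at hb
  have ht : t ^ (p ^ a * m) = 1 := by rw [← hN]; exact pow_card_eq_one'
  refine ⟨(t ^ m) ^ (Nat.gcdB (p ^ a) m), (t ^ p ^ a) ^ (Nat.gcdA (p ^ a) m), ?_, ⟨a, ?_⟩, m, ?_, ?_⟩
  · rw [← zpow_natCast, ← zpow_mul, ← zpow_natCast, ← zpow_mul, ← zpow_add, add_comm, ← hb]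
    simp
  · rw [← zpow_natCast, ← zpow_mul, mul_comm, zpow_mul, zpow_natCast, ← pow_mul,
      mul_comm m, ht, one_zpow]
  · exact (Nat.coprime_comm.mp ((Nat.Prime.coprime_iff_not_dvd hp).mpr hm))
  · rw [← zpow_natCast, ← zpow_mul, mul_comm, zpow_mul, zpow_natCast, ← pow_mul, ht, one_zpow]

theorem finrank_prim_le (P : Sylow p T) {f : MonoidAlgebra k T} (hf : IsPrim f) :
    Module.finrank k (LinearMap.range (LinearMap.mulLeft k f)) ≤ Nat.card P := by
  have hfin : FiniteDimensional k (MonoidAlgebra k T) :=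
    Module.Finite.equiv (MonoidAlgebra.coeffLinearEquiv k (M := T) (S := k)).symm
  obtain ⟨lam, hlam1, hlam⟩ := H799.exists_char (k := k) hf
  have _ := Fintype.ofFinite P
  have hle : LinearMap.range (LinearMap.mulLeft k f) ≤
      Submodule.span k (Set.range fun v : P => MonoidAlgebra.single (v : T) (1 : k) * f) := by
    rintro _ ⟨x, rfl⟩
    rw [LinearMap.mulLeft_apply, mul_comm]
    induction x using MonoidAlgebra.induction_linear with
    | zero => rw [zero_mul]; exact Submodule.zero_mem _
    | add a b ha hb => rw [add_mul]; exact Submodule.add_mem _ ha hb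
    | single t r =>
      obtain ⟨v, w, rfl, ⟨a, hv⟩, m, hm, hw⟩ := exists_decomp (p := p) t
      have hvP : v ∈ (P : Subgroup T) := by
        have h1 : IsPGroup p (Subgroup.zpowers v) := by
          rintro ⟨_, n, rfl⟩
          refine ⟨a, Subtype.ext ?_⟩
          change (v ^ n) ^ p ^ a = 1
          rw [← zpow_natCast, ← zpow_mul, mul_comm, zpow_mul, zpow_natCast, hv, one_zpow]
        have h2 := P.2.to_sup_of_normal_right h1
        have h3 := P.3 h2 le_sup_left
        rw [← h3]
        exact Subgroup.mem_sup_right (Subgroup.mem_zpowers v)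
      have h1 : MonoidAlgebra.single (v * w) r = r • (MonoidAlgebra.single v (1 : k) *
          MonoidAlgebra.single w 1) := by
        rw [MonoidAlgebra.single_mul_single, one_mul, MonoidAlgebra.smul_single, smul_eq_mul,
          mul_one]
      rw [h1, smul_mul_assoc, mul_assoc, single_mul_eq hf.1 hlam hm hw, mul_smul_comm]
      refine Submodule.smul_mem _ _ (Submodule.smul_mem _ _ (Submodule.subset_span ⟨⟨v, hvP⟩, rfl⟩))
  refine (Submodule.finrank_mono hle).trans ?_
  refine (finrank_range_le_card _).trans ?_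
  rw [Nat.card_eq_fintype_card]
  exact le_rfl

/-- An idempotent which is not killed by at most two characters. -/
theorem finrank_idem_le (P : Sylow p T) {u : MonoidAlgebra k T} (hu : u * u = u)
    (θ₁ θ₂ : MonoidAlgebra k T →ₐ[k] k) (h : ∀ θ : MonoidAlgebra k T →ₐ[k] k, θ u = 1 →
      θ = θ₁ ∨ θ = θ₂) :
    Module.finrank k (LinearMap.range (LinearMap.mulLeft k u)) ≤ 2 * Nat.card P := by
  classical
  have hfin : FiniteDimensional k (MonoidAlgebra k T) :=
    Module.Finite.equiv (MonoidAlgebra.coeffLinearEquiv k (M := T) (S := k)).symm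
  obtain ⟨m, f, hf, huf⟩ := exists_sum_prim (⊤ : Subalgebra k (MonoidAlgebra k T))
    (fun x _ y _ => mul_comm x y) _ u Algebra.mem_top hu rfl
  have hprim : ∀ l, IsPrim (f l) := fun l =>
    ⟨(hf l).idem.eq, (hf l).ne_zero, fun g hg hgf => (hf l).primitive g Algebra.mem_top hg hgf⟩
  have horth : ∀ i j, i ≠ j → f i * f j ≠ f i → f i * f j = 0 := by
    intro i j _ hne
    rcases (hf i).primitive (f i * f j) Algebra.mem_top (by
      change f i * f j * (f i * f j) = f i * f j
      rw [mul_mul_mul_comm, (hf i).idem.eq, (hf j).idem.eq])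
      (by rw [mul_right_comm, (hf i).idem.eq]) with h1 | h1
    · exact h1
    · exact absurd h1 hne
  have horth' : ∀ i j, f i ≠ f j → f i * f j = 0 := by
    intro i j hij
    by_contra h0
    have h1 : f i * f j = f i := by
      by_contra h2
      exact h0 (horth i j (fun h => hij (by rw [h])) h2)
    have h2 : f j * f i = f j := by
      by_contra h2
      exact h0 (by rw [mul_comm]; exact horth j i (fun h => hij (by rw [h])) h2)
    exact hij (by rw [← h1, mul_comm, h2])
  have huf' : ∀ l, u * f l = 0 ∨ u * f l = f l := fun l =>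
    (hf l).primitive (u * f l) Algebra.mem_top (by
      change u * f l * (u * f l) = u * f l
      rw [mul_mul_mul_comm, hu, (hf l).idem.eq]) (by rw [mul_assoc, (hf l).idem.eq])
  -- characters
  choose lam hlam1 hlam using fun l => H799.exists_char (k := k) (hprim l)
  -- distinct primitive idempotents
  let S : Finset (MonoidAlgebra k T) := (Finset.univ.filter fun l => u * f l = f l).image f
  have hSle : LinearMap.range (LinearMap.mulLeft k u) ≤
      S.sup fun g => LinearMap.range (LinearMap.mulLeft k g) := by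
    rintro _ ⟨x, rfl⟩
    have h1 : u * x = ∑ l, (u * f l) * x := by
      rw [← Finset.sum_mul, ← Finset.mul_sum, ← huf, hu]
    rw [LinearMap.mulLeft_apply, h1]
    refine Submodule.sum_mem _ fun l _ => ?_
    rcases huf' l with h2 | h2
    · rw [h2, zero_mul]
      exact Submodule.zero_mem _
    · rw [h2]
      have h3 : f l ∈ S := Finset.mem_image_of_mem f
        (Finset.mem_filter.mpr ⟨Finset.mem_univ l, h2⟩)
      exact (Finset.le_sup (f := fun g => LinearMap.range (LinearMap.mulLeft k g)) h3) ⟨x, rfl⟩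
  have hScard : S.card ≤ 2 := by
    have hinj : ∀ g ∈ S, ∃ l, f l = g ∧ (lam l = θ₁ ∨ lam l = θ₂) := by
      intro g hg
      obtain ⟨l, hl, rfl⟩ := Finset.mem_image.mp hg
      refine ⟨l, rfl, h _ ?_⟩
      have h1 : lam l (u * f l) = lam l (f l) := by rw [(Finset.mem_filter.mp hl).2]
      rw [map_mul, hlam1, mul_one] at h1
      exact h1
    choose L hL1 hL2 using hinj
    have hne : ∀ g hg g' hg', lam (L g hg) = lam (L g' hg') → g = g' := by
      intro g hg g' hg' hgg
      by_contra hne
      have h1 : f (L g hg) * f (L g' hg') = 0 :=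
        horth' _ _ (by rw [hL1 g hg, hL1 g' hg']; exact hne)
      have h2 := congrArg (lam (L g hg)) h1
      rw [map_mul, hlam1, one_mul, map_zero, hgg, hlam1] at h2
      exact one_ne_zero h2
    by_contra hlt
    push Not at hlt
    obtain ⟨a, ha, b, hb, c, hc, hab, hac, hbc⟩ := Finset.two_lt_card.mp hlt
    rcases hL2 a ha with h1 | h1 <;> rcases hL2 b hb with h2 | h2 <;>
      rcases hL2 c hc with h3 | h3
    · exact hab (hne a ha b hb (h1.trans h2.symm))
    · exact hab (hne a ha b hb (h1.trans h2.symm))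
    · exact hac (hne a ha c hc (h1.trans h3.symm))
    · exact hbc (hne b hb c hc (h2.trans h3.symm))
    · exact hbc (hne b hb c hc (h2.trans h3.symm))
    · exact hac (hne a ha c hc (h1.trans h3.symm))
    · exact hab (hne a ha b hb (h1.trans h2.symm))
    · exact hab (hne a ha b hb (h1.trans h2.symm))
  refine (Submodule.finrank_mono hSle).trans ?_
  refine (H589.finrank_finset_sup_le_mul S _ (Nat.card P) ?_).trans
    (Nat.mul_le_mul_right _ hScard)
  intro g hg
  obtain ⟨l, hl, rfl⟩ := Finset.mem_image.mp hg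
  exact finrank_prim_le P (hprim l)

end Vale.Agent.P180.R2.H12.Sl
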