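import Vale.Agent.P180.R2.H12.SlH
import Vale.Agent.P180.R2.H12.SlC
import Vale.Agent.P180.R2.H12.Orb

/-!
P180 R2 H12: the dimension of the Gelfand-Graev corner of a block of `SL_2(F)`.
-/

set_option linter.all false

namespace Vale.Agent.P180.R2.H12.Sl

open Finset Vale.Agent.P180 Vale.Agent.P180.H768.Gd

variable {F : Type} [Field F] [Fintype F] [DecidableEq F]
variable {k : Type*} [Field k]

section Coeff

variable {ψ : AddChar F k} {x : MonoidAlgebra k (SL2 F)}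

theorem coeff_u_mul (hx : eP ψ * x = x) (hq : (Fintype.card F : k) ≠ 0) (a : F) (g : SL2 F) :
    x.coeff (u a * g) = ψ (-a) * x.coeff g := by
  have h1 : MonoidAlgebra.single (u a) (1 : k) * x = ψ a • x := by
    conv_lhs => rw [← hx]
    rw [← mul_assoc, u_eP, smul_mul_assoc, hx]
  have h2 := congrArg (fun y : MonoidAlgebra k (SL2 F) => y.coeff (u a * g)) h1
  simp only [MonoidAlgebra.coeff_single_mul_apply, one_mul, inv_mul_cancel_left] at h2
  rw [coeff_smul'] at h2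
  rw [h2, ← mul_assoc, ← AddChar.map_add_eq_mul, neg_add_cancel, AddChar.map_zero_eq_one, one_mul]

theorem coeff_mul_u (hx : x * eP ψ = x) (hq : (Fintype.card F : k) ≠ 0) (a : F) (g : SL2 F) :
    x.coeff (g * u a) = ψ (-a) * x.coeff g := by
  have h1 : x * MonoidAlgebra.single (u a) (1 : k) = ψ a • x := by
    conv_lhs => rw [← hx]
    rw [mul_assoc, eP_u, mul_smul_comm, hx]
  have h2 := congrArg (fun y : MonoidAlgebra k (SL2 F) => y.coeff (g * u a)) h1
  simp only [MonoidAlgebra.coeff_mul_single_apply, mul_one, mul_inv_cancel_right] at h2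
  rw [coeff_smul'] at h2
  rw [h2, ← mul_assoc, ← AddChar.map_add_eq_mul, neg_add_cancel, AddChar.map_zero_eq_one, one_mul]

theorem eq_u {g : SL2 F} (h : g 1 0 = 0) (h1 : g 0 0 = 1) : g = u (g 0 1) := by
  have hd := det_e g
  rw [h, h1] at hd
  apply ext_e
  · rw [h1, u_00]
  · rw [u_01]
  · rw [h, u_10]
  · rw [u_11]
    linear_combination hd

theorem eq_zc_u {g : SL2 F} (h : g 1 0 = 0) (h1 : g 0 0 = -1) : g = zc * u (-(g 0 1)) := by
  have hd := det_e g
  rw [h, h1] at hd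
  apply ext_e
  · rw [h1, zc_mul, u_00]
  · rw [zc_mul, u_01, neg_neg]
  · rw [h, zc_mul, u_10, neg_zero]
  · rw [zc_mul, u_11]
    linear_combination -hd

theorem g_mul_u {g : SL2 F} (h : g 1 0 = 0) (y : F) : g * u y = u (g 0 0 ^ 2 * y) * g := by
  have hd := det_e g
  rw [h] at hd
  apply ext_e
  · rw [(gu g y 0).1, mul_e, u_00, u_01, h]; ring
  · rw [(gu g y 0).2, mul_e, u_00, u_01]
    linear_combination (-(g 0 0) * y) * hd
  · rw [(gu g y 1).1, mul_e, u_10, u_11]; ring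
  · rw [(gu g y 1).2, mul_e, u_10, u_11, h]; ring

theorem coeff_zero_of (hψ : ψ ≠ 1) (hq : (Fintype.card F : k) ≠ 0) (hx : eP ψ * x = x)
    (hx' : x * eP ψ = x) (h1 : x.coeff 1 = 0) (hz : x.coeff zc = 0) {g : SL2 F}
    (hg : g 1 0 = 0) : x.coeff g = 0 := by
  by_cases ha : g 0 0 = 1
  · rw [eq_u hg ha]
    have h2 := coeff_mul_u hx' hq (g 0 1) 1
    rw [one_mul] at h2
    rw [h2, h1, mul_zero]
  · by_cases ha' : g 0 0 = -1
    · rw [eq_zc_u hg ha']
      rw [coeff_mul_u hx' hq, hz, mul_zero]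
    · obtain ⟨y, hy⟩ : ∃ y, ψ y ≠ 1 := AddChar.ne_one_iff.mp hψ
      have hne : g 0 0 ^ 2 - 1 ≠ 0 := by
        intro h3
        have h4 : (g 0 0 - 1) * (g 0 0 + 1) = 0 := by linear_combination h3
        rcases mul_eq_zero.mp h4 with h5 | h5
        · exact ha (sub_eq_zero.mp h5)
        · exact ha' (by linear_combination h5)
      have h2 := coeff_mul_u hx' hq (-(y * (g 0 0 ^ 2 - 1)⁻¹)) g
      rw [g_mul_u hg, coeff_u_mul hx hq] at h2
      have h3 : -(g 0 0 ^ 2 * -(y * (g 0 0 ^ 2 - 1)⁻¹)) = y + - -(y * (g 0 0 ^ 2 - 1)⁻¹) := by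
        field_simp
        ring
      rw [h3, AddChar.map_add_eq_mul] at h2
      have h4 : (ψ y - 1) * (ψ (- -(y * (g 0 0 ^ 2 - 1)⁻¹)) * x.coeff g) = 0 := by
        linear_combination h2
      rcases mul_eq_zero.mp h4 with h5 | h5
      · exact absurd (sub_eq_zero.mp h5) hy
      · rcases mul_eq_zero.mp h5 with h6 | h6
        · exact absurd h6 (AddChar.val_isUnit ψ _).ne_zero
        · exact h6

/-- a representative with given lower left entry -/
def gc (c : F) (hc : c ≠ 0) : SL2 F := ⟨!![0, -c⁻¹; c, 0], by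
  rw [Matrix.det_fin_two]
  simp [hc]⟩

theorem gc_00 {c : F} (hc : c ≠ 0) : (gc c hc) 0 0 = 0 := rfl
theorem gc_10 {c : F} (hc : c ≠ 0) : (gc c hc) 1 0 = c := rfl
theorem gc_11 {c : F} (hc : c ≠ 0) : (gc c hc) 1 1 = 0 := rfl

/-- the coefficient -/
noncomputable def al (x : MonoidAlgebra k (SL2 F)) (c : F) : k :=
  if hc : c = 0 then 0 else x.coeff (gc c hc)

theorem coeff_eq (hx : eP ψ * x = x) (hx' : x * eP ψ = x) (hq : (Fintype.card F : k) ≠ 0)
    {g : SL2 F} (hg : g 1 0 ≠ 0) :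
    x.coeff g = ψ (-((g 0 0 + g 1 1) * (g 1 0)⁻¹)) * al x (g 1 0) := by
  have h1 := exists_unique_uu (g := gc (g 1 0) hg) (h := g) (by rw [gc_10]; exact hg)
    (by rw [gc_10])
  rw [gc_00, gc_10, gc_11, sub_zero, sub_zero] at h1
  conv_lhs => rw [← h1]
  rw [coeff_mul_u hx' hq, coeff_u_mul hx hq, al, dif_neg hg, ← mul_assoc,
    ← AddChar.map_add_eq_mul]
  congr 2
  ring

/-- the number of elements with given lower left entry -/
theorem card_low {c : F} (hc : c ≠ 0) :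
    (univ.filter fun g : SL2 F => g 1 0 = c).card = Fintype.card F * Fintype.card F := by
  classical
  rw [← Fintype.card_prod, ← Finset.card_univ]
  refine (Finset.card_bij (fun (xy : F × F) _ => u xy.1 * gc c hc * u xy.2) ?_ ?_ ?_).symm
  · intro xy _
    refine Finset.mem_filter.mpr ⟨Finset.mem_univ _, ?_⟩
    rw [(gu _ _ 1).1, mul_e, u_10, u_11, gc_10]; ring
  · rintro ⟨x, y⟩ _ ⟨x', y'⟩ _ h
    have e00 : ∀ x y : F, (u x * gc c hc * u y) 0 0 = x * c := by
      intro x y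
      rw [(gu _ _ 0).1, mul_e, u_00, u_01, gc_10, gc_00]; ring
    have e11 : ∀ x y : F, (u x * gc c hc * u y) 1 1 = c * y := by
      intro x y
      rw [(gu _ _ 1).2, mul_e, mul_e, u_10, u_11, gc_10, gc_11]
      ring
    have h3 := congrArg (fun m : SL2 F => m 0 0) h
    have h4 := congrArg (fun m : SL2 F => m 1 1) h
    simp only [e00, e11] at h3 h4
    rw [mul_right_cancel₀ hc h3, mul_left_cancel₀ hc h4]
  · intro g hg
    have hg' := (Finset.mem_filter.mp hg).2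
    exact ⟨(_, _), Finset.mem_univ _, exists_unique_uu (g := gc c hc) (h := g)
      (by rw [gc_10]; exact hc) (by rw [gc_10, hg'])⟩

/-- The image of an element of the Gelfand-Graev algebra without central part. -/
theorem PhL_coeff_eq {A : Tor F} (hψ : ψ ≠ 1) (hq : (Fintype.card F : k) ≠ 0)
    (hx : eP ψ * x = x) (hx' : x * eP ψ = x) (h0 : ∀ g : SL2 F, g 1 0 = 0 → x.coeff g = 0)
    (t : A.T) :
    (PhL A ψ x).coeff t = (A.s : k) * (Fintype.card F : k) *
      ∑ c : F, al x c * ψ (-(A.tr t * c⁻¹)) := by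
  classical
  rw [PhL_coeff]
  have h1 : ∀ g : SL2 F, x.coeff g * ph A ψ g t = (A.s : k) * (Fintype.card F : k)⁻¹ *
      (al x (g 1 0) * ψ (-(A.tr t * (g 1 0)⁻¹))) := by
    intro g
    by_cases hg : g 1 0 = 0
    · rw [h0 g hg, hg, al, dif_pos rfl]
      ring
    · rw [coeff_eq hx hx' hq hg, ph_ne hg]
      have h2 : ψ (-((g 0 0 + g 1 1) * (g 1 0)⁻¹)) * ψ ((g 0 0 + g 1 1 - A.tr t) * (g 1 0)⁻¹) =
          ψ (-(A.tr t * (g 1 0)⁻¹)) := by
        rw [← AddChar.map_add_eq_mul]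
        congr 1
        ring
      rw [← h2]
      ring
  rw [Finset.sum_congr rfl fun g _ => h1 g, ← Finset.mul_sum]
  rw [← Finset.sum_fiberwise (s := univ) (g := fun g : SL2 F => g 1 0)]
  have h3 : ∀ c : F, ∑ g ∈ univ.filter (fun g : SL2 F => g 1 0 = c),
      (al x (g 1 0) * ψ (-(A.tr t * (g 1 0)⁻¹))) = (Fintype.card F : k) * (Fintype.card F : k) *
        (al x c * ψ (-(A.tr t * c⁻¹))) := by
    intro c
    by_cases hc : c = 0
    · rw [hc]
      rw [Finset.sum_congr rfl fun g hg => by rw [(Finset.mem_filter.mp hg).2]]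
      rw [al, dif_pos rfl]
      simp
    · rw [Finset.sum_congr rfl fun g hg => by rw [(Finset.mem_filter.mp hg).2]]
      rw [Finset.sum_const, card_low hc, nsmul_eq_mul]
      push_cast
      ring
  rw [Finset.sum_congr rfl fun c _ => h3 c, ← Finset.mul_sum]
  field_simp

/-- Fourier inversion. -/
theorem al_eq_zero (hψ : ψ ≠ 1) (hq : (Fintype.card F : k) ≠ 0)
    (h : ∀ y : F, ∑ c : F, al x c * ψ (-(y * c⁻¹)) = 0) (c₀ : F) : al x c₀ = 0 := by
  classical
  by_cases hc : c₀ = 0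
  · rw [al, dif_pos hc]
  have h1 : ∑ y : F, ψ (y * c₀⁻¹) * ∑ c : F, al x c * ψ (-(y * c⁻¹)) = 0 := by
    simp only [h, mul_zero, Finset.sum_const_zero]
  have h2 : ∑ y : F, ψ (y * c₀⁻¹) * ∑ c : F, al x c * ψ (-(y * c⁻¹)) =
      ∑ c : F, al x c * ∑ y : F, ψ ((c₀⁻¹ - c⁻¹) * y) := by
    simp only [Finset.mul_sum]
    rw [Finset.sum_comm]
    refine Finset.sum_congr rfl fun c _ => Finset.sum_congr rfl fun y _ => ?_
    have : ψ ((c₀⁻¹ - c⁻¹) * y) = ψ (y * c₀⁻¹) * ψ (-(y * c⁻¹)) := by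
      rw [← AddChar.map_add_eq_mul]
      congr 1
      ring
    rw [this]
    ring
  rw [h2] at h1
  have h3 : ∀ c : F, al x c * ∑ y : F, ψ ((c₀⁻¹ - c⁻¹) * y) =
      if c = c₀ then al x c₀ * (Fintype.card F : k) else 0 := by
    intro c
    rw [sum_char hψ]
    by_cases hcc : c = c₀
    · rw [if_pos hcc, if_pos (by rw [hcc, sub_self]), hcc]
    · rw [if_neg hcc, if_neg, mul_zero]
      intro h4
      exact hcc (inv_injective (sub_eq_zero.mp h4)).symm
  rw [Finset.sum_congr rfl fun c _ => h3 c, Finset.sum_ite_eq' Finset.univ c₀] at h1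
  simp only [Finset.mem_univ, if_true] at h1
  rcases mul_eq_zero.mp h1 with h4 | h4
  · exact h4
  · exact absurd h4 hq

theorem eq_zero_of (hψ : ψ ≠ 1) (hq : (Fintype.card F : k) ≠ 0) {A₀ A₁ : Tor F}
    (hcov : ∀ y : F, (∃ t, A₀.tr t = y) ∨ ∃ t, A₁.tr t = y)
    (hx : eP ψ * x = x) (hx' : x * eP ψ = x) (h1 : x.coeff 1 = 0) (hz : x.coeff zc = 0)
    (hp0 : PhL A₀ ψ x = 0) (hp1 : PhL A₁ ψ x = 0) : x = 0 := by
  have h0 : ∀ g : SL2 F, g 1 0 = 0 → x.coeff g = 0 := fun g hg =>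
    coeff_zero_of hψ hq hx hx' h1 hz hg
  have hs : ∀ A : Tor F, (A.s : k) ≠ 0 := by
    intro A
    rcases A.hs with h | h <;> rw [h] <;> simp
  have hy : ∀ y : F, ∑ c : F, al x c * ψ (-(y * c⁻¹)) = 0 := by
    intro y
    rcases hcov y with ⟨t, rfl⟩ | ⟨t, rfl⟩
    · have h2 := PhL_coeff_eq (A := A₀) hψ hq hx hx' h0 t
      rw [hp0] at h2
      rcases mul_eq_zero.mp h2.symm with h3 | h3
      · exact absurd h3 (mul_ne_zero (hs _) hq)
      · exact h3
    · have h2 := PhL_coeff_eq (A := A₁) hψ hq hx hx' h0 t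
      rw [hp1] at h2
      rcases mul_eq_zero.mp h2.symm with h3 | h3
      · exact absurd h3 (mul_ne_zero (hs _) hq)
      · exact h3
  apply ext_coeff
  intro g
  by_cases hg : g 1 0 = 0
  · rw [h0 g hg]; rfl
  · rw [coeff_eq hx hx' hq hg, al_eq_zero hψ hq hy, mul_zero]
    rfl

end Coeff

end Vale.Agent.P180.R2.H12.Sl
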