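import Vale.Agent.P180.R2.H12.SlB
import Vale.Agent.P180.R2.H799.Cross

/-!
P180 R2 H12: the dimension of the Gelfand-Graev corner of a block of `SL_2(F)`.
-/

set_option linter.all false

namespace Vale.Agent.P180.R2.H12.Sl

open Finset Vale.Agent.P180 Vale.Agent.P180.H768.Gd Vale.Agent.P180.R2.H799

variable {F : Type} [Field F] [Fintype F] [DecidableEq F]
variable {k : Type*} [Field k]

section Block

variable {ψ : AddChar F k} {b : MonoidAlgebra k (SL2 F)}

theorem W_e (hψ : ψ ≠ 1) (hq : (Fintype.card F : k) ≠ 0) {c : F} (hc : c ≠ 0) :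
    eP ψ * W ψ c = W ψ c ∧ W ψ c * eP ψ = W ψ c := by
  rw [← eP_Zs hψ hq hc]
  constructor
  · rw [← mul_assoc, eP_idem hq]
  · rw [mul_assoc, ← Zs_central, ← mul_assoc, eP_idem hq]

theorem al_W {c : F} (hc : c ≠ 0) (c' : F) : al (W ψ c) c' = if c' = c then 1 else 0 := by
  rw [al]
  split_ifs with h1 h2 h2
  · exact absurd (h2.symm.trans h1) hc
  · rfl
  · rw [W_coeff, gc_10, if_pos h2, gc_00, gc_11]
    simp
  · rw [W_coeff, gc_10, if_neg h2]

theorem PhL_W {A : Tor F} (hψ : ψ ≠ 1) (hq : (Fintype.card F : k) ≠ 0) {c : F} (hc : c ≠ 0)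
    (t : A.T) : (PhL A ψ (W ψ c)).coeff t =
      (A.s : k) * (Fintype.card F : k) * ψ (-(A.tr t * c⁻¹)) := by
  rw [PhL_coeff_eq hψ hq (W_e hψ hq hc).1 (W_e hψ hq hc).2]
  · simp only [al_W hc, ite_mul, one_mul, zero_mul]
    rw [Finset.sum_ite_eq' Finset.univ c]
    simp
  · intro g hg
    rw [W_coeff, if_neg]
    rw [hg]
    exact hc.symm

variable {A : Tor F}

theorem u_idem (hψ : ψ ≠ 1) (hq : (Fintype.card F : k) ≠ 0) (hA : A.Kl ψ)
    (hcen : ∀ x, x * b = b * x) (hb : b * b = b) :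
    PhL A ψ (b * eP ψ) * PhL A ψ (b * eP ψ) = PhL A ψ (b * eP ψ) := by
  rw [← PhL_mul hψ hq hA, mul_assoc b, eP_idem hq, mul_assoc b, ← mul_assoc (eP ψ), hcen,
    mul_assoc b (eP ψ) (eP ψ), eP_idem hq, ← mul_assoc, hb]

/-- Central elements act on the characters as scalars. -/
theorem scalar [IsAlgClosed k] (hψ : ψ ≠ 1) (hq : (Fintype.card F : k) ≠ 0) (hA : A.Kl ψ)
    (hb : IsPrimIn (Subalgebra.center k (MonoidAlgebra k (SL2 F))) b)
    {z : MonoidAlgebra k (SL2 F)} (hz : ∀ x, x * z = z * x) :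
    ∃ c : k, ∀ θ : MonoidAlgebra k A.T →ₐ[k] k, θ (PhL A ψ (b * eP ψ)) = 1 →
      θ (PhL A ψ (z * eP ψ)) = c := by
  have hfin : FiniteDimensional k (MonoidAlgebra k (SL2 F)) :=
    Module.Finite.equiv (MonoidAlgebra.coeffLinearEquiv k (M := SL2 F) (S := k)).symm
  have hcen : ∀ x, x * b = b * x := fun x => (Subalgebra.mem_center_iff.mp hb.mem x)
  obtain ⟨c, n, hn⟩ := KP.isPrimIn_exists_scalar (S := Subalgebra.center k (MonoidAlgebra k (SL2 F)))
    (fun x hx y _ => (Subalgebra.mem_center_iff.mp hx y).symm) hb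
    (Subalgebra.mem_center_iff.mpr hz)
  refine ⟨c, fun θ hθ => ?_⟩
  set ν := z * b - c • b with hν
  have hνc : ∀ x, x * ν = ν * x := by
    intro x
    rw [hν, mul_sub, sub_mul, ← mul_assoc, hz x, mul_assoc z x, hcen x, ← mul_assoc, mul_smul_comm,
      smul_mul_assoc, hcen x]
  have h1 : PhL A ψ (z * eP ψ) * PhL A ψ (b * eP ψ) =
      c • PhL A ψ (b * eP ψ) + PhL A ψ (ν * eP ψ) := by
    rw [← PhL_mul hψ hq hA, ← PhL_smul, ← PhL_add]
    congr 1
    rw [hν, sub_mul, smul_mul_assoc, add_sub_cancel, mul_assoc z, eP_idem hq, mul_assoc z,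
      ← mul_assoc (eP ψ), hcen, mul_assoc b, eP_idem hq, mul_assoc]
  have h2 : ∀ m : ℕ, PhL A ψ (ν * eP ψ) ^ (m + 1) = PhL A ψ (ν ^ (m + 1) * eP ψ) := by
    intro m
    induction m with
    | zero => rw [zero_add, pow_one, pow_one]
    | succ m ih =>
      rw [pow_succ, ih, ← PhL_mul hψ hq hA]
      congr 1
      rw [mul_assoc (ν ^ (m + 1)), eP_idem hq, mul_assoc (ν ^ (m + 1)), ← mul_assoc (eP ψ), hνc,
        mul_assoc ν, eP_idem hq, ← mul_assoc, ← pow_succ]
  have h3 : θ (PhL A ψ (ν * eP ψ)) = 0 := by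
    have h4 : (θ (PhL A ψ (ν * eP ψ))) ^ (n + 1) = 0 := by
      rw [← map_pow, h2, pow_succ, hn, zero_mul, zero_mul, PhL_zero, map_zero]
    exact pow_eq_zero_iff (Nat.succ_ne_zero n) |>.mp h4
  have h5 := congrArg θ h1
  rw [map_mul, hθ, mul_one, map_add, map_smul, hθ, h3, add_zero, smul_eq_mul, mul_one] at h5
  exact h5

theorem alg_sum (θ : MonoidAlgebra k A.T →ₐ[k] k) (y : MonoidAlgebra k A.T) :
    θ y = ∑ t : A.T, y.coeff t * θ (MonoidAlgebra.single t 1) := by
  conv_lhs => rw [eq_sum_single y]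
  rw [map_sum]
  refine Finset.sum_congr rfl fun t _ => ?_
  have : MonoidAlgebra.single t (y.coeff t) = y.coeff t • MonoidAlgebra.single t (1 : k) := by
    rw [MonoidAlgebra.smul_single, smul_eq_mul, mul_one]
  rw [this, map_smul, smul_eq_mul]

/-- The characters which do not kill the image of the block. -/
theorem two_chars [IsAlgClosed k] (hψ : ψ ≠ 1) (hq : (Fintype.card F : k) ≠ 0) (hA : A.Kl ψ)
    (hnt : ∃ y, ∀ t : A.T, A.tr t ≠ y)
    (hb : IsPrimIn (Subalgebra.center k (MonoidAlgebra k (SL2 F))) b)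
    {θ θ' : MonoidAlgebra k A.T →ₐ[k] k} (h : θ (PhL A ψ (b * eP ψ)) = 1)
    (h' : θ' (PhL A ψ (b * eP ψ)) = 1) (t : A.T) :
    θ' (MonoidAlgebra.single t 1) = θ (MonoidAlgebra.single t 1) ∨
      θ' (MonoidAlgebra.single t 1) = θ (MonoidAlgebra.single t⁻¹ 1) := by
  classical
  -- the Fourier transform of the difference vanishes
  have h1 : ∀ v : F, v ≠ 0 → ∑ x : A.T, ψ (-(A.tr x * v)) *
      (θ (MonoidAlgebra.single x 1) - θ' (MonoidAlgebra.single x 1)) = 0 := by
    intro v hv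
    have hs : (A.s : k) * (Fintype.card F : k) ≠ 0 := by
      apply mul_ne_zero _ hq
      rcases A.hs with h | h <;> rw [h] <;> simp
    obtain ⟨c, hc⟩ := scalar hψ hq hA hb (z := Zs ψ v) (Zs_central v)
    have h2 : Zs ψ v * eP ψ = W ψ v⁻¹ := by
      rw [← eP_Zs hψ hq (inv_ne_zero hv), inv_inv, Zs_central]
    rw [h2] at hc
    have h3 : ∀ θ : MonoidAlgebra k A.T →ₐ[k] k, θ (PhL A ψ (W ψ v⁻¹)) =
        (A.s : k) * (Fintype.card F : k) * ∑ x : A.T, ψ (-(A.tr x * v)) *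
          θ (MonoidAlgebra.single x 1) := by
      intro θ
      rw [alg_sum, Finset.mul_sum]
      refine Finset.sum_congr rfl fun x _ => ?_
      rw [PhL_W hψ hq (inv_ne_zero hv), inv_inv]
      ring
    have h4 := (hc θ h).trans (hc θ' h').symm
    rw [h3, h3] at h4
    have h5 := mul_left_cancel₀ hs h4
    simp only [mul_sub]
    rw [Finset.sum_sub_distrib, h5, sub_self]
  -- the differences on the fibres of the trace
  obtain ⟨y₁, hy₁⟩ := hnt
  have hD : ∀ y : F, (Fintype.card F : k) * ∑ x ∈ univ.filter (fun x : A.T => A.tr x = y),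
      (θ (MonoidAlgebra.single x 1) - θ' (MonoidAlgebra.single x 1)) =
      ∑ x : A.T, (θ (MonoidAlgebra.single x 1) - θ' (MonoidAlgebra.single x 1)) := by
    intro y
    have h2 : ∑ v : F, ψ (y * v) * ∑ x : A.T, ψ (-(A.tr x * v)) *
        (θ (MonoidAlgebra.single x 1) - θ' (MonoidAlgebra.single x 1)) =
        ∑ x : A.T, (θ (MonoidAlgebra.single x 1) - θ' (MonoidAlgebra.single x 1)) := by
      rw [Finset.sum_eq_single (0 : F)]
      · simp
      · intro v _ hv
        rw [h1 v hv, mul_zero]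
      · intro h
        exact absurd (Finset.mem_univ _) h
    rw [← h2]
    simp only [Finset.mul_sum]
    rw [Finset.sum_comm, Finset.sum_filter]
    refine Finset.sum_congr rfl fun x _ => ?_
    have h3 : ∀ v : F, ψ (y * v) * (ψ (-(A.tr x * v)) *
        (θ (MonoidAlgebra.single x 1) - θ' (MonoidAlgebra.single x 1))) =
        (θ (MonoidAlgebra.single x 1) - θ' (MonoidAlgebra.single x 1)) *
          ψ ((y - A.tr x) * v) := by
      intro v
      have : ψ ((y - A.tr x) * v) = ψ (y * v) * ψ (-(A.tr x * v)) := by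
        rw [← AddChar.map_add_eq_mul]
        congr 1
        ring
      rw [this]
      ring
    simp only [h3]
    rw [← Finset.mul_sum, sum_char hψ]
    by_cases h4 : A.tr x = y
    · rw [if_pos h4, if_pos (by rw [h4, sub_self])]
      ring
    · rw [if_neg h4, if_neg, mul_zero]
      intro h5
      exact h4 (sub_eq_zero.mp h5).symm
  have hD0 : ∀ y : F, ∑ x ∈ univ.filter (fun x : A.T => A.tr x = y),
      (θ (MonoidAlgebra.single x 1) - θ' (MonoidAlgebra.single x 1)) = 0 := by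
    have h2 := hD y₁
    rw [Finset.filter_eq_empty_iff.mpr (fun x _ => hy₁ x), Finset.sum_empty, mul_zero] at h2
    intro y
    have h3 := hD y
    rw [← h2] at h3
    rcases mul_eq_zero.mp h3 with h4 | h4
    · exact absurd h4 hq
    · exact h4
  have hfil : univ.filter (fun x : A.T => A.tr x = A.tr t) = {t, t⁻¹} := by
    ext x
    rw [Finset.mem_filter, Finset.mem_insert, Finset.mem_singleton]
    constructor
    · rintro ⟨-, h⟩
      exact A.tr_eq _ _ h
    · rintro (rfl | rfl)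
      · exact ⟨Finset.mem_univ _, rfl⟩
      · exact ⟨Finset.mem_univ _, A.tr_inv t⟩
  have h2 := hD0 (A.tr t)
  rw [hfil] at h2
  by_cases htt : t = t⁻¹
  · rw [← htt, Finset.insert_eq_of_mem (Finset.mem_singleton_self t), Finset.sum_singleton] at h2
    exact Or.inl (sub_eq_zero.mp h2).symm
  · rw [Finset.sum_pair htt] at h2
    have hinv : ∀ θ : MonoidAlgebra k A.T →ₐ[k] k, θ (MonoidAlgebra.single t 1) *
        θ (MonoidAlgebra.single t⁻¹ 1) = 1 := by
      intro θ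
      rw [← map_mul, MonoidAlgebra.single_mul_single, mul_inv_cancel, mul_one,
        ← MonoidAlgebra.one_def, map_one]
    have h3 : (θ' (MonoidAlgebra.single t 1) - θ (MonoidAlgebra.single t 1)) *
        (θ' (MonoidAlgebra.single t 1) - θ (MonoidAlgebra.single t⁻¹ 1)) = 0 := by
      linear_combination (-θ' (MonoidAlgebra.single t 1)) * h2 + hinv θ - hinv θ'
    rcases mul_eq_zero.mp h3 with h4 | h4
    · exact Or.inl (sub_eq_zero.mp h4)
    · exact Or.inr (sub_eq_zero.mp h4)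

theorem two_chars' [IsAlgClosed k] (hψ : ψ ≠ 1) (hq : (Fintype.card F : k) ≠ 0) (hA : A.Kl ψ)
    (hnt : ∃ y, ∀ t : A.T, A.tr t ≠ y)
    (hb : IsPrimIn (Subalgebra.center k (MonoidAlgebra k (SL2 F))) b) :
    ∃ θ₁ θ₂ : MonoidAlgebra k A.T →ₐ[k] k, ∀ θ : MonoidAlgebra k A.T →ₐ[k] k,
      θ (PhL A ψ (b * eP ψ)) = 1 → θ = θ₁ ∨ θ = θ₂ := by
  by_cases hex : ∃ θ : MonoidAlgebra k A.T →ₐ[k] k, θ (PhL A ψ (b * eP ψ)) = 1
  · obtain ⟨θ, hθ⟩ := hex
    refine ⟨θ, θ.comp (MonoidAlgebra.mapDomainAlgHom k k (invMonoidHom : A.T →* A.T)),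
      fun θ' hθ' => ?_⟩
    have h1 := two_chars hψ hq hA hnt hb hθ hθ'
    have hmul : ∀ (η : MonoidAlgebra k A.T →ₐ[k] k) (s t : A.T),
        η (MonoidAlgebra.single (s * t) 1) = η (MonoidAlgebra.single s 1) *
          η (MonoidAlgebra.single t 1) := by
      intro η s t
      rw [← map_mul, MonoidAlgebra.single_mul_single, mul_one]
    have hne : ∀ (η : MonoidAlgebra k A.T →ₐ[k] k) (s : A.T),
        η (MonoidAlgebra.single s 1) ≠ 0 := by
      intro η s h0
      have h2 := hmul η s s⁻¹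
      rw [mul_inv_cancel, h0, zero_mul, ← MonoidAlgebra.one_def, map_one] at h2
      exact one_ne_zero h2
    have key : (∀ t, θ' (MonoidAlgebra.single t 1) = θ (MonoidAlgebra.single t 1)) ∨
        ∀ t, θ' (MonoidAlgebra.single t 1) = θ (MonoidAlgebra.single t⁻¹ 1) := by
      by_contra hcon
      push Not at hcon
      obtain ⟨⟨s, hs⟩, t, ht⟩ := hcon
      have hs' := (h1 s).resolve_left hs
      have ht' := (h1 t).resolve_right ht
      rcases h1 (s * t) with h2 | h2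
      · rw [hmul, hmul, ht'] at h2
        exact hs (mul_right_cancel₀ (hne θ t) h2)
      · rw [hmul, mul_inv, hmul, hs'] at h2
        exact ht (mul_left_cancel₀ (hne θ s⁻¹) h2)
    rcases key with h2 | h2
    · left
      refine AlgHom.ext fun y => ?_
      rw [alg_sum θ', alg_sum θ]
      exact Finset.sum_congr rfl fun t _ => by rw [h2 t]
    · right
      refine AlgHom.ext fun y => ?_
      rw [alg_sum θ', alg_sum (θ.comp _)]
      refine Finset.sum_congr rfl fun t _ => ?_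
      rw [h2 t, AlgHom.comp_apply]
      congr 2
      rw [MonoidAlgebra.mapDomainAlgHom_apply, MonoidAlgebra.mapDomain_single]
      rfl
  · exact ⟨MonoidAlgebra.lift k k A.T 1, MonoidAlgebra.lift k k A.T 1, fun θ hθ =>
      absurd ⟨θ, hθ⟩ hex⟩

/-- **The dimension of the Gelfand-Graev corner of a block.** -/
theorem finrank_GG_le [IsAlgClosed k] {p : ℕ} [Fact p.Prime] [CharP k p]
    (hψ : ψ ≠ 1) (hq : (Fintype.card F : k) ≠ 0) {A₀ A₁ : Tor F} (hA₀ : A₀.Kl ψ) (hA₁ : A₁.Kl ψ)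
    (hcov : ∀ y : F, (∃ t, A₀.tr t = y) ∨ ∃ t, A₁.tr t = y)
    (hnt₀ : ∃ y, ∀ t : A₀.T, A₀.tr t ≠ y) (hnt₁ : ∃ y, ∀ t : A₁.T, A₁.tr t ≠ y)
    (P₀ : Sylow p A₀.T) (P₁ : Sylow p A₁.T)
    (hb : IsPrimIn (Subalgebra.center k (MonoidAlgebra k (SL2 F))) b) :
    Module.finrank k (NN (⊤ : Subalgebra k (MonoidAlgebra k (SL2 F))) (b * eP ψ) (b * eP ψ)) ≤
      2 * Nat.card P₀ + 2 * Nat.card P₁ + 2 := by
  classical
  have hcen : ∀ x, x * b = b * x := fun x => (Subalgebra.mem_center_iff.mp hb.mem x)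
  have hbb : b * b = b := hb.idem.eq
  have hfin : ∀ A : Tor F, FiniteDimensional k (MonoidAlgebra k A.T) := fun A =>
    Module.Finite.equiv (MonoidAlgebra.coeffLinearEquiv k (M := A.T) (S := k)).symm
  have hfinG : FiniteDimensional k (MonoidAlgebra k (SL2 F)) :=
    Module.Finite.equiv (MonoidAlgebra.coeffLinearEquiv k (M := SL2 F) (S := k)).symm
  have _ := hfin A₀
  have _ := hfin A₁
  set X := NN (⊤ : Subalgebra k (MonoidAlgebra k (SL2 F))) (b * eP ψ) (b * eP ψ) with hX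
  have hXe : ∀ x ∈ X, eP ψ * x = x ∧ x * eP ψ = x := by
    rintro x ⟨-, h1, h2⟩
    constructor
    · conv_lhs => rw [← h1]
      rw [← mul_assoc, ← mul_assoc, hcen, mul_assoc b, eP_idem hq, h1]
    · conv_lhs => rw [← h2]
      rw [mul_assoc, mul_assoc b, eP_idem hq, h2]
  have hmem : ∀ (A : Tor F), A.Kl ψ → ∀ x ∈ X, PhL A ψ x ∈
      LinearMap.range (LinearMap.mulLeft k (PhL A ψ (b * eP ψ))) := by
    intro A hA x hx
    refine ⟨PhL A ψ x, ?_⟩
    rw [LinearMap.mulLeft_apply, ← PhL_mul hψ hq hA, mul_assoc b, eP_idem hq]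
    congr 1
    exact hx.2.1
  let f₀ : X →ₗ[k] LinearMap.range (LinearMap.mulLeft k (PhL A₀ ψ (b * eP ψ))) :=
    ((PhLin A₀ ψ).domRestrict X).codRestrict _ (fun x => hmem A₀ hA₀ x x.2)
  let f₁ : X →ₗ[k] LinearMap.range (LinearMap.mulLeft k (PhL A₁ ψ (b * eP ψ))) :=
    ((PhLin A₁ ψ).domRestrict X).codRestrict _ (fun x => hmem A₁ hA₁ x x.2)
  let cf : SL2 F → (MonoidAlgebra k (SL2 F) →ₗ[k] k) := fun g =>
    { toFun := fun x => x.coeff g
      map_add' := fun x y => by rw [MonoidAlgebra.coeff_add, Finsupp.add_apply]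
      map_smul' := fun c x => by rw [coeff_smul', RingHom.id_apply, smul_eq_mul] }
  let f : X →ₗ[k] (LinearMap.range (LinearMap.mulLeft k (PhL A₀ ψ (b * eP ψ))) ×
      LinearMap.range (LinearMap.mulLeft k (PhL A₁ ψ (b * eP ψ)))) × (k × k) :=
    (f₀.prod f₁).prod (((cf 1).domRestrict X).prod ((cf zc).domRestrict X))
  have hf : Function.Injective f := by
    rw [injective_iff_map_eq_zero]
    intro x hx
    have h1 := congrArg Prod.fst hx
    have h2 := congrArg Prod.snd hx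
    have h3 : PhL A₀ ψ (x : MonoidAlgebra k (SL2 F)) = 0 :=
      congrArg Subtype.val (congrArg Prod.fst h1)
    have h4 : PhL A₁ ψ (x : MonoidAlgebra k (SL2 F)) = 0 :=
      congrArg Subtype.val (congrArg Prod.snd h1)
    have h5 : (x : MonoidAlgebra k (SL2 F)).coeff 1 = 0 := congrArg Prod.fst h2
    have h6 : (x : MonoidAlgebra k (SL2 F)).coeff zc = 0 := congrArg Prod.snd h2
    apply Subtype.ext
    exact eq_zero_of hψ hq hcov (hXe x x.2).1 (hXe x x.2).2 h5 h6 h3 h4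
  refine (LinearMap.finrank_le_finrank_of_injective hf).trans ?_
  rw [Module.finrank_prod, Module.finrank_prod, Module.finrank_prod, Module.finrank_self]
  obtain ⟨θ₁, θ₂, hθ⟩ := two_chars' hψ hq hA₀ hnt₀ hb
  obtain ⟨η₁, η₂, hη⟩ := two_chars' hψ hq hA₁ hnt₁ hb
  have h7 := finrank_idem_le P₀ (u_idem hψ hq hA₀ hcen hbb) θ₁ θ₂ hθ
  have h8 := finrank_idem_le P₁ (u_idem hψ hq hA₁ hcen hbb) η₁ η₂ hη
  omega

end Block

end Vale.Agent.P180.R2.H12.Sl
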