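import Vale.Agent.P180.R2.H12.SlP

/-!
P180 R2 H12: the dimension of a block of `SL_2(F)` over the group algebra of a `p'`-subgroup of a
torus (2).
-/

set_option linter.all false

namespace Vale.Agent.P180.R2.H12.Sl

open Finset Vale.Agent.P180 Vale.Agent.P180.H768.Gd Vale.Agent.P180.R2.H799
  Vale.Agent.P180.R2.H954.Hc

universe u

section

variable {F : Type} [Field F] [Fintype F] [DecidableEq F]

theorem other_le {x : SL2 F} (hx : ¬ Sc x) (ht : tra x ^ 2 ≠ 4) {p : ℕ} (hp : p.Prime) {a : ℕ}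
    (hxa : Sc (x ^ p ^ a)) {d : ℕ}
    (h2 : d = Nat.card (Subgroup.centralizer {x}) + 2 ∨ Nat.card (Subgroup.centralizer {x}) = d + 2)
    {v : ℕ} (hv : p ^ v ∣ d) : p ^ v ≤ 2 := by
  have h1 : x ^ (p ^ a * 2) = 1 := by
    rw [pow_mul, sq]
    rcases hxa.eq with h | h
    · rw [h, one_mul]
    · rw [h, zc_zc]
  have ho1 : orderOf x ∣ p ^ a * 2 := orderOf_dvd_of_pow_eq_one h1
  have ho2 : ¬ orderOf x ∣ 2 := by
    intro h
    apply sq_ne_one hx ht
    rw [← sq]
    exact orderOf_dvd_iff_pow_eq_one.mp h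
  have hxT : x ∈ Subgroup.centralizer {x} := by
    rw [Subgroup.mem_centralizer_singleton_iff]
  have ho3 : orderOf x ∣ Nat.card (Subgroup.centralizer {x}) := Subgroup.orderOf_dvd_natCard _ hxT
  by_cases hp2 : p = 2
  · subst hp2
    have h3 : orderOf x ∣ 2 ^ (a + 1) := by rwa [pow_succ]
    obtain ⟨i, hi, hoi⟩ := (Nat.dvd_prime_pow Nat.prime_two).mp h3
    have hi2 : 2 ≤ i := by
      by_contra h4
      apply ho2
      rw [hoi]
      exact (pow_dvd_pow 2 (show i ≤ 1 by omega)).trans (by norm_num)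
    have h4 : 4 ∣ Nat.card (Subgroup.centralizer {x}) := by
      refine dvd_trans ?_ ho3
      rw [hoi]
      exact (pow_dvd_pow 2 hi2)
    by_contra hcon
    have hv2 : 2 ≤ v := by
      by_contra h5
      apply hcon
      calc 2 ^ v ≤ 2 ^ 1 := Nat.pow_le_pow_right (by norm_num) (by omega)
        _ = 2 := by norm_num
    have h5 : 4 ∣ d := (pow_dvd_pow 2 hv2).trans hv
    omega
  · have h3 : p ∣ orderOf x := by
      by_contra h3
      have hcop : Nat.Coprime (orderOf x) (p ^ a) :=
        (Nat.Coprime.pow_left a ((hp.coprime_iff_not_dvd).mpr h3)).symm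
      exact ho2 (hcop.dvd_of_dvd_mul_left ho1)
    have h4 := h3.trans ho3
    have hv0 : v = 0 := by
      by_contra hv0
      have h5 : p ∣ d := (dvd_pow_self p hv0).trans hv
      have h6 : p ∣ 2 := by
        rcases h2 with h2 | h2
        · rw [h2] at h5
          exact (Nat.dvd_add_right h4).mp h5
        · rw [h2] at h4
          exact (Nat.dvd_add_right h5).mp h4
      exact hp2 ((Nat.prime_dvd_prime_iff_eq hp Nat.prime_two).mp h6)
    rw [hv0, pow_zero]
    norm_num

theorem own_le {x : SL2 F} {p : ℕ} [hp : Fact p.Prime] {P : Subgroup (SL2 F)}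
    (hP : ∀ g, g ∈ P ↔ (g * x = x * g ∧ ∃ a, g ^ p ^ a = 1)) {n : ℕ} (hn : Nat.card P ≤ n) :
    p ^ (Nat.card (Subgroup.centralizer {x})).factorization p ≤ n := by
  obtain ⟨Q⟩ : Nonempty (Sylow p (Subgroup.centralizer ({x} : Set (SL2 F)))) := inferInstance
  rw [← Sylow.card_eq_multiplicity Q]
  refine le_trans ?_ hn
  refine Nat.card_le_card_of_injective
    (fun g : Q => (⟨((g : Subgroup.centralizer ({x} : Set (SL2 F))) : SL2 F), ?_⟩ : P)) ?_
  · rw [hP]
    refine ⟨Subgroup.mem_centralizer_singleton_iff.mp (g : Subgroup.centralizer {x}).2, ?_⟩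
    obtain ⟨a, ha⟩ := Q.isPGroup' g
    refine ⟨a, ?_⟩
    have h1 := congrArg (fun y : Q =>
      ((y : Subgroup.centralizer ({x} : Set (SL2 F))) : SL2 F)) ha
    exact h1
  · intro g g' h
    have h1 : ((g : Subgroup.centralizer ({x} : Set (SL2 F))) : SL2 F) =
      ((g' : Subgroup.centralizer ({x} : Set (SL2 F))) : SL2 F) :=
      congrArg (fun y : P => (y : SL2 F)) h
    exact Subtype.ext (Subtype.ext h1)

theorem finrank_corner_le_card {k : Type*} [Field k] {G : Type*} [Group G] [Fintype G]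
    (f g : MonoidAlgebra k G) :
    Module.finrank k (NN (⊤ : Subalgebra k (MonoidAlgebra k G)) f g) ≤ Fintype.card G := by
  have hfin : FiniteDimensional k (MonoidAlgebra k G) :=
    Module.Finite.equiv (MonoidAlgebra.coeffLinearEquiv k (M := G) (S := k)).symm
  refine (Submodule.finrank_le _).trans (le_of_eq ?_)
  exact Module.finrank_eq_card_basis (MonoidAlgebra.basis G k)

/-- the bound -/
def csl (n : ℕ) : ℕ := 2 * (4 * n + 3) ^ 2 * (4 * n + 3) + (16 * n ^ 2 * (8 * n + 32) + 8 * n)

variable {k : Type u} [Field k] [IsAlgClosed k] {p : ℕ} [Fact p.Prime] [CharP k p]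

/-- **The corner of a block of `SL_2(F)` at a character of the `p'`-part of a torus.** -/
theorem corner_le (hq : (Fintype.card F : k) ≠ 0) {b : MonoidAlgebra k (SL2 F)}
    (hb : IsPrimIn (Subalgebra.center k (MonoidAlgebra k (SL2 F))) b) {x : SL2 F}
    (hx : ¬ Sc x) {a : ℕ} (hxa : Sc (x ^ p ^ a)) {A : Type} [CommGroup A] [Fintype A]
    {j : A →* SL2 F} (hj : Function.Injective j)
    (hr : ∀ g, g ∈ j.range ↔ (g * x = x * g ∧ ¬ p ∣ orderOf g)) {P : Subgroup (SL2 F)}
    (hP : ∀ g, g ∈ P ↔ (g * x = x * g ∧ ∃ a, g ^ p ^ a = 1)) {n : ℕ} (hn : Nat.card P ≤ n)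
    (θ : A →* kˣ) :
    Module.finrank k (NN (⊤ : Subalgebra k (MonoidAlgebra k (SL2 F)))
      (b * EX j (cf θ) (Fintype.card A : k)⁻¹) (b * EX j (cf θ) (Fintype.card A : k)⁻¹)) ≤
      csl n := by
  classical
  have hp : p.Prime := Fact.out
  have hn1 : 1 ≤ n := by
    refine le_trans ?_ hn
    exact Nat.card_pos
  have hpF : ((p ^ a : ℕ) : F) ≠ 0 := by
    intro h0
    obtain ⟨r, hrF⟩ := CharP.exists F
    have hr0 : r.Prime := CharP.char_is_prime F r
    have h1 : r ∣ p ^ a := (CharP.cast_eq_zero_iff F r _).mp h0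
    have h2 : r = p := (Nat.prime_dvd_prime_iff_eq hr0 hp).mp (hr0.dvd_of_dvd_pow h1)
    subst h2
    apply hq
    rw [CharP.cast_eq_zero_iff k r]
    obtain ⟨m, -, hm⟩ := FiniteField.card F r
    rw [hm]
    exact dvd_pow_self _ m.2.ne'
  have ht : tra x ^ 2 ≠ 4 := disc_of_pow hx hpF hxa
  by_cases hsmall : Fintype.card F ≤ 4 * n + 3
  · refine (finrank_corner_le_card _ _).trans (card_le.trans ?_)
    refine le_trans ?_ (Nat.le_add_right _ _)
    exact Nat.mul_le_mul (Nat.mul_le_mul_left _ (Nat.pow_le_pow_left hsmall 2)) hsmall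
  · push Not at hsmall
    refine le_trans ?_ (Nat.le_add_left _ _)
    set q := Fintype.card F with hqd
    set c := Nat.card (Subgroup.centralizer ({x} : Set (SL2 F))) with hc
    have hcq := card_cent hx ht
    rw [← hc, ← hqd] at hcq
    have hown := own_le hP hn
    rw [← hc] at hown
    -- the Gelfand-Graev corners
    obtain ⟨A₀, A₁, hs₀, hs₁, hKl, hcov, hnt₀, hnt₁⟩ := exists_tori.{u} F (by omega)
    obtain ⟨P₀⟩ : Nonempty (Sylow p A₀.T) := inferInstance
    obtain ⟨P₁⟩ : Nonempty (Sylow p A₁.T) := inferInstance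
    have hc₀ : Nat.card A₀.T = q - 1 := by
      have h1 := A₀.card
      rw [hs₀, ← hqd] at h1
      rw [Nat.card_eq_fintype_card]
      omega
    have hc₁ : Nat.card A₁.T = q + 1 := by
      have h1 := A₁.card
      rw [hs₁, ← hqd] at h1
      rw [Nat.card_eq_fintype_card]
      omega
    have hP₀ := Sylow.card_eq_multiplicity P₀
    have hP₁ := Sylow.card_eq_multiplicity P₁
    rw [hc₀] at hP₀
    rw [hc₁] at hP₁
    have hPP : Nat.card P₀ + Nat.card P₁ ≤ n + 2 := by
      rcases hcq with h1 | h1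
      · have h2 : Nat.card P₀ ≤ n := by rw [hP₀, ← h1]; exact hown
        have h3 : Nat.card P₁ ≤ 2 := by
          rw [hP₁]
          exact other_le hx ht hp hxa (d := q + 1) (Or.inl (by rw [← hc]; omega))
            (Nat.ordProj_dvd _ _)
        omega
      · have h2 : Nat.card P₁ ≤ n := by rw [hP₁, ← h1]; exact hown
        have h3 : Nat.card P₀ ≤ 2 := by
          rw [hP₀]
          exact other_le hx ht hp hxa (d := q - 1) (Or.inr (by rw [← hc]; omega))
            (Nat.ordProj_dvd _ _)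
        omega
    -- the lift to characteristic zero
    have hbc : ∀ y, y * b = b * y := fun y => (Subalgebra.mem_center_iff.mp hb.mem y)
    obtain ⟨B, hBc, hBB, hBfr⟩ := exists_block_lift (p := p) hbc hb.idem.eq
    have hcz := charZero_KK k p
    have hgg : ∀ χ : Multiplicative F →* (KK k p)ˣ, χ ≠ 1 → Module.finrank (KK k p)
        (NN (⊤ : Subalgebra (KK k p) (MonoidAlgebra (KK k p) (SL2 F))) (B * EK (jU F) χ)
          (B * EK (jU F) χ)) ≤ 2 * n + 6 := by
      intro χ hχ
      have hcM : (Fintype.card (Multiplicative F) : k) ≠ 0 := by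
        rw [Fintype.card_multiplicative]
        exact hq
      obtain ⟨χ₀, hχ₀⟩ := TT_lift (p := p) hcM χ
      have h1 := hBfr (Multiplicative F) hcM (jU F) (cf χ₀)
      rw [hχ₀] at h1
      rw [EK, h1]
      obtain ⟨ψ, hψ⟩ : ∃ ψ : AddChar F k, ψ.toMonoidHom = cf χ₀ :=
        ⟨AddChar.toMonoidHomEquiv.symm (cf χ₀), AddChar.toMonoidHomEquiv.apply_symm_apply _⟩
      have hψ1 : ψ ≠ 1 := by
        rintro rfl
        apply hχ
        have h2 : cf χ₀ = 1 := hψ.symm
        rw [h2] at hχ₀
        ext y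
        have h3 := congrArg (fun f : Multiplicative F →* KK k p => f y) hχ₀
        change TT k p 1 = (χ y : KK k p) at h3
        rw [map_one] at h3
        exact h3.symm
      rw [← hψ, ← eP_eq]
      have h2 := finrank_GG_le hψ1 hq (hKl k ψ hψ1).1 (hKl k ψ hψ1).2 hcov hnt₀ hnt₁ P₀ P₁ hb
      omega
    -- the dimension of the block
    have hN := N_bound hBc hBB (jU_injective (F := F)) (C := 2 * n + 6) (w := 2 * q ^ 2)
      (by
        rw [Fintype.card_multiplicative]
        exact card_le) hgg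
    rw [Fintype.card_multiplicative, ← hqd] at hN
    -- the torus
    have hcA : c ≤ n * Fintype.card A := card_torus_le hp hj hr hP hn
    have hZ : ∃ a : A, ¬ Sc (j a) := by
      by_contra hcon
      push Not at hcon
      have h1 : Fintype.card A ≤ 2 := by
        have h2 : ∀ y ∈ (Finset.univ : Finset A).image j, y ∈ ({1, zc} : Finset (SL2 F)) := by
          intro y hy
          obtain ⟨a, -, rfl⟩ := Finset.mem_image.mp hy
          rw [Finset.mem_insert, Finset.mem_singleton]
          exact (hcon a).eq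
        calc Fintype.card A = ((Finset.univ : Finset A).image j).card := by
              rw [Finset.card_image_of_injective _ hj, Finset.card_univ]
          _ ≤ ({1, zc} : Finset (SL2 F)).card := Finset.card_le_card h2
          _ ≤ 2 := Finset.card_le_two
      have h2 : n * Fintype.card A ≤ n * 2 := Nat.mul_le_mul_left n h1
      omega
    obtain ⟨a₀, ha₀⟩ := hZ
    let Z₀ : Subgroup A :=
      { carrier := {a | Sc (j a)}
        mul_mem' := by
          intro a b ha hb
          change Sc (j (a * b))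
          apply Sc.of_comm
          intro h
          rw [map_mul, mul_assoc, Sc.comm hb, ← mul_assoc, Sc.comm ha, mul_assoc]
        one_mem' := by
          change Sc (j 1)
          rw [map_one]
          exact sc_one
        inv_mem' := by
          intro a ha
          change Sc (j a⁻¹)
          apply Sc.of_comm
          intro h
          have h1 : j a * h = h * j a := Sc.comm ha h
          rw [map_inv]
          calc (j a)⁻¹ * h = (j a)⁻¹ * (h * j a) * (j a)⁻¹ := by group
            _ = (j a)⁻¹ * (j a * h) * (j a)⁻¹ := by rw [h1]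
            _ = _ := by group }
    have hZmem : ∀ a, a ∈ Z₀ ↔ Sc (j a) := fun a => Iff.rfl
    have hZ2 : Nat.card Z₀ ≤ 2 := by
      have h2 : Set.MapsTo j (Z₀ : Set A) (({1, zc} : Finset (SL2 F)) : Set (SL2 F)) := by
        intro a ha
        rw [Finset.coe_insert, Finset.coe_singleton]
        exact Sc.eq ha
      calc Nat.card Z₀ = (Z₀ : Set A).ncard := rfl
        _ ≤ (({1, zc} : Finset (SL2 F)) : Set (SL2 F)).ncard :=
          Set.ncard_le_ncard_of_injOn j h2 hj.injOn (Set.toFinite _)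
        _ ≤ 2 := by
          rw [Set.ncard_coe_finset]
          exact Finset.card_le_two
    have hAM : Fintype.card A ≤ 2 * Nat.card (A ⧸ Z₀) := by
      rw [← Nat.card_eq_fintype_card, Subgroup.card_eq_card_quotient_mul_card_subgroup Z₀, mul_comm]
      exact Nat.mul_le_mul_right _ hZ2
    have hM0 : 0 < Nat.card (A ⧸ Z₀) := Nat.card_pos
    set M := Nat.card (A ⧸ Z₀) with hM
    -- the character
    obtain ⟨χ, hχ⟩ : ∃ χ : A →* (KK k p)ˣ, cf χ = (TT k p).comp (cf θ) :=
      ⟨(Units.map (TT k p)).comp θ, rfl⟩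
    have hcA0 : (Fintype.card A : k) ≠ 0 := by
      intro h0
      have h1 : p ∣ Nat.card A := by
        rw [Nat.card_eq_fintype_card]
        exact (CharP.cast_eq_zero_iff k p _).mp h0
      obtain ⟨y, hy⟩ := exists_prime_orderOf_dvd_card' p h1
      apply ((hr (j y)).mp ⟨y, rfl⟩).2
      rw [orderOf_injective j hj, hy]
    have h1 := hBfr A hcA0 j (cf θ)
    rw [← h1, ← hχ]
    have hw : Nat.card (Subgroup.normalizer (j.range : Set (SL2 F))) ≤
        2 * n * Fintype.card A := by
      refine (card_normalizer_le hx ht hr ha₀).trans ?_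
      rw [← hc, mul_assoc]
      exact Nat.mul_le_mul_left _ hcA
    have hD := D_bound hBc hBB hj Z₀ (fun h a b hab ha => torus_TI hx hr hab ha) χ hN hw hM.symm
    change M ^ 2 * Module.finrank (KK k p) (NN (⊤ : Subalgebra (KK k p)
      (MonoidAlgebra (KK k p) (SL2 F))) (B * EX j (cf χ) (Fintype.card A : KK k p)⁻¹)
      (B * EX j (cf χ) (Fintype.card A : KK k p)⁻¹)) ≤ _ at hD
    generalize Module.finrank (KK k p) (NN (⊤ : Subalgebra (KK k p)
      (MonoidAlgebra (KK k p) (SL2 F))) (B * EX j (cf χ) (Fintype.card A : KK k p)⁻¹)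
      (B * EX j (cf χ) (Fintype.card A : KK k p)⁻¹)) = D at hD ⊢
    -- the numbers
    have hqM : q ≤ 4 * n * M := by
      have e1 : n * Fintype.card A ≤ n * (2 * M) := Nat.mul_le_mul_left n hAM
      have e2 : q ≤ 2 * c := by omega
      calc q ≤ 2 * c := e2
        _ ≤ 2 * (n * (2 * M)) := Nat.mul_le_mul_left 2 (hcA.trans e1)
        _ = 4 * n * M := by ring
    have hq2 : q ^ 2 ≤ 16 * n ^ 2 * M ^ 2 := by
      calc q ^ 2 ≤ (4 * n * M) ^ 2 := Nat.pow_le_pow_left hqM 2
        _ = 16 * n ^ 2 * M ^ 2 := by ring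
    have hfin : M ^ 2 * D ≤ M ^ 2 * (16 * n ^ 2 * (8 * n + 32) + 8 * n) := by
      refine hD.trans ?_
      calc 2 * (2 * (2 * q ^ 2) + 2 * (q * (q * (2 * n + 6)))) + 4 * (2 * n) * M ^ 2
          = q ^ 2 * (8 * n + 32) + 8 * n * M ^ 2 := by ring
        _ ≤ 16 * n ^ 2 * M ^ 2 * (8 * n + 32) + 8 * n * M ^ 2 :=
          Nat.add_le_add_right (Nat.mul_le_mul_right _ hq2) _
        _ = M ^ 2 * (16 * n ^ 2 * (8 * n + 32) + 8 * n) := by ring
    exact Nat.le_of_mul_le_mul_left hfin (pow_pos hM0 2)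

end

end Vale.Agent.P180.R2.H12.Sl
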