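import Vale.Agent.P180.R2.H12.SlR
import Vale.Agent.P180.R2.H12.SlQ

/-!
P180 R2 H12: the choice of a stable character; quotients of `SL_2(F)`.
-/

set_option linter.all false

namespace Vale.Agent.P180.R2.H12.Sl

open Finset Vale.Agent.P180 Vale.Agent.P180.H768.Gd Vale.Agent.P180.R2.H799 Vale.Agent.P180.R2.H954
  Vale.Agent.P180.R2.H12

section EXeq

variable {R : Type*} [CommRing R] {A A' : Type*} [CommGroup A] [Fintype A] [CommGroup A']
  [Fintype A'] {H : Type*} [Group H]

theorem EX_mul_eq (j : A →* H) (χ : A →* R) {c : R} (hc : c * Fintype.card A = 1)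
    {f : MonoidAlgebra R H} (hf : ∀ a, MonoidAlgebra.single (j a) 1 * f = χ a • f) :
    EX j χ c * f = f := by
  rw [EX, smul_mul_assoc, Finset.sum_mul]
  have h1 : ∀ a : A, MonoidAlgebra.single (j a) (χ a⁻¹) * f = f := by
    intro a
    have h2 : MonoidAlgebra.single (j a) (χ a⁻¹) = χ a⁻¹ • MonoidAlgebra.single (j a) (1 : R) := by
      rw [MonoidAlgebra.smul_single, smul_eq_mul, mul_one]
    rw [h2, smul_mul_assoc, hf, smul_smul, mul_comm, chi_inv, one_smul]
  rw [Finset.sum_congr rfl fun a _ => h1 a, Finset.sum_const, Finset.card_univ,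
    ← Nat.cast_smul_eq_nsmul R, smul_smul, hc, one_smul]

theorem mul_EX_eq (j : A →* H) (χ : A →* R) {c : R} (hc : c * Fintype.card A = 1)
    {f : MonoidAlgebra R H} (hf : ∀ a, f * MonoidAlgebra.single (j a) 1 = χ a • f) :
    f * EX j χ c = f := by
  rw [EX, mul_smul_comm, Finset.mul_sum]
  have h1 : ∀ a : A, f * MonoidAlgebra.single (j a) (χ a⁻¹) = f := by
    intro a
    have h2 : MonoidAlgebra.single (j a) (χ a⁻¹) = χ a⁻¹ • MonoidAlgebra.single (j a) (1 : R) := by
      rw [MonoidAlgebra.smul_single, smul_eq_mul, mul_one]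
    rw [h2, mul_smul_comm, hf, smul_smul, mul_comm, chi_inv, one_smul]
  rw [Finset.sum_congr rfl fun a _ => h1 a, Finset.sum_const, Finset.card_univ,
    ← Nat.cast_smul_eq_nsmul R, smul_smul, hc, one_smul]

/-- The idempotent depends only on the image. -/
theorem EX_eq {j : A →* H} {j' : A' →* H} {s : A →* A'} (hs : Function.Surjective s)
    (hj : ∀ a, j' (s a) = j a) {χ : A →* R} {χ' : A' →* R} (hχ : ∀ a, χ' (s a) = χ a)
    {c c' : R} (hc : c * Fintype.card A = 1) (hc' : c' * Fintype.card A' = 1) :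
    EX j χ c = EX j' χ' c' := by
  have h1 : EX j' χ' c' * EX j χ c = EX j χ c := by
    apply EX_mul_eq _ _ hc'
    intro a'
    obtain ⟨a, rfl⟩ := hs a'
    rw [hj, hχ, j_EX]
  have h2 : EX j' χ' c' * EX j χ c = EX j' χ' c' := by
    apply mul_EX_eq _ _ hc
    intro a
    rw [← hj, ← hχ, EX_j]
  rw [← h1, h2]

end EXeq

section Fixed

variable {k : Type*} [Field k] [IsAlgClosed k] {p : ℕ} [Fact p.Prime] [CharP k p]
variable {G : Type} [Group G] [Finite G]

omit [IsAlgClosed k] [Fact p.Prime] [CharP k p] in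
theorem cj_EX {A : Type*} [CommGroup A] [Fintype A] (j : A →* G) (χ : A →* k) (c : k) (r : G)
    {σ τ : A →* A} (hστ : ∀ a, σ (τ a) = a) (hτσ : ∀ a, τ (σ a) = a)
    (hτ : ∀ a, j (τ a) = r * j a * r⁻¹) :
    cj k G r (EX j χ c) = EX j (χ.comp σ) c := by
  rw [EX, EX]
  have h1 : ∀ (c : k) (x : MonoidAlgebra k G), cj k G r (c • x) = c • cj k G r x := by
    intro c x
    exact map_smul (cj k G r) c x
  rw [h1, map_sum]
  congr 1
  refine Fintype.sum_equiv (Equiv.mk τ σ hστ hτσ) _ _ fun a => ?_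
  rw [cj_single]
  change _ = MonoidAlgebra.single (j (τ a)) (χ (σ (τ a)⁻¹))
  rw [hτ, map_inv σ, hστ]

/-- **The choice of a stable character.** -/
theorem exists_fixed_char {A : Type*} [CommGroup A] [Fintype A] (hA : (Fintype.card A : k) ≠ 0)
    {j : A →* G} (hj : Function.Injective j) {R : Subgroup G} (hR : IsPGroup p R)
    (hRA : ∀ r ∈ R, ∀ a : A, ∃ b : A, j b = r * j a * r⁻¹)
    {e : MonoidAlgebra k G} (heR : e ∈ Fix (cj k G) R) (hbr : br R e ≠ 0) :
    ∃ θ : A →* kˣ, EX j (cf θ) (Fintype.card A : k)⁻¹ ∈ Fix (cj k G) R ∧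
      br R (e * EX j (cf θ) (Fintype.card A : k)⁻¹) ≠ 0 := by
  classical
  have hexp : ((Monoid.exponent A : ℕ) : k) ≠ 0 := by
    intro h
    apply hA
    have h1 : p ∣ Monoid.exponent A := (CharP.cast_eq_zero_iff k p _).mp h
    have h2 : Monoid.exponent A ∣ Fintype.card A := by
      rw [← Nat.card_eq_fintype_card]
      exact Group.exponent_dvd_nat_card
    exact (CharP.cast_eq_zero_iff k p _).mpr (h1.trans h2)
  have : NeZero ((Monoid.exponent A : ℕ) : k) := ⟨hexp⟩
  have := Fintype.ofFinite (A →* kˣ)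
  have hc : (Fintype.card A : k)⁻¹ * Fintype.card A = 1 := inv_mul_cancel₀ hA
  -- the action on `A`
  choose t ht using hRA
  let τ : R → (A →* A) := fun r =>
    { toFun := t r r.2
      map_one' := hj (by rw [ht, map_one, mul_one, mul_inv_cancel])
      map_mul' := fun a b => hj (by
        rw [map_mul, ht, ht, ht, map_mul]
        group) }
  have hτ : ∀ (r : R) a, j (τ r a) = r * j a * (r : G)⁻¹ := fun r a => ht r r.2 a
  have hτ1 : τ 1 = MonoidHom.id A := by
    ext a
    apply hj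
    rw [hτ]
    simp
  have hτm : ∀ r s, τ (r * s) = (τ r).comp (τ s) := by
    intro r s
    ext a
    apply hj
    rw [hτ, MonoidHom.comp_apply, hτ, hτ]
    rw [Subgroup.coe_mul]
    group
  let α : R →* Equiv.Perm (A →* kˣ) :=
    { toFun := fun r =>
        { toFun := fun θ => θ.comp (τ r⁻¹)
          invFun := fun θ => θ.comp (τ r)
          left_inv := fun θ => by
            change (θ.comp (τ r⁻¹)).comp (τ r) = θ
            rw [MonoidHom.comp_assoc, ← hτm, inv_mul_cancel, hτ1, MonoidHom.comp_id]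
          right_inv := fun θ => by
            change (θ.comp (τ r)).comp (τ r⁻¹) = θ
            rw [MonoidHom.comp_assoc, ← hτm, mul_inv_cancel, hτ1, MonoidHom.comp_id] }
      map_one' := by
        ext θ : 1
        change θ.comp (τ 1⁻¹) = θ
        rw [inv_one, hτ1, MonoidHom.comp_id]
      map_mul' := fun r s => by
        ext θ : 1
        change θ.comp (τ (r * s)⁻¹) = (θ.comp (τ s⁻¹)).comp (τ r⁻¹)
        rw [mul_inv_rev, hτm, MonoidHom.comp_assoc] }
  have hα : ∀ r θ, α r θ = θ.comp (τ r⁻¹) := fun r θ => rfl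
  have hcjE : ∀ (r : R) (θ : A →* kˣ), cj k G r (EX j (cf θ) (Fintype.card A : k)⁻¹) =
      EX j (cf (α r θ)) (Fintype.card A : k)⁻¹ := by
    intro r θ
    rw [cj_EX j (cf θ) _ (r : G) (σ := τ r⁻¹) (τ := τ r)]
    · rfl
    · intro a
      rw [← MonoidHom.comp_apply, ← hτm, inv_mul_cancel, hτ1, MonoidHom.id_apply]
    · intro a
      rw [← MonoidHom.comp_apply, ← hτm, mul_inv_cancel, hτ1, MonoidHom.id_apply]
    · exact hτ r
  -- the coefficient
  obtain ⟨c, hcc, hec⟩ := exists_coeff_of_br hbr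
  let φ : (A →* kˣ) → k := fun θ => (e * EX j (cf θ) (Fintype.card A : k)⁻¹).coeff c
  have hφ : ∀ r θ, φ (α r θ) = φ θ := by
    intro r θ
    change (e * EX j (cf (α r θ)) (Fintype.card A : k)⁻¹).coeff c = _
    rw [← hcjE]
    conv_lhs => rw [← heR r r.2]
    rw [← map_mul, cj_coeff]
    have h1 := hcc (r : G)⁻¹ (R.inv_mem r.2)
    rw [inv_inv] at h1
    rw [h1]
  have hsum : e.coeff c = ∑ θ, φ θ := by
    have h1 : e = ∑ θ : A →* kˣ, e * EX j (cf θ) (Fintype.card A : k)⁻¹ := by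
      rw [← Finset.mul_sum, EX_sum j hc, mul_one]
    conv_lhs => rw [h1]
    rw [MonoidAlgebra.coeff_sum, Finsupp.finsetSum_apply]
  rw [sum_fixed hR α φ hφ (fun θ => ∀ r, α r θ = θ) (fun _ => Iff.rfl)] at hsum
  obtain ⟨θ, -, hθ⟩ := Finset.exists_ne_zero_of_sum_ne_zero (by rw [← hsum]; exact hec)
  have hfix : ∀ r : R, α r θ = θ := by
    by_contra h
    exact hθ (if_neg h)
  rw [if_pos hfix] at hθ
  refine ⟨θ, ?_, br_ne_zero_of_coeff hcc hθ⟩
  intro r hr
  rw [hcjE ⟨r, hr⟩ θ, hfix]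

end Fixed

end Vale.Agent.P180.R2.H12.Sl
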