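import Vale.Agent.P180.R2.H12.SlY
import Vale.Agent.P180.R2.H365.LocC

/-!
P180 R2 H12: the corner property of the quotients of `SL_2(K)`.
-/

set_option linter.all false

namespace Vale.Agent.P180.R2.H12

open Vale.Agent.P180 Vale.Agent.P180.H768.Gd Vale.Agent.P180.R2.H799 Vale.Agent.P180.R2.H954

universe u

/-- Quotients of `SL_2(K)` by central subgroups, `K` a finite field of characteristic `≠ p`. -/
def SL2c (p : ℕ) (L : Type) [Group L] : Prop :=
  ∃ (K : Type) (_ : Field K) (_ : Finite K) (π : Matrix.SpecialLinearGroup (Fin 2) K →* L),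
    Function.Surjective π ∧ π.ker ≤ Subgroup.center _ ∧ ¬ p ∣ Nat.card K

namespace Sl

theorem mem_center_iff {F : Type} [Field F] [Fintype F] [DecidableEq F] {w : SL2 F} :
    w ∈ Subgroup.center (SL2 F) ↔ Sc w := by
  rw [Subgroup.mem_center_iff]
  constructor
  · intro h
    exact Sc.of_comm fun g => (h g).symm
  · intro h g
    exact (h.comm g).symm

end Sl

/-- The class is stable under central quotients. -/
theorem SL2c.map {p : ℕ} {S S' : Type} [Group S] [Group S'] (f : S →* S')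
    (hf : Function.Surjective f) (hker : ∀ x, f x = 1 → ∀ y, x * y = y * x) (h : SL2c p S) :
    SL2c p S' := by
  classical
  obtain ⟨K, iK, fK, π, hπ, hk, hp⟩ := h
  have _ := Fintype.ofFinite K
  refine ⟨K, iK, fK, f.comp π, hf.comp hπ, ?_, hp⟩
  intro w hw
  rw [Sl.mem_center_iff]
  refine Sl.Sc.of_map (φ := π) (fun v hv => Sl.mem_center_iff.mp (hk hv)) ?_
  intro s
  exact hker (π w) hw (π s)

variable {k : Type u} [Field k] [IsAlgClosed k] {p : ℕ} [Fact p.Prime] [CharP k p]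

/-- **The corner property of quotients of `SL_2(K)`**, arbitrary outer `p`-automorphisms. -/
theorem corP_sl2 {n : ℕ} {G : Type} [Group G] [Finite G] {D L : Subgroup G} (hD : IsPGroup p D)
    (hDn : Nat.card D ≤ n) (h : SL2c p L) (hr : ∃ x ∈ D, x ∈ L ∧ ¬ ∀ y ∈ L, x * y = y * x)
    {b : MonoidAlgebra k G} (hbF : b ∈ Fix (cj k G) ⊤) (hbr : br D b ≠ 0) :
    H365.CorP p (Sl.csl (2 * n)) b D L := by
  classical
  obtain ⟨K, _, _, π, hπ, hk, hp⟩ := h
  have _ := Fintype.ofFinite K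
  have hq : (Fintype.card K : k) ≠ 0 := by
    rw [← Nat.card_eq_fintype_card]
    intro h0
    exact hp ((CharP.cast_eq_zero_iff k p _).mp h0)
  obtain ⟨φ, hφd⟩ : ∃ φ : Sl.SL2 K →* G, φ = L.subtype.comp π := ⟨_, rfl⟩
  have hrange : φ.range = L := by
    rw [hφd, MonoidHom.range_comp, MonoidHom.range_eq_top.mpr hπ, ← MonoidHom.range_eq_map,
      Subgroup.range_subtype]
  have hφ : ∀ w, φ w = 1 → Sl.Sc w := by
    intro w hw
    apply Sl.mem_center_iff.mp
    apply hk
    rw [MonoidHom.mem_ker]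
    rw [hφd] at hw
    exact Subtype.ext hw
  intro R hRD hn e he heR hebr hz1 hz2
  obtain ⟨z, hz, hzF, hez⟩ := hz1
  have hR : IsPGroup p R := hD.to_le hRD
  have hDL : IsPGroup p (D ⊓ L : Subgroup G) := hD.to_le inf_le_left
  have heF : e ∈ Fix (cj k G) (D ⊓ L) := Fix_mono _ inf_le_right he.block.mem.2
  have h1 : br (D ⊓ L) e ≠ 0 := by
    intro h0
    apply br_ne_zero_mono (inf_le_left : D ⊓ L ≤ D) hbr
    rw [← he.mul, br_mul hDL heF (Fix_mono _ le_top hbF), h0, zero_mul]
  obtain ⟨c, hc, hec⟩ := exists_coeff_of_br h1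
  obtain ⟨y, hy, hyc⟩ := exists_conj_of_coeff (N := L) inf_le_left inf_le_right hDL hzF hez hc hec
  obtain ⟨x, hxD, hxL, hx⟩ := hr
  have hx0 : ¬ ∀ s ∈ L, (y⁻¹ * x * y) * s = s * (y⁻¹ * x * y) := by
    intro h2
    apply hx
    intro s hs
    have h3 := h2 (y⁻¹ * s * y) (L.mul_mem (L.mul_mem (L.inv_mem hy) hs) hy)
    have h4 : y⁻¹ * (x * s) * y = y⁻¹ * (s * x) * y := by
      calc y⁻¹ * (x * s) * y = y⁻¹ * x * y * (y⁻¹ * s * y) := by group
        _ = y⁻¹ * s * y * (y⁻¹ * x * y) := h3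
        _ = _ := by group
    exact mul_left_cancel (mul_right_cancel h4)
  have hcard : Nat.card (L ⊓ R : Subgroup G) ≤ n := by
    refine le_trans ?_ hDn
    exact Nat.card_le_card_of_injective _ (Subgroup.inclusion_injective (inf_le_right.trans hRD))
  obtain ⟨i, hi, hiR, hii, hei, hbi, hfr⟩ := Sl.exists_source (k := k) (n := n) hq φ hφ hR
    (e := e) (z := z) (by rw [hrange]; exact hcard) (by rw [hrange]; exact hn)
    (by rw [hrange]; exact he.block) heR hebr (by rw [hrange]; exact hzF)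
    (by rw [hrange]; exact hez) (x₀ := y⁻¹ * x * y) (by rw [hrange]; exact hyc x ⟨hxD, hxL⟩)
    (by rw [hrange]; exact hx0)
  rw [hrange] at hi hfr
  exact H365.Src.cor_of_source (i := i) hR hn he.block heR hz2 hi hiR hii hei hbi hfr

end Vale.Agent.P180.R2.H12
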