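import Vale.Agent.P180.R2.H12.SlK

/-!
P180 R2 H12: the homomorphism from the Gelfand-Graev algebra of `SL_2(F)` to the group algebra of
a torus.
-/

set_option linter.all false

namespace Vale.Agent.P180.R2.H12.Sl

open Finset

variable {F : Type} [Field F] [Fintype F] [DecidableEq F]

abbrev SL2 (F : Type) [Field F] := Matrix.SpecialLinearGroup (Fin 2) F

/-- upper unitriangular matrices -/
def u (y : F) : SL2 F := ⟨!![1, y; 0, 1], by simp [Matrix.det_fin_two]⟩

theorem u_00 (y : F) : (u y) 0 0 = 1 := rfl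
theorem u_01 (y : F) : (u y) 0 1 = y := rfl
theorem u_10 (y : F) : (u y) 1 0 = 0 := rfl
theorem u_11 (y : F) : (u y) 1 1 = 1 := rfl

theorem mul_e (g h : SL2 F) (i j : Fin 2) : (g * h) i j = g i 0 * h 0 j + g i 1 * h 1 j := by
  change (g * h).1 i j = _
  rw [Matrix.SpecialLinearGroup.coe_mul, Matrix.mul_apply, Fin.sum_univ_two]

theorem det_e (g : SL2 F) : g 0 0 * g 1 1 - g 0 1 * g 1 0 = 1 := by
  have := g.2
  rw [Matrix.det_fin_two] at this
  exact this

theorem ext_e {g h : SL2 F} (h00 : g 0 0 = h 0 0) (h01 : g 0 1 = h 0 1) (h10 : g 1 0 = h 1 0)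
    (h11 : g 1 1 = h 1 1) : g = h := by
  apply Matrix.SpecialLinearGroup.ext
  intro i j
  fin_cases i <;> fin_cases j
  · exact h00
  · exact h01
  · exact h10
  · exact h11

theorem u_mul (x y : F) : u x * u y = u (x + y) := by
  apply ext_e <;> rw [mul_e] <;> simp only [u_00, u_01, u_10, u_11] <;> ring

theorem gu (g : SL2 F) (y : F) (i : Fin 2) :
    (g * u y) i 0 = g i 0 ∧ (g * u y) i 1 = g i 0 * y + g i 1 := by
  constructor
  · rw [mul_e, u_00, u_10]; ring
  · rw [mul_e, u_01, u_11]; ring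

theorem guh (g h : SL2 F) (y : F) (i j : Fin 2) :
    (g * u y * h) i j = g i 0 * h 0 j + (g i 0 * y + g i 1) * h 1 j := by
  rw [mul_e, (gu g y i).1, (gu g y i).2]

variable {k : Type*} [Field k]

/-- The coefficients of the image of `e g e` in the group algebra of a torus. -/
noncomputable def ph (A : Tor F) (ψ : AddChar F k) (g : SL2 F) (t : A.T) : k :=
  if g 1 0 = 0 then
    (if g 0 0 = 1 then (if t = 1 then ψ (g 0 1) else 0) else
      if g 0 0 = -1 then (if t = A.m then ψ (-(g 0 1)) else 0) else 0)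
  else (A.s : k) * (Fintype.card F : k)⁻¹ * ψ ((g 0 0 + g 1 1 - A.tr t) * (g 1 0)⁻¹)

theorem ph_ne {A : Tor F} {ψ : AddChar F k} {g : SL2 F} (h : g 1 0 ≠ 0) (t : A.T) :
    ph A ψ g t = (A.s : k) * (Fintype.card F : k)⁻¹ *
      ψ ((g 0 0 + g 1 1 - A.tr t) * (g 1 0)⁻¹) := by
  rw [ph, if_neg h]

theorem ph_one {A : Tor F} {ψ : AddChar F k} {g : SL2 F} (h : g 1 0 = 0) (h1 : g 0 0 = 1)
    (t : A.T) : ph A ψ g t = if t = 1 then ψ (g 0 1) else 0 := by
  rw [ph, if_pos h, if_pos h1]

theorem Tor.m_eq_one {A : Tor F} (h : (1 : F) = -1) : A.m = 1 := by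
  have h2 : (2 : F) = 0 := by linear_combination h
  have h1 : A.tr A.m = A.tr 1 := by
    rw [A.tr_m, A.tr_one, h2, neg_zero]
  rcases A.tr_eq _ _ h1 with h3 | h3
  · exact h3
  · rw [h3, inv_one]

theorem ph_neg_one {A : Tor F} {ψ : AddChar F k} {g : SL2 F} (h : g 1 0 = 0) (h1 : g 0 0 = -1)
    (t : A.T) : ph A ψ g t = if t = A.m then ψ (-(g 0 1)) else 0 := by
  rw [ph, if_pos h]
  by_cases h2 : g 0 0 = 1
  · rw [if_pos h2]
    have h3 : (1 : F) = -1 := by rw [← h1, h2]
    rw [Tor.m_eq_one h3]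
    have h4 : ∀ x : F, -x = x := by
      intro x
      linear_combination (-x) * h3
    rw [h4]
  · rw [if_neg h2, if_pos h1]

theorem ph_other {A : Tor F} {ψ : AddChar F k} {g : SL2 F} (h : g 1 0 = 0) (h1 : g 0 0 ≠ 1)
    (h2 : g 0 0 ≠ -1) (t : A.T) : ph A ψ g t = 0 := by
  rw [ph, if_pos h, if_neg h1, if_neg h2]

theorem sum_shift (f : F → k) (y₀ : F) : ∑ y : F, f y = f y₀ + ∑ x : Fˣ, f (y₀ - x) := by
  rw [← Equiv.sum_comp (Equiv.subLeft y₀) f]
  rw [← Finset.add_sum_erase _ _ (Finset.mem_univ (0 : F))]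
  congr 1
  · rw [Equiv.subLeft_apply, sub_zero]
  · refine (Finset.sum_bij (fun (x : Fˣ) _ => (x : F)) ?_ ?_ ?_ ?_).symm
    · intro x _
      exact Finset.mem_erase.mpr ⟨x.ne_zero, Finset.mem_univ _⟩
    · intro x _ y _ h
      exact Units.ext h
    · intro y hy
      exact ⟨Units.mk0 y (Finset.mem_erase.mp hy).1, Finset.mem_univ _, rfl⟩
    · intro x _
      rfl

theorem sum_char {ψ : AddChar F k} (hψ : ψ ≠ 1) (a : F) :
    ∑ y : F, ψ (a * y) = if a = 0 then (Fintype.card F : k) else 0 := by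
  split_ifs with h
  · rw [h]
    simp
  · have h1 := (AddChar.IsPrimitive.of_ne_one hψ) h
    have h2 := AddChar.sum_eq_zero_of_ne_one h1
    simpa [AddChar.mulShift_apply] using h2

/-- Multiplicativity, the main case. -/
theorem ph_conv_main {A : Tor F} {ψ : AddChar F k} (hq : (Fintype.card F : k) ≠ 0)
    (hA : A.Kl ψ) {g h : SL2 F} (hg : g 1 0 ≠ 0) (hh : h 1 0 ≠ 0) (t : A.T) :
    ∑ y : F, ψ (-y) * ph A ψ (g * u y * h) t =
      (Fintype.card F : k) * ∑ x : A.T, ph A ψ g (t * x⁻¹) * ph A ψ h x := by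
  obtain ⟨c, hc⟩ : ∃ c, c = g 1 0 := ⟨_, rfl⟩
  obtain ⟨c', hc'⟩ : ∃ c', c' = h 1 0 := ⟨_, rfl⟩
  obtain ⟨a, ha⟩ : ∃ a, a = g 0 0 := ⟨_, rfl⟩
  obtain ⟨a', ha'⟩ : ∃ a', a' = h 0 0 := ⟨_, rfl⟩
  obtain ⟨d, hd⟩ : ∃ d, d = g 1 1 := ⟨_, rfl⟩
  obtain ⟨d', hd'⟩ : ∃ d', d' = h 1 1 := ⟨_, rfl⟩
  obtain ⟨b, hb⟩ : ∃ b, b = g 0 1 := ⟨_, rfl⟩
  obtain ⟨b', hb'⟩ : ∃ b', b' = h 0 1 := ⟨_, rfl⟩
  have hdet := det_e g
  have hdet' := det_e h
  rw [← ha, ← hb, ← hc, ← hd] at hdet
  rw [← ha', ← hb', ← hc', ← hd'] at hdet'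
  rw [← hc] at hg
  rw [← hc'] at hh
  obtain ⟨y₀, hy₀⟩ : ∃ y₀ : F, y₀ = -(a' * c'⁻¹) - d * c⁻¹ := ⟨_, rfl⟩
  have hs2 : (A.s : k) * A.s = 1 := by
    rcases A.hs with h | h <;> rw [h] <;> simp
  -- entries of the product
  have h10 : ∀ y, (g * u y * h) 1 0 = c * a' + (c * y + d) * c' := by
    intro y; rw [guh, ← hc, ← hd, ← ha', ← hc']
  have h00 : ∀ y, (g * u y * h) 0 0 = a * a' + (a * y + b) * c' := by
    intro y; rw [guh, ← ha, ← hb, ← ha', ← hc']
  have h11 : ∀ y, (g * u y * h) 1 1 = c * b' + (c * y + d) * d' := by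
    intro y; rw [guh, ← hc, ← hd, ← hb', ← hd']
  have h01 : ∀ y, (g * u y * h) 0 1 = a * b' + (a * y + b) * d' := by
    intro y; rw [guh, ← ha, ← hb, ← hb', ← hd']
  have hX : ∀ x : F, (g * u (y₀ - x) * h) 1 0 = -(c * c' * x) := by
    intro x
    rw [h10, hy₀]
    field_simp
    ring
  -- the right hand side
  have hR : ∑ x : A.T, ph A ψ g (t * x⁻¹) * ph A ψ h x =
      (Fintype.card F : k)⁻¹ * (Fintype.card F : k)⁻¹ * ψ ((a + d) * c⁻¹ + (a' + d') * c'⁻¹) *
        ∑ x : A.T, ψ (-(A.tr (t * x⁻¹) * c⁻¹ + A.tr x * c'⁻¹)) := by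
    rw [Finset.mul_sum]
    refine Finset.sum_congr rfl fun x _ => ?_
    rw [ph_ne (by rw [← hc]; exact hg), ph_ne (by rw [← hc']; exact hh), ← hc, ← hc', ← ha, ← ha',
      ← hd, ← hd']
    have e1 : ψ ((a + d - A.tr (t * x⁻¹)) * c⁻¹) * ψ ((a' + d' - A.tr x) * c'⁻¹) =
        ψ ((a + d) * c⁻¹ + (a' + d') * c'⁻¹) * ψ (-(A.tr (t * x⁻¹) * c⁻¹ + A.tr x * c'⁻¹)) := by
      rw [← AddChar.map_add_eq_mul, ← AddChar.map_add_eq_mul]
      congr 1
      ring
    linear_combination ((A.s : k) * A.s * (Fintype.card F : k)⁻¹ * (Fintype.card F : k)⁻¹) * e1 +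
      (Fintype.card F : k)⁻¹ * (Fintype.card F : k)⁻¹ * ψ ((a + d) * c⁻¹ + (a' + d') * c'⁻¹) *
        ψ (-(A.tr (t * x⁻¹) * c⁻¹ + A.tr x * c'⁻¹)) * hs2
  rw [hR, hA c⁻¹ c'⁻¹ (inv_ne_zero hg) (inv_ne_zero hh) t, sum_shift _ y₀]
  -- the generic terms
  have hgen : ∑ x : Fˣ, ψ (-(y₀ - x)) * ph A ψ (g * u (y₀ - x) * h) t =
      (A.s : k) * (Fintype.card F : k)⁻¹ * ψ ((a + d) * c⁻¹ + (a' + d') * c'⁻¹) *
        ∑ x : Fˣ, ψ (x + (c⁻¹ ^ 2 + c'⁻¹ ^ 2 + A.tr t * (c⁻¹ * c'⁻¹)) * (x⁻¹ : Fˣ)) := by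
    rw [Finset.mul_sum]
    refine Finset.sum_congr rfl fun x _ => ?_
    have hx := x.ne_zero
    have hne : (g * u (y₀ - x) * h) 1 0 ≠ 0 := by
      rw [hX]
      exact neg_ne_zero.mpr (mul_ne_zero (mul_ne_zero hg hh) hx)
    rw [ph_ne hne]
    have e1 : ψ (-(y₀ - (x : F))) * ψ (((g * u (y₀ - x) * h) 0 0 + (g * u (y₀ - x) * h) 1 1 -
        A.tr t) * ((g * u (y₀ - x) * h) 1 0)⁻¹) =
        ψ ((a + d) * c⁻¹ + (a' + d') * c'⁻¹) *
          ψ (x + (c⁻¹ ^ 2 + c'⁻¹ ^ 2 + A.tr t * (c⁻¹ * c'⁻¹)) * (x⁻¹ : Fˣ)) := by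
      rw [← AddChar.map_add_eq_mul, ← AddChar.map_add_eq_mul, hX, h00, h11, hy₀,
        Units.val_inv_eq_inv_val]
      congr 1
      field_simp
      linear_combination (c ^ 2) * hdet' + (c' ^ 2) * hdet
    linear_combination ((A.s : k) * (Fintype.card F : k)⁻¹) * e1
  rw [hgen]
  -- the special term
  have hsp : ψ (-y₀) * ph A ψ (g * u y₀ * h) t =
      ψ ((a + d) * c⁻¹ + (a' + d') * c'⁻¹) *
        (if (c'⁻¹ = -c⁻¹ ∧ t = 1) ∨ (c'⁻¹ = c⁻¹ ∧ t = A.m) then 1 else 0) := by
    have h0 : (g * u y₀ * h) 1 0 = 0 := by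
      have := hX 0
      rwa [sub_zero, mul_zero, neg_zero] at this
    have hc1 : c * c⁻¹ = 1 := mul_inv_cancel₀ hg
    have hc1' : c' * c'⁻¹ = 1 := mul_inv_cancel₀ hh
    have h00' : (g * u y₀ * h) 0 0 = -(c' * c⁻¹) := by
      rw [h00, hy₀]
      linear_combination (-(a * a') * hc1') + (-c' * c⁻¹) * hdet + (-b * c') * hc1
    have h01' : (g * u y₀ * h) 0 1 = -(a * c'⁻¹ + d' * c⁻¹) := by
      rw [h01, hy₀]
      linear_combination (-a * c'⁻¹) * hdet' + (-(a * b')) * hc1' + (-d' * c⁻¹) * hdet +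
        (-(b * d')) * hc1
    by_cases h1 : c' = -c
    · have h2 : (g * u y₀ * h) 0 0 = 1 := by
        rw [h00', h1]
        linear_combination hc1
      rw [ph_one h0 h2]
      have h3 : c'⁻¹ = -c⁻¹ := by rw [h1, inv_neg]
      have h4 : ((c'⁻¹ = -c⁻¹ ∧ t = 1) ∨ (c'⁻¹ = c⁻¹ ∧ t = A.m)) ↔ t = 1 := by
        constructor
        · rintro (⟨-, h⟩ | ⟨h5, h⟩)
          · exact h
          · have h6 : (1 : F) = -1 := by
              rw [h3] at h5
              linear_combination (-c) * h5 + (-2 : F) * hc1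
            rw [h, Tor.m_eq_one h6]
        · exact fun h => Or.inl ⟨h3, h⟩
      simp only [h4]
      split_ifs with h5
      · rw [mul_one, ← AddChar.map_add_eq_mul]
        congr 1
        rw [h01', hy₀, h3]
        ring
      · rw [mul_zero, mul_zero]
    · by_cases h1' : c' = c
      · have h2 : (g * u y₀ * h) 0 0 = -1 := by
          rw [h00', h1']
          linear_combination (-1 : F) * hc1
        rw [ph_neg_one h0 h2]
        have h4 : ((c'⁻¹ = -c⁻¹ ∧ t = 1) ∨ (c'⁻¹ = c⁻¹ ∧ t = A.m)) ↔ t = A.m := by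
          constructor
          · rintro (⟨h5, h⟩ | ⟨-, h⟩)
            · exfalso
              apply h1
              have h6 := congrArg (fun x => x⁻¹) h5
              simpa [inv_neg] using h6
            · exact h
          · exact fun h => Or.inr ⟨by rw [h1'], h⟩
        simp only [h4]
        split_ifs with h5
        · rw [mul_one, ← AddChar.map_add_eq_mul]
          congr 1
          rw [h01', hy₀, h1']
          ring
        · rw [mul_zero, mul_zero]
      · have h2 : (g * u y₀ * h) 0 0 ≠ 1 := by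
          rw [h00']
          intro h3
          apply h1
          linear_combination (-c) * h3 + (-c') * hc1
        have h2' : (g * u y₀ * h) 0 0 ≠ -1 := by
          rw [h00']
          intro h3
          apply h1'
          linear_combination (-c) * h3 + (-c') * hc1
        rw [ph_other h0 h2 h2', if_neg]
        · ring
        · rintro (⟨h5, -⟩ | ⟨h5, -⟩)
          · apply h1
            have h6 := congrArg (fun x => x⁻¹) h5
            simpa [inv_neg] using h6
          · apply h1'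
            exact inv_injective h5
  rw [hsp]
  have hqq : (Fintype.card F : k) * (Fintype.card F : k)⁻¹ = 1 := mul_inv_cancel₀ hq
  generalize (∑ x : Fˣ, ψ (x + (c⁻¹ ^ 2 + c'⁻¹ ^ 2 + A.tr t * (c⁻¹ * c'⁻¹)) * (x⁻¹ : Fˣ))) = S
  split_ifs with h5
  · field_simp
    ring
  · field_simp
    ring

/-- the central element `-1` -/
def zc : SL2 F := ⟨!![-1, 0; 0, -1], by simp [Matrix.det_fin_two]⟩

theorem zc_00 : (zc : SL2 F) 0 0 = -1 := rfl
theorem zc_01 : (zc : SL2 F) 0 1 = 0 := rfl
theorem zc_10 : (zc : SL2 F) 1 0 = 0 := rfl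
theorem zc_11 : (zc : SL2 F) 1 1 = -1 := rfl

theorem zc_mul (h : SL2 F) (i j : Fin 2) : (zc * h : SL2 F) i j = -(h i j) := by
  rw [mul_e]
  fin_cases i
  · change (zc : SL2 F) 0 0 * h 0 j + (zc : SL2 F) 0 1 * h 1 j = -(h 0 j)
    rw [zc_00, zc_01]; ring
  · change (zc : SL2 F) 1 0 * h 0 j + (zc : SL2 F) 1 1 * h 1 j = -(h 1 j)
    rw [zc_10, zc_11]; ring

theorem zc_zc : (zc : SL2 F) * zc = 1 := by
  apply ext_e <;> rw [zc_mul] <;> simp [zc_00, zc_01, zc_10, zc_11]

theorem zc_comm (h : SL2 F) : zc * h = h * zc := by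
  apply ext_e <;> rw [zc_mul, mul_e] <;> simp [zc_00, zc_01, zc_10, zc_11]

theorem ph_u_mul {A : Tor F} {ψ : AddChar F k} (x : F) (h : SL2 F) (t : A.T) :
    ph A ψ (u x * h) t = ψ x * ph A ψ h t := by
  have e10 : (u x * h) 1 0 = h 1 0 := by rw [mul_e, u_10, u_11]; ring
  have e00 : (u x * h) 0 0 = h 0 0 + x * h 1 0 := by rw [mul_e, u_00, u_01]; ring
  have e01 : (u x * h) 0 1 = h 0 1 + x * h 1 1 := by rw [mul_e, u_00, u_01]; ring
  have e11 : (u x * h) 1 1 = h 1 1 := by rw [mul_e, u_10, u_11]; ring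
  have hdet := det_e h
  by_cases hc : h 1 0 = 0
  · have e10' : (u x * h) 1 0 = 0 := by rw [e10, hc]
    have e00' : (u x * h) 0 0 = h 0 0 := by rw [e00, hc]; ring
    rw [hc, mul_zero, sub_zero] at hdet
    by_cases h1 : h 0 0 = 1
    · rw [ph_one e10' (e00'.trans h1), ph_one hc h1, e01]
      rw [h1, one_mul] at hdet
      split_ifs
      · rw [hdet, mul_one, AddChar.map_add_eq_mul, mul_comm]
      · rw [mul_zero]
    · by_cases h2 : h 0 0 = -1
      · rw [ph_neg_one e10' (e00'.trans h2), ph_neg_one hc h2, e01]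
        rw [h2] at hdet
        split_ifs
        · rw [← AddChar.map_add_eq_mul]
          congr 1
          linear_combination x * hdet
        · rw [mul_zero]
      · rw [ph_other e10' (by rw [e00']; exact h1) (by rw [e00']; exact h2),
          ph_other hc h1 h2, mul_zero]
  · rw [ph_ne (by rw [e10]; exact hc), ph_ne hc, e10, e00, e11]
    have : ψ ((h 0 0 + x * h 1 0 + h 1 1 - A.tr t) * (h 1 0)⁻¹) =
        ψ x * ψ ((h 0 0 + h 1 1 - A.tr t) * (h 1 0)⁻¹) := by
      rw [← AddChar.map_add_eq_mul]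
      congr 1
      field_simp
      ring
    rw [this]
    ring

theorem ph_mul_u {A : Tor F} {ψ : AddChar F k} (x : F) (h : SL2 F) (t : A.T) :
    ph A ψ (h * u x) t = ψ x * ph A ψ h t := by
  have e10 : (h * u x) 1 0 = h 1 0 := (gu h x 1).1
  have e00 : (h * u x) 0 0 = h 0 0 := (gu h x 0).1
  have e01 : (h * u x) 0 1 = h 0 0 * x + h 0 1 := (gu h x 0).2
  have e11 : (h * u x) 1 1 = h 1 0 * x + h 1 1 := (gu h x 1).2
  by_cases hc : h 1 0 = 0
  · have e10' : (h * u x) 1 0 = 0 := by rw [e10, hc]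
    by_cases h1 : h 0 0 = 1
    · rw [ph_one e10' (e00.trans h1), ph_one hc h1, e01]
      split_ifs
      · rw [h1, one_mul, AddChar.map_add_eq_mul]
      · rw [mul_zero]
    · by_cases h2 : h 0 0 = -1
      · rw [ph_neg_one e10' (e00.trans h2), ph_neg_one hc h2, e01]
        split_ifs
        · rw [← AddChar.map_add_eq_mul, h2]
          congr 1
          ring
        · rw [mul_zero]
      · rw [ph_other e10' (by rw [e00]; exact h1) (by rw [e00]; exact h2),
          ph_other hc h1 h2, mul_zero]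
  · rw [ph_ne (by rw [e10]; exact hc), ph_ne hc, e10, e00, e11]
    have : ψ ((h 0 0 + (h 1 0 * x + h 1 1) - A.tr t) * (h 1 0)⁻¹) =
        ψ x * ψ ((h 0 0 + h 1 1 - A.tr t) * (h 1 0)⁻¹) := by
      rw [← AddChar.map_add_eq_mul]
      congr 1
      field_simp
      ring
    rw [this]
    ring

theorem ph_zc {A : Tor F} {ψ : AddChar F k} (h : SL2 F) (t : A.T) :
    ph A ψ (zc * h) t = ph A ψ h (A.m * t) := by
  have hmt : ∀ s : A.T, A.m * t = s ↔ t = A.m * s := by
    intro s
    constructor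
    · rintro rfl
      rw [← mul_assoc, A.mm, one_mul]
    · rintro rfl
      rw [← mul_assoc, A.mm, one_mul]
  by_cases hc : h 1 0 = 0
  · have e10 : (zc * h : SL2 F) 1 0 = 0 := by rw [zc_mul, hc, neg_zero]
    by_cases h1 : h 0 0 = 1
    · rw [ph_neg_one e10 (by rw [zc_mul, h1]), ph_one hc h1, zc_mul, neg_neg]
      simp only [hmt, mul_one]
    · by_cases h2 : h 0 0 = -1
      · rw [ph_one e10 (by rw [zc_mul, h2, neg_neg]), ph_neg_one hc h2, zc_mul]
        simp only [hmt, A.mm]
      · rw [ph_other e10 _ _, ph_other hc h1 h2]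
        · rw [zc_mul]
          intro h
          exact h2 (by linear_combination -h)
        · rw [zc_mul]
          intro h
          exact h1 (by linear_combination -h)
  · rw [ph_ne (by rw [zc_mul]; exact neg_ne_zero.mpr hc), ph_ne hc, zc_mul, zc_mul, zc_mul,
      A.tr_mul_m]
    congr 2
    field_simp
    ring

theorem ph_u {A : Tor F} {ψ : AddChar F k} (x : F) (t : A.T) :
    ph A ψ (u x) t = if t = 1 then ψ x else 0 := ph_one (u_10 x) (u_00 x) t

theorem sum_delta {A : Tor F} (f : A.T → k) (s t : A.T) (c : k) :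
    ∑ x : A.T, (if t * x⁻¹ = s then c else 0) * f x = c * f (s⁻¹ * t) := by
  have h1 : ∀ x : A.T, t * x⁻¹ = s ↔ x = s⁻¹ * t := by
    intro x
    rw [mul_inv_eq_iff_eq_mul]
    constructor
    · intro h
      rw [h, inv_mul_cancel_left]
    · intro h
      rw [h, mul_inv_cancel_left]
  simp only [h1, ite_mul, zero_mul]
  rw [Finset.sum_ite_eq' Finset.univ (s⁻¹ * t)]
  simp

theorem sum_delta' {A : Tor F} (f : A.T → k) (s t : A.T) (c : k) :
    ∑ x : A.T, f (t * x⁻¹) * (if x = s then c else 0) = c * f (t * s⁻¹) := by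
  simp only [mul_ite, mul_zero]
  rw [Finset.sum_ite_eq' Finset.univ s]
  simp [mul_comm]

/-- Multiplicativity. -/
theorem ph_conv {A : Tor F} {ψ : AddChar F k} (hψ : ψ ≠ 1) (hq : (Fintype.card F : k) ≠ 0)
    (hA : A.Kl ψ) (g h : SL2 F) (t : A.T) :
    ∑ y : F, ψ (-y) * ph A ψ (g * u y * h) t =
      (Fintype.card F : k) * ∑ x : A.T, ph A ψ g (t * x⁻¹) * ph A ψ h x := by
  have hminv : A.m⁻¹ = A.m := inv_eq_of_mul_eq_one_left A.mm
  have hcan : ∀ y : F, ψ (-y) * ψ y = 1 := by
    intro y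
    rw [← AddChar.map_add_eq_mul, neg_add_cancel, AddChar.map_zero_eq_one]
  by_cases hg : g 1 0 = 0
  · by_cases h1 : g 0 0 = 1
    · have hgu : g = u (g 0 1) := by
        have hd := det_e g
        rw [hg, h1] at hd
        apply ext_e
        · rw [h1, u_00]
        · rw [u_01]
        · rw [hg, u_10]
        · rw [u_11]
          linear_combination hd
      obtain ⟨b, hb⟩ : ∃ b, b = g 0 1 := ⟨_, rfl⟩
      rw [← hb] at hgu
      rw [hgu]
      have h2 : ∀ y : F, ψ (-y) * ph A ψ (u b * u y * h) t = ψ b * ph A ψ h t := by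
        intro y
        rw [u_mul, ph_u_mul, AddChar.map_add_eq_mul]
        linear_combination (ψ b * ph A ψ h t) * hcan y
      simp only [h2, ph_u]
      rw [sum_delta, inv_one, one_mul, Finset.sum_const, Finset.card_univ, nsmul_eq_mul]
    · by_cases h1' : g 0 0 = -1
      · have hgu : g = zc * u (-(g 0 1)) := by
          have hd := det_e g
          rw [hg, h1'] at hd
          apply ext_e
          · rw [h1', zc_mul, u_00]
          · rw [zc_mul, u_01, neg_neg]
          · rw [hg, zc_mul, u_10, neg_zero]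
          · rw [zc_mul, u_11]
            linear_combination -hd
        obtain ⟨b, hb⟩ : ∃ b, b = -(g 0 1) := ⟨_, rfl⟩
        rw [← hb] at hgu
        rw [hgu]
        have h2 : ∀ y : F, ψ (-y) * ph A ψ (zc * u b * u y * h) t =
            ψ b * ph A ψ h (A.m * t) := by
          intro y
          rw [mul_assoc zc, mul_assoc zc, u_mul, ph_zc, ph_u_mul, AddChar.map_add_eq_mul]
          linear_combination (ψ b * ph A ψ h (A.m * t)) * hcan y
        have h3 : ∀ x : A.T, ph A ψ (zc * u b) (t * x⁻¹) =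
            if t * x⁻¹ = A.m then ψ b else 0 := by
          intro x
          rw [ph_zc, ph_u]
          have : A.m * (t * x⁻¹) = 1 ↔ t * x⁻¹ = A.m := by
            rw [mul_eq_one_iff_inv_eq, hminv, eq_comm]
          simp only [this]
        simp only [h2, h3]
        rw [sum_delta, hminv, Finset.sum_const, Finset.card_univ, nsmul_eq_mul]
      · have h0 : ∀ x : A.T, ph A ψ g (t * x⁻¹) = 0 := fun x => ph_other hg h1 h1' _
        simp only [h0, zero_mul, Finset.sum_const_zero, mul_zero]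
        have hcom : ∀ y : F, g * u y = u (g 0 0 ^ 2 * y) * g := by
          intro y
          have hd := det_e g
          rw [hg] at hd
          apply ext_e
          · rw [(gu g y 0).1, mul_e, u_00, u_01, hg]; ring
          · rw [(gu g y 0).2, mul_e, u_00, u_01]
            linear_combination (-(g 0 0) * y) * hd
          · rw [(gu g y 1).1, mul_e, u_10, u_11]; ring
          · rw [(gu g y 1).2, mul_e, u_10, u_11, hg]; ring
        have h2 : ∀ y : F, ψ (-y) * ph A ψ (g * u y * h) t =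
            ph A ψ (g * h) t * ψ ((g 0 0 ^ 2 - 1) * y) := by
          intro y
          rw [hcom, mul_assoc, ph_u_mul]
          have : ψ (-y) * ψ (g 0 0 ^ 2 * y) = ψ ((g 0 0 ^ 2 - 1) * y) := by
            rw [← AddChar.map_add_eq_mul]
            congr 1
            ring
          linear_combination ph A ψ (g * h) t * this
        simp only [h2]
        rw [← Finset.mul_sum, sum_char hψ, if_neg, mul_zero]
        intro h3
        have h4 : (g 0 0 - 1) * (g 0 0 + 1) = 0 := by linear_combination h3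
        rcases mul_eq_zero.mp h4 with h5 | h5
        · exact h1 (sub_eq_zero.mp h5)
        · exact h1' (by linear_combination h5)
  · by_cases hh : h 1 0 = 0
    · by_cases h1 : h 0 0 = 1
      · have hhu : h = u (h 0 1) := by
          have hd := det_e h
          rw [hh, h1] at hd
          apply ext_e
          · rw [h1, u_00]
          · rw [u_01]
          · rw [hh, u_10]
          · rw [u_11]
            linear_combination hd
        obtain ⟨b, hb⟩ : ∃ b, b = h 0 1 := ⟨_, rfl⟩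
        rw [← hb] at hhu
        rw [hhu]
        have h2 : ∀ y : F, ψ (-y) * ph A ψ (g * u y * u b) t = ψ b * ph A ψ g t := by
          intro y
          rw [mul_assoc, u_mul, ph_mul_u, AddChar.map_add_eq_mul]
          linear_combination (ψ b * ph A ψ g t) * hcan y
        simp only [h2, ph_u]
        rw [sum_delta' (fun x => ph A ψ g x), inv_one, mul_one, Finset.sum_const,
          Finset.card_univ, nsmul_eq_mul]
      · by_cases h1' : h 0 0 = -1
        · have hhu : h = zc * u (-(h 0 1)) := by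
            have hd := det_e h
            rw [hh, h1'] at hd
            apply ext_e
            · rw [h1', zc_mul, u_00]
            · rw [zc_mul, u_01, neg_neg]
            · rw [hh, zc_mul, u_10, neg_zero]
            · rw [zc_mul, u_11]
              linear_combination -hd
          obtain ⟨b, hb⟩ : ∃ b, b = -(h 0 1) := ⟨_, rfl⟩
          rw [← hb] at hhu
          rw [hhu]
          have h2 : ∀ y : F, ψ (-y) * ph A ψ (g * u y * (zc * u b)) t =
              ψ b * ph A ψ g (A.m * t) := by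
            intro y
            have : g * u y * (zc * u b) = zc * (g * u (y + b)) := by
              rw [zc_comm (u b), ← mul_assoc, mul_assoc g, u_mul, zc_comm]
            rw [this, ph_zc, ph_mul_u, AddChar.map_add_eq_mul]
            linear_combination (ψ b * ph A ψ g (A.m * t)) * hcan y
          have h3 : ∀ x : A.T, ph A ψ (zc * u b) x = if x = A.m then ψ b else 0 := by
            intro x
            rw [ph_zc, ph_u]
            have : A.m * x = 1 ↔ x = A.m := by
              rw [mul_eq_one_iff_inv_eq, hminv, eq_comm]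
            simp only [this]
          simp only [h2, h3]
          rw [sum_delta' (fun x => ph A ψ g x), hminv, Finset.sum_const, Finset.card_univ,
            nsmul_eq_mul, mul_comm t]
        · have h0 : ∀ x : A.T, ph A ψ h x = 0 := fun x => ph_other hh h1 h1' _
          simp only [h0, mul_zero, Finset.sum_const_zero, mul_zero]
          have hcom : ∀ y : F, (u y : SL2 F) * h = h * u (h 1 1 ^ 2 * y) := by
            intro y
            have hd := det_e h
            rw [hh] at hd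
            apply ext_e
            · rw [(gu h _ 0).1, mul_e, u_00, u_01, hh]; ring
            · rw [(gu h _ 0).2, mul_e, u_00, u_01]
              linear_combination (-(h 1 1) * y) * hd
            · rw [(gu h _ 1).1, mul_e, u_10, u_11]; ring
            · rw [(gu h _ 1).2, mul_e, u_10, u_11, hh]; ring
          have h2 : ∀ y : F, ψ (-y) * ph A ψ (g * u y * h) t =
              ph A ψ (g * h) t * ψ ((h 1 1 ^ 2 - 1) * y) := by
            intro y
            rw [mul_assoc, hcom, ← mul_assoc, ph_mul_u]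
            have : ψ (-y) * ψ (h 1 1 ^ 2 * y) = ψ ((h 1 1 ^ 2 - 1) * y) := by
              rw [← AddChar.map_add_eq_mul]
              congr 1
              ring
            linear_combination ph A ψ (g * h) t * this
          simp only [h2]
          rw [← Finset.mul_sum, sum_char hψ, if_neg, mul_zero]
          intro h3
          have hd := det_e h
          rw [hh] at hd
          have h4 : (h 0 0 - 1) * (h 0 0 + 1) = 0 := by
            linear_combination (-(h 0 0) ^ 2) * h3 + (h 0 0 * h 1 1 + 1) * hd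
          rcases mul_eq_zero.mp h4 with h5 | h5
          · exact h1 (sub_eq_zero.mp h5)
          · exact h1' (by linear_combination h5)
    · exact ph_conv_main hq hA hg hh t

end Vale.Agent.P180.R2.H12.Sl
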