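import Vale.Agent.P180.R2.H12.SlG
import Vale.Agent.P180.R2.H12.Dec

/-!
P180 R2 H12: the Gelfand-Graev algebra of `SL_2(F)` over a field of characteristic prime to `F`.
-/

set_option linter.all false

namespace Vale.Agent.P180.R2.H12.Sl

open Finset Vale.Agent.P180 Vale.Agent.P180.H768.Gd

variable {F : Type} [Field F] [Fintype F] [DecidableEq F]
variable {k : Type*} [Field k]

theorem coeff_sum {H ι : Type*} (s : Finset ι) (f : ι → MonoidAlgebra k H) (x : H) :
    (∑ i ∈ s, f i).coeff x = ∑ i ∈ s, (f i).coeff x := by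
  classical
  induction s using Finset.induction_on with
  | empty => rw [Finset.sum_empty, Finset.sum_empty]; rfl
  | insert a s ha ih =>
    rw [Finset.sum_insert ha, Finset.sum_insert ha, MonoidAlgebra.coeff_add, Finsupp.add_apply, ih]

theorem coeff_smul' {H : Type*} (c : k) (a : MonoidAlgebra k H) (x : H) :
    (c • a).coeff x = c * a.coeff x := by
  rw [MonoidAlgebra.coeff_smul, Finsupp.smul_apply, smul_eq_mul]

theorem eq_sum_single {H : Type*} [Fintype H] [DecidableEq H] (a : MonoidAlgebra k H) :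
    a = ∑ h : H, MonoidAlgebra.single h (a.coeff h) := by
  apply ext_coeff
  intro x
  rw [coeff_sum]
  simp only [coeff_single]
  rw [Finset.sum_ite_eq' Finset.univ x]
  simp

theorem single_sum {H ι : Type*} (s : Finset ι) (t : H) (f : ι → k) :
    ∑ i ∈ s, MonoidAlgebra.single t (f i) = MonoidAlgebra.single t (∑ i ∈ s, f i) :=
  (map_sum (MonoidAlgebra.singleAddHom t) f s).symm

/-- the idempotent of a character of the unipotent group -/
noncomputable def eP (ψ : AddChar F k) : MonoidAlgebra k (SL2 F) :=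
  (Fintype.card F : k)⁻¹ • ∑ y : F, MonoidAlgebra.single (u y) (ψ (-y))

section EP

variable {ψ : AddChar F k}

theorem u_eP (x : F) : MonoidAlgebra.single (u x) (1 : k) * eP ψ = ψ x • eP ψ := by
  rw [eP, mul_smul_comm, smul_comm (ψ x)]
  congr 1
  rw [Finset.mul_sum, Finset.smul_sum]
  rw [← Equiv.sum_comp (Equiv.addLeft x) (fun y => ψ x • MonoidAlgebra.single (u y) (ψ (-y)))]
  refine Finset.sum_congr rfl fun y _ => ?_
  rw [Equiv.coe_addLeft, MonoidAlgebra.single_mul_single, u_mul, one_mul,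
    MonoidAlgebra.smul_single, smul_eq_mul, ← AddChar.map_add_eq_mul]
  congr 2
  ring

theorem eP_u (x : F) : eP ψ * MonoidAlgebra.single (u x) (1 : k) = ψ x • eP ψ := by
  rw [eP, smul_mul_assoc, smul_comm (ψ x)]
  congr 1
  rw [Finset.sum_mul, Finset.smul_sum]
  rw [← Equiv.sum_comp (Equiv.addRight x) (fun y => ψ x • MonoidAlgebra.single (u y) (ψ (-y)))]
  refine Finset.sum_congr rfl fun y _ => ?_
  rw [Equiv.coe_addRight, MonoidAlgebra.single_mul_single, u_mul, mul_one,
    MonoidAlgebra.smul_single, smul_eq_mul, ← AddChar.map_add_eq_mul]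
  congr 2
  ring

theorem eP_idem (hq : (Fintype.card F : k) ≠ 0) : eP ψ * eP ψ = eP ψ := by
  have h1 : ∀ y : F, MonoidAlgebra.single (u y) (ψ (-y)) * eP ψ = eP ψ := by
    intro y
    have h2 : MonoidAlgebra.single (u y) (ψ (-y)) = ψ (-y) • MonoidAlgebra.single (u y) (1 : k) := by
      rw [MonoidAlgebra.smul_single, smul_eq_mul, mul_one]
    rw [h2, smul_mul_assoc, u_eP, smul_smul, ← AddChar.map_add_eq_mul, neg_add_cancel,
      AddChar.map_zero_eq_one, one_smul]
  have h3 : eP ψ * eP ψ = (Fintype.card F : k)⁻¹ • ∑ y : F,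
      (MonoidAlgebra.single (u y) (ψ (-y)) * eP ψ) := by
    conv_lhs => rw [eP]
    rw [smul_mul_assoc, Finset.sum_mul]
    rfl
  rw [h3, Finset.sum_congr rfl fun y _ => h1 y]
  rw [Finset.sum_const, Finset.card_univ, ← Nat.cast_smul_eq_nsmul k, smul_smul,
    inv_mul_cancel₀ hq, one_smul]

/-- The linear map to the group algebra of a torus. -/
noncomputable def PhL (A : Tor F) (ψ : AddChar F k) (a : MonoidAlgebra k (SL2 F)) :
    MonoidAlgebra k A.T :=
  ∑ t : A.T, MonoidAlgebra.single t (∑ g : SL2 F, a.coeff g * ph A ψ g t)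

theorem PhL_coeff (A : Tor F) (a : MonoidAlgebra k (SL2 F)) (t : A.T) :
    (PhL A ψ a).coeff t = ∑ g : SL2 F, a.coeff g * ph A ψ g t := by
  rw [PhL, coeff_sum]
  simp only [coeff_single]
  rw [Finset.sum_ite_eq' Finset.univ t]
  simp

theorem PhL_add (A : Tor F) (a b : MonoidAlgebra k (SL2 F)) :
    PhL A ψ (a + b) = PhL A ψ a + PhL A ψ b := by
  apply ext_coeff
  intro t
  rw [MonoidAlgebra.coeff_add, Finsupp.add_apply, PhL_coeff, PhL_coeff, PhL_coeff,
    ← Finset.sum_add_distrib]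
  refine Finset.sum_congr rfl fun g _ => ?_
  rw [MonoidAlgebra.coeff_add, Finsupp.add_apply, add_mul]

theorem PhL_smul (A : Tor F) (c : k) (a : MonoidAlgebra k (SL2 F)) :
    PhL A ψ (c • a) = c • PhL A ψ a := by
  apply ext_coeff
  intro t
  rw [coeff_smul', PhL_coeff, PhL_coeff, Finset.mul_sum]
  refine Finset.sum_congr rfl fun g _ => ?_
  rw [coeff_smul', mul_assoc]

theorem PhL_zero (A : Tor F) : PhL A ψ (0 : MonoidAlgebra k (SL2 F)) = 0 := by
  have := PhL_smul (ψ := ψ) A (0 : k) 0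
  rwa [zero_smul, zero_smul] at this

/-- the linear map -/
noncomputable def PhLin (A : Tor F) (ψ : AddChar F k) :
    MonoidAlgebra k (SL2 F) →ₗ[k] MonoidAlgebra k A.T where
  toFun := PhL A ψ
  map_add' := PhL_add A
  map_smul' := PhL_smul A

theorem PhL_sum (A : Tor F) {ι : Type*} (s : Finset ι) (f : ι → MonoidAlgebra k (SL2 F)) :
    PhL A ψ (∑ i ∈ s, f i) = ∑ i ∈ s, PhL A ψ (f i) := map_sum (PhLin A ψ) f s

theorem PhL_single (A : Tor F) (g : SL2 F) (r : k) :
    PhL A ψ (MonoidAlgebra.single g r) = ∑ t : A.T, MonoidAlgebra.single t (r * ph A ψ g t) := by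
  rw [PhL]
  refine Finset.sum_congr rfl fun t _ => ?_
  congr 1
  simp only [coeff_single, ite_mul, zero_mul]
  rw [Finset.sum_ite_eq Finset.univ g]
  simp

theorem mul_expand {A : Tor F} (α β : A.T → k) :
    (∑ t : A.T, MonoidAlgebra.single t (α t)) * (∑ t : A.T, MonoidAlgebra.single t (β t)) =
      ∑ t : A.T, MonoidAlgebra.single t (∑ x : A.T, α (t * x⁻¹) * β x) := by
  rw [Finset.sum_mul_sum, Finset.sum_comm]
  have h1 : ∀ x : A.T, ∑ s : A.T, MonoidAlgebra.single s (α s) * MonoidAlgebra.single x (β x) =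
      ∑ t : A.T, MonoidAlgebra.single t (α (t * x⁻¹) * β x) := by
    intro x
    rw [← Equiv.sum_comp (Equiv.mulRight x) (fun t => MonoidAlgebra.single t (α (t * x⁻¹) * β x))]
    refine Finset.sum_congr rfl fun s _ => ?_
    rw [Equiv.coe_mulRight, mul_inv_cancel_right, MonoidAlgebra.single_mul_single]
  simp only [h1]
  rw [Finset.sum_comm]
  refine Finset.sum_congr rfl fun t _ => ?_
  rw [single_sum]

theorem PhL_mul_single {A : Tor F} (hψ : ψ ≠ 1) (hq : (Fintype.card F : k) ≠ 0)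
    (hA : A.Kl ψ) (g h : SL2 F) (r s : k) :
    PhL A ψ (MonoidAlgebra.single g r * eP ψ * MonoidAlgebra.single h s) =
      PhL A ψ (MonoidAlgebra.single g r) * PhL A ψ (MonoidAlgebra.single h s) := by
  have h1 : MonoidAlgebra.single g r * eP ψ * MonoidAlgebra.single h s =
      (Fintype.card F : k)⁻¹ • ∑ y : F, MonoidAlgebra.single (g * u y * h) (r * ψ (-y) * s) := by
    rw [eP, mul_smul_comm, smul_mul_assoc, Finset.mul_sum, Finset.sum_mul]
    congr 1
    refine Finset.sum_congr rfl fun y _ => ?_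
    rw [MonoidAlgebra.single_mul_single, MonoidAlgebra.single_mul_single]
  rw [h1, PhL_smul, PhL_sum]
  simp only [PhL_single]
  rw [mul_expand, Finset.sum_comm, Finset.smul_sum]
  refine Finset.sum_congr rfl fun t _ => ?_
  rw [single_sum, MonoidAlgebra.smul_single, smul_eq_mul]
  congr 1
  have h2 := ph_conv hψ hq hA g h t
  have h3 : ∑ y : F, r * ψ (-y) * s * ph A ψ (g * u y * h) t =
      r * s * ∑ y : F, ψ (-y) * ph A ψ (g * u y * h) t := by
    rw [Finset.mul_sum]
    exact Finset.sum_congr rfl fun y _ => by ring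
  have h4 : ∑ x : A.T, r * ph A ψ g (t * x⁻¹) * (s * ph A ψ h x) =
      r * s * ∑ x : A.T, ph A ψ g (t * x⁻¹) * ph A ψ h x := by
    rw [Finset.mul_sum]
    exact Finset.sum_congr rfl fun y _ => by ring
  rw [h3, h4, h2]
  field_simp

/-- Multiplicativity. -/
theorem PhL_mul {A : Tor F} (hψ : ψ ≠ 1) (hq : (Fintype.card F : k) ≠ 0)
    (hA : A.Kl ψ) (a b : MonoidAlgebra k (SL2 F)) :
    PhL A ψ (a * eP ψ * b) = PhL A ψ a * PhL A ψ b := by
  induction a using MonoidAlgebra.induction_linear with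
  | zero => rw [zero_mul, zero_mul, PhL_zero, zero_mul]
  | add a a' ha ha' => rw [add_mul, add_mul, PhL_add, PhL_add, ha, ha', add_mul]
  | single g r =>
    induction b using MonoidAlgebra.induction_linear with
    | zero => rw [mul_zero, PhL_zero, mul_zero]
    | add b b' hb hb' => rw [mul_add, PhL_add, PhL_add, hb, hb', mul_add]
    | single h s => exact PhL_mul_single hψ hq hA g h r s

/-- The sum of the elements weighted by their traces. -/
noncomputable def Zs (ψ : AddChar F k) (s : F) : MonoidAlgebra k (SL2 F) :=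
  ∑ g : SL2 F, MonoidAlgebra.single g (ψ (-((g 0 0 + g 1 1) * s)))

theorem tr_comm (g h : SL2 F) : (g * h) 0 0 + (g * h) 1 1 = (h * g) 0 0 + (h * g) 1 1 := by
  rw [mul_e, mul_e, mul_e, mul_e]
  ring

theorem Zs_central (s : F) (a : MonoidAlgebra k (SL2 F)) : a * Zs ψ s = Zs ψ s * a := by
  induction a using MonoidAlgebra.induction_linear with
  | zero => rw [zero_mul, mul_zero]
  | add a b ha hb => rw [add_mul, mul_add, ha, hb]
  | single h r =>
    rw [Zs, Finset.mul_sum, Finset.sum_mul]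
    rw [← Equiv.sum_comp (MulAut.conj h).toEquiv
      (fun g => MonoidAlgebra.single g (ψ (-((g 0 0 + g 1 1) * s))) * MonoidAlgebra.single h r)]
    refine Finset.sum_congr rfl fun g _ => ?_
    change _ = MonoidAlgebra.single (h * g * h⁻¹)
      (ψ (-(((h * g * h⁻¹) 0 0 + (h * g * h⁻¹) 1 1) * s))) * MonoidAlgebra.single h r
    have h1 : (h * g * h⁻¹) 0 0 + (h * g * h⁻¹) 1 1 = g 0 0 + g 1 1 := by
      rw [tr_comm, ← mul_assoc, inv_mul_cancel, one_mul]
    rw [h1, MonoidAlgebra.single_mul_single, MonoidAlgebra.single_mul_single,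
      inv_mul_cancel_right, mul_comm r]

/-- The basis elements of the Gelfand-Graev algebra. -/
noncomputable def W (ψ : AddChar F k) (c : F) : MonoidAlgebra k (SL2 F) :=
  ∑ g : SL2 F, MonoidAlgebra.single g (if g 1 0 = c then ψ (-((g 0 0 + g 1 1) * c⁻¹)) else 0)

theorem W_coeff (c : F) (g : SL2 F) : (W ψ c).coeff g =
    if g 1 0 = c then ψ (-((g 0 0 + g 1 1) * c⁻¹)) else 0 := by
  rw [W, coeff_sum]
  simp only [coeff_single]
  rw [Finset.sum_ite_eq' Finset.univ g]
  simp

theorem eP_Zs (hψ : ψ ≠ 1) (hq : (Fintype.card F : k) ≠ 0) {c : F} (hc : c ≠ 0) :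
    eP ψ * Zs ψ c⁻¹ = W ψ c := by
  rw [eP, smul_mul_assoc, Zs, Finset.sum_mul_sum]
  have h1 : ∀ y : F, ∑ g : SL2 F, MonoidAlgebra.single (u y) (ψ (-y)) *
      MonoidAlgebra.single g (ψ (-((g 0 0 + g 1 1) * c⁻¹))) =
      ∑ g : SL2 F, MonoidAlgebra.single g
        (ψ (-((g 0 0 + g 1 1) * c⁻¹)) * ψ ((g 1 0 * c⁻¹ - 1) * y)) := by
    intro y
    rw [← Equiv.sum_comp (Equiv.mulLeft (u y)) (fun g : SL2 F => MonoidAlgebra.single g
        (ψ (-((g 0 0 + g 1 1) * c⁻¹)) * ψ ((g 1 0 * c⁻¹ - 1) * y)))]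
    refine Finset.sum_congr rfl fun g _ => ?_
    rw [Equiv.coe_mulLeft, MonoidAlgebra.single_mul_single, ← AddChar.map_add_eq_mul,
      ← AddChar.map_add_eq_mul]
    congr 2
    rw [mul_e, mul_e, mul_e, u_00, u_01, u_10, u_11]
    ring
  simp only [h1]
  rw [Finset.sum_comm, W, Finset.smul_sum]
  refine Finset.sum_congr rfl fun g _ => ?_
  rw [single_sum, MonoidAlgebra.smul_single, smul_eq_mul, ← Finset.mul_sum, sum_char hψ]
  congr 1
  have h2 : g 1 0 * c⁻¹ - 1 = 0 ↔ g 1 0 = c := by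
    rw [sub_eq_zero, mul_inv_eq_one₀ hc]
  simp only [h2]
  split_ifs
  · field_simp
  · ring

/-- the element with given lower left entry and diagonal -/
theorem exists_unique_uu {g h : SL2 F} (hg : g 1 0 ≠ 0) (hh : h 1 0 = g 1 0) :
    u ((h 0 0 - g 0 0) * (g 1 0)⁻¹) * g * u ((h 1 1 - g 1 1) * (g 1 0)⁻¹) = h := by
  have e1 := det_e g
  have e2 := det_e h
  have hi : g 1 0 * (g 1 0)⁻¹ = 1 := mul_inv_cancel₀ hg
  have a00 : (u ((h 0 0 - g 0 0) * (g 1 0)⁻¹) * g) 0 0 = h 0 0 := by
    rw [mul_e, u_00, u_01]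
    linear_combination (h 0 0 - g 0 0) * hi
  have a10 : (u ((h 0 0 - g 0 0) * (g 1 0)⁻¹) * g) 1 0 = g 1 0 := by
    rw [mul_e, u_10, u_11]; ring
  have a01 : (u ((h 0 0 - g 0 0) * (g 1 0)⁻¹) * g) 0 1 =
      g 0 1 + (h 0 0 - g 0 0) * (g 1 0)⁻¹ * g 1 1 := by
    rw [mul_e, u_00, u_01]; ring
  have a11 : (u ((h 0 0 - g 0 0) * (g 1 0)⁻¹) * g) 1 1 = g 1 1 := by
    rw [mul_e, u_10, u_11]; ring
  apply ext_e
  · rw [(gu _ _ 0).1, a00]
  · rw [(gu _ _ 0).2, a00, a01]
    rw [hh] at e2
    have hi' := hi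
    apply mul_left_cancel₀ hg
    linear_combination (h 0 0 * h 1 1 - h 0 0 * g 1 1 + (h 0 0 - g 0 0) * g 1 1) * hi - e1 + e2
  · rw [(gu _ _ 1).1, a10, hh]
  · rw [(gu _ _ 1).2, a10, a11]
    linear_combination (h 1 1 - g 1 1) * hi

theorem eP_g_eP_ne {g : SL2 F} (hg : g 1 0 ≠ 0) :
    eP ψ * MonoidAlgebra.single g 1 * eP ψ =
      ((Fintype.card F : k)⁻¹ * (Fintype.card F : k)⁻¹ * ψ ((g 0 0 + g 1 1) * (g 1 0)⁻¹)) •
        W ψ (g 1 0) := by
  classical
  have h1 : eP ψ * MonoidAlgebra.single g 1 * eP ψ =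
      ((Fintype.card F : k)⁻¹ * (Fintype.card F : k)⁻¹) • ∑ x : F, ∑ y : F,
        MonoidAlgebra.single (u x * g * u y) (ψ (-x) * ψ (-y)) := by
    rw [eP, smul_mul_assoc, smul_mul_assoc, mul_smul_comm, smul_smul, Finset.sum_mul,
      Finset.sum_mul_sum]
    congr 1
    refine Finset.sum_congr rfl fun x _ => Finset.sum_congr rfl fun y _ => ?_
    rw [MonoidAlgebra.single_mul_single, MonoidAlgebra.single_mul_single, mul_one]
  rw [h1, mul_smul _ (ψ ((g 0 0 + g 1 1) * (g 1 0)⁻¹))]
  congr 1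
  rw [show W ψ (g 1 0) = ∑ h : SL2 F, MonoidAlgebra.single h
    (if h 1 0 = g 1 0 then ψ (-((h 0 0 + h 1 1) * (g 1 0)⁻¹)) else 0) from rfl, Finset.smul_sum]
  rw [← Finset.sum_product' Finset.univ Finset.univ (fun x y : F =>
    MonoidAlgebra.single (u x * g * u y) (ψ (-x) * ψ (-y)))]
  have h2 : ∑ h : SL2 F, ψ ((g 0 0 + g 1 1) * (g 1 0)⁻¹) • MonoidAlgebra.single h
      (if h 1 0 = g 1 0 then ψ (-((h 0 0 + h 1 1) * (g 1 0)⁻¹)) else 0) =
      ∑ h ∈ univ.filter (fun h : SL2 F => h 1 0 = g 1 0), MonoidAlgebra.single h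
        (ψ ((g 0 0 + g 1 1) * (g 1 0)⁻¹) * ψ (-((h 0 0 + h 1 1) * (g 1 0)⁻¹))) := by
    rw [Finset.sum_filter]
    refine Finset.sum_congr rfl fun h _ => ?_
    split_ifs
    · rw [MonoidAlgebra.smul_single, smul_eq_mul]
    · rw [MonoidAlgebra.single_zero, smul_zero]
  rw [h2]
  have hent : ∀ x y : F, (u x * g * u y) 1 0 = g 1 0 ∧ (u x * g * u y) 0 0 = g 0 0 + x * g 1 0 ∧
      (u x * g * u y) 1 1 = g 1 1 + y * g 1 0 := by
    intro x y
    have b10 : (u x * g) 1 0 = g 1 0 := by rw [mul_e, u_10, u_11]; ring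
    have b00 : (u x * g) 0 0 = g 0 0 + x * g 1 0 := by rw [mul_e, u_00, u_01]; ring
    have b11 : (u x * g) 1 1 = g 1 1 := by rw [mul_e, u_10, u_11]; ring
    refine ⟨?_, ?_, ?_⟩
    · rw [(gu _ _ 1).1, b10]
    · rw [(gu _ _ 0).1, b00]
    · rw [(gu _ _ 1).2, b10, b11]; ring
  refine Finset.sum_bij (fun (xy : F × F) _ => u xy.1 * g * u xy.2) ?_ ?_ ?_ ?_
  · intro xy _
    exact Finset.mem_filter.mpr ⟨Finset.mem_univ _, (hent _ _).1⟩
  · rintro ⟨x, y⟩ _ ⟨x', y'⟩ _ h
    have h3 := congrArg (fun m : SL2 F => m 0 0) h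
    have h4 := congrArg (fun m : SL2 F => m 1 1) h
    simp only [(hent _ _).2.1, (hent _ _).2.2] at h3 h4
    have h5 : x = x' := mul_right_cancel₀ hg (add_left_cancel h3)
    have h6 : y = y' := mul_right_cancel₀ hg (add_left_cancel h4)
    rw [h5, h6]
  · intro h hh
    exact ⟨(_, _), Finset.mem_univ _, exists_unique_uu hg (Finset.mem_filter.mp hh).2⟩
  · rintro ⟨x, y⟩ _
    congr 1
    rw [(hent x y).2.1, (hent x y).2.2, ← AddChar.map_add_eq_mul, ← AddChar.map_add_eq_mul]
    congr 1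
    field_simp
    ring

/-- **The centre maps onto the Gelfand-Graev algebra.** -/
theorem exists_central (hψ : ψ ≠ 1) (hq : (Fintype.card F : k) ≠ 0)
    (a : MonoidAlgebra k (SL2 F)) :
    ∃ z : MonoidAlgebra k (SL2 F), (∀ b, b * z = z * b) ∧ eP ψ * a * eP ψ = z * eP ψ := by
  induction a using MonoidAlgebra.induction_linear with
  | zero => exact ⟨0, fun b => by rw [mul_zero, zero_mul], by rw [mul_zero, zero_mul]⟩
  | add a a' ha ha' =>
    obtain ⟨z, hz, hz'⟩ := ha
    obtain ⟨w, hw, hw'⟩ := ha'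
    exact ⟨z + w, fun b => by rw [mul_add, add_mul, hz, hw], by
      rw [mul_add, add_mul, add_mul, hz', hw']⟩
  | single g r =>
    have hr : MonoidAlgebra.single g r = r • MonoidAlgebra.single g (1 : k) := by
      rw [MonoidAlgebra.smul_single, smul_eq_mul, mul_one]
    suffices h : ∃ z : MonoidAlgebra k (SL2 F), (∀ b, b * z = z * b) ∧
        eP ψ * MonoidAlgebra.single g 1 * eP ψ = z * eP ψ by
      obtain ⟨z, hz, hz'⟩ := h
      exact ⟨r • z, fun b => by rw [mul_smul_comm, smul_mul_assoc, hz], by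
        rw [hr, mul_smul_comm, smul_mul_assoc, smul_mul_assoc, hz']⟩
    by_cases hg : g 1 0 = 0
    · by_cases h1 : g 0 0 = 1
      · have hgu : g = u (g 0 1) := by
          have hd := det_e g
          rw [hg, h1] at hd
          apply ext_e
          · rw [h1, u_00]
          · rw [u_01]
          · rw [hg, u_10]
          · rw [u_11]
            linear_combination hd
        rw [hgu]
        refine ⟨ψ (g 0 1) • 1, fun b => by rw [mul_smul_comm, smul_mul_assoc, mul_one, one_mul], ?_⟩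
        rw [eP_u, smul_mul_assoc, eP_idem hq, smul_mul_assoc, one_mul]
      · by_cases h1' : g 0 0 = -1
        · have hgu : g = zc * u (-(g 0 1)) := by
            have hd := det_e g
            rw [hg, h1'] at hd
            apply ext_e
            · rw [h1', zc_mul, u_00]
            · rw [zc_mul, u_01, neg_neg]
            · rw [hg, zc_mul, u_10, neg_zero]
            · rw [zc_mul, u_11]
              linear_combination -hd
          have hz : ∀ b : MonoidAlgebra k (SL2 F), b * MonoidAlgebra.single zc 1 =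
              MonoidAlgebra.single zc 1 * b := by
            intro b
            induction b using MonoidAlgebra.induction_linear with
            | zero => rw [mul_zero, zero_mul]
            | add b b' hb hb' => rw [mul_add, add_mul, hb, hb']
            | single h s =>
              rw [MonoidAlgebra.single_mul_single, MonoidAlgebra.single_mul_single, zc_comm,
                one_mul, mul_one]
          have h5 : MonoidAlgebra.single g (1 : k) = MonoidAlgebra.single zc 1 *
              MonoidAlgebra.single (u (-(g 0 1))) 1 := by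
            rw [MonoidAlgebra.single_mul_single, mul_one, ← hgu]
          refine ⟨ψ (-(g 0 1)) • MonoidAlgebra.single zc 1, fun b => by
            rw [mul_smul_comm, smul_mul_assoc, hz], ?_⟩
          rw [h5, ← mul_assoc, hz, mul_assoc (MonoidAlgebra.single zc (1 : k)), eP_u,
            mul_smul_comm, smul_mul_assoc, smul_mul_assoc, mul_assoc, eP_idem hq]
        · refine ⟨0, fun b => by rw [mul_zero, zero_mul], ?_⟩
          rw [zero_mul]
          have hcom : ∀ y : F, g * u y = u (g 0 0 ^ 2 * y) * g := by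
            intro y
            have hd := det_e g
            rw [hg] at hd
            apply ext_e
            · rw [(gu g y 0).1, mul_e, u_00, u_01, hg]; ring
            · rw [(gu g y 0).2, mul_e, u_00, u_01]
              linear_combination (-(g 0 0) * y) * hd
            · rw [(gu g y 1).1, mul_e, u_10, u_11]; ring
            · rw [(gu g y 1).2, mul_e, u_10, u_11, hg]; ring
          have h2 : ∀ y : F, ψ y • (eP ψ * MonoidAlgebra.single g 1 * eP ψ) =
              ψ (g 0 0 ^ 2 * y) • (eP ψ * MonoidAlgebra.single g 1 * eP ψ) := by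
            intro y
            rw [← mul_smul_comm, ← u_eP, mul_assoc (eP ψ), ← mul_assoc _ _ (eP ψ),
              MonoidAlgebra.single_mul_single, hcom, mul_one]
            have h6 : MonoidAlgebra.single (u (g 0 0 ^ 2 * y) * g) (1 : k) =
                MonoidAlgebra.single (u (g 0 0 ^ 2 * y)) 1 * MonoidAlgebra.single g 1 := by
              rw [MonoidAlgebra.single_mul_single, mul_one]
            rw [h6, ← mul_assoc, ← mul_assoc, eP_u, smul_mul_assoc, smul_mul_assoc]
          have hne : g 0 0 ^ 2 - 1 ≠ 0 := by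
            intro h3
            have h4 : (g 0 0 - 1) * (g 0 0 + 1) = 0 := by linear_combination h3
            rcases mul_eq_zero.mp h4 with h5 | h5
            · exact h1 (sub_eq_zero.mp h5)
            · exact h1' (by linear_combination h5)
          obtain ⟨y, hy⟩ : ∃ y, ψ y ≠ 1 := AddChar.ne_one_iff.mp hψ
          have h3 := h2 (y * (g 0 0 ^ 2 - 1)⁻¹)
          by_contra h0
          have h4 : (ψ (y * (g 0 0 ^ 2 - 1)⁻¹) - ψ (g 0 0 ^ 2 * (y * (g 0 0 ^ 2 - 1)⁻¹))) •
              (eP ψ * MonoidAlgebra.single g 1 * eP ψ) = 0 := by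
            rw [sub_smul, h3, sub_self]
          rcases smul_eq_zero.mp h4 with h5 | h5
          · apply hy
            have h6 : g 0 0 ^ 2 * (y * (g 0 0 ^ 2 - 1)⁻¹) =
                y + y * (g 0 0 ^ 2 - 1)⁻¹ := by
              field_simp
              ring
            rw [h6, AddChar.map_add_eq_mul, sub_eq_zero] at h5
            have h7 : ψ (y * (g 0 0 ^ 2 - 1)⁻¹) ≠ 0 := (AddChar.val_isUnit ψ _).ne_zero
            exact (mul_right_cancel₀ h7 ((one_mul _).trans h5)).symm
          · exact h0 h5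
    · refine ⟨((Fintype.card F : k)⁻¹ * (Fintype.card F : k)⁻¹ *
        ψ ((g 0 0 + g 1 1) * (g 1 0)⁻¹)) • Zs ψ (g 1 0)⁻¹, fun b => by
        rw [mul_smul_comm, smul_mul_assoc, Zs_central], ?_⟩
      rw [eP_g_eP_ne hg, smul_mul_assoc, ← Zs_central, eP_Zs hψ hq hg]

end EP

end Vale.Agent.P180.R2.H12.Sl
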