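import Vale.Agent.P180.R2.H12.SlK

/-!
P180 R2 H12: the two tori of `SL_2(F)` and the number of solutions of `a^2 + t a b + b^2 = 1`.
-/

set_option linter.all false

namespace Vale.Agent.P180.R2.H12.Sl

open Finset

universe u

variable (F : Type) [Field F] [Fintype F] [DecidableEq F]

theorem exists_ext : ∃ (E : Type) (_ : Field E) (_ : Fintype E) (_ : DecidableEq E)
    (_ : Algebra F E), Module.finrank F E = 2 := by
  obtain ⟨r, hr⟩ := CharP.exists F
  have hr0 : Nat.Prime r := CharP.char_is_prime F r
  have : Fact r.Prime := ⟨hr0⟩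
  refine ⟨FiniteField.Extension F r 2, inferInstance, Fintype.ofFinite _, Classical.decEq _,
    inferInstance, FiniteField.finrank_extension F r 2⟩

theorem exists_tori (h4 : 4 ≤ Fintype.card F) : ∃ A₀ A₁ : Tor F, A₀.s = 1 ∧ A₁.s = -1 ∧
    (∀ (k : Type u) [Field k] (ψ : AddChar F k), ψ ≠ 1 → A₀.Kl ψ ∧ A₁.Kl ψ) ∧
    (∀ y : F, (∃ t, A₀.tr t = y) ∨ ∃ t, A₁.tr t = y) ∧
    (∃ y, ∀ t : A₀.T, A₀.tr t ≠ y) ∧ (∃ y, ∀ t : A₁.T, A₁.tr t ≠ y) := by
  classical
  obtain ⟨E, _, _, _, _, h2⟩ := exists_ext F
  have hroots := card_roots (E := E) h2 1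
  have h1 : ∀ x : Fˣ, (x : F) + ((1 : Fˣ) : F) * (x⁻¹ : Fˣ) = (split F).tr x := by
    intro x
    rw [Units.val_one, one_mul]
    rfl
  refine ⟨split F, nonsplit h2, rfl, rfl, fun k _ ψ hψ => ⟨split_kl hψ, nonsplit_kl h2 hψ⟩,
    ?_, ?_, ?_⟩
  · intro y
    by_contra hcon
    push Not at hcon
    obtain ⟨hc1, hc2⟩ := hcon
    have h3 := hroots y
    rw [Finset.filter_eq_empty_iff.mpr, Finset.filter_eq_empty_iff.mpr] at h3
    · simp at h3
    · rintro z - ⟨hz1, hz2⟩
      rw [Units.val_one] at hz1
      have hz : z ≠ 0 := by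
        rintro rfl
        rw [Algebra.norm_zero] at hz1
        exact zero_ne_one hz1
      exact hc2 (mkNT hz hz1) hz2
    · intro x _ hx
      rw [h1] at hx
      exact hc1 x hx
  · by_contra hcon
    push Not at hcon
    have h3 : Fintype.card F ≤ Fintype.card Fˣ :=
      Fintype.card_le_of_surjective (split F).tr hcon
    rw [Fintype.card_units] at h3
    omega
  · by_contra hcon
    push Not at hcon
    -- every element is a trace of an element of norm one
    have hinj : ∀ x : Fˣ, x = x⁻¹ := by
      intro x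
      by_contra hx
      have h3 := hroots ((split F).tr x)
      obtain ⟨t, ht⟩ := hcon ((split F).tr x)
      have h5 : 2 ≤ (univ.filter fun y : Fˣ => (y : F) + ((1 : Fˣ) : F) * (y⁻¹ : Fˣ) =
          (split F).tr x).card := by
        rw [← Finset.card_pair hx]
        apply Finset.card_le_card
        intro y hy
        rw [Finset.mem_insert, Finset.mem_singleton] at hy
        refine Finset.mem_filter.mpr ⟨Finset.mem_univ _, ?_⟩
        rw [h1]
        rcases hy with rfl | rfl
        · rfl
        · exact (split F).tr_inv x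
      have h6 : 1 ≤ (univ.filter fun z : E => Algebra.norm F z = ((1 : Fˣ) : F) ∧
          Algebra.trace F E z = (split F).tr x).card := by
        rw [Nat.one_le_iff_ne_zero, ← Nat.pos_iff_ne_zero, Finset.card_pos]
        refine ⟨ev F t, Finset.mem_filter.mpr ⟨Finset.mem_univ _, ?_, ht⟩⟩
        exact (norm_ev t).trans Units.val_one.symm
      omega
    have hsq : ∀ x : Fˣ, (x : F) ^ 2 = 1 := by
      intro x
      have := hinj x
      rw [eq_inv_iff_mul_eq_one] at this
      rw [sq, ← Units.val_mul, this, Units.val_one]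
    have h7 : Fintype.card Fˣ ≤ 2 := by
      have h8 : ∀ x : Fˣ, x ∈ ({1, -1} : Finset Fˣ) := by
        intro x
        have h9 : ((x : F) - 1) * (x + 1) = 0 := by linear_combination hsq x
        rw [Finset.mem_insert, Finset.mem_singleton]
        rcases mul_eq_zero.mp h9 with h | h
        · left
          exact Units.ext (sub_eq_zero.mp h)
        · right
          apply Units.ext
          rw [Units.val_neg, Units.val_one]
          linear_combination h
      calc Fintype.card Fˣ = (Finset.univ : Finset Fˣ).card := Finset.card_univ.symm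
        _ ≤ ({1, -1} : Finset Fˣ).card := Finset.card_le_card fun x _ => h8 x
        _ ≤ 2 := Finset.card_le_two
    rw [Fintype.card_units] at h7
    omega

variable {F}

/-- the number of solutions -/
theorem card_sol {t : F} (ht : t ^ 2 ≠ 4) :
    (univ.filter fun v : F × F => v.1 ^ 2 + t * v.1 * v.2 + v.2 ^ 2 = 1).card =
      Fintype.card F - 1 ∨
    (univ.filter fun v : F × F => v.1 ^ 2 + t * v.1 * v.2 + v.2 ^ 2 = 1).card =
      Fintype.card F + 1 := by
  classical
  obtain ⟨E, _, _, _, _, h2⟩ := exists_ext F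
  have hroots := card_roots (E := E) h2 1 t
  by_cases hcase : (univ.filter fun x : Fˣ => (x : F) + ((1 : Fˣ) : F) * (x⁻¹ : Fˣ) = t).Nonempty
  · left
    obtain ⟨s, hs⟩ := hcase
    have hs' : (s : F) + (s⁻¹ : Fˣ) = t := by
      have := (Finset.mem_filter.mp hs).2
      rwa [Units.val_one, one_mul] at this
    have e1 : (s : F) * (s⁻¹ : Fˣ) = 1 := by simp
    have hne : (s : F) - (s⁻¹ : Fˣ) ≠ 0 := by
      intro h
      apply ht
      rw [← hs']
      linear_combination ((s : F) - (s⁻¹ : Fˣ)) * h + 4 * e1
    let φ : F × F → F × F := fun v => (v.1 + s * v.2, v.1 + (s⁻¹ : Fˣ) * v.2)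
    have hφ : Function.Injective φ := by
      rintro ⟨a, b⟩ ⟨a', b'⟩ h
      have h3 : a + s * b = a' + s * b' := congrArg Prod.fst h
      have h4 : a + (s⁻¹ : Fˣ) * b = a' + (s⁻¹ : Fˣ) * b' := congrArg Prod.snd h
      have h5 : ((s : F) - (s⁻¹ : Fˣ)) * (b - b') = 0 := by linear_combination h3 - h4
      have h6 : b = b' := by
        rcases mul_eq_zero.mp h5 with h | h
        · exact absurd h hne
        · exact sub_eq_zero.mp h
      have h7 : a = a' := by
        rw [h6] at h3
        exact add_right_cancel h3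
      rw [h6, h7]
    have hφb : Function.Bijective φ := (Finite.injective_iff_bijective).mp hφ
    rw [← Fintype.card_units, ← Finset.card_univ]
    refine Finset.card_bij' (fun v _ => if h : (φ v).1 = 0 then 1 else Units.mk0 (φ v).1 h)
      (fun w _ => (Equiv.ofBijective φ hφb).symm ((w : F), (w⁻¹ : Fˣ))) ?_ ?_ ?_ ?_
    · intro v _
      exact Finset.mem_univ _
    · intro w _
      refine Finset.mem_filter.mpr ⟨Finset.mem_univ _, ?_⟩
      set v := (Equiv.ofBijective φ hφb).symm ((w : F), ((w⁻¹ : Fˣ) : F)) with hv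
      have hv' : φ v = ((w : F), ((w⁻¹ : Fˣ) : F)) := (Equiv.ofBijective φ hφb).apply_symm_apply _
      have h3 : v.1 + s * v.2 = w := congrArg Prod.fst hv'
      have h4 : v.1 + (s⁻¹ : Fˣ) * v.2 = (w⁻¹ : Fˣ) := congrArg Prod.snd hv'
      have e2 : (w : F) * (w⁻¹ : Fˣ) = 1 := by simp
      have h5 : (v.1 + s * v.2) * (v.1 + (s⁻¹ : Fˣ) * v.2) = 1 := by rw [h3, h4, e2]
      rw [← hs']
      linear_combination h5 - v.2 ^ 2 * e1
    · intro v hv
      have h3 := (Finset.mem_filter.mp hv).2
      have h5 : (v.1 + s * v.2) * (v.1 + (s⁻¹ : Fˣ) * v.2) = 1 := by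
        rw [← hs'] at h3
        linear_combination h3 + v.2 ^ 2 * e1
      have h6 : v.1 + s * v.2 ≠ 0 := by
        intro h
        rw [h, zero_mul] at h5
        exact zero_ne_one h5
      have h7 : (φ v).1 ≠ 0 := h6
      rw [dif_neg h7]
      rw [Equiv.symm_apply_eq]
      change _ = φ v
      refine Prod.ext rfl ?_
      rw [Units.val_inv_eq_inv_val, Units.val_mk0]
      exact (eq_inv_of_mul_eq_one_right h5).symm
    · intro w _
      have hv' : φ ((Equiv.ofBijective φ hφb).symm ((w : F), ((w⁻¹ : Fˣ) : F))) =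
        ((w : F), ((w⁻¹ : Fˣ) : F)) := (Equiv.ofBijective φ hφb).apply_symm_apply _
      rw [dif_neg (by rw [hv']; exact w.ne_zero)]
      apply Units.ext
      rw [Units.val_mk0, hv']
  · right
    rw [Finset.not_nonempty_iff_eq_empty.mp hcase, Finset.card_empty, zero_add] at hroots
    have hne : (univ.filter fun z : E => Algebra.norm F z = ((1 : Fˣ) : F) ∧
        Algebra.trace F E z = t).Nonempty := by
      rw [← Finset.card_pos, hroots]
      norm_num
    obtain ⟨z, hz⟩ := hne
    obtain ⟨hz1, hz2⟩ := (Finset.mem_filter.mp hz).2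
    rw [Units.val_one] at hz1
    let φ : F × F → E := fun v => algebraMap F E v.1 + algebraMap F E v.2 * z
    have hφ : Function.Injective φ := by
      rintro ⟨a, b⟩ ⟨a', b'⟩ h
      have h3 : algebraMap F E a + algebraMap F E b * z =
        algebraMap F E a' + algebraMap F E b' * z := h
      by_cases hb : b = b'
      · rw [hb] at h3
        have h4 := (algebraMap F E).injective (add_right_cancel h3)
        rw [h4, hb]
      · exfalso
        have hb' : b - b' ≠ 0 := sub_ne_zero.mpr hb
        have hb'' : algebraMap F E (b - b') ≠ 0 := fun h => hb' ((map_eq_zero _).mp h)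
        have h4 : z = algebraMap F E ((a' - a) * (b - b')⁻¹) := by
          rw [map_mul, map_inv₀]
          rw [eq_mul_inv_iff_mul_eq₀ hb'']
          rw [map_sub, map_sub]
          linear_combination h3
        rw [h4, Algebra.norm_algebraMap, h2] at hz1
        rw [h4, Algebra.trace_algebraMap, h2] at hz2
        apply ht
        rw [← hz2]
        simp only [nsmul_eq_mul, Nat.cast_ofNat]
        linear_combination 4 * hz1
    have hcard : Fintype.card (F × F) = Fintype.card E := by
      rw [Fintype.card_prod, Module.card_eq_pow_finrank (K := F) (V := E), h2, sq]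
    have hφb : Function.Bijective φ := (Fintype.bijective_iff_injective_and_card φ).mpr ⟨hφ, hcard⟩
    have hnorm : ∀ v : F × F, Algebra.norm F (φ v) = v.1 ^ 2 + t * v.1 * v.2 + v.2 ^ 2 := by
      intro v
      apply (algebraMap F E).injective
      have hq : ∀ a : F, (algebraMap F E a) ^ Fintype.card F = algebraMap F E a := by
        intro a
        rw [← map_pow, FiniteField.pow_card]
      have hfr : ∀ x y : E, (x + y) ^ Fintype.card F = x ^ Fintype.card F + y ^ Fintype.card F := by
        intro x y
        have := map_add (FiniteField.frobeniusAlgHom F E) x y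
        simpa using this
      rw [norm_eq h2]
      change (algebraMap F E v.1 + algebraMap F E v.2 * z) *
        (algebraMap F E v.1 + algebraMap F E v.2 * z) ^ Fintype.card F = _
      rw [hfr, mul_pow, hq, hq]
      have h5 := trace_eq h2 z
      have h6 := norm_eq h2 z
      rw [hz1, map_one] at h6
      rw [hz2] at h5
      rw [map_add, map_add, map_mul, map_mul, map_pow, map_pow, h5]
      linear_combination (-(algebraMap F E v.2) ^ 2) * h6
    rw [← card_norm (E := E) h2 1]
    refine Finset.card_bij (fun v _ => φ v) ?_ ?_ ?_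
    · intro v hv
      refine Finset.mem_filter.mpr ⟨Finset.mem_univ _, ?_⟩
      rw [hnorm, (Finset.mem_filter.mp hv).2, Units.val_one]
    · intro v _ v' _ h
      exact hφ h
    · intro w hw
      obtain ⟨v, rfl⟩ := hφb.2 w
      refine ⟨v, Finset.mem_filter.mpr ⟨Finset.mem_univ _, ?_⟩, rfl⟩
      have := (Finset.mem_filter.mp hw).2
      rwa [hnorm, Units.val_one] at this

end Vale.Agent.P180.R2.H12.Sl
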