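import Vale.Agent.P180.R2.H12.SlP

/-!
P180 R2 H12: tori in quotients of `SL_2(F)`.
-/

set_option linter.all false

namespace Vale.Agent.P180.R2.H12.Sl

open Finset

variable {F : Type} [Field F] [Fintype F] [DecidableEq F]

theorem Sc.of_two {g : SL2 F} (h1 : g * u 1 = u 1 * g) (h3 : g * lo = lo * g) : Sc g := by
  have a1 : (g * u 1 : SL2 F) 0 0 = (u 1 * g : SL2 F) 0 0 := by rw [h1]
  have a2 : (g * u 1 : SL2 F) 0 1 = (u 1 * g : SL2 F) 0 1 := by rw [h1]
  have a3 : (g * lo : SL2 F) 0 0 = (lo * g : SL2 F) 0 0 := by rw [h3]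
  simp only [mul_e] at a1 a2 a3
  rw [u_00, u_01, u_10] at a1
  rw [u_00, u_01, u_11] at a2
  rw [lo_00, lo_01, lo_10] at a3
  refine ⟨by linear_combination a3, by linear_combination -a1, by linear_combination a2⟩

theorem tra_zc_mul (g : SL2 F) : tra (zc * g) = -tra g := by
  rw [tra, tra, zc_mul, zc_mul]
  ring

theorem zc_eq_one (h : (2 : F) = 0) : (zc : SL2 F) = 1 := by
  apply ext_e
  · rw [zc_00]
    change (-1 : F) = 1
    linear_combination -h
  · rw [zc_01]; rfl
  · rw [zc_10]; rfl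
  · rw [zc_11]
    change (-1 : F) = 1
    linear_combination -h

/-- elements which are central modulo the centre -/
theorem Sc.of_mod {w s : SL2 F} (hs : tra s = 2) (h : Sc (w * s * w⁻¹ * s⁻¹)) : w * s = s * w := by
  rcases h.eq with h1 | h1
  · calc w * s = (w * s * w⁻¹ * s⁻¹) * (s * w) := by group
      _ = s * w := by rw [h1, one_mul]
  · have h2 : w * s * w⁻¹ = zc * s := by
      rw [← h1]
      group
    have h3 : tra s = -tra s := by
      rw [← tra_zc_mul, ← h2, tra_conj]
    have h4 : (2 : F) = 0 := by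
      rw [hs] at h3
      have h5 : (2 : F) * 2 = 0 := by linear_combination h3
      rcases mul_eq_zero.mp h5 with h | h <;> exact h
    rw [zc_eq_one h4] at h1
    calc w * s = (w * s * w⁻¹ * s⁻¹) * (s * w) := by group
      _ = s * w := by rw [h1, one_mul]

variable {G : Type*} [Group G] {φ : SL2 F →* G}

/-- the centre of the image -/
theorem Sc.of_map (hφ : ∀ w, φ w = 1 → Sc w) {w : SL2 F} (h : ∀ s, φ w * φ s = φ s * φ w) :
    Sc w := by
  have key : ∀ s : SL2 F, tra s = 2 → w * s = s * w := by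
    intro s hs
    apply Sc.of_mod hs
    apply hφ
    rw [map_mul, map_mul, map_mul, map_inv, map_inv, h s]
    group
  apply Sc.of_two
  · apply key
    rw [tra, u_00, u_11]
    norm_num
  · apply key
    rw [tra, lo_00, lo_11]
    norm_num

theorem Sc.map {w : SL2 F} (h : Sc w) (s : SL2 F) : φ w * φ s = φ s * φ w := by
  rw [← map_mul, h.comm, map_mul]

theorem cent_zc {x g : SL2 F} : g * x = x * g ↔ g * (zc * x) = (zc * x) * g := by
  constructor
  · intro h
    rw [← mul_assoc, ← zc_comm g, mul_assoc, h, mul_assoc]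
  · intro h
    rw [← mul_assoc, ← zc_comm g, mul_assoc, mul_assoc] at h
    exact mul_left_cancel h

/-- elements which commute with `x` modulo the centre -/
theorem zc_or {g x : SL2 F} (h : Sc (g * x * g⁻¹ * x⁻¹)) :
    g * x * g⁻¹ = x ∨ g * x * g⁻¹ = zc * x := by
  rcases h.eq with h1 | h1
  · left
    calc g * x * g⁻¹ = (g * x * g⁻¹ * x⁻¹) * x := by group
      _ = x := by rw [h1, one_mul]
  · right
    calc g * x * g⁻¹ = (g * x * g⁻¹ * x⁻¹) * x := by group
      _ = zc * x := by rw [h1]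

theorem norm_cent {g x : SL2 F} (h : Sc (g * x * g⁻¹ * x⁻¹)) {t : SL2 F} (ht : t * x = x * t) :
    (g * t * g⁻¹) * x = x * (g * t * g⁻¹) := by
  have h1 : (g * t * g⁻¹) * (g * x * g⁻¹) = (g * x * g⁻¹) * (g * t * g⁻¹) := by
    calc (g * t * g⁻¹) * (g * x * g⁻¹) = g * (t * x) * g⁻¹ := by group
      _ = g * (x * t) * g⁻¹ := by rw [ht]
      _ = _ := by group
  rcases zc_or h with h2 | h2
  · rwa [h2] at h1
  · rw [h2] at h1
    exact cent_zc.mpr h1

/-- The `p'`-elements which commute with `x` modulo the centre come from the torus. -/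
theorem exists_torus [Finite G] {p : ℕ} (hp : p.Prime) {x : SL2 F} {a : ℕ} (hxa : Sc (x ^ p ^ a))
    {g : SL2 F} (h : Sc (g * x * g⁻¹ * x⁻¹)) (hord : ¬ p ∣ orderOf (φ g)) :
    ∃ t, t * x = x * t ∧ ¬ p ∣ orderOf t ∧ φ t = φ g := by
  classical
  obtain ⟨g₁, hg₁, hφg⟩ : ∃ g₁, g₁ * x = x * g₁ ∧ φ g₁ = φ g := by
    rcases zc_or h with h1 | h1
    · exact ⟨g, by rw [← mul_inv_eq_iff_eq_mul]; exact h1, rfl⟩
    · by_cases hp2 : p = 2
      · subst hp2
        have h2 : (g * g) * x = x * (g * g) := by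
          have h3 : g * (g * x * g⁻¹) * g⁻¹ = x := by
            rw [h1, ← mul_assoc, ← zc_comm, mul_assoc, mul_assoc, ← mul_assoc g x, h1, ← mul_assoc,
              zc_zc, one_mul]
          calc (g * g) * x = (g * (g * x * g⁻¹) * g⁻¹) * (g * g) := by group
            _ = x * (g * g) := by rw [h3]
        obtain ⟨m, hm⟩ : ∃ m, orderOf (φ g) + 1 = 2 * m := by
          have : Odd (orderOf (φ g)) := by
            rw [← Nat.not_even_iff_odd, even_iff_two_dvd]
            exact hord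
          obtain ⟨r, hr⟩ := this
          exact ⟨r + 1, by omega⟩
        refine ⟨(g * g) ^ m, (show Commute (g * g) x from h2).pow_left m, ?_⟩
        rw [← sq, ← pow_mul, map_pow, ← hm, pow_succ, pow_orderOf_eq_one, one_mul]
      · -- odd primes
        have h2 : (zc : SL2 F) ^ p ^ a = 1 := by
          have h3 : (g * x * g⁻¹) ^ p ^ a = x ^ p ^ a := by
            rw [conj_pow, ← hxa.comm, mul_assoc, mul_inv_cancel, mul_one]
          rw [h1, (show Commute (zc : SL2 F) x from zc_comm x).mul_pow] at h3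
          exact mul_eq_right.mp h3
        have h3 : Odd (p ^ a) := (hp.odd_of_ne_two hp2).pow
        have h4 : (zc : SL2 F) = 1 := by
          obtain ⟨r, hr⟩ := h3
          rw [hr, pow_succ, pow_mul, sq, zc_zc, one_pow, one_mul] at h2
          exact h2
        rw [h4, one_mul] at h1
        exact ⟨g, by rw [← mul_inv_eq_iff_eq_mul]; exact h1, rfl⟩
  obtain ⟨i, l, h2, ⟨b, h3⟩, h4⟩ := exists_pp hp g₁
  have hc : ∀ m : ℕ, g₁ ^ m * x = x * g₁ ^ m := fun m =>
    (show Commute g₁ x from hg₁).pow_left m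
  refine ⟨g₁ ^ l, hc l, h4, ?_⟩
  have h5 : φ (g₁ ^ i) = 1 := by
    rw [← orderOf_eq_one_iff]
    have h6 : orderOf (φ (g₁ ^ i)) ∣ p ^ b := by
      apply orderOf_dvd_of_pow_eq_one
      rw [← map_pow, h3, map_one]
    have h7 : orderOf (φ (g₁ ^ i)) ∣ orderOf (φ g) := by
      rw [map_pow, hφg]
      exact orderOf_pow_dvd i
    have h8 : Nat.Coprime (p ^ b) (orderOf (φ g)) :=
      Nat.Coprime.pow_left b ((hp.coprime_iff_not_dvd).mpr hord)
    exact Nat.eq_one_of_dvd_coprimes h8 h6 h7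
  rw [← hφg]
  conv_rhs => rw [h2]
  rw [map_mul, h5, one_mul]

/-- the `p'`-part of the torus -/
def VT (x : SL2 F) (hx : ¬ Sc x) (p : ℕ) (hp : p.Prime) : Subgroup (SL2 F) where
  carrier := {g | g * x = x * g ∧ ¬ p ∣ orderOf g}
  mul_mem' := by
    rintro g h ⟨h1, h2⟩ ⟨h3, h4⟩
    refine ⟨by rw [mul_assoc, h3, ← mul_assoc, h1, mul_assoc], ?_⟩
    intro h5
    have h6 := h5.trans (show Commute g h from comm_trans hx h1 h3).orderOf_mul_dvd_mul_orderOf
    rcases hp.dvd_mul.mp h6 with h7 | h7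
    · exact h2 h7
    · exact h4 h7
  one_mem' := ⟨by rw [one_mul, mul_one], by rw [orderOf_one]; exact hp.one_lt.not_ge ∘ (Nat.le_of_dvd one_pos)⟩
  inv_mem' := by
    rintro g ⟨h1, h2⟩
    refine ⟨?_, by rwa [orderOf_inv]⟩
    calc g⁻¹ * x = g⁻¹ * (x * g) * g⁻¹ := by group
      _ = g⁻¹ * (g * x) * g⁻¹ := by rw [h1]
      _ = x * g⁻¹ := by group

theorem mem_VT {x : SL2 F} {hx : ¬ Sc x} {p : ℕ} {hp : p.Prime} {g : SL2 F} :
    g ∈ VT x hx p hp ↔ (g * x = x * g ∧ ¬ p ∣ orderOf g) := Iff.rfl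

/-- the `p`-part of the torus -/
def PT (x : SL2 F) (hx : ¬ Sc x) (p : ℕ) : Subgroup (SL2 F) where
  carrier := {g | g * x = x * g ∧ ∃ a, g ^ p ^ a = 1}
  mul_mem' := by
    rintro g h ⟨h1, a, h2⟩ ⟨h3, b, h4⟩
    refine ⟨by rw [mul_assoc, h3, ← mul_assoc, h1, mul_assoc], a + b, ?_⟩
    rw [(show Commute g h from comm_trans hx h1 h3).mul_pow, pow_add, pow_mul, h2, one_pow, one_mul,
      mul_comm, pow_mul, h4, one_pow]
  one_mem' := ⟨by rw [one_mul, mul_one], 0, by rw [one_pow]⟩
  inv_mem' := by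
    rintro g ⟨h1, a, h2⟩
    refine ⟨?_, a, by rw [inv_pow, h2, inv_one]⟩
    calc g⁻¹ * x = g⁻¹ * (x * g) * g⁻¹ := by group
      _ = g⁻¹ * (g * x) * g⁻¹ := by rw [h1]
      _ = x * g⁻¹ := by group

theorem mem_PT {x : SL2 F} {hx : ¬ Sc x} {p : ℕ} {g : SL2 F} :
    g ∈ PT x hx p ↔ (g * x = x * g ∧ ∃ a, g ^ p ^ a = 1) := Iff.rfl

/-- The `p`-part of the torus and its image. -/
theorem card_PT_le (hφ : ∀ w, φ w = 1 → Sc w) (x : SL2 F) (hx : ¬ Sc x) (p : ℕ) :
    Nat.card (PT x hx p) ≤ 2 * Nat.card ((PT x hx p).map φ) := by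
  classical
  let f : PT x hx p →* (PT x hx p).map φ := φ.subgroupMap (PT x hx p)
  have hf : Function.Surjective f := φ.subgroupMap_surjective _
  have h1 : Nat.card f.ker ≤ 2 := by
    have h2 : ∀ y : f.ker, ((y : PT x hx p) : SL2 F) = 1 ∨ ((y : PT x hx p) : SL2 F) = zc := by
      intro y
      have h3 : φ ((y : PT x hx p) : SL2 F) = 1 := by
        have h4 := MonoidHom.mem_ker.mp y.2
        exact congrArg Subtype.val h4
      exact (hφ _ h3).eq
    let g : f.ker → Bool := fun y => decide (((y : PT x hx p) : SL2 F) = 1)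
    have hg : Function.Injective g := by
      intro y z hyz
      apply Subtype.ext
      apply Subtype.ext
      rcases h2 y with h3 | h3
      · have h4 : g y = true := decide_eq_true h3
        have h5 : g z = true := hyz ▸ h4
        rw [h3, of_decide_eq_true h5]
      · by_cases h6 : ((y : PT x hx p) : SL2 F) = 1
        · have h4 : g y = true := decide_eq_true h6
          have h5 : g z = true := hyz ▸ h4
          rw [h6, of_decide_eq_true h5]
        · have h4 : g y = false := decide_eq_false h6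
          have h5 : g z = false := hyz ▸ h4
          rcases h2 z with h7 | h7
          · exact absurd h7 (of_decide_eq_false h5)
          · rw [h3, h7]
    calc Nat.card f.ker ≤ Nat.card Bool := Nat.card_le_card_of_injective g hg
      _ = 2 := by simp
  have h2 := Subgroup.card_eq_card_quotient_mul_card_subgroup f.ker
  rw [Nat.card_congr (QuotientGroup.quotientKerEquivOfSurjective f hf).toEquiv] at h2
  rw [h2, mul_comm]
  exact Nat.mul_le_mul_right _ h1

end Vale.Agent.P180.R2.H12.Sl
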