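import Mathlib

/-!
P180 R2 H12: tori of `SL_2(F)` and a Kloosterman identity.
-/

set_option linter.all false

namespace Vale.Agent.P180.R2.H12.Sl

open Finset

/-- A torus of `SL_2(F)`, with its trace. -/
structure Tor (F : Type) [Field F] [Fintype F] where
  T : Type
  [grp : CommGroup T]
  [fin : Fintype T]
  [dec : DecidableEq T]
  tr : T → F
  m : T
  s : ℤ
  hs : s = 1 ∨ s = -1
  tr_inv : ∀ t, tr t⁻¹ = tr t
  tr_eq : ∀ t t', tr t = tr t' → t = t' ∨ t = t'⁻¹
  tr_one : tr 1 = 2
  tr_m : tr m = -2
  mm : m * m = 1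
  tr_mul_m : ∀ t, tr (m * t) = -tr t
  card : (Fintype.card T : ℤ) = Fintype.card F - s

attribute [instance] Tor.grp Tor.fin Tor.dec

variable {F : Type} [Field F] [Fintype F] [DecidableEq F]

/-- The Kloosterman identity of a torus. -/
def Tor.Kl {k : Type*} [Field k] (A : Tor F) (ψ : AddChar F k) : Prop :=
  ∀ c d : F, c ≠ 0 → d ≠ 0 → ∀ t : A.T,
    ∑ x : A.T, ψ (-(A.tr (t * x⁻¹) * c + A.tr x * d)) =
      (A.s : k) * ∑ x : Fˣ, ψ (x + (c ^ 2 + d ^ 2 + A.tr t * (c * d)) * (x⁻¹ : Fˣ)) +
        (if (d = -c ∧ t = 1) ∨ (d = c ∧ t = A.m) then (Fintype.card F : k) else 0)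

theorem sum_units {k : Type*} [Field k] {ψ : AddChar F k} (hψ : ψ ≠ 1) :
    ∑ x : Fˣ, ψ x = -1 := by
  have h1 : ∑ x : F, ψ x = 0 := AddChar.sum_eq_zero_of_ne_one hψ
  have h2 : ∑ x : F, ψ x = ψ 0 + ∑ x : Fˣ, ψ x := by
    rw [← Finset.add_sum_erase _ _ (Finset.mem_univ (0 : F))]
    congr 1
    refine (Finset.sum_bij (fun (x : Fˣ) _ => (x : F)) ?_ ?_ ?_ ?_).symm
    · intro x _
      exact Finset.mem_erase.mpr ⟨x.ne_zero, Finset.mem_univ _⟩
    · intro x _ y _ h
      exact Units.ext h
    · intro y hy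
      exact ⟨Units.mk0 y (Finset.mem_erase.mp hy).1, Finset.mem_univ _, rfl⟩
    · intro x _
      rfl
  rw [h1, AddChar.map_zero_eq_one] at h2
  linear_combination -h2

/-- The split torus. -/
def split (F : Type) [Field F] [Fintype F] [DecidableEq F] : Tor F where
  T := Fˣ
  tr a := a + (a⁻¹ : Fˣ)
  m := -1
  s := 1
  hs := Or.inl rfl
  tr_inv t := by rw [inv_inv, add_comm]
  tr_eq := by
    intro t t' h
    have h1 : ((t : F) - t') * (t * t' - 1) = 0 := by
      have e1 : (t : F) * (t⁻¹ : Fˣ) = 1 := by simp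
      have e2 : (t' : F) * (t'⁻¹ : Fˣ) = 1 := by simp
      linear_combination (t : F) * t' * h - (t' : F) * e1 + (t : F) * e2
    rcases mul_eq_zero.mp h1 with h2 | h2
    · left
      exact Units.ext (sub_eq_zero.mp h2)
    · right
      rw [eq_inv_iff_mul_eq_one]
      exact Units.ext (sub_eq_zero.mp h2)
  tr_one := by norm_num
  tr_m := by norm_num
  mm := by simp
  tr_mul_m t := by
    rw [mul_inv, inv_neg, inv_one, Units.val_mul, Units.val_mul]
    simp
    ring
  card := by
    rw [Fintype.card_units]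
    have := Fintype.card_pos (α := F)
    push_cast [Nat.cast_sub (show 1 ≤ Fintype.card F from this)]
    ring

theorem split_kl {k : Type*} [Field k] {ψ : AddChar F k} (hψ : ψ ≠ 1) : (split F).Kl ψ := by
  intro c d hc hd (t : Fˣ)
  change ∑ x : Fˣ, ψ (-(((t * x⁻¹ : Fˣ) + ((t * x⁻¹)⁻¹ : Fˣ) : F) * c + (x + (x⁻¹ : Fˣ)) * d)) =
    ((1 : ℤ) : k) * ∑ x : Fˣ, ψ (x + (c ^ 2 + d ^ 2 + (t + (t⁻¹ : Fˣ)) * (c * d)) * (x⁻¹ : Fˣ)) +
      (if (d = -c ∧ t = 1) ∨ (d = c ∧ t = -1) then (Fintype.card F : k) else 0)
  have ht : (t : F) * (t⁻¹ : Fˣ) = 1 := by simp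
  rw [Int.cast_one, one_mul]
  obtain ⟨w, hw⟩ : ∃ w : F, w = -((t⁻¹ : Fˣ) * c + d) := ⟨_, rfl⟩
  obtain ⟨w', hw'⟩ : ∃ w' : F, w' = -(t * c + d) := ⟨_, rfl⟩
  have hL : ∀ x : Fˣ, -(((t * x⁻¹ : Fˣ) + ((t * x⁻¹)⁻¹ : Fˣ) : F) * c + (x + (x⁻¹ : Fˣ)) * d) =
      x * w + (x⁻¹ : Fˣ) * w' := by
    intro x
    rw [mul_inv, inv_inv, Units.val_mul, Units.val_mul, hw, hw']
    ring
  have hN : c ^ 2 + d ^ 2 + ((t : F) + (t⁻¹ : Fˣ)) * (c * d) = w * w' := by
    rw [hw, hw']
    linear_combination (-c ^ 2) * ht
  simp only [hL, hN]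
  by_cases h0 : w = 0
  · by_cases h0' : w' = 0
    · have h1 : (t : F) = (t⁻¹ : Fˣ) := by
        have : c * ((t : F) - (t⁻¹ : Fˣ)) = 0 := by
          linear_combination (-1 : F) * h0' + h0 + hw' - hw
        rcases mul_eq_zero.mp this with h | h
        · exact absurd h hc
        · exact sub_eq_zero.mp h
      have h2 : ((t : F) - 1) * (t + 1) = 0 := by
        linear_combination (t : F) * h1 + ht
      have h3 : ((d = -c ∧ t = 1) ∨ (d = c ∧ t = -1)) := by
        rcases mul_eq_zero.mp h2 with h | h
        · left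
          have h4 : (t : F) = 1 := sub_eq_zero.mp h
          refine ⟨?_, Units.ext h4⟩
          rw [h4] at hw'
          linear_combination hw' - h0'
        · right
          have h4 : (t : F) = -1 := by linear_combination h
          refine ⟨?_, Units.ext (by rw [h4]; simp)⟩
          rw [h4] at hw'
          linear_combination hw' - h0'
      rw [if_pos h3, h0, h0']
      simp only [mul_zero, zero_mul, add_zero, AddChar.map_zero_eq_one]
      rw [sum_units hψ, Finset.sum_const, Finset.card_univ, Fintype.card_units, nsmul_eq_mul,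
        mul_one, Nat.cast_sub Fintype.card_pos]
      push_cast
      ring
    · rw [if_neg, h0]
      · simp only [mul_zero, zero_mul, add_zero, zero_add]
        rw [← Equiv.sum_comp ((Equiv.inv Fˣ).trans (Equiv.mulRight (Units.mk0 w' h0')))
          (fun x : Fˣ => ψ x)]
        rfl
      · rintro (⟨h1, h2⟩ | ⟨h1, h2⟩)
        · apply h0'
          rw [hw', h1, h2]
          simp
        · apply h0'
          rw [hw', h1, h2]
          simp
  · rw [if_neg]
    · rw [add_zero, ← Equiv.sum_comp (Equiv.mulRight (Units.mk0 w h0))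
        (fun x : Fˣ => ψ ((x : F) + w * w' * (x⁻¹ : Fˣ)))]
      refine Finset.sum_congr rfl fun x _ => ?_
      congr 1
      rw [Equiv.coe_mulRight, mul_inv, Units.val_mul, Units.val_mul, Units.val_mk0]
      have : ((Units.mk0 w h0)⁻¹ : Fˣ) * w = (1 : F) := by
        rw [Units.val_inv_eq_inv_val, Units.val_mk0, inv_mul_cancel₀ h0]
      linear_combination (-(x⁻¹ : Fˣ) * w' : F) * this
    · rintro (⟨h1, h2⟩ | ⟨h1, h2⟩)
      · apply h0
        rw [hw, h1, h2]
        simp
      · apply h0
        rw [hw, h1, h2]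
        simp

section Ext

variable {E : Type} [Field E] [Fintype E] [DecidableEq E] [Algebra F E]

theorem trace_eq (h2 : Module.finrank F E = 2) (z : E) :
    algebraMap F E (Algebra.trace F E z) = z + z ^ Fintype.card F := by
  rw [FiniteField.algebraMap_trace_eq_sum_pow, h2, Finset.sum_range_succ, Finset.sum_range_one,
    Nat.card_eq_fintype_card]
  simp

theorem norm_eq (h2 : Module.finrank F E = 2) (z : E) :
    algebraMap F E (Algebra.norm F z) = z * z ^ Fintype.card F := by
  rw [FiniteField.algebraMap_norm_eq_prod_pow, h2, Finset.prod_range_succ, Finset.prod_range_one,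
    Nat.card_eq_fintype_card]
  simp

/-- the characteristic polynomial -/
theorem root_eq (h2 : Module.finrank F E = 2) (z : E) :
    z * z - algebraMap F E (Algebra.trace F E z) * z + algebraMap F E (Algebra.norm F z) = 0 := by
  rw [trace_eq h2, norm_eq h2]
  ring

theorem card_norm (h2 : Module.finrank F E = 2) (ν : Fˣ) :
    (univ.filter fun z : E => Algebra.norm F z = ν).card = Fintype.card F + 1 := by
  classical
  have hsurj := FiniteField.unitsMap_norm_surjective F E
  set N : Eˣ →* Fˣ := Units.map (Algebra.norm F (S := E)) with hN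
  have hE : Fintype.card E = Fintype.card F ^ 2 := by
    rw [Module.card_eq_pow_finrank (K := F), h2]
  have hker : Nat.card N.ker * (Fintype.card F - 1) = Fintype.card F ^ 2 - 1 := by
    have h3 := N.ker.card_mul_index
    rw [Subgroup.index_ker, MonoidHom.range_eq_top.mpr hsurj, Subgroup.card_top,
      Nat.card_eq_fintype_card (α := Fˣ), Nat.card_eq_fintype_card (α := Eˣ), Fintype.card_units,
      Fintype.card_units, hE] at h3
    exact h3
  have h1F : 1 < Fintype.card F := Fintype.one_lt_card
  have hker2 : Nat.card N.ker = Fintype.card F + 1 := by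
    obtain ⟨q, hq⟩ : ∃ q, Fintype.card F = q + 2 := ⟨Fintype.card F - 2, by omega⟩
    rw [hq] at hker ⊢
    have h4 : q + 2 - 1 = q + 1 := by omega
    have h5 : (q + 2) ^ 2 - 1 = (q + 3) * (q + 1) := by
      have : (q + 2) ^ 2 = (q + 3) * (q + 1) + 1 := by ring
      omega
    rw [h4, h5] at hker
    have := Nat.eq_of_mul_eq_mul_right (by omega) hker
    omega
  obtain ⟨z₀, hz₀⟩ := hsurj ν
  rw [← hker2, Nat.card_eq_fintype_card, ← Fintype.card_coe]
  refine Fintype.card_congr ?_
  refine
    { toFun := fun z => ⟨Units.mk0 z.1 ?_ * z₀⁻¹, ?_⟩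
      invFun := fun u => ⟨(u.1 * z₀ : Eˣ), ?_⟩
      left_inv := ?_
      right_inv := ?_ }
  · intro h
    have := (Finset.mem_filter.mp z.2).2
    rw [h, Algebra.norm_zero] at this
    exact ν.ne_zero this.symm
  · rw [MonoidHom.mem_ker, map_mul, map_inv, hz₀, mul_inv_eq_one]
    apply Units.ext
    exact (Finset.mem_filter.mp z.2).2
  · refine Finset.mem_filter.mpr ⟨Finset.mem_univ _, ?_⟩
    have h3 : N (u.1 * z₀) = ν := by rw [map_mul, MonoidHom.mem_ker.mp u.2, hz₀, one_mul]
    exact congrArg Units.val h3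
  · intro z
    apply Subtype.ext
    simp
  · intro u
    apply Subtype.ext
    apply Units.ext
    simp

/-- The two kinds of roots. -/
theorem card_roots_le (h2 : Module.finrank F E = 2) (ν : Fˣ) (y : F) :
    (univ.filter fun x : Fˣ => (x : F) + ν * (x⁻¹ : Fˣ) = y).card +
      (univ.filter fun z : E => Algebra.norm F z = ν ∧ Algebra.trace F E z = y).card ≤ 2 := by
  classical
  set A : Finset E := (univ.filter fun x : Fˣ => (x : F) + ν * (x⁻¹ : Fˣ) = y).image
    (fun x : Fˣ => algebraMap F E (x : F)) with hA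
  set B : Finset E := univ.filter fun z : E => Algebra.norm F z = ν ∧ Algebra.trace F E z = y
  have hAc : (univ.filter fun x : Fˣ => (x : F) + ν * (x⁻¹ : Fˣ) = y).card = A.card := by
    rw [hA, Finset.card_image_of_injective]
    intro x x' h
    exact Units.ext ((algebraMap F E).injective h)
  rw [hAc]
  have hrA : ∀ z ∈ A, z * z - algebraMap F E y * z + algebraMap F E ν = 0 := by
    intro z hz
    obtain ⟨x, hx, rfl⟩ := Finset.mem_image.mp hz
    have hx' := (Finset.mem_filter.mp hx).2
    have h3 : (x : F) * x - y * x + ν = 0 := by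
      have e1 : (x : F) * (x⁻¹ : Fˣ) = 1 := by simp
      linear_combination (x : F) * hx' - (ν : F) * e1
    have := congrArg (algebraMap F E) h3
    simpa only [map_add, map_sub, map_mul, map_zero] using this
  have hrB : ∀ z ∈ B, z * z - algebraMap F E y * z + algebraMap F E ν = 0 := by
    intro z hz
    obtain ⟨h3, h4⟩ := (Finset.mem_filter.mp hz).2
    have := root_eq h2 z
    rwa [h3, h4] at this
  have hroot : ∀ z z', z * z - algebraMap F E y * z + algebraMap F E ν = 0 →
      z' * z' - algebraMap F E y * z' + algebraMap F E ν = 0 →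
      z' = z ∨ z' = algebraMap F E y - z := by
    intro z z' h3 h4
    have h5 : (z' - z) * (z' - (algebraMap F E y - z)) = 0 := by
      linear_combination h4 - h3
    rcases mul_eq_zero.mp h5 with h | h
    · exact Or.inl (sub_eq_zero.mp h)
    · exact Or.inr (sub_eq_zero.mp h)
  by_cases hd : y ^ 2 = 4 * (ν : F)
  · -- a double root
    have hone : ∀ z z', z * z - algebraMap F E y * z + algebraMap F E ν = 0 →
        z' * z' - algebraMap F E y * z' + algebraMap F E ν = 0 → z' = z := by
      intro z z' h3 h4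
      rcases hroot z z' h3 h4 with h | h
      · exact h
      · have h5 := congrArg (algebraMap F E) hd
        simp only [map_pow, map_mul, map_ofNat] at h5
        have h6 : (z' - z) ^ 2 = 0 := by
          rw [h]
          linear_combination 4 * h3 + h5
        exact sub_eq_zero.mp (pow_eq_zero_iff (two_ne_zero)|>.mp h6)
    have h3 : A.card ≤ 1 := Finset.card_le_one.mpr fun a ha b hb => hone _ _ (hrA b hb) (hrA a ha)
    have h4 : B.card ≤ 1 := Finset.card_le_one.mpr fun a ha b hb => hone _ _ (hrB b hb) (hrB a ha)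
    omega
  · have hdisj : Disjoint A B := by
      rw [Finset.disjoint_left]
      intro z hz hz'
      obtain ⟨x, hx, rfl⟩ := Finset.mem_image.mp hz
      obtain ⟨h3, h4⟩ := (Finset.mem_filter.mp hz').2
      apply hd
      rw [Algebra.norm_algebraMap, h2] at h3
      rw [Algebra.trace_algebraMap, h2] at h4
      rw [← h3, ← h4]
      simp only [nsmul_eq_mul, Nat.cast_ofNat]
      ring
    rw [← Finset.card_union_of_disjoint hdisj]
    by_cases hne : (A ∪ B).Nonempty
    · obtain ⟨z, hz⟩ := hne
      have hr : ∀ z ∈ A ∪ B, z * z - algebraMap F E y * z + algebraMap F E ν = 0 := by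
        intro z hz
        rcases Finset.mem_union.mp hz with h | h
        · exact hrA z h
        · exact hrB z h
      refine (Finset.card_le_card (t := {z, algebraMap F E y - z}) ?_).trans
        Finset.card_le_two
      intro z' hz'
      rw [Finset.mem_insert, Finset.mem_singleton]
      exact hroot _ _ (hr z hz) (hr z' hz')
    · rw [Finset.not_nonempty_iff_eq_empty.mp hne]
      simp

theorem card_roots (h2 : Module.finrank F E = 2) (ν : Fˣ) (y : F) :
    (univ.filter fun x : Fˣ => (x : F) + ν * (x⁻¹ : Fˣ) = y).card +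
      (univ.filter fun z : E => Algebra.norm F z = ν ∧ Algebra.trace F E z = y).card = 2 := by
  classical
  by_contra hne
  have hlt : ∑ y : F, ((univ.filter fun x : Fˣ => (x : F) + ν * (x⁻¹ : Fˣ) = y).card +
      (univ.filter fun z : E => Algebra.norm F z = ν ∧ Algebra.trace F E z = y).card) <
      ∑ y : F, 2 := by
    refine Finset.sum_lt_sum (fun y _ => card_roots_le h2 ν y) ⟨y, Finset.mem_univ _, ?_⟩
    exact lt_of_le_of_ne (card_roots_le h2 ν y) hne
  rw [Finset.sum_add_distrib, Finset.sum_const, Finset.card_univ, smul_eq_mul] at hlt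
  have h3 : ∑ y : F, (univ.filter fun x : Fˣ => (x : F) + ν * (x⁻¹ : Fˣ) = y).card =
      Fintype.card F - 1 := by
    rw [← Fintype.card_units, ← Finset.card_univ]
    exact (Finset.card_eq_sum_card_fiberwise (fun x _ => Finset.mem_univ _)).symm
  have h4 : ∑ y : F, (univ.filter fun z : E => Algebra.norm F z = ν ∧
      Algebra.trace F E z = y).card = Fintype.card F + 1 := by
    rw [← card_norm h2 ν]
    rw [Finset.card_eq_sum_card_fiberwise (f := fun z : E => Algebra.trace F E z) (t := univ)
      (fun x _ => Finset.mem_univ _)]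
    refine Finset.sum_congr rfl fun y _ => ?_
    congr 1
    ext z
    simp [Finset.mem_filter]
  rw [h3, h4] at hlt
  have := Fintype.card_pos (α := F)
  omega

/-- The Kloosterman sum of a quadratic extension. -/
theorem sum_norm {k : Type*} [Field k] {ψ : AddChar F k} (hψ : ψ ≠ 1)
    (h2 : Module.finrank F E = 2) (ν : Fˣ) :
    ∑ z ∈ univ.filter (fun z : E => Algebra.norm F z = ν), ψ (Algebra.trace F E z) =
      - ∑ x : Fˣ, ψ (x + ν * (x⁻¹ : Fˣ)) := by
  classical
  have h3 : ∑ x : Fˣ, ψ ((x : F) + ν * (x⁻¹ : Fˣ)) =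
      ∑ y : F, (univ.filter fun x : Fˣ => (x : F) + ν * (x⁻¹ : Fˣ) = y).card • ψ y := by
    rw [← Finset.sum_fiberwise (s := univ) (g := fun x : Fˣ => (x : F) + ν * (x⁻¹ : Fˣ))]
    refine Finset.sum_congr rfl fun y _ => ?_
    rw [← Finset.sum_const]
    exact Finset.sum_congr rfl fun x hx => by rw [(Finset.mem_filter.mp hx).2]
  have h4 : ∑ z ∈ univ.filter (fun z : E => Algebra.norm F z = ν), ψ (Algebra.trace F E z) =
      ∑ y : F, (univ.filter fun z : E => Algebra.norm F z = ν ∧
        Algebra.trace F E z = y).card • ψ y := by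
    rw [← Finset.sum_fiberwise (s := univ.filter (fun z : E => Algebra.norm F z = ν))
      (g := fun z : E => Algebra.trace F E z)]
    refine Finset.sum_congr rfl fun y _ => ?_
    rw [← Finset.sum_const, Finset.filter_filter]
    exact Finset.sum_congr rfl fun x hx => by rw [(Finset.mem_filter.mp hx).2.2]
  rw [eq_neg_iff_add_eq_zero, h3, h4, ← Finset.sum_add_distrib]
  have h5 : ∀ y : F, (univ.filter fun z : E => Algebra.norm F z = ν ∧
      Algebra.trace F E z = y).card • ψ y +
      (univ.filter fun x : Fˣ => (x : F) + ν * (x⁻¹ : Fˣ) = y).card • ψ y = 2 • ψ y := by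
    intro y
    rw [← add_smul, add_comm, card_roots h2 ν y]
  simp only [h5]
  rw [← Finset.smul_sum, AddChar.sum_eq_zero_of_ne_one hψ, smul_zero]

variable (F E) in
/-- the elements of norm one -/
abbrev NT : Type := (Units.map (Algebra.norm F (S := E))).ker

variable (F) in
/-- the element of `E` -/
def ev (t : NT F E) : E := ((t : Eˣ) : E)

theorem ev_mul (t u : NT F E) : ev F (t * u) = ev F t * ev F u := rfl

theorem ev_one : ev F (1 : NT F E) = 1 := rfl

theorem ev_mul_inv (t : NT F E) : ev F t * ev F t⁻¹ = 1 := by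
  rw [← ev_mul, mul_inv_cancel, ev_one]

theorem ev_ne (t : NT F E) : ev F t ≠ 0 := (t : Eˣ).ne_zero

theorem ev_inj {t u : NT F E} (h : ev F t = ev F u) : t = u := Subtype.ext (Units.ext h)

theorem norm_ev (t : NT F E) : Algebra.norm F (ev F t) = 1 :=
  congrArg Units.val (MonoidHom.mem_ker.mp t.2)

/-- an element of norm one -/
def mkNT {z : E} (hz : z ≠ 0) (h : Algebra.norm F z = 1) : NT F E :=
  ⟨Units.mk0 z hz, by rw [MonoidHom.mem_ker]; exact Units.ext h⟩

theorem ev_mkNT {z : E} (hz : z ≠ 0) (h : Algebra.norm F z = 1) : ev F (mkNT hz h) = z := rfl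

theorem ev_pow (h2 : Module.finrank F E = 2) (t : NT F E) :
    ev F t ^ Fintype.card F = ev F t⁻¹ := by
  have h4 := norm_eq h2 (ev F t)
  rw [norm_ev, map_one] at h4
  have h5 := ev_mul_inv t
  exact mul_left_cancel₀ (ev_ne t) (h4.symm.trans h5.symm)

theorem tr_ev (h2 : Module.finrank F E = 2) (t : NT F E) :
    algebraMap F E (Algebra.trace F E (ev F t)) = ev F t + ev F t⁻¹ := by
  rw [trace_eq h2, ev_pow h2]

theorem card_NT (h2 : Module.finrank F E = 2) : Nat.card (NT F E) = Fintype.card F + 1 := by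
  have h3 := card_norm (E := E) h2 1
  rw [← h3, ← Fintype.card_coe, ← Nat.card_eq_fintype_card]
  refine Nat.card_congr ?_
  refine
    { toFun := fun z => ⟨ev F z, Finset.mem_filter.mpr ⟨Finset.mem_univ _, norm_ev z⟩⟩
      invFun := fun u => mkNT (z := u.1) ?_ (Finset.mem_filter.mp u.2).2
      left_inv := ?_
      right_inv := ?_ }
  · intro h
    have := (Finset.mem_filter.mp u.2).2
    rw [h, Algebra.norm_zero, Units.val_one] at this
    exact zero_ne_one this
  · intro z
    exact ev_inj rfl
  · intro u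
    rfl

theorem norm_neg_one (h2 : Module.finrank F E = 2) : Algebra.norm F (-1 : E) = 1 := by
  have : (-1 : E) = algebraMap F E (-1) := by simp
  rw [this, Algebra.norm_algebraMap, h2]
  norm_num

/-- The non-split torus. -/
noncomputable def nonsplit (h2 : Module.finrank F E = 2) : Tor F where
  T := NT F E
  grp := inferInstance
  fin := Fintype.ofFinite _
  dec := Classical.decEq _
  tr t := Algebra.trace F E (ev F t)
  m := mkNT (z := -1) (neg_ne_zero.mpr one_ne_zero) (norm_neg_one h2)
  s := -1
  hs := Or.inr rfl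
  tr_inv t := by
    apply (algebraMap F E).injective
    rw [tr_ev h2, tr_ev h2, inv_inv, add_comm]
  tr_eq := by
    intro t t' h
    have h := congrArg (algebraMap F E) h
    rw [tr_ev h2, tr_ev h2] at h
    have e1 := ev_mul_inv t
    have e2 := ev_mul_inv t'
    have h1 : (ev F t - ev F t') * (ev F t * ev F t' - 1) = 0 := by
      linear_combination ev F t * ev F t' * h - ev F t' * e1 + ev F t * e2
    rcases mul_eq_zero.mp h1 with h3 | h3
    · left
      exact ev_inj (sub_eq_zero.mp h3)
    · right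
      rw [eq_inv_iff_mul_eq_one]
      exact ev_inj (sub_eq_zero.mp h3)
  tr_one := by
    rw [ev_one, ← map_one (algebraMap F E), Algebra.trace_algebraMap, h2]
    simp
  tr_m := by
    rw [ev_mkNT]
    have : (-1 : E) = algebraMap F E (-1) := by simp
    rw [this, Algebra.trace_algebraMap, h2]
    simp
  mm := by
    apply ev_inj
    rw [ev_mul, ev_mkNT, ev_one]
    ring
  tr_mul_m t := by
    rw [ev_mul, ev_mkNT, neg_one_mul, map_neg]
  card := by
    have h4 := card_NT (E := E) h2
    rw [@Nat.card_eq_fintype_card _ (Fintype.ofFinite _)] at h4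
    rw [h4]
    push_cast
    ring

theorem nonsplit_kl_aux (h2 : Module.finrank F E = 2) [Fintype (NT F E)] {k : Type*} [Field k]
    {ψ : AddChar F k} (hψ : ψ ≠ 1) (c d : F) (hc : c ≠ 0) (hd : d ≠ 0) (t : NT F E) :
    ∃ r : k, ∑ x : NT F E, ψ (-(Algebra.trace F E (ev F (t * x⁻¹)) * c +
        Algebra.trace F E (ev F x) * d)) =
      (-1) * ∑ x : Fˣ, ψ (x + (c ^ 2 + d ^ 2 + Algebra.trace F E (ev F t) * (c * d)) *
        (x⁻¹ : Fˣ)) + r ∧
      ((d = -c ∧ t = 1) ∨ (d = c ∧ t = mkNT (z := -1) (neg_ne_zero.mpr one_ne_zero)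
        (norm_neg_one h2)) → r = Fintype.card F) ∧
      (¬ ((d = -c ∧ t = 1) ∨ (d = c ∧ t = mkNT (z := -1) (neg_ne_zero.mpr one_ne_zero)
        (norm_neg_one h2))) → r = 0) := by
  obtain ⟨w, hw⟩ : ∃ w : E, w = -(ev F t⁻¹ * algebraMap F E c + algebraMap F E d) :=
    ⟨_, rfl⟩
  obtain ⟨w', hw'⟩ : ∃ w' : E, w' = -(ev F t * algebraMap F E c + algebraMap F E d) :=
    ⟨_, rfl⟩
  have ht : ev F t * ev F t⁻¹ = 1 := ev_mul_inv t
  have hqF : ∀ a : F, (algebraMap F E a) ^ Fintype.card F = algebraMap F E a := by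
    intro a
    rw [← map_pow, FiniteField.pow_card]
  have hww : w ^ Fintype.card F = w' := by
    have hfr : ∀ x y : E, (x + y) ^ Fintype.card F = x ^ Fintype.card F + y ^ Fintype.card F := by
      intro x y
      have := map_add (FiniteField.frobeniusAlgHom F E) x y
      simpa using this
    have hneg : ∀ x : E, (-x) ^ Fintype.card F = -(x ^ Fintype.card F) := by
      intro x
      have := map_neg (FiniteField.frobeniusAlgHom F E) x
      simpa using this
    rw [hw, hw', hneg, hfr, mul_pow, hqF, hqF, ev_pow h2, inv_inv]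
  have hN : algebraMap F E (c ^ 2 + d ^ 2 + Algebra.trace F E (ev F t) * (c * d)) = w * w' := by
    rw [map_add, map_add, map_mul, map_mul, map_pow, map_pow, tr_ev h2, hw, hw']
    linear_combination (-(algebraMap F E c) ^ 2) * ht
  have hNw : Algebra.norm F w = c ^ 2 + d ^ 2 + Algebra.trace F E (ev F t) * (c * d) := by
    apply (algebraMap F E).injective
    rw [norm_eq h2, hN, hww]
  have hL : ∀ x : NT F E, -(Algebra.trace F E (ev F (t * x⁻¹)) * c +
      Algebra.trace F E (ev F x) * d) = Algebra.trace F E (ev F x * w) := by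
    intro x
    have h4 : Algebra.trace F E (ev F (t * x⁻¹)) = Algebra.trace F E (ev F (t⁻¹ * x)) := by
      apply (algebraMap F E).injective
      rw [tr_ev h2, tr_ev h2, mul_inv, inv_inv, mul_inv, inv_inv, add_comm]
    rw [h4]
    have h3 : ev F x * w = -(c • ev F (t⁻¹ * x) + d • ev F x) := by
      rw [Algebra.smul_def, Algebra.smul_def, ev_mul, hw]
      ring
    rw [h3, map_neg, map_add, map_smul, map_smul, smul_eq_mul, smul_eq_mul]
    ring
  refine ⟨_, (Finset.sum_congr rfl fun x _ => by rw [hL x]).trans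
    (add_sub_cancel _ _).symm, ?_, ?_⟩
  · intro hcond
    have h0 : w = 0 := by
      rcases hcond with ⟨h1, h2'⟩ | ⟨h1, h2'⟩
      · have h5 : ev F t⁻¹ = 1 := by
          rw [h2']
          rfl
        rw [hw, h1, h5]
        simp
      · have h5 : ev F t⁻¹ = -1 := by
          have h6 : ev F t = -1 := by rw [h2']; rfl
          rw [h6] at ht
          linear_combination -ht
        rw [hw, h1, h5]
        ring
    have hν : c ^ 2 + d ^ 2 + Algebra.trace F E (ev F t) * (c * d) = 0 := by
      rw [← hNw, h0, Algebra.norm_zero]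
    rw [hν, h0]
    simp only [mul_zero, zero_mul, add_zero, AddChar.map_zero_eq_one, map_zero]
    have h6 : Fintype.card (NT F E) = Fintype.card F + 1 := by
      rw [← Nat.card_eq_fintype_card, card_NT h2]
    rw [sum_units hψ, Finset.sum_const, Finset.card_univ, nsmul_eq_mul, mul_one, h6]
    push_cast
    ring
  · intro hcond
    have h0 : w ≠ 0 := by
      intro h0
      apply hcond
      have h0' : w' = 0 := by rw [← hww, h0, zero_pow Fintype.card_ne_zero]
      have hcE : algebraMap F E c ≠ 0 := fun h => hc ((map_eq_zero _).mp h)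
      have h1 : ev F t = ev F t⁻¹ := by
        have : algebraMap F E c * (ev F t - ev F t⁻¹) = 0 := by
          linear_combination (-1 : E) * h0' + h0 + hw' - hw
        rcases mul_eq_zero.mp this with h | h
        · exact absurd h hcE
        · exact sub_eq_zero.mp h
      have h3 : (ev F t - 1) * (ev F t + 1) = 0 := by
        linear_combination ev F t * h1 + ht
      rcases mul_eq_zero.mp h3 with h | h
      · left
        have h5 : ev F t = 1 := sub_eq_zero.mp h
        refine ⟨?_, ev_inj h5⟩
        rw [h5] at hw'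
        apply (algebraMap F E).injective
        rw [map_neg]
        linear_combination hw' - h0'
      · right
        have h5 : ev F t = -1 := by linear_combination h
        refine ⟨?_, ev_inj h5⟩
        rw [h5] at hw'
        apply (algebraMap F E).injective
        linear_combination hw' - h0'
    have hν0 : c ^ 2 + d ^ 2 + Algebra.trace F E (ev F t) * (c * d) ≠ 0 := by
      rw [← hNw]
      exact Algebra.norm_ne_zero_iff.mpr h0
    have h3 := sum_norm (E := E) hψ h2 (Units.mk0 _ hν0)
    simp only [Units.val_mk0] at h3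
    have h4 : ∑ x : NT F E, ψ (Algebra.trace F E (ev F x * w)) =
        ∑ z ∈ univ.filter (fun z : E => Algebra.norm F z =
          c ^ 2 + d ^ 2 + Algebra.trace F E (ev F t) * (c * d)), ψ (Algebra.trace F E z) := by
      refine Finset.sum_bij (fun (x : NT F E) _ => ev F x * w) ?_ ?_ ?_ ?_
      · intro x _
        refine Finset.mem_filter.mpr ⟨Finset.mem_univ _, ?_⟩
        rw [map_mul, norm_ev, one_mul, hNw]
      · intro x _ y _ h
        exact ev_inj (mul_right_cancel₀ h0 h)
      · intro z hz
        have h4 := (Finset.mem_filter.mp hz).2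
        have hz0 : z ≠ 0 := by
          rintro rfl
          rw [Algebra.norm_zero] at h4
          exact hν0 h4.symm
        have h5 : Algebra.norm F (z * w⁻¹) = 1 := by
          have h6 : Algebra.norm F (z * w⁻¹) * Algebra.norm F w = Algebra.norm F z := by
            rw [← map_mul, inv_mul_cancel_right₀ h0]
          rw [h4, hNw] at h6
          exact mul_right_cancel₀ hν0 (h6.trans (one_mul _).symm)
        refine ⟨mkNT (mul_ne_zero hz0 (inv_ne_zero h0)) h5, Finset.mem_univ _, ?_⟩
        change (z * w⁻¹) * w = z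
        rw [inv_mul_cancel_right₀ h0]
      · intro x _
        rfl
    have h5 := h4.trans h3
    rw [h5]
    ring

theorem nonsplit_kl (h2 : Module.finrank F E = 2) {k : Type*} [Field k] {ψ : AddChar F k}
    (hψ : ψ ≠ 1) : (nonsplit h2).Kl ψ := by
  intro c d hc hd t
  obtain ⟨r, hr1, hr2, hr3⟩ := @nonsplit_kl_aux F _ _ _ E _ _ _ _ h2 (Fintype.ofFinite _) k _ ψ hψ
    c d hc hd t
  have hs : (((nonsplit h2 : Tor F).s : ℤ) : k) = -1 := by
    change ((-1 : ℤ) : k) = -1
    simp
  rw [hs]
  refine hr1.trans ?_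
  congr 1
  split_ifs with h
  · exact hr2 h
  · exact hr3 h

end Ext

end Vale.Agent.P180.R2.H12.Sl
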