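import Vale.Agent.P180.R2.H12.SlM

/-!
P180 R2 H12: bounds for corners of a block in characteristic zero: characters of a subgroup with
the trivial intersection property.
-/

set_option linter.all false

namespace Vale.Agent.P180.R2.H12.Sl

open Finset Vale.Agent.P180 Vale.Agent.P180.R2.H799

section

variable {K : Type*} [Field K] {H : Type*} [Group H] [Fintype H] [IsAlgClosed K] [CharZero K]
variable {A : Type*} [CommGroup A] [Fintype A] {j : A →* H}

omit [IsAlgClosed K] [CharZero K] in
open Classical in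
theorem coeff_dd (δ : A → K) (c : K) (h : H) :
    ((c • ∑ a : A, MonoidAlgebra.single (j a) (δ a⁻¹)) * MonoidAlgebra.single h 1 *
      (c • ∑ a : A, MonoidAlgebra.single (j a) (δ a⁻¹))).coeff h =
    c * c * ∑ a : A, ∑ b : A, if j a * h * j b = h then δ a⁻¹ * δ b⁻¹ else 0 := by
  rw [smul_mul_assoc, smul_mul_assoc, mul_smul_comm, smul_smul, Finset.sum_mul,
    Finset.sum_mul_sum, MonoidAlgebra.coeff_smul, Finsupp.smul_apply, smul_eq_mul]
  congr 1
  rw [MonoidAlgebra.coeff_sum, Finsupp.finset_sum_apply]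
  refine Finset.sum_congr rfl fun a _ => ?_
  rw [MonoidAlgebra.coeff_sum, Finsupp.finset_sum_apply]
  refine Finset.sum_congr rfl fun b _ => ?_
  rw [MonoidAlgebra.single_mul_single, MonoidAlgebra.single_mul_single, mul_one,
    MonoidAlgebra.coeff_single, Finsupp.single_apply]

open Classical in
/-- The trace form of the difference of two characters. -/
theorem tf_diff (hj : Function.Injective j) (Z₀ : Subgroup A)
    (hTI : ∀ (h : H) (a b : A), j a * h = h * j b → a ∉ Z₀ →
      h ∈ Subgroup.normalizer (j.range : Set H))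
    (θ θ' : A →* Kˣ) (h0 : ∀ a ∈ Z₀, θ a = θ' a) :
    ∃ z : ℤ, z ≤ 2 * (Nat.card (Subgroup.normalizer (j.range : Set H)) : ℤ) ∧
      (Fintype.card A : K) * tf (EK j θ - EK j θ') (EK j θ - EK j θ') = z := by
  obtain ⟨c, hcd⟩ : ∃ c : K, c = (Fintype.card A : K)⁻¹ := ⟨_, rfl⟩
  have hc : c * Fintype.card A = 1 := by rw [hcd]; exact inv_card
  obtain ⟨δ, hδ⟩ : ∃ δ : A → K, δ = fun a => cf θ a - cf θ' a := ⟨_, rfl⟩
  have hx : EK j θ - EK j θ' = c • ∑ a : A, MonoidAlgebra.single (j a) (δ a⁻¹) := by
    rw [EK, EK, EX, EX, ← smul_sub, ← Finset.sum_sub_distrib, hcd]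
    congr 1
    refine Finset.sum_congr rfl fun a _ => ?_
    rw [hδ, MonoidAlgebra.single_sub]
  -- the values
  have key : ∀ h : H, ∃ z : ℤ, z ≤ 2 ∧ (h ∉ Subgroup.normalizer (j.range : Set H) → z = 0) ∧
      (Fintype.card A : K) * ((EK j θ - EK j θ') * MonoidAlgebra.single h 1 *
        (EK j θ - EK j θ')).coeff h = z := by
    intro h
    rw [hx, coeff_dd]
    by_cases hN : h ∈ Subgroup.normalizer (j.range : Set H)
    · have hσ : ∀ a : A, ∃ b : A, j b = h⁻¹ * j a * h := by
        intro a
        have h1 : h⁻¹ ∈ Subgroup.normalizer (j.range : Set H) := Subgroup.inv_mem _ hN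
        have h2 := (Subgroup.mem_normalizer_iff.mp h1 (j a)).mp ⟨a, rfl⟩
        rw [inv_inv] at h2
        exact h2
      choose s hs using hσ
      let σ : A →* A :=
        { toFun := s
          map_one' := hj (by rw [hs, map_one]; group)
          map_mul' := fun a b => hj (by rw [map_mul, hs, hs, hs, map_mul]; group) }
      have hσ' : ∀ a, j (σ a) = h⁻¹ * j a * h := hs
      have h3 : ∀ a : A, ∑ b : A, (if j a * h * j b = h then δ a⁻¹ * δ b⁻¹ else 0) =
          δ a⁻¹ * δ (σ a) := by
        intro a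
        rw [Finset.sum_eq_single (σ a)⁻¹]
        · rw [if_pos, inv_inv]
          rw [map_inv, hσ']
          group
        · intro b _ hb
          rw [if_neg]
          intro h4
          apply hb
          apply hj
          rw [map_inv, hσ']
          have h5 : j b = h⁻¹ * (j a)⁻¹ * h := by
            calc j b = h⁻¹ * (j a)⁻¹ * (j a * h * j b) := by group
              _ = _ := by rw [h4]
          rw [h5]
          group
        · intro h4
          exact absurd (Finset.mem_univ _) h4
      rw [Finset.sum_congr rfl fun a _ => h3 a]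
      have h4 : ∀ χ χ' : A →* Kˣ, ∑ a : A, cf χ a⁻¹ * cf χ' (σ a) =
          if χ⁻¹ * χ'.comp σ = 1 then (Fintype.card A : K) else 0 := by
        intro χ χ'
        rw [← sum_cf]
        refine Finset.sum_congr rfl fun a _ => ?_
        rw [cf_mul, cf_inv]
        rfl
      obtain ⟨z, hz2, h5⟩ : ∃ z : ℤ, z ≤ 2 ∧
          ∑ a : A, δ a⁻¹ * δ (σ a) = (Fintype.card A : K) * (z : K) := by
        refine ⟨(if θ⁻¹ * θ.comp σ = 1 then 1 else 0) + (if θ'⁻¹ * θ'.comp σ = 1 then 1 else 0) -
            (if θ⁻¹ * θ'.comp σ = 1 then 1 else 0) - (if θ'⁻¹ * θ.comp σ = 1 then 1 else 0),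
          by split_ifs <;> norm_num, ?_⟩
        have h6 : ∑ a : A, δ a⁻¹ * δ (σ a) = ∑ a : A, cf θ a⁻¹ * cf θ (σ a) +
            ∑ a : A, cf θ' a⁻¹ * cf θ' (σ a) - ∑ a : A, cf θ a⁻¹ * cf θ' (σ a) -
            ∑ a : A, cf θ' a⁻¹ * cf θ (σ a) := by
          rw [← Finset.sum_add_distrib, ← Finset.sum_sub_distrib, ← Finset.sum_sub_distrib]
          refine Finset.sum_congr rfl fun a _ => ?_
          rw [hδ]
          ring
        rw [h6, h4, h4, h4, h4]
        split_ifs <;> push_cast <;> ring
      refine ⟨z, hz2, fun h' => absurd hN h', ?_⟩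
      rw [h5]
      linear_combination ((z : K) * (c * Fintype.card A + 1)) * hc
    · refine ⟨0, by norm_num, fun _ => rfl, ?_⟩
      rw [Int.cast_zero]
      have h3 : ∑ a : A, ∑ b : A, (if j a * h * j b = h then δ a⁻¹ * δ b⁻¹ else 0) = 0 := by
        refine Finset.sum_eq_zero fun a _ => Finset.sum_eq_zero fun b _ => ?_
        split_ifs with h4
        · have h5 : a ∈ Z₀ := by
            by_contra h6
            apply hN
            apply hTI h a b⁻¹ _ h6
            rw [map_inv]
            calc j a * h = (j a * h * j b) * (j b)⁻¹ := by group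
              _ = _ := by rw [h4]
          have h6 : δ a⁻¹ = 0 := by
            rw [hδ]
            change cf θ a⁻¹ - cf θ' a⁻¹ = 0
            rw [cf_apply, cf_apply, h0 _ (Z₀.inv_mem h5), sub_self]
          rw [h6, zero_mul]
        · rfl
      rw [h3, mul_zero, mul_zero]
  choose z hz1 hz2 hz3 using key
  refine ⟨∑ h : H, z h, ?_, ?_⟩
  · have h1 : ∑ h : H, z h ≤ ∑ h : H, (if h ∈ Subgroup.normalizer (j.range : Set H) then 2 else 0) := by
      refine Finset.sum_le_sum fun h _ => ?_
      split_ifs with h2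
      · exact hz1 h
      · exact le_of_eq (hz2 h h2)
    refine h1.trans (le_of_eq ?_)
    rw [← Finset.sum_filter, Finset.sum_const, nsmul_eq_mul, mul_comm]
    congr 2
    rw [Nat.card_eq_fintype_card, Fintype.card_subtype]
  · rw [tf, Finset.mul_sum]
    push_cast
    exact Finset.sum_congr rfl fun h _ => hz3 h

end

end Vale.Agent.P180.R2.H12.Sl
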