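import Vale.Agent.P180.R2.H12.SlN

/-!
P180 R2 H12: bounds for corners of a block in characteristic zero.
-/

set_option linter.all false

namespace Vale.Agent.P180.R2.H12.Sl

open Finset Vale.Agent.P180 Vale.Agent.P180.R2.H799

section

variable {K : Type*} [Field K] {H : Type*} [Group H] [Fintype H] [IsAlgClosed K] [CharZero K]

/-- the idempotent of a character -/
noncomputable def EK {A : Type*} [CommGroup A] [Fintype A] (j : A →* H) (χ : A →* Kˣ) :
    MonoidAlgebra K H := EX j (cf χ) (Fintype.card A : K)⁻¹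

omit [IsAlgClosed K] in
theorem inv_card {A : Type*} [CommGroup A] [Fintype A] :
    (Fintype.card A : K)⁻¹ * Fintype.card A = 1 := by
  apply inv_mul_cancel₀
  have : Fintype.card A ≠ 0 := Fintype.card_ne_zero
  exact_mod_cast this

omit [IsAlgClosed K] in
theorem EK_idem {A : Type*} [CommGroup A] [Fintype A] (j : A →* H) (χ : A →* Kˣ) :
    EK j χ * EK j χ = EK j χ := EX_idem j _ inv_card

omit [IsAlgClosed K] in
theorem B_idem {B f : MonoidAlgebra K H} (hBc : ∀ x, x * B = B * x) (hBB : B * B = B)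
    (hf : f * f = f) : B * f * (B * f) = B * f := by
  rw [mul_assoc, ← mul_assoc f B, hBc, mul_assoc, hf, ← mul_assoc, hBB]

theorem N_bound {B : MonoidAlgebra K H} (hBc : ∀ x, x * B = B * x) (hBB : B * B = B)
    {A : Type*} [CommGroup A] [Fintype A] {j : A →* H} (hj : Function.Injective j) {C w : ℕ}
    (hw : Fintype.card H ≤ w * Fintype.card A)
    (hC : ∀ χ : A →* Kˣ, χ ≠ 1 → Module.finrank K
      (NN (⊤ : Subalgebra K (MonoidAlgebra K H)) (B * EK j χ) (B * EK j χ)) ≤ C) :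
    Module.finrank K (NN (⊤ : Subalgebra K (MonoidAlgebra K H)) B B) ≤
      2 * w + 2 * (Fintype.card A * (Fintype.card A * C)) := by
  classical
  have := Fintype.ofFinite (A →* Kˣ)
  obtain ⟨n, S, t, h1, h2, h3⟩ := exists_m hBc hBB
  choose m hm using fun (χ : A →* Kˣ) => h3 (EK j χ) (EK_idem j χ)
  obtain ⟨m1, hm1⟩ : ∃ m1 : Fin n → ℕ, ∀ i, t i 1 = m1 i := by
    choose m1 hm1 using h3 1 (one_mul 1)
    exact ⟨m1, hm1⟩
  have hsum : ∀ i, m1 i = ∑ χ : A →* Kˣ, m χ i := by
    intro i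
    have h4 : (m1 i : K) = ((∑ χ : A →* Kˣ, m χ i : ℕ) : K) := by
      rw [← hm1 i, ← EX_sum (R := K) j inv_card, map_sum]
      push_cast
      exact Finset.sum_congr rfl fun χ _ => hm χ i
    exact_mod_cast h4
  have hD : ∀ χ : A →* Kˣ, Module.finrank K
      (NN (⊤ : Subalgebra K (MonoidAlgebra K H)) (B * EK j χ) (B * EK j χ)) =
      ∑ i ∈ S, m χ i ^ 2 := by
    intro χ
    have h4 := finrank_corner_eq_tf (B_idem hBc hBB (EK_idem j χ))
    rw [h2] at h4
    have h5 : ((∑ i ∈ S, m χ i ^ 2 : ℕ) : K) = ∑ i ∈ S, t i (EK j χ) * t i (EK j χ) := by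
      push_cast
      exact Finset.sum_congr rfl fun i _ => by rw [hm, sq]
    rw [← h5] at h4
    exact_mod_cast h4
  have hDB : Module.finrank K (NN (⊤ : Subalgebra K (MonoidAlgebra K H)) B B) =
      ∑ i ∈ S, m1 i ^ 2 := by
    have h4 := finrank_corner_eq_tf hBB
    have h6 := h2 1 1
    rw [mul_one] at h6
    rw [h6] at h4
    have h5 : ((∑ i ∈ S, m1 i ^ 2 : ℕ) : K) = ∑ i ∈ S, t i 1 * t i 1 := by
      push_cast
      exact Finset.sum_congr rfl fun i _ => by rw [hm1, sq]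
    rw [← h5] at h4
    exact_mod_cast h4
  -- the trivial character
  have hU : Fintype.card A * ∑ i, m 1 i * m1 i = Fintype.card H := by
    have h4 : ((∑ i, m 1 i * m1 i : ℕ) : K) = tf (EK j 1) 1 := by
      rw [h1]
      push_cast
      exact Finset.sum_congr rfl fun i _ => by rw [hm, hm1]
    rw [tf_one, EK, EX_coeff_one hj] at h4
    have h5 : ((Fintype.card A * ∑ i, m 1 i * m1 i : ℕ) : K) = (Fintype.card H : K) := by
      rw [Nat.cast_mul, h4, mul_left_comm, mul_comm (Fintype.card A : K), inv_card, mul_one]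
    exact_mod_cast h5
  have hA : 0 < Fintype.card A := Fintype.card_pos
  have hU' : ∑ i ∈ S, m 1 i ^ 2 ≤ w := by
    have h4 : ∑ i, m 1 i * m1 i ≤ w := by
      by_contra hcon
      push Not at hcon
      have h5 : Fintype.card A * w < Fintype.card A * ∑ i, m 1 i * m1 i :=
        Nat.mul_lt_mul_of_pos_left hcon hA
      rw [hU, mul_comm] at h5
      omega
    refine le_trans ?_ h4
    refine (Finset.sum_le_sum_of_subset (Finset.subset_univ S)).trans ?_
    refine Finset.sum_le_sum fun i _ => ?_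
    rw [sq]
    apply Nat.mul_le_mul_left
    rw [hsum]
    exact Finset.single_le_sum (f := fun χ => m χ i) (fun _ _ => Nat.zero_le _)
      (Finset.mem_univ (1 : A →* Kˣ))
  set X' : Finset (A →* Kˣ) := Finset.univ.erase 1 with hX'
  have hcardX : X'.card ≤ Fintype.card A := by
    rw [hX', ← card_dual (R := K) (A := A)]
    exact (Finset.card_erase_le).trans (le_of_eq Finset.card_univ)
  have hsplit : ∀ i, m1 i = m 1 i + ∑ χ ∈ X', m χ i := by
    intro i
    rw [hsum, hX']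
    exact (Finset.add_sum_erase _ (fun χ => m χ i) (Finset.mem_univ _)).symm
  rw [hDB]
  have hi : ∀ i, m1 i ^ 2 ≤ 2 * m 1 i ^ 2 + 2 * (Fintype.card A * ∑ χ ∈ X', m χ i ^ 2) := by
    intro i
    have h4 : (∑ χ ∈ X', m χ i) ^ 2 ≤ Fintype.card A * ∑ χ ∈ X', m χ i ^ 2 :=
      (sq_sum_le_card_mul_sum_sq).trans (Nat.mul_le_mul_right _ hcardX)
    rw [hsplit]
    have h5 : (m 1 i + ∑ χ ∈ X', m χ i) ^ 2 ≤ 2 * ((m 1 i) ^ 2 + (∑ χ ∈ X', m χ i) ^ 2) :=
      add_sq_le
    omega
  refine (Finset.sum_le_sum fun i _ => hi i).trans ?_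
  rw [Finset.sum_add_distrib, ← Finset.mul_sum, ← Finset.mul_sum, ← Finset.mul_sum]
  refine Nat.add_le_add (Nat.mul_le_mul_left _ hU') (Nat.mul_le_mul_left _
    (Nat.mul_le_mul_left _ ?_))
  rw [Finset.sum_comm]
  calc ∑ χ ∈ X', ∑ i ∈ S, m χ i ^ 2 ≤ ∑ χ ∈ X', C := by
        refine Finset.sum_le_sum fun χ hχ => ?_
        rw [← hD]
        exact hC χ (Finset.ne_of_mem_erase hχ)
    _ = X'.card * C := by rw [Finset.sum_const, smul_eq_mul]
    _ ≤ Fintype.card A * C := Nat.mul_le_mul_right _ hcardX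

end

end Vale.Agent.P180.R2.H12.Sl
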