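import Vale.Agent.P180.R2.H12.SlT
import Mathlib.GroupTheory.FiniteAbelian.Duality
import Mathlib.RingTheory.RootsOfUnity.AlgebraicallyClosed

/-!
P180 R2 H12: bounds for corners of a block in characteristic zero.
-/

set_option linter.all false

namespace Vale.Agent.P180.R2.H12.Sl

open Finset Vale.Agent.P180 Vale.Agent.P180.R2.H799

section Dual

variable {R : Type*} [Field R] {A : Type*} [CommGroup A] [Fintype A] {H : Type*} [Group H]

/-- the character as a map to the field -/
def cf (χ : A →* Rˣ) : A →* R := (Units.coeHom R).comp χ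

theorem cf_apply (χ : A →* Rˣ) (a : A) : cf χ a = (χ a : R) := rfl

theorem cf_mul (χ χ' : A →* Rˣ) (a : A) : cf (χ * χ') a = cf χ a * cf χ' a := by
  rw [cf_apply, cf_apply, cf_apply, MonoidHom.mul_apply, Units.val_mul]

theorem cf_inv (χ : A →* Rˣ) (a : A) : cf χ a⁻¹ = cf χ⁻¹ a := by
  rw [cf_apply, cf_apply, MonoidHom.inv_apply, map_inv]

open Classical in
theorem sum_cf (χ : A →* Rˣ) : ∑ a, cf χ a = if χ = 1 then (Fintype.card A : R) else 0 := by
  rw [sum_hom_units (cf χ)]
  have h1 : cf χ = 1 ↔ χ = 1 := by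
    constructor
    · intro h
      ext a
      have := congrArg (fun f : A →* R => f a) h
      exact this
    · rintro rfl
      ext a
      exact Units.val_one
  by_cases h : χ = 1
  · rw [if_pos h, if_pos (h1.mpr h)]
  · rw [if_neg h, if_neg (fun h' => h (h1.mp h')), Nat.cast_zero]

variable [HasEnoughRootsOfUnity R (Monoid.exponent A)] [Fintype (A →* Rˣ)]

theorem sum_dual {a : A} (ha : a ≠ 1) : ∑ χ : A →* Rˣ, cf χ a = 0 := by
  obtain ⟨φ, hφ⟩ := CommGroup.exists_apply_ne_one_of_hasEnoughRootsOfUnity A R ha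
  have h1 : ∑ χ : A →* Rˣ, cf χ a = cf φ a * ∑ χ : A →* Rˣ, cf χ a := by
    conv_lhs => rw [← Equiv.sum_comp (Equiv.mulLeft φ)]
    rw [Finset.mul_sum]
    refine Finset.sum_congr rfl fun χ _ => ?_
    rw [Equiv.coe_mulLeft, cf_mul]
  have h2 : (cf φ a - 1) * ∑ χ : A →* Rˣ, cf χ a = 0 := by
    rw [sub_mul, ← h1, one_mul, sub_self]
  rcases mul_eq_zero.mp h2 with h | h
  · exact absurd (Units.ext (sub_eq_zero.mp h)) hφ
  · exact h

theorem card_dual : Fintype.card (A →* Rˣ) = Fintype.card A := by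
  rw [← Nat.card_eq_fintype_card, ← Nat.card_eq_fintype_card,
    CommGroup.card_monoidHom_of_hasEnoughRootsOfUnity]

theorem EX_sum (j : A →* H) {c : R} (hc : c * Fintype.card A = 1) :
    ∑ χ : A →* Rˣ, EX j (cf χ) c = 1 := by
  classical
  simp only [EX]
  rw [← Finset.smul_sum, Finset.sum_comm]
  have h1 : ∀ a : A, ∑ χ : A →* Rˣ, MonoidAlgebra.single (j a) (cf χ a⁻¹) =
      if a = 1 then (Fintype.card A : R) • (1 : MonoidAlgebra R H) else 0 := by
    intro a
    have h2 : ∑ χ : A →* Rˣ, MonoidAlgebra.single (j a) (cf χ a⁻¹) =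
        MonoidAlgebra.single (j a) (∑ χ : A →* Rˣ, cf χ a⁻¹) := by
      exact (map_sum (MonoidAlgebra.singleAddHom (j a)) _ _).symm
    rw [h2]
    split_ifs with h
    · rw [h, map_one, inv_one]
      have h3 : ∑ χ : A →* Rˣ, cf χ (1 : A) = Fintype.card A := by
        rw [Finset.sum_congr rfl fun χ _ => map_one (cf χ), Finset.sum_const, Finset.card_univ,
          nsmul_eq_mul, mul_one, card_dual]
      rw [h3, MonoidAlgebra.one_def, MonoidAlgebra.smul_single, smul_eq_mul, mul_one]
    · rw [sum_dual (fun h' => h (inv_eq_one.mp h')), MonoidAlgebra.single_zero]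
  rw [Finset.sum_congr rfl fun a _ => h1 a, Finset.sum_ite_eq' Finset.univ (1 : A),
    if_pos (Finset.mem_univ _), smul_smul, hc, one_smul]

end Dual

section TF

variable {K : Type*} [Field K] {H : Type*} [Group H] [Fintype H]

theorem tf_one (x : MonoidAlgebra K H) : tf x 1 = Fintype.card H * x.coeff 1 := by
  rw [tf]
  have h1 : ∀ h : H, (x * MonoidAlgebra.single h 1 * 1).coeff h = x.coeff 1 := by
    intro h
    rw [mul_one]
    have := MonoidAlgebra.coeff_mul_single_apply x (1 : K) h h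
    rw [this, mul_one, mul_inv_cancel]
  rw [Finset.sum_congr rfl fun h _ => h1 h, Finset.sum_const, Finset.card_univ, nsmul_eq_mul]

theorem EX_coeff_one {A : Type*} [CommGroup A] [Fintype A] {j : A →* H}
    (hj : Function.Injective j) (χ : A →* K) (c : K) : (EX j χ c).coeff 1 = c := by
  classical
  rw [EX, MonoidAlgebra.coeff_smul, Finsupp.smul_apply, MonoidAlgebra.coeff_sum,
    Finsupp.finset_sum_apply, Finset.sum_eq_single (1 : A)]
  · rw [inv_one, map_one χ, map_one j, MonoidAlgebra.coeff_single, Finsupp.single_apply,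
      if_pos rfl, smul_eq_mul, mul_one]
  · intro a _ ha
    rw [MonoidAlgebra.coeff_single, Finsupp.single_apply, if_neg]
    intro h
    exact ha (hj (h.trans (map_one j).symm))
  · intro h
    exact absurd (Finset.mem_univ _) h

variable [IsAlgClosed K] [CharZero K]

/-- The trace form of a block. -/
theorem exists_m {B : MonoidAlgebra K H} (hBc : ∀ x, x * B = B * x) (hBB : B * B = B) :
    ∃ (n : ℕ) (S : Finset (Fin n)) (t : Fin n → (MonoidAlgebra K H →ₗ[K] K)),
      (∀ x y, tf x y = ∑ i, t i x * t i y) ∧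
      (∀ x y, tf (B * x) (B * y) = ∑ i ∈ S, t i x * t i y) ∧
      (∀ f : MonoidAlgebra K H, f * f = f → ∀ i, ∃ m : ℕ, t i f = m) := by
  classical
  obtain ⟨n, t, h1, h2, h3⟩ := exists_tr (K := K) (H := H)
  refine ⟨n, univ.filter fun i => ∀ x, t i (B * x) = t i x, t, h1, ?_, h2⟩
  intro x y
  rw [h1, Finset.sum_filter]
  refine Finset.sum_congr rfl fun i _ => ?_
  split_ifs with h
  · rw [h, h]
  · rcases h3 B hBc hBB i with h4 | h4
    · rw [h4, zero_mul]
    · exact absurd h4 h

end TF

end Vale.Agent.P180.R2.H12.Sl
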