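import Vale.Agent.P180.R2.H12.SlL

/-!
P180 R2 H12: the corner of a block at a character of a subgroup with the trivial intersection
property.
-/

set_option linter.all false

namespace Vale.Agent.P180.R2.H12.Sl

open Finset Vale.Agent.P180 Vale.Agent.P180.R2.H799

section

variable {K : Type*} [Field K] {H : Type*} [Group H] [Fintype H] [IsAlgClosed K] [CharZero K]
variable {A : Type*} [CommGroup A] [Fintype A] {j : A →* H}

theorem D_bound {B : MonoidAlgebra K H} (hBc : ∀ x, x * B = B * x) (hBB : B * B = B)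
    (hj : Function.Injective j) (Z₀ : Subgroup A)
    (hTI : ∀ (h : H) (a b : A), j a * h = h * j b → a ∉ Z₀ →
      h ∈ Subgroup.normalizer (j.range : Set H))
    (θ : A →* Kˣ) {N w M : ℕ}
    (hN : Module.finrank K (NN (⊤ : Subalgebra K (MonoidAlgebra K H)) B B) ≤ N)
    (hw : Nat.card (Subgroup.normalizer (j.range : Set H)) ≤ w * Fintype.card A)
    (hM : Nat.card (A ⧸ Z₀) = M) :
    M ^ 2 * Module.finrank K
      (NN (⊤ : Subalgebra K (MonoidAlgebra K H)) (B * EK j θ) (B * EK j θ)) ≤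
      2 * N + 4 * w * M ^ 2 := by
  classical
  have := Fintype.ofFinite (A →* Kˣ)
  obtain ⟨n, S, t, h1, h2, h3⟩ := exists_m hBc hBB
  choose m hm using fun (χ : A →* Kˣ) => h3 (EK j χ) (EK_idem j χ)
  obtain ⟨m1, hm1⟩ : ∃ m1 : Fin n → ℕ, ∀ i, t i 1 = m1 i := by
    choose m1 hm1 using h3 1 (one_mul 1)
    exact ⟨m1, hm1⟩
  have hsum : ∀ i, m1 i = ∑ χ : A →* Kˣ, m χ i := by
    intro i
    have h4 : (m1 i : K) = ((∑ χ : A →* Kˣ, m χ i : ℕ) : K) := by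
      rw [← hm1 i, ← EX_sum (R := K) j inv_card, map_sum]
      push_cast
      exact Finset.sum_congr rfl fun χ _ => hm χ i
    exact_mod_cast h4
  have hD : Module.finrank K
      (NN (⊤ : Subalgebra K (MonoidAlgebra K H)) (B * EK j θ) (B * EK j θ)) =
      ∑ i ∈ S, m θ i ^ 2 := by
    have h4 := finrank_corner_eq_tf (B_idem hBc hBB (EK_idem j θ))
    rw [h2] at h4
    have h5 : ((∑ i ∈ S, m θ i ^ 2 : ℕ) : K) = ∑ i ∈ S, t i (EK j θ) * t i (EK j θ) := by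
      push_cast
      exact Finset.sum_congr rfl fun i _ => by rw [hm, sq]
    rw [← h5] at h4
    exact_mod_cast h4
  have hDB : Module.finrank K (NN (⊤ : Subalgebra K (MonoidAlgebra K H)) B B) =
      ∑ i ∈ S, m1 i ^ 2 := by
    have h4 := finrank_corner_eq_tf hBB
    have h6 := h2 1 1
    rw [mul_one] at h6
    rw [h6] at h4
    have h5 : ((∑ i ∈ S, m1 i ^ 2 : ℕ) : K) = ∑ i ∈ S, t i 1 * t i 1 := by
      push_cast
      exact Finset.sum_congr rfl fun i _ => by rw [hm1, sq]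
    rw [← h5] at h4
    exact_mod_cast h4
  -- the characters with the same restriction
  set Kr := (MonoidHom.domRestrictHom Z₀ Kˣ).ker with hKr
  have := Fintype.ofFinite Kr
  have hKM : Fintype.card Kr = M := by
    rw [← hM, ← CommGroup.card_domRestrictHom_ker (M := K) Z₀, Nat.card_eq_fintype_card]
  have hres : ∀ κ : Kr, ∀ a ∈ Z₀, θ a = (θ * (κ : A →* Kˣ)) a := by
    intro κ a ha
    have h4 : (κ : A →* Kˣ) a = 1 := by
      have h5 := MonoidHom.mem_ker.mp κ.2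
      exact congrArg (fun f : Z₀ →* Kˣ => f ⟨a, ha⟩) h5
    rw [MonoidHom.mul_apply, h4, mul_one]
  have hA : (0 : ℤ) < Fintype.card A := by exact_mod_cast Fintype.card_pos
  have hdiff : ∀ κ : Kr, ∑ i, ((m θ i : ℤ) - m (θ * (κ : A →* Kˣ)) i) ^ 2 ≤ 2 * w := by
    intro κ
    obtain ⟨z, hz1, hz2⟩ := tf_diff hj Z₀ hTI θ (θ * (κ : A →* Kˣ)) (hres κ)
    have h4 : (((Fintype.card A : ℤ) *
        ∑ i, ((m θ i : ℤ) - m (θ * (κ : A →* Kˣ)) i) ^ 2 : ℤ) : K) = (z : K) := by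
      rw [← hz2, h1]
      push_cast
      congr 1
      refine Finset.sum_congr rfl fun i _ => ?_
      rw [map_sub, hm, hm, sq]
    have h5 : (Fintype.card A : ℤ) *
        ∑ i, ((m θ i : ℤ) - m (θ * (κ : A →* Kˣ)) i) ^ 2 = z := by exact_mod_cast h4
    have h6 : (Nat.card (Subgroup.normalizer (j.range : Set H)) : ℤ) ≤ w * Fintype.card A := by
      exact_mod_cast hw
    have h7 : (Fintype.card A : ℤ) *
        ∑ i, ((m θ i : ℤ) - m (θ * (κ : A →* Kˣ)) i) ^ 2 ≤ (Fintype.card A : ℤ) * (2 * w) := by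
      rw [h5]
      linarith
    exact le_of_mul_le_mul_left h7 hA
  have hinj : ∀ i, ∑ κ : Kr, m (θ * (κ : A →* Kˣ)) i ≤ m1 i := by
    intro i
    rw [hsum]
    have h4 : ∑ κ : Kr, m (θ * (κ : A →* Kˣ)) i =
        ∑ χ ∈ Finset.univ.image (fun κ : Kr => θ * (κ : A →* Kˣ)), m χ i := by
      rw [Finset.sum_image]
      intro κ _ κ' _ h
      exact Subtype.ext (mul_left_cancel h)
    rw [h4]
    exact Finset.sum_le_sum_of_subset (Finset.subset_univ _)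
  -- pointwise
  have hpt : ∀ i, ((M : ℤ) * m θ i) ^ 2 ≤ 2 * (m1 i : ℤ) ^ 2 +
      2 * ((M : ℤ) * ∑ κ : Kr, ((m θ i : ℤ) - m (θ * (κ : A →* Kˣ)) i) ^ 2) := by
    intro i
    have h4 : (M : ℤ) * m θ i = ∑ κ : Kr, (m (θ * (κ : A →* Kˣ)) i : ℤ) +
        ∑ κ : Kr, ((m θ i : ℤ) - m (θ * (κ : A →* Kˣ)) i) := by
      rw [← Finset.sum_add_distrib, ← hKM]
      simp
    have h5 : (∑ κ : Kr, ((m θ i : ℤ) - m (θ * (κ : A →* Kˣ)) i)) ^ 2 ≤
        (M : ℤ) * ∑ κ : Kr, ((m θ i : ℤ) - m (θ * (κ : A →* Kˣ)) i) ^ 2 := by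
      have := sq_sum_le_card_mul_sum_sq (s := (Finset.univ : Finset Kr))
        (f := fun κ => ((m θ i : ℤ) - m (θ * (κ : A →* Kˣ)) i))
      rwa [Finset.card_univ, hKM] at this
    have h6 : (∑ κ : Kr, (m (θ * (κ : A →* Kˣ)) i : ℤ)) ^ 2 ≤ (m1 i : ℤ) ^ 2 := by
      apply pow_le_pow_left₀
      · exact Finset.sum_nonneg fun _ _ => by positivity
      · exact_mod_cast hinj i
    have h7 : ∀ x y : ℤ, (x + y) ^ 2 ≤ 2 * x ^ 2 + 2 * y ^ 2 := by
      intro x y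
      nlinarith [sq_nonneg (x - y)]
    rw [h4]
    refine (h7 _ _).trans ?_
    linarith
  have hfin : ((M : ℤ) ^ 2 * ∑ i ∈ S, (m θ i : ℤ) ^ 2) ≤ 2 * N + 4 * w * M ^ 2 := by
    have h4 : (M : ℤ) ^ 2 * ∑ i ∈ S, (m θ i : ℤ) ^ 2 = ∑ i ∈ S, ((M : ℤ) * m θ i) ^ 2 := by
      rw [Finset.mul_sum]
      exact Finset.sum_congr rfl fun i _ => by ring
    rw [h4]
    refine (Finset.sum_le_sum fun i _ => hpt i).trans ?_
    rw [Finset.sum_add_distrib, ← Finset.mul_sum, ← Finset.mul_sum, ← Finset.mul_sum]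
    have h5 : ∑ i ∈ S, (m1 i : ℤ) ^ 2 ≤ N := by
      have : ∑ i ∈ S, m1 i ^ 2 ≤ N := hDB ▸ hN
      exact_mod_cast this
    have h6 : ∑ i ∈ S, ∑ κ : Kr, ((m θ i : ℤ) - m (θ * (κ : A →* Kˣ)) i) ^ 2 ≤
        M * (2 * w) := by
      rw [Finset.sum_comm]
      have h7 : ∀ κ : Kr, ∑ i ∈ S, ((m θ i : ℤ) - m (θ * (κ : A →* Kˣ)) i) ^ 2 ≤ 2 * w := by
        intro κ
        refine le_trans ?_ (hdiff κ)
        exact Finset.sum_le_sum_of_subset_of_nonneg (Finset.subset_univ _)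
          fun _ _ _ => sq_nonneg _
      refine (Finset.sum_le_sum fun κ _ => h7 κ).trans (le_of_eq ?_)
      rw [Finset.sum_const, Finset.card_univ, hKM, nsmul_eq_mul]
    have h8 : (M : ℤ) * ∑ i ∈ S, ∑ κ : Kr, ((m θ i : ℤ) - m (θ * (κ : A →* Kˣ)) i) ^ 2 ≤
        M * (M * (2 * w)) := mul_le_mul_of_nonneg_left h6 (by positivity)
    nlinarith
  rw [hD]
  exact_mod_cast hfin

end

end Vale.Agent.P180.R2.H12.Sl
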