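import Vale.Agent.P180.R2.H12.SlG
import Vale.Agent.P180.R2.H12.SlI

/-!
P180 R2 H12: centralisers in `SL_2(F)`.
-/

set_option linter.all false

namespace Vale.Agent.P180.R2.H12.Sl

open Finset

variable {F : Type} [Field F] [Fintype F] [DecidableEq F]

/-- trace -/
def tra (g : SL2 F) : F := g 0 0 + g 1 1

/-- scalar matrices -/
def Sc (g : SL2 F) : Prop := g 0 1 = 0 ∧ g 1 0 = 0 ∧ g 0 0 = g 1 1

theorem comm_of {x g : SL2 F} {α β : F} (h1 : g 0 0 = α + β * x 0 0) (h2 : g 0 1 = β * x 0 1)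
    (h3 : g 1 0 = β * x 1 0) (h4 : g 1 1 = α + β * x 1 1) : g * x = x * g := by
  apply ext_e <;> simp only [mul_e, h1, h2, h3, h4] <;> ring

theorem exists_ab {x g : SL2 F} (hx : ¬ Sc x) (h : g * x = x * g) :
    ∃ α β : F, g 0 0 = α + β * x 0 0 ∧ g 0 1 = β * x 0 1 ∧ g 1 0 = β * x 1 0 ∧
      g 1 1 = α + β * x 1 1 := by
  have h00 : (g * x) 0 0 = (x * g) 0 0 := by rw [h]
  have h01 : (g * x) 0 1 = (x * g) 0 1 := by rw [h]
  have h10 : (g * x) 1 0 = (x * g) 1 0 := by rw [h]
  rw [mul_e, mul_e] at h00 h01 h10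
  by_cases h1 : x 0 1 = 0
  · by_cases h2 : x 1 0 = 0
    · have h3 : x 0 0 - x 1 1 ≠ 0 := fun h3 => hx ⟨h1, h2, sub_eq_zero.mp h3⟩
      rw [h1] at h01
      rw [h2] at h10
      have e1 : g 0 1 = 0 := by
        have : g 0 1 * (x 0 0 - x 1 1) = 0 := by linear_combination -h01
        exact (mul_eq_zero.mp this).resolve_right h3
      have e2 : g 1 0 = 0 := by
        have : g 1 0 * (x 0 0 - x 1 1) = 0 := by linear_combination h10
        exact (mul_eq_zero.mp this).resolve_right h3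
      refine ⟨g 0 0 - (g 0 0 - g 1 1) * (x 0 0 - x 1 1)⁻¹ * x 0 0,
        (g 0 0 - g 1 1) * (x 0 0 - x 1 1)⁻¹, ?_, ?_, ?_, ?_⟩
      · ring
      · rw [e1, h1, mul_zero]
      · rw [e2, h2, mul_zero]
      · have e3 : (x 0 0 - x 1 1)⁻¹ * (x 0 0 - x 1 1) = 1 := inv_mul_cancel₀ h3
        linear_combination (g 0 0 - g 1 1) * e3
    · have e3 : (x 1 0)⁻¹ * x 1 0 = 1 := inv_mul_cancel₀ h2
      refine ⟨g 0 0 - g 1 0 * (x 1 0)⁻¹ * x 0 0, g 1 0 * (x 1 0)⁻¹, ?_, ?_, ?_, ?_⟩
      · ring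
      · rw [h1, mul_zero]
        have : g 0 1 * x 1 0 = 0 := by
          rw [h1] at h00
          linear_combination h00
        exact (mul_eq_zero.mp this).resolve_right h2
      · linear_combination (-g 1 0) * e3
      · apply mul_right_cancel₀ h2
        linear_combination h10 + g 1 0 * (x 1 1 - x 0 0) * (-e3)
  · have e3 : (x 0 1)⁻¹ * x 0 1 = 1 := inv_mul_cancel₀ h1
    refine ⟨g 0 0 - g 0 1 * (x 0 1)⁻¹ * x 0 0, g 0 1 * (x 0 1)⁻¹, ?_, ?_, ?_, ?_⟩
    · ring
    · linear_combination (-g 0 1) * e3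
    · apply mul_right_cancel₀ h1
      linear_combination (-1 : F) * h00 - g 0 1 * x 1 0 * e3
    · apply mul_right_cancel₀ h1
      linear_combination (-1 : F) * h01 + g 0 1 * (x 1 1 - x 0 0) * (-e3)

theorem comm_trans {x g h : SL2 F} (hx : ¬ Sc x) (h1 : g * x = x * g) (h2 : h * x = x * h) :
    g * h = h * g := by
  obtain ⟨α, β, a1, a2, a3, a4⟩ := exists_ab hx h1
  obtain ⟨α', β', b1, b2, b3, b4⟩ := exists_ab hx h2
  apply ext_e <;> simp only [mul_e, a1, a2, a3, a4, b1, b2, b3, b4] <;> ring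

theorem Sc.comm {g : SL2 F} (hg : Sc g) (h : SL2 F) : g * h = h * g := by
  obtain ⟨h1, h2, h3⟩ := hg
  apply ext_e <;> simp only [mul_e, h1, h2, h3] <;> ring

/-- a lower unitriangular matrix -/
def lo : SL2 F := ⟨!![1, 0; 1, 1], by simp [Matrix.det_fin_two]⟩

theorem lo_00 : (lo : SL2 F) 0 0 = 1 := rfl
theorem lo_01 : (lo : SL2 F) 0 1 = 0 := rfl
theorem lo_10 : (lo : SL2 F) 1 0 = 1 := rfl
theorem lo_11 : (lo : SL2 F) 1 1 = 1 := rfl

theorem Sc.of_comm {g : SL2 F} (hg : ∀ h : SL2 F, g * h = h * g) : Sc g := by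
  have h1 := hg (u 1)
  have h3 := hg lo
  have a1 : (g * u 1 : SL2 F) 0 0 = (u 1 * g : SL2 F) 0 0 := by rw [h1]
  have a2 : (g * u 1 : SL2 F) 0 1 = (u 1 * g : SL2 F) 0 1 := by rw [h1]
  have a3 : (g * lo : SL2 F) 0 0 = (lo * g : SL2 F) 0 0 := by rw [h3]
  simp only [mul_e] at a1 a2 a3
  rw [u_00, u_01, u_10] at a1
  rw [u_00, u_01, u_11] at a2
  rw [lo_00, lo_01, lo_10] at a3
  refine ⟨by linear_combination a3, by linear_combination -a1, by linear_combination a2⟩

theorem Sc.eq {g : SL2 F} (hg : Sc g) : g = 1 ∨ g = zc := by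
  obtain ⟨h1, h2, h3⟩ := hg
  have hd := det_e g
  rw [h1, zero_mul, sub_zero, ← h3] at hd
  have h4 : (g 0 0 - 1) * (g 0 0 + 1) = 0 := by linear_combination hd
  rcases mul_eq_zero.mp h4 with h | h
  · left
    have h5 : g 0 0 = 1 := sub_eq_zero.mp h
    exact ext_e h5 h1 h2 (h3 ▸ h5)
  · right
    have h5 : g 0 0 = -1 := by linear_combination h
    exact ext_e h5 h1 h2 (h3 ▸ h5)

theorem sc_one : Sc (1 : SL2 F) := ⟨rfl, rfl, rfl⟩

theorem sc_zc : Sc (zc : SL2 F) := ⟨zc_01, zc_10, by rw [zc_00, zc_11]⟩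

theorem tra_comm (g h : SL2 F) : tra (g * h) = tra (h * g) := by
  rw [tra, tra, mul_e, mul_e, mul_e, mul_e]
  ring

theorem tra_conj (g h : SL2 F) : tra (g * h * g⁻¹) = tra h := by
  rw [tra_comm, ← mul_assoc, inv_mul_cancel, one_mul]

theorem ab_det {x g : SL2 F} {α β : F} (h1 : g 0 0 = α + β * x 0 0) (h2 : g 0 1 = β * x 0 1)
    (h3 : g 1 0 = β * x 1 0) (h4 : g 1 1 = α + β * x 1 1) :
    α ^ 2 + tra x * α * β + β ^ 2 = 1 := by
  have hg := det_e g
  have hx := det_e x
  rw [h1, h2, h3, h4] at hg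
  rw [tra]
  linear_combination hg - β ^ 2 * hx

/-- discriminants -/
theorem disc_ne {x g : SL2 F} (hx : ¬ Sc x) (hg : ¬ Sc g) (h : g * x = x * g)
    (ht : tra x ^ 2 ≠ 4) : tra g ^ 2 ≠ 4 := by
  obtain ⟨α, β, h1, h2, h3, h4⟩ := exists_ab hx h
  have hd := ab_det h1 h2 h3 h4
  have hβ : β ≠ 0 := by
    rintro rfl
    apply hg
    rw [zero_mul] at h2 h3
    rw [zero_mul, add_zero] at h1 h4
    exact ⟨h2, h3, h1.trans h4.symm⟩
  intro h5
  have h6 : β ^ 2 * (tra x ^ 2 - 4) = 0 := by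
    rw [tra, h1, h4] at h5
    rw [tra] at hd ⊢
    linear_combination h5 - 4 * hd
  rcases mul_eq_zero.mp h6 with h7 | h7
  · exact hβ (pow_eq_zero_iff two_ne_zero |>.mp h7)
  · exact ht (sub_eq_zero.mp h7)

/-- the explicit inverse -/
def vinv (g : SL2 F) : SL2 F := ⟨!![g 1 1, -(g 0 1); -(g 1 0), g 0 0], by
  rw [Matrix.det_fin_two]
  have := det_e g
  simp
  linear_combination this⟩

theorem vinv_00 (g : SL2 F) : vinv g 0 0 = g 1 1 := rfl
theorem vinv_01 (g : SL2 F) : vinv g 0 1 = -(g 0 1) := rfl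
theorem vinv_10 (g : SL2 F) : vinv g 1 0 = -(g 1 0) := rfl
theorem vinv_11 (g : SL2 F) : vinv g 1 1 = g 0 0 := rfl

theorem inv_e (g : SL2 F) : g⁻¹ 0 0 = g 1 1 ∧ g⁻¹ 0 1 = -(g 0 1) ∧ g⁻¹ 1 0 = -(g 1 0) ∧
    g⁻¹ 1 1 = g 0 0 := by
  have h : g⁻¹ = vinv g := by
    apply inv_eq_of_mul_eq_one_right
    have := det_e g
    apply ext_e
    · rw [mul_e, vinv_00, vinv_10]
      change _ = (1 : F)
      linear_combination this
    · rw [mul_e, vinv_01, vinv_11]
      change _ = (0 : F)
      ring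
    · rw [mul_e, vinv_00, vinv_10]
      change _ = (0 : F)
      ring
    · rw [mul_e, vinv_01, vinv_11]
      change _ = (1 : F)
      linear_combination this
  rw [h]
  exact ⟨rfl, rfl, rfl, rfl⟩

/-- elements with the same trace in a torus -/
theorem eq_or_inv {a g : SL2 F} (ha : ¬ Sc a) (h : g * a = a * g) (hta : tra a ^ 2 ≠ 4)
    (ht : tra g = tra a) : g = a ∨ g = a⁻¹ := by
  obtain ⟨α, β, h1, h2, h3, h4⟩ := exists_ab ha h
  have hd := ab_det h1 h2 h3 h4
  have hdet := det_e a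
  obtain ⟨i1, i2, i3, i4⟩ := inv_e a
  have e1 : 2 * α + β * tra a = tra a := by
    rw [tra, tra, h1, h4] at ht
    rw [tra]
    linear_combination ht
  have h6 : (tra a ^ 2 - 4) * ((β - 1) * (β + 1)) = 0 := by
    linear_combination (-4 : F) * hd + (2 * α + β * tra a + tra a) * e1
  have h7 : (β - 1) * (β + 1) = 0 :=
    (mul_eq_zero.mp h6).resolve_left (sub_ne_zero.mpr hta)
  rcases mul_eq_zero.mp h7 with h8 | h8
  · have hβ : β = 1 := sub_eq_zero.mp h8
    rw [hβ] at e1 hd h1 h2 h3 h4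
    have h9 : α * (α + tra a) = 0 := by linear_combination hd
    by_cases hα : α = 0
    · left
      rw [hα] at h1 h4
      exact ext_e (by rw [h1]; ring) (by rw [h2]; ring) (by rw [h3]; ring) (by rw [h4]; ring)
    · right
      have h10 : α + tra a = 0 := (mul_eq_zero.mp h9).resolve_left hα
      have h20 : (2 : F) = 0 := by
        have : (2 : F) * α = 0 := by linear_combination e1
        exact (mul_eq_zero.mp this).resolve_right hα
      rw [tra] at h10
      apply ext_e
      · rw [h1, i1]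
        linear_combination h10 - a 1 1 * h20
      · rw [h2, i2]
        linear_combination a 0 1 * h20
      · rw [h3, i3]
        linear_combination a 1 0 * h20
      · rw [h4, i4]
        linear_combination h10 - a 0 0 * h20
  · have hβ : β = -1 := by linear_combination h8
    rw [hβ] at e1 hd h1 h2 h3 h4
    have h9 : α * (α - tra a) = 0 := by linear_combination hd
    by_cases hα : α - tra a = 0
    · right
      rw [tra] at hα
      apply ext_e
      · rw [h1, i1]
        linear_combination hα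
      · rw [h2, i2]
        ring
      · rw [h3, i3]
        ring
      · rw [h4, i4]
        linear_combination hα
    · left
      have h10 : α = 0 := (mul_eq_zero.mp h9).resolve_right hα
      have h20 : (2 : F) = 0 := by
        have : (2 : F) * (α - tra a) = 0 := by linear_combination e1
        exact (mul_eq_zero.mp this).resolve_right hα
      rw [h10] at h1 h4
      apply ext_e
      · rw [h1]
        linear_combination (-a 0 0) * h20
      · rw [h2]
        linear_combination (-a 0 1) * h20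
      · rw [h3]
        linear_combination (-a 1 0) * h20
      · rw [h4]
        linear_combination (-a 1 1) * h20

/-- powers of unipotent elements up to sign -/
theorem pow_unip {x : SL2 F} {ε : F} (hε : ε * ε = 1) (ht : tra x = 2 * ε) (m : ℕ) :
    (x ^ m) 0 0 = ε ^ m * (1 + m * (ε * x 0 0 - 1)) ∧ (x ^ m) 0 1 = ε ^ m * (m * (ε * x 0 1)) ∧
      (x ^ m) 1 0 = ε ^ m * (m * (ε * x 1 0)) ∧
      (x ^ m) 1 1 = ε ^ m * (1 + m * (ε * x 1 1 - 1)) := by
  have hd := det_e x
  rw [tra] at ht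
  induction m with
  | zero =>
    rw [pow_zero]
    refine ⟨?_, ?_, ?_, ?_⟩
    · rw [Nat.cast_zero, pow_zero]
      change (1 : F) = _
      ring
    · rw [Nat.cast_zero, pow_zero]
      change (0 : F) = _
      ring
    · rw [Nat.cast_zero, pow_zero]
      change (0 : F) = _
      ring
    · rw [Nat.cast_zero, pow_zero]
      change (1 : F) = _
      ring
  | succ m ih =>
    obtain ⟨h1, h2, h3, h4⟩ := ih
    rw [pow_succ x m]
    simp only [mul_e, h1, h2, h3, h4, Nat.cast_succ]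
    refine ⟨?_, ?_, ?_, ?_⟩
    · linear_combination (ε ^ m * (m * ε * x 0 0)) * ht - (ε ^ m * (m * ε)) * hd +
        (ε ^ m * (x 0 0 * (m - 1))) * hε
    · linear_combination (ε ^ m * (m * ε * x 0 1)) * ht + (ε ^ m * (x 0 1 * (m - 1))) * hε
    · linear_combination (ε ^ m * (m * ε * x 1 0)) * ht + (ε ^ m * (x 1 0 * (m - 1))) * hε
    · linear_combination (ε ^ m * (m * ε * x 1 1)) * ht - (ε ^ m * (m * ε)) * hd +
        (ε ^ m * (x 1 1 * (m - 1))) * hε

/-- elements of order prime to the characteristic modulo the centre -/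
theorem disc_of_pow {x : SL2 F} (hx : ¬ Sc x) {m : ℕ} (hm : (m : F) ≠ 0) (h : Sc (x ^ m)) :
    tra x ^ 2 ≠ 4 := by
  intro ht
  obtain ⟨ε, hε, hε'⟩ : ∃ ε : F, ε * ε = 1 ∧ tra x = 2 * ε := by
    have h1 : (tra x - 2) * (tra x + 2) = 0 := by linear_combination ht
    rcases mul_eq_zero.mp h1 with h2 | h2
    · exact ⟨1, by ring, by linear_combination h2⟩
    · exact ⟨-1, by ring, by linear_combination h2⟩
  have hε0 : ε ≠ 0 := by
    rintro rfl
    rw [zero_mul] at hε
    exact zero_ne_one hε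
  obtain ⟨h1, h2, h3, h4⟩ := pow_unip hε hε' m
  obtain ⟨k1, k2, k3⟩ := h
  have hne : ε ^ m * (m * ε) ≠ 0 := mul_ne_zero (pow_ne_zero _ hε0) (mul_ne_zero hm hε0)
  apply hx
  refine ⟨?_, ?_, ?_⟩
  · rw [h2] at k1
    have : ε ^ m * (m * ε) * x 0 1 = 0 := by linear_combination k1
    exact (mul_eq_zero.mp this).resolve_left hne
  · rw [h3] at k2
    have : ε ^ m * (m * ε) * x 1 0 = 0 := by linear_combination k2
    exact (mul_eq_zero.mp this).resolve_left hne
  · rw [h1, h4] at k3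
    have : ε ^ m * (m * ε) * (x 0 0 - x 1 1) = 0 := by linear_combination k3
    exact sub_eq_zero.mp ((mul_eq_zero.mp this).resolve_left hne)

theorem sq_ne_one {x : SL2 F} (hx : ¬ Sc x) (ht : tra x ^ 2 ≠ 4) : x * x ≠ 1 := by
  intro h
  have hd := det_e x
  have a00 : (x * x : SL2 F) 0 0 = 1 := by rw [h]; rfl
  have a01 : (x * x : SL2 F) 0 1 = 0 := by rw [h]; rfl
  have a10 : (x * x : SL2 F) 1 0 = 0 := by rw [h]; rfl
  have a11 : (x * x : SL2 F) 1 1 = 1 := by rw [h]; rfl
  rw [mul_e] at a00 a01 a10 a11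
  have h0 : tra x = 0 := by
    by_contra h0
    apply hx
    rw [tra] at h0
    refine ⟨?_, ?_, ?_⟩
    · have : (x 0 0 + x 1 1) * x 0 1 = 0 := by linear_combination a01
      exact (mul_eq_zero.mp this).resolve_left h0
    · have : (x 0 0 + x 1 1) * x 1 0 = 0 := by linear_combination a10
      exact (mul_eq_zero.mp this).resolve_left h0
    · have : (x 0 0 + x 1 1) * (x 0 0 - x 1 1) = 0 := by linear_combination a00 - a11
      exact sub_eq_zero.mp ((mul_eq_zero.mp this).resolve_left h0)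
  apply ht
  rw [h0]
  rw [tra] at h0
  linear_combination 2 * hd + 2 * a00 - 2 * x 0 0 * h0

theorem card_le : Fintype.card (SL2 F) ≤ 2 * Fintype.card F ^ 2 * Fintype.card F := by
  let f : SL2 F → (F × F × F) ⊕ (F × F) := fun g =>
    if g 0 0 = 0 then Sum.inr (g 0 1, g 1 1) else Sum.inl (g 0 0, g 0 1, g 1 0)
  have hf : Function.Injective f := by
    intro g h hgh
    have hg := det_e g
    have hh := det_e h
    by_cases h1 : g 0 0 = 0
    · by_cases h2 : h 0 0 = 0
      · have h3 : (Sum.inr (g 0 1, g 1 1) : (F × F × F) ⊕ (F × F)) = Sum.inr (h 0 1, h 1 1) := by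
          simpa only [f, if_pos h1, if_pos h2] using hgh
        have h4 := Sum.inr.inj h3
        have h5 : g 0 1 = h 0 1 := congrArg Prod.fst h4
        have h6 : g 1 1 = h 1 1 := congrArg Prod.snd h4
        refine ext_e (h1.trans h2.symm) h5 ?_ h6
        rw [h1] at hg
        rw [h2, ← h5] at hh
        have h7 : g 0 1 ≠ 0 := by
          intro h8
          rw [h8] at hg
          apply zero_ne_one (α := F)
          linear_combination hg
        apply mul_left_cancel₀ h7
        linear_combination hh - hg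
      · have h3 : (Sum.inr (g 0 1, g 1 1) : (F × F × F) ⊕ (F × F)) =
            Sum.inl (h 0 0, h 0 1, h 1 0) := by
          simpa only [f, if_pos h1, if_neg h2] using hgh
        exact absurd h3 Sum.inr_ne_inl
    · by_cases h2 : h 0 0 = 0
      · have h3 : (Sum.inl (g 0 0, g 0 1, g 1 0) : (F × F × F) ⊕ (F × F)) =
            Sum.inr (h 0 1, h 1 1) := by
          simpa only [f, if_neg h1, if_pos h2] using hgh
        exact absurd h3 Sum.inl_ne_inr
      · have h3 : (Sum.inl (g 0 0, g 0 1, g 1 0) : (F × F × F) ⊕ (F × F)) =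
            Sum.inl (h 0 0, h 0 1, h 1 0) := by
          simpa only [f, if_neg h1, if_neg h2] using hgh
        have h4 := Sum.inl.inj h3
        have h5 : g 0 0 = h 0 0 := congrArg Prod.fst h4
        have h6 : g 0 1 = h 0 1 := congrArg (fun v => v.2.1) h4
        have h7 : g 1 0 = h 1 0 := congrArg (fun v => v.2.2) h4
        refine ext_e h5 h6 h7 ?_
        rw [← h5, ← h6, ← h7] at hh
        apply mul_left_cancel₀ h1
        linear_combination hg - hh
  have h1 := Fintype.card_le_of_injective f hf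
  rw [Fintype.card_sum, Fintype.card_prod, Fintype.card_prod] at h1
  refine h1.trans ?_
  have hq : 1 ≤ Fintype.card F := Fintype.card_pos
  nlinarith [Nat.mul_le_mul_left (Fintype.card F * Fintype.card F) hq]

/-- The order of a torus. -/
theorem card_cent {x : SL2 F} (hx : ¬ Sc x) (ht : tra x ^ 2 ≠ 4) :
    Nat.card (Subgroup.centralizer {x}) = Fintype.card F - 1 ∨
      Nat.card (Subgroup.centralizer {x}) = Fintype.card F + 1 := by
  classical
  have key : Nat.card (Subgroup.centralizer {x}) =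
      (univ.filter fun v : F × F => v.1 ^ 2 + tra x * v.1 * v.2 + v.2 ^ 2 = 1).card := by
    rw [← Fintype.card_coe, ← Nat.card_eq_fintype_card]
    have hmem : ∀ g : SL2 F, g ∈ Subgroup.centralizer {x} ↔ g * x = x * g := by
      intro g
      rw [Subgroup.mem_centralizer_singleton_iff]
    -- the matrix with given coordinates
    have hex : ∀ v : F × F, v.1 ^ 2 + tra x * v.1 * v.2 + v.2 ^ 2 = 1 →
        ∃ g : SL2 F, g 0 0 = v.1 + v.2 * x 0 0 ∧ g 0 1 = v.2 * x 0 1 ∧ g 1 0 = v.2 * x 1 0 ∧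
          g 1 1 = v.1 + v.2 * x 1 1 := by
      intro v hv
      refine ⟨⟨!![v.1 + v.2 * x 0 0, v.2 * x 0 1; v.2 * x 1 0, v.1 + v.2 * x 1 1], ?_⟩,
        rfl, rfl, rfl, rfl⟩
      rw [Matrix.det_fin_two]
      simp only [Matrix.of_apply, Matrix.cons_val', Matrix.cons_val_zero, Matrix.cons_val_one,
        Matrix.cons_val_fin_one]
      rw [tra] at hv
      have hd := det_e x
      linear_combination hv + v.2 ^ 2 * hd
    choose G hG using hex
    symm
    refine Nat.card_congr (Equiv.ofBijective (fun v => ⟨G v.1 (Finset.mem_filter.mp v.2).2, ?_⟩)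
      ⟨?_, ?_⟩)
    · obtain ⟨h1, h2, h3, h4⟩ := hG v.1 (Finset.mem_filter.mp v.2).2
      rw [hmem]
      exact comm_of h1 h2 h3 h4
    · intro v v' h
      have h5 := congrArg Subtype.val h
      dsimp only at h5
      obtain ⟨h1, h2, h3, h4⟩ := hG v.1 (Finset.mem_filter.mp v.2).2
      obtain ⟨k1, k2, k3, k4⟩ := hG v'.1 (Finset.mem_filter.mp v'.2).2
      rw [h5] at h1 h2 h3 h4
      rw [k1] at h1
      rw [k2] at h2
      rw [k3] at h3
      rw [k4] at h4
      have h6 : v.1.2 = v'.1.2 := by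
        by_contra h6
        apply hx
        have h7 : v.1.2 - v'.1.2 ≠ 0 := sub_ne_zero.mpr h6
        refine ⟨?_, ?_, ?_⟩
        · have : (v.1.2 - v'.1.2) * x 0 1 = 0 := by linear_combination -h2
          exact (mul_eq_zero.mp this).resolve_left h7
        · have : (v.1.2 - v'.1.2) * x 1 0 = 0 := by linear_combination -h3
          exact (mul_eq_zero.mp this).resolve_left h7
        · have : (v.1.2 - v'.1.2) * (x 0 0 - x 1 1) = 0 := by linear_combination -h1 + h4
          exact sub_eq_zero.mp ((mul_eq_zero.mp this).resolve_left h7)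
      rw [h6] at h1
      exact Subtype.ext (Prod.ext (add_right_cancel h1).symm h6)
    · rintro ⟨g, hg⟩
      obtain ⟨α, β, h1, h2, h3, h4⟩ := exists_ab hx ((hmem g).mp hg)
      have hv : (α, β) ∈ univ.filter fun v : F × F =>
          v.1 ^ 2 + tra x * v.1 * v.2 + v.2 ^ 2 = 1 :=
        Finset.mem_filter.mpr ⟨Finset.mem_univ _, ab_det h1 h2 h3 h4⟩
      refine ⟨⟨(α, β), hv⟩, Subtype.ext ?_⟩
      obtain ⟨k1, k2, k3, k4⟩ := hG (α, β) (Finset.mem_filter.mp hv).2
      exact ext_e (k1.trans h1.symm) (k2.trans h2.symm) (k3.trans h3.symm) (k4.trans h4.symm)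
  rw [key]
  exact card_sol ht

end Vale.Agent.P180.R2.H12.Sl
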