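import Vale.Agent.P180.R2.H12.SlO
import Vale.Agent.P180.R2.H12.SlS
import Vale.Agent.P180.R2.H12.SlD

/-!
P180 R2 H12: the dimension of a block of `SL_2(F)` over the group algebra of a `p'`-subgroup of a
torus (1).
-/

set_option linter.all false

namespace Vale.Agent.P180.R2.H12.Sl

open Finset Vale.Agent.P180 Vale.Agent.P180.H768.Gd Vale.Agent.P180.R2.H799
  Vale.Agent.P180.R2.H954.Hc

universe u

section Lift

variable {k : Type u} [Field k] [IsAlgClosed k] {p : ℕ} [Fact p.Prime] [CharP k p]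

theorem TT_injective : Function.Injective (TT k p) := by
  intro x y h
  have h1 : toKK k p (WittVector.teichmuller p x) = toKK k p (WittVector.teichmuller p y) := h
  have h2 : Function.Injective (toKK k p) := by
    intro v w hvw
    exact IsFractionRing.injective (WittVector p k) (FractionRing (WittVector p k))
      ((algebraMap (FractionRing (WittVector p k)) (KK k p)).injective hvw)
  have h3 : (WittVector.teichmuller p x).coeff 0 = (WittVector.teichmuller p y).coeff 0 := by
    rw [h2 h1]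
  rwa [WittVector.teichmuller_coeff_zero, WittVector.teichmuller_coeff_zero] at h3

/-- Every character of a `p'`-group in characteristic zero is a lift. -/
theorem TT_lift {A : Type} [CommGroup A] [Fintype A] (hA : (Fintype.card A : k) ≠ 0)
    (χ : A →* (KK k p)ˣ) : ∃ χ₀ : A →* kˣ, (TT k p).comp (cf χ₀) = cf χ := by
  classical
  have hcz := charZero_KK k p
  have hexp : ((Monoid.exponent A : ℕ) : k) ≠ 0 := by
    intro h
    apply hA
    have h1 : p ∣ Monoid.exponent A := (CharP.cast_eq_zero_iff k p _).mp h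
    have h2 : Monoid.exponent A ∣ Fintype.card A := by
      rw [← Nat.card_eq_fintype_card]
      exact Group.exponent_dvd_nat_card
    exact (CharP.cast_eq_zero_iff k p _).mpr (h1.trans h2)
  have : NeZero ((Monoid.exponent A : ℕ) : k) := ⟨hexp⟩
  have := Fintype.ofFinite (A →* kˣ)
  have := Fintype.ofFinite (A →* (KK k p)ˣ)
  let f : (A →* kˣ) → (A →* (KK k p)ˣ) := fun χ₀ => (Units.map (TT k p)).comp χ₀
  have hf : Function.Injective f := by
    intro χ χ' h
    ext a
    have h1 := congrArg (fun g : A →* (KK k p)ˣ => ((g a : (KK k p)ˣ) : KK k p)) h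
    exact TT_injective h1
  have hb : Function.Bijective f := (Fintype.bijective_iff_injective_and_card f).mpr
    ⟨hf, by rw [card_dual, card_dual]⟩
  obtain ⟨χ₀, hχ⟩ := hb.2 χ
  refine ⟨χ₀, ?_⟩
  rw [← hχ]
  rfl

end Lift

section PP

variable {G : Type*} [Group G] [Finite G] {p : ℕ}

theorem exists_pp (hp : p.Prime) (g : G) : ∃ i j : ℕ, g = g ^ i * g ^ j ∧
    (∃ a, (g ^ i) ^ p ^ a = 1) ∧ ¬ p ∣ orderOf (g ^ j) := by
  obtain ⟨a, m, hm, ho⟩ := Nat.exists_eq_pow_mul_and_not_dvd (orderOf_pos g).ne' p hp.ne_one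
  have hcop : Nat.Coprime (p ^ a) m := Nat.Coprime.pow_left a ((hp.coprime_iff_not_dvd).mpr hm)
  obtain ⟨i, hi1, hi2⟩ := Nat.chineseRemainder hcop 1 0
  obtain ⟨j, hj1, hj2⟩ := Nat.chineseRemainder hcop 0 1
  refine ⟨i, j, ?_, ⟨a, ?_⟩, ?_⟩
  · rw [← pow_add]
    conv_lhs => rw [← pow_one g]
    rw [pow_eq_pow_iff_modEq, ho]
    rw [← Nat.modEq_and_modEq_iff_modEq_mul hcop]
    exact ⟨(hi1.add hj1).symm, (hi2.add hj2).symm⟩
  · rw [← pow_mul]
    apply orderOf_dvd_iff_pow_eq_one.mp
    rw [ho, mul_comm i]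
    exact Nat.mul_dvd_mul_left _ ((Nat.modEq_zero_iff_dvd).mp hi2)
  · have h1 : (g ^ j) ^ m = 1 := by
      rw [← pow_mul]
      apply orderOf_dvd_iff_pow_eq_one.mp
      rw [ho, mul_comm j, mul_comm]
      exact Nat.mul_dvd_mul_left _ ((Nat.modEq_zero_iff_dvd).mp hj1)
    intro h2
    exact hm (h2.trans (orderOf_dvd_of_pow_eq_one h1))

end PP

section

variable {F : Type} [Field F] [Fintype F] [DecidableEq F]

/-- the unipotent group -/
def jU (F : Type) [Field F] [Fintype F] [DecidableEq F] : Multiplicative F →* SL2 F where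
  toFun a := u (Multiplicative.toAdd a)
  map_one' := by
    apply ext_e
    · rfl
    · rfl
    · rfl
    · rfl
  map_mul' a b := by rw [toAdd_mul, u_mul]

theorem jU_injective : Function.Injective (jU F) := by
  intro a b h
  have h1 : (jU F a) 0 1 = (jU F b) 0 1 := by rw [h]
  exact Multiplicative.toAdd.injective h1

theorem eP_eq {k : Type*} [Field k] (ψ : AddChar F k) :
    eP ψ = EX (jU F) ψ.toMonoidHom (Fintype.card (Multiplicative F) : k)⁻¹ := by
  rw [eP, EX, Fintype.card_multiplicative]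
  congr 1
  exact Fintype.sum_equiv Multiplicative.ofAdd _ _ fun y => rfl

/-- the torus of a nonscalar element: the decomposition -/
theorem card_torus_le {x : SL2 F} {p : ℕ} (hp : p.Prime) {A : Type*} [CommGroup A] [Fintype A]
    {j : A →* SL2 F} (hj : Function.Injective j)
    (hr : ∀ g, g ∈ j.range ↔ (g * x = x * g ∧ ¬ p ∣ orderOf g)) {P : Subgroup (SL2 F)}
    (hP : ∀ g, g ∈ P ↔ (g * x = x * g ∧ ∃ a, g ^ p ^ a = 1)) {n : ℕ} (hn : Nat.card P ≤ n) :
    Nat.card (Subgroup.centralizer {x}) ≤ n * Fintype.card A := by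
  classical
  have h1 : ∀ t : Subgroup.centralizer {x}, ∃ v : P × A, (v.1 : SL2 F) * j v.2 = t := by
    rintro ⟨t, ht⟩
    rw [Subgroup.mem_centralizer_singleton_iff] at ht
    obtain ⟨i, l, h2, h3, h4⟩ := exists_pp hp t
    have hc : ∀ m : ℕ, t ^ m * x = x * t ^ m := by
      intro m
      exact (show Commute t x from ht).pow_left m
    obtain ⟨a, ha⟩ := (hr (t ^ l)).mpr ⟨hc l, h4⟩
    refine ⟨(⟨t ^ i, (hP _).mpr ⟨hc i, h3⟩⟩, a), ?_⟩
    change t ^ i * j a = t
    rw [ha, ← h2]
  choose f hf using h1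
  have hfi : Function.Injective f := by
    intro t t' h
    apply Subtype.ext
    rw [← hf t, ← hf t', h]
  calc Nat.card (Subgroup.centralizer {x}) ≤ Nat.card (P × A) :=
        Nat.card_le_card_of_injective f hfi
    _ = Nat.card P * Fintype.card A := by rw [Nat.card_prod, Nat.card_eq_fintype_card (α := A)]
    _ ≤ n * Fintype.card A := Nat.mul_le_mul_right _ hn

/-- the trivial intersection property -/
theorem torus_TI {x : SL2 F} (hx : ¬ Sc x) {p : ℕ} {A : Type*} [CommGroup A]
    {j : A →* SL2 F} (hr : ∀ g, g ∈ j.range ↔ (g * x = x * g ∧ ¬ p ∣ orderOf g))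
    {h : SL2 F} {a b : A} (hab : j a * h = h * j b) (ha : ¬ Sc (j a)) :
    h ∈ Subgroup.normalizer (j.range : Set (SL2 F)) := by
  have hax := ((hr _).mp ⟨a, rfl⟩).1
  have hbx := ((hr _).mp ⟨b, rfl⟩).1
  have hb : ¬ Sc (j b) := by
    intro hb
    apply ha
    rw [hb.comm h |>.symm] at hab
    rwa [mul_right_cancel hab]
  have hord : ∀ g, orderOf (h * g * h⁻¹) = orderOf g := by
    intro g
    exact MulEquiv.orderOf_eq (MulAut.conj h) g
  have e1 : j a = h * j b * h⁻¹ := by rw [← hab, mul_inv_cancel_right]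
  rw [Subgroup.mem_normalizer_iff]
  intro v
  change v ∈ j.range ↔ h * v * h⁻¹ ∈ j.range
  rw [hr, hr, hord]
  constructor
  · rintro ⟨h1, h2⟩
    refine ⟨?_, h2⟩
    have h3 : v * j b = j b * v := comm_trans hx h1 hbx
    have h4 : (h * v * h⁻¹) * j a = j a * (h * v * h⁻¹) := by
      rw [e1]
      calc h * v * h⁻¹ * (h * j b * h⁻¹) = h * (v * j b) * h⁻¹ := by group
        _ = h * (j b * v) * h⁻¹ := by rw [h3]
        _ = _ := by group
    exact comm_trans ha h4 hax.symm
  · rintro ⟨h1, h2⟩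
    refine ⟨?_, h2⟩
    have h3 : (h * v * h⁻¹) * j a = j a * (h * v * h⁻¹) := comm_trans hx h1 hax
    have h4 : v * j b = j b * v := by
      rw [e1] at h3
      have h5 : h * (v * j b) * h⁻¹ = h * (j b * v) * h⁻¹ := by
        calc h * (v * j b) * h⁻¹ = h * v * h⁻¹ * (h * j b * h⁻¹) := by group
          _ = h * j b * h⁻¹ * (h * v * h⁻¹) := h3
          _ = _ := by group
      exact mul_left_cancel (mul_right_cancel h5)
    exact comm_trans hb h4 hbx.symm

theorem card_normalizer_le {x : SL2 F} (hx : ¬ Sc x) (ht : tra x ^ 2 ≠ 4) {p : ℕ} {A : Type*}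
    [CommGroup A] {j : A →* SL2 F}
    (hr : ∀ g, g ∈ j.range ↔ (g * x = x * g ∧ ¬ p ∣ orderOf g)) {a : A} (ha : ¬ Sc (j a)) :
    Nat.card (Subgroup.normalizer (j.range : Set (SL2 F))) ≤
      2 * Nat.card (Subgroup.centralizer {x}) := by
  classical
  have hax := ((hr _).mp ⟨a, rfl⟩).1
  have hta : tra (j a) ^ 2 ≠ 4 := disc_ne hx ha hax ht
  have hcen : ∀ g, g * j a = j a * g → g ∈ (Subgroup.centralizer {x} : Set (SL2 F)) := by
    intro g hg
    rw [SetLike.mem_coe, Subgroup.mem_centralizer_singleton_iff]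
    exact comm_trans ha hg hax.symm
  have htwo : ∀ h ∈ Subgroup.normalizer (j.range : Set (SL2 F)),
      h * j a * h⁻¹ = j a ∨ h * j a * h⁻¹ = (j a)⁻¹ := by
    intro h hh
    have h1 : h * j a * h⁻¹ ∈ j.range := (Subgroup.mem_normalizer_iff.mp hh (j a)).mp ⟨a, rfl⟩
    have h2 := ((hr _).mp h1).1
    exact eq_or_inv ha (comm_trans hx h2 hax) hta (tra_conj h (j a))
  by_cases hex : ∃ h₀ ∈ Subgroup.normalizer (j.range : Set (SL2 F)), h₀ * j a * h₀⁻¹ = (j a)⁻¹
  · obtain ⟨h₀, -, hh₀⟩ := hex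
    have hsub : (Subgroup.normalizer (j.range : Set (SL2 F)) : Set (SL2 F)) ⊆
        (Subgroup.centralizer {x} : Set (SL2 F)) ∪
          (fun g => h₀ * g) '' (Subgroup.centralizer {x} : Set (SL2 F)) := by
      intro h hh
      rcases htwo h hh with h1 | h1
      · left
        apply hcen
        calc h * j a = h * j a * h⁻¹ * h := by group
          _ = _ := by rw [h1]
      · right
        refine ⟨h₀⁻¹ * h, ?_, by group⟩
        apply hcen
        have h2 : h * j a = (j a)⁻¹ * h := by rw [← h1]; group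
        have h3 : h₀ * j a = (j a)⁻¹ * h₀ := by rw [← hh₀]; group
        have h4 : h₀⁻¹ * (j a)⁻¹ = j a * h₀⁻¹ := by
          calc h₀⁻¹ * (j a)⁻¹ = h₀⁻¹ * ((j a)⁻¹ * h₀) * h₀⁻¹ := by group
            _ = h₀⁻¹ * (h₀ * j a) * h₀⁻¹ := by rw [h3]
            _ = _ := by group
        rw [mul_assoc, h2, ← mul_assoc, h4, mul_assoc]
    have h1 := Set.ncard_le_ncard hsub (Set.toFinite _)
    have h2 := Set.ncard_union_le (Subgroup.centralizer {x} : Set (SL2 F))
      ((fun g => h₀ * g) '' (Subgroup.centralizer {x} : Set (SL2 F)))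
    have h3 := Set.ncard_image_le (f := fun g => h₀ * g)
      (Set.toFinite (Subgroup.centralizer {x} : Set (SL2 F)))
    have e1 : Nat.card (Subgroup.normalizer (j.range : Set (SL2 F))) =
      (Subgroup.normalizer (j.range : Set (SL2 F)) : Set (SL2 F)).ncard := rfl
    have e2 : Nat.card (Subgroup.centralizer {x}) =
      (Subgroup.centralizer {x} : Set (SL2 F)).ncard := rfl
    rw [e1, e2]
    omega
  · push Not at hex
    have hsub : Subgroup.normalizer (j.range : Set (SL2 F)) ≤ Subgroup.centralizer {x} := by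
      intro h hh
      rcases htwo h hh with h1 | h1
      · apply hcen
        calc h * j a = h * j a * h⁻¹ * h := by group
          _ = _ := by rw [h1]
      · exact absurd h1 (hex h hh)
    have := Nat.card_le_card_of_injective _ (Subgroup.inclusion_injective hsub)
    omega

end

end Vale.Agent.P180.R2.H12.Sl
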