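import Vale.Agent.P180.R2.H12.One
import Vale.Agent.P180.R2.H954.G1
import Mathlib.GroupTheory.Nilpotent

/-!
P180 R2 H12: a normal `p`-subgroup of the centraliser of a `p`-element of the defect group of a block
is small.
-/

set_option linter.all false

namespace Vale.Agent.P180.R2.H12.Sl

open Vale.Agent.P180 Vale.Agent.P180.H768.Gd Vale.Agent.P180.R2.H799 Vale.Agent.P180.R2.H954
  Vale.Agent.P180.R2.H12

section Grp

open scoped commutatorElement

variable {G : Type*} [Group G] [Finite G] {p : ℕ} [Fact p.Prime]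

/-- A normal subgroup `Q` of the `p`-group `R` contains an element fixed modulo `Z`. -/
theorem exists_fixed_mod {R Q Z : Subgroup G} (hR : IsPGroup p R) (hQR : Q ≤ R)
    (hQn : ∀ r ∈ R, ∀ x ∈ Q, r * x * r⁻¹ ∈ Q) {x₀ : G} (hx₀ : x₀ ∈ Q) (hx₀Z : x₀ ∉ Z) :
    ∃ x ∈ Q, x ∉ Z ∧ ∀ r ∈ R, r * x * r⁻¹ * x⁻¹ ∈ Z := by
  classical
  have hnil : Group.IsNilpotent R := hR.isNilpotent
  obtain ⟨N, hN⟩ := Subgroup.nilpotent_iff_lowerCentralSeries.mp hnil
  let P : ℕ → Prop := fun n => ∃ x : R, x ∈ (⊤ : Subgroup R).lowerCentralSeries n ∧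
    (x : G) ∈ Q ∧ (x : G) ∉ Z
  by_cases hZ1 : (1 : G) ∈ Z
  swap
  · exact absurd Z.one_mem hZ1
  have h0 : P 0 := ⟨⟨x₀, hQR hx₀⟩, Subgroup.mem_top _, hx₀, hx₀Z⟩
  have hNP : ¬ P N := by
    rintro ⟨x, hx, -, hx2⟩
    rw [hN, Subgroup.mem_bot] at hx
    apply hx2
    rw [hx]
    exact hZ1
  obtain ⟨n, hn, hn1⟩ : ∃ n, P n ∧ ¬ P (n + 1) := by
    by_contra hcon
    push Not at hcon
    apply hNP
    have : ∀ n, P n := by
      intro n
      induction n with
      | zero => exact h0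
      | succ n ih => exact hcon n ih
    exact this N
  obtain ⟨x, hx, hxQ, hxZ⟩ := hn
  refine ⟨x, hxQ, hxZ, ?_⟩
  intro r hr
  by_contra hcon
  apply hn1
  refine ⟨⟨r, hr⟩ * x * ⟨r, hr⟩⁻¹ * x⁻¹, ?_, Q.mul_mem (hQn r hr _ hxQ) (Q.inv_mem hxQ), hcon⟩
  have h1 : ⁅x, (⟨r, hr⟩ : R)⁆ ∈ (⊤ : Subgroup R).lowerCentralSeries (n + 1) :=
    Subgroup.commutator_mem_commutator hx (Subgroup.mem_top _)
  have h2 := Subgroup.inv_mem _ h1
  rw [commutatorElement_inv, commutatorElement_def] at h2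
  exact h2

end Grp

section Br

variable {k : Type*} [Field k] {p : ℕ} [Fact p.Prime] [CharP k p]

/-- Central idempotents are not killed by the Brauer homomorphism at a normal `p`-subgroup. -/
theorem br_normal_ne_zero [IsAlgClosed k] {H : Type} [Group H] [Finite H] {P : Subgroup H}
    (hPn : P.Normal) (hP : IsPGroup p P) {c : MonoidAlgebra k H} (hcF : c ∈ Fix (cj k H) ⊤)
    (hcc : c * c = c) (hc0 : c ≠ 0) : br P c ≠ 0 := by
  classical
  have hfin : FiniteDimensional k (MonoidAlgebra k H) :=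
    Module.Finite.equiv (MonoidAlgebra.coeffLinearEquiv k (M := H) (S := k)).symm
  obtain ⟨e, he, hce⟩ := exists_isPrimIn (ZAlg k (⊤ : Subgroup H)) ZAlg_comm hc0
  have heF : e ∈ Fix (cj k H) ⊤ := (mem_ZAlg.mp he.mem).2
  have hcZ : c ∈ ZAlg k (⊤ : Subgroup H) := mem_ZAlg.mpr ⟨SubAlg_top _, hcF⟩
  have hec : c * e = e := by
    have h1 : e * c = c * e := ZAlg_comm _ he.mem _ hcZ
    have h2 : (c * e) * (c * e) = c * e := by
      rw [mul_assoc, ← mul_assoc e, h1, mul_assoc c e e, he.idem.eq, ← mul_assoc, hcc]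
    rcases he.primitive (c * e) (Subalgebra.mul_mem _ hcZ he.mem) h2
      (by rw [mul_assoc, he.idem.eq]) with h3 | h3
    · exact absurd h3 hce
    · exact h3
  have htop : (⊤ : Subgroup H).Normal := inferInstance
  obtain ⟨D, ⟨hDp, -, a, -, -, haD, hea⟩, n, -, hn, hen⟩ :=
    KP.exists_min_cand (p := p) (N := (⊤ : Subgroup H)) (R := ⊤) le_top he heF
  have hPD : P ≤ D := op_le p hP he.idem he.ne_zero haD hea
  have h1 : br P e ≠ 0 := br_ne_zero_of_coeff (fun h hh => hn h (hPD hh)) hen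
  intro h0
  apply h1
  rw [← hec, br_mul hP (Fix_mono _ le_top hcF) (Fix_mono _ le_top heF), h0, zero_mul]

variable {G : Type} [Group G] [Finite G]

/-- The centraliser of a `p`-element. -/
theorem br_cent_ne_zero [IsAlgClosed k] {L P C : Subgroup G} (hC : IsPGroup p C)
    {e : MonoidAlgebra k G} (heL : e ∈ SubAlg k L) (heF : e ∈ Fix (cj k G) L) (hee : e * e = e)
    (hCL : C ≤ L) (hbr : br C e ≠ 0) (hP : IsPGroup p P)
    (hPL : P ≤ L ⊓ Subgroup.centralizer (C : Set G))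
    (hPn : ∀ h ∈ L ⊓ Subgroup.centralizer (C : Set G), ∀ x ∈ P, h * x * h⁻¹ ∈ P) :
    ∃ c, (∀ h ∈ P, h * c * h⁻¹ = c) ∧ e.coeff c ≠ 0 := by
  classical
  set H := L ⊓ Subgroup.centralizer (C : Set G) with hH
  have hcm : br C e ∈ SubAlg k H := br_mem_inf heL
  obtain ⟨c', hc'⟩ := exists_incl H hcm
  have hcFix : br C e ∈ Fix (cj k G) H := by
    intro h hh
    rw [← br_cj C hh.2, heF h hh.1]
  have hc'F : c' ∈ Fix (cj k H) ⊤ := by
    rw [← incl_mem_Fix_iff, hc', ← MonoidHom.range_eq_map, Subgroup.range_subtype]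
    exact hcFix
  have hcc : br C e * br C e = br C e := by
    rw [← br_mul hC (Fix_mono _ hCL heF) (Fix_mono _ hCL heF), hee]
  have hc'c : c' * c' = c' := incl_injective (k := k) H (by rw [map_mul, hc', hcc])
  have hc'0 : c' ≠ 0 := by
    rintro rfl
    exact hbr (by rw [← hc', map_zero])
  have hPnor : (P.subgroupOf H).Normal := by
    constructor
    intro s hs x
    rw [Subgroup.mem_subgroupOf] at hs ⊢
    exact hPn x x.2 s hs
  have hPp : IsPGroup p (P.subgroupOf H) := hP.comap_of_injective H.subtype H.subtype_injective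
  obtain ⟨c, hc, hcc'⟩ := exists_coeff_of_br (br_normal_ne_zero hPnor hPp hc'F hc'c hc'0)
  refine ⟨c, ?_, ?_⟩
  · intro h hh
    have h1 := hc ⟨h, hPL hh⟩ (Subgroup.mem_subgroupOf.mpr hh)
    exact congrArg Subtype.val h1
  · have h1 : (br C e).coeff (c : G) ≠ 0 := by
      rw [← hc', incl_coeff]
      exact hcc'
    rw [br_coeff] at h1
    rwa [if_pos (show (c : G) ∈ Subgroup.centralizer (C : Set G) from c.2.2)] at h1

/-- A normal `p`-subgroup of the centraliser is at most as large as the defect group. -/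
theorem card_le_of_normal [IsAlgClosed k] {L Q P C : Subgroup G} (hC : IsPGroup p C)
    {e z : MonoidAlgebra k G} (heL : e ∈ SubAlg k L) (heF : e ∈ Fix (cj k G) L) (hee : e * e = e)
    (hCL : C ≤ L) (hbr : br C e ≠ 0) (hP : IsPGroup p P)
    (hPL : P ≤ L ⊓ Subgroup.centralizer (C : Set G))
    (hPn : ∀ h ∈ L ⊓ Subgroup.centralizer (C : Set G), ∀ x ∈ P, h * x * h⁻¹ ∈ P)
    (hQL : Q ≤ L) (hz : z ∈ Fix (cj k G) Q) (hez : e = tr (cj k G) Q L z) :
    Nat.card P ≤ Nat.card Q := by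
  obtain ⟨c, hc, hec⟩ := br_cent_ne_zero hC heL heF hee hCL hbr hP hPL hPn
  obtain ⟨x, -, hx⟩ := exists_conj_of_coeff hQL (hPL.trans inf_le_left) hP hz hez hc hec
  refine Nat.card_le_card_of_injective (fun v : P => (⟨x⁻¹ * v * x, hx v v.2⟩ : Q)) ?_
  intro v w h
  have h1 : x⁻¹ * (v : G) * x = x⁻¹ * (w : G) * x := congrArg (fun y : Q => (y : G)) h
  exact Subtype.ext (mul_left_cancel (mul_right_cancel h1))

end Br

end Vale.Agent.P180.R2.H12.Sl
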