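import Vale.Agent.P180.R2.H12.SlW
import Vale.Agent.P180.R2.H954.Hc2b

/-!
P180 R2 H12: transfer of a block and of the idempotents of characters of `p'`-groups to
characteristic zero.
-/

set_option linter.all false

namespace Vale.Agent.P180.R2.H12.Sl

open Finset Vale.Agent.P180 Vale.Agent.P180.R2.H799 Vale.Agent.P180.R2.H954.Hc
open Vale.Agent.P180.I (rd rd_coeff exists_idem_IB Sp cg cg_eq_self_iff)
open IsLocalRing

universe u

section EX

variable {R : Type*} [CommRing R] {A : Type*} [CommGroup A] [Fintype A] {H : Type*} [Group H]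

/-- the idempotent of a character -/
noncomputable def EX (j : A →* H) (χ : A →* R) (c : R) : MonoidAlgebra R H :=
  c • ∑ a : A, MonoidAlgebra.single (j a) (χ a⁻¹)

theorem chi_inv (χ : A →* R) (a : A) : χ a * χ a⁻¹ = 1 := by
  rw [← map_mul, mul_inv_cancel, map_one]

theorem j_EX (j : A →* H) (χ : A →* R) (c : R) (a : A) :
    MonoidAlgebra.single (j a) 1 * EX j χ c = χ a • EX j χ c := by
  rw [EX, mul_smul_comm, smul_comm (χ a) c, Finset.mul_sum]
  congr 1
  rw [Finset.smul_sum, ← Equiv.sum_comp (Equiv.mulLeft a) (fun b => χ a • MonoidAlgebra.single (j b) (χ b⁻¹))]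
  refine Finset.sum_congr rfl fun b _ => ?_
  rw [MonoidAlgebra.single_mul_single, one_mul, Equiv.coe_mulLeft, MonoidAlgebra.smul_single,
    smul_eq_mul, mul_inv, map_mul χ a⁻¹, ← mul_assoc, chi_inv, one_mul, map_mul]

theorem EX_j (j : A →* H) (χ : A →* R) (c : R) (a : A) :
    EX j χ c * MonoidAlgebra.single (j a) 1 = χ a • EX j χ c := by
  rw [EX, smul_mul_assoc, smul_comm (χ a) c, Finset.sum_mul]
  congr 1
  rw [Finset.smul_sum, ← Equiv.sum_comp (Equiv.mulRight a) (fun b => χ a • MonoidAlgebra.single (j b) (χ b⁻¹))]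
  refine Finset.sum_congr rfl fun b _ => ?_
  rw [MonoidAlgebra.single_mul_single, mul_one, Equiv.coe_mulRight, MonoidAlgebra.smul_single,
    smul_eq_mul, mul_inv_rev, map_mul χ a⁻¹, ← mul_assoc, chi_inv, one_mul, map_mul]

theorem EX_idem (j : A →* H) (χ : A →* R) {c : R} (hc : c * Fintype.card A = 1) :
    EX j χ c * EX j χ c = EX j χ c := by
  have h0 : EX j χ c * EX j χ c = c • ∑ a : A, MonoidAlgebra.single (j a) (χ a⁻¹) * EX j χ c := by
    conv_lhs => enter [1]; rw [EX]
    rw [smul_mul_assoc, Finset.sum_mul]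
  rw [h0]
  have h1 : ∀ a : A, MonoidAlgebra.single (j a) (χ a⁻¹) * EX j χ c = EX j χ c := by
    intro a
    have h2 : MonoidAlgebra.single (j a) (χ a⁻¹) = χ a⁻¹ • MonoidAlgebra.single (j a) (1 : R) := by
      rw [MonoidAlgebra.smul_single, smul_eq_mul, mul_one]
    rw [h2, smul_mul_assoc, j_EX, smul_smul, mul_comm, chi_inv, one_smul]
  rw [Finset.sum_congr rfl fun a _ => h1 a, Finset.sum_const, Finset.card_univ,
    ← Nat.cast_smul_eq_nsmul R, smul_smul, hc, one_smul]

theorem EX_map {R' : Type*} [CommRing R'] (φ : R →+* R') (j : A →* H) (χ : A →* R) (c : R) :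
    MonoidAlgebra.mapRingHom H φ (EX j χ c) = EX j (φ.toMonoidHom.comp χ) (φ c) := by
  rw [EX, EX]
  have h1 : ∀ x : MonoidAlgebra R H, MonoidAlgebra.mapRingHom H φ (c • x) =
      φ c • MonoidAlgebra.mapRingHom H φ x := by
    intro x
    apply MonoidAlgebra.coeff_injective
    ext y
    rw [MonoidAlgebra.coeff_mapRingHom, MonoidAlgebra.coeff_smul, Finsupp.smul_apply,
      smul_eq_mul, map_mul, MonoidAlgebra.coeff_smul, Finsupp.smul_apply, smul_eq_mul,
      MonoidAlgebra.coeff_mapRingHom]
  rw [h1, map_sum]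
  simp only [MonoidAlgebra.mapRingHom_single]
  rfl

end EX

theorem SubAlg_top {k : Type*} [Field k] {G : Type*} [Group G] :
    SubAlg k (⊤ : Subgroup G) = ⊤ := by
  rw [eq_top_iff]
  intro x _ g _
  exact Subgroup.mem_top g

section

variable {k : Type u} [Field k] [IsAlgClosed k] {p : ℕ} [Fact p.Prime] [CharP k p]

variable (k p) in
/-- The Teichmüller map into characteristic zero. -/
noncomputable def TT : k →* KK k p :=
  (toKK k p).toMonoidHom.comp (WittVector.teichmuller p)

variable {H : Type} [Group H] [Finite H]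

/-- Central idempotents lift to central idempotents. -/
theorem exists_central_lift {b : MonoidAlgebra k H} (hc : ∀ x, x * b = b * x) (hb : b * b = b) :
    ∃ B : MonoidAlgebra (WittVector p k) H, (∀ x, x * B = B * x) ∧ B * B = B ∧
      MonoidAlgebra.mapRingHom H (WittVector.constantCoeff (p := p) (R := k)) B = b := by
  classical
  have hadic : IsAdicComplete (maximalIdeal (WittVector p k)) (WittVector p k) := adic
  have hloc : IsLocalHom (WittVector.constantCoeff (p := p) (R := k)) := isLocalHom_cc
  let ε : ResidueField (WittVector p k) →+* k :=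
    ResidueField.lift (WittVector.constantCoeff (p := p) (R := k))
  have hε : ∀ x, ε (residue _ x) = WittVector.constantCoeff x := fun x => rfl
  have hbij : Function.Bijective ε := by
    refine ⟨ε.injective, fun x => ?_⟩
    obtain ⟨y, hy⟩ := cc_surj (p := p) x
    exact ⟨residue _ y, by rw [hε, hy]⟩
  let e := RingEquiv.ofBijective ε hbij
  set f' : MonoidAlgebra (ResidueField (WittVector p k)) H :=
    MonoidAlgebra.mapRingHom H (e.symm : k →+* _) b with hf'
  have hεf' : MonoidAlgebra.mapRingHom H ε f' = b := by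
    apply MonoidAlgebra.coeff_injective
    ext x
    rw [MonoidAlgebra.coeff_mapRingHom, hf', MonoidAlgebra.coeff_mapRingHom]
    exact e.apply_symm_apply _
  obtain ⟨B, -, h2, h3, h4⟩ := exists_idem_IB (O := WittVector p k) (N := (⊤ : Subgroup H))
    (D := Set.univ) (f := f') (fun x _ => Subgroup.mem_top x)
    (by
      intro d _
      rw [cg_eq_self_iff]
      have h5 := congrArg (MonoidAlgebra.mapRingHom H
        (e.symm : k →+* ResidueField (WittVector p k))) (hc (MonoidAlgebra.single d 1))
      rw [map_mul, map_mul, MonoidAlgebra.mapRingHom_single, map_one] at h5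
      exact h5)
    (by rw [hf', ← map_mul, hb])
  refine ⟨B, ?_, h3, ?_⟩
  · intro x
    induction x using MonoidAlgebra.induction_linear with
    | zero => rw [zero_mul, mul_zero]
    | add x y hx hy => rw [add_mul, mul_add, hx, hy]
    | single g r =>
      have h5 := cg_eq_self_iff.mp (h2 g (Set.mem_univ g))
      have h6 : MonoidAlgebra.single g r = r • MonoidAlgebra.single g (1 : WittVector p k) := by
        rw [MonoidAlgebra.smul_single, smul_eq_mul, mul_one]
      rw [h6, smul_mul_assoc, mul_smul_comm, h5]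
  · rw [← hεf', ← h4]
    apply MonoidAlgebra.coeff_injective
    ext x
    rw [MonoidAlgebra.coeff_mapRingHom, MonoidAlgebra.coeff_mapRingHom, rd_coeff, hε]

theorem mapRingHom_central {R R' : Type*} [CommRing R] [CommRing R'] (φ : R →+* R')
    {B : MonoidAlgebra R H} (hB : ∀ x, x * B = B * x) (x : MonoidAlgebra R' H) :
    x * MonoidAlgebra.mapRingHom H φ B = MonoidAlgebra.mapRingHom H φ B * x := by
  induction x using MonoidAlgebra.induction_linear with
  | zero => rw [zero_mul, mul_zero]
  | add x y hx hy => rw [add_mul, mul_add, hx, hy]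
  | single g r =>
    have h6 : MonoidAlgebra.single g r = r • MonoidAlgebra.mapRingHom H φ
        (MonoidAlgebra.single g (1 : R)) := by
      rw [MonoidAlgebra.mapRingHom_single, map_one, MonoidAlgebra.smul_single, smul_eq_mul,
        mul_one]
    rw [h6, smul_mul_assoc, mul_smul_comm, ← map_mul, ← map_mul, hB]

/-- **Transfer of a block to characteristic zero.** -/
theorem exists_block_lift {b : MonoidAlgebra k H} (hc : ∀ x, x * b = b * x) (hb : b * b = b) :
    ∃ B : MonoidAlgebra (KK k p) H, (∀ x, x * B = B * x) ∧ B * B = B ∧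
      ∀ (A : Type) [CommGroup A] [Fintype A] (_ : (Fintype.card A : k) ≠ 0) (j : A →* H)
        (χ : A →* k),
        Module.finrank (KK k p) (NN (⊤ : Subalgebra (KK k p) (MonoidAlgebra (KK k p) H))
          (B * EX j ((TT k p).comp χ) (Fintype.card A : KK k p)⁻¹)
          (B * EX j ((TT k p).comp χ) (Fintype.card A : KK k p)⁻¹)) =
        Module.finrank k (NN (⊤ : Subalgebra k (MonoidAlgebra k H))
          (b * EX j χ (Fintype.card A : k)⁻¹) (b * EX j χ (Fintype.card A : k)⁻¹)) := by
  obtain ⟨B₀, hB1, hB2, hB3⟩ := exists_central_lift (p := p) hc hb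
  refine ⟨MonoidAlgebra.mapRingHom H (toKK k p) B₀, fun x => mapRingHom_central _ hB1 x, by
    rw [← map_mul, hB2], ?_⟩
  intro A _ _ hA j χ
  have hu : IsUnit (Fintype.card A : WittVector p k) := by
    rw [isUnit_iff_coeff, map_natCast]
    exact hA
  obtain ⟨c, hc'⟩ := hu.exists_left_inv
  have hEE := EX_idem j ((WittVector.teichmuller p).comp χ) hc'
  have hBE : B₀ * EX j ((WittVector.teichmuller p).comp χ) c *
      (B₀ * EX j ((WittVector.teichmuller p).comp χ) c) =
      B₀ * EX j ((WittVector.teichmuller p).comp χ) c := by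
    rw [mul_assoc, ← mul_assoc _ B₀, hB1, mul_assoc, hEE, ← mul_assoc, hB2]
  obtain ⟨r, hr⟩ := exists_rank (H := (⊤ : Subgroup H)) hBE hBE (fun x _ => Subgroup.mem_top x)
    (fun x _ => Subgroup.mem_top x)
  have h1 := hr (KK k p) (toKK k p)
  have h2 := hr k (WittVector.constantCoeff (p := p) (R := k))
  have hk : WittVector.constantCoeff c = (Fintype.card A : k)⁻¹ := by
    apply eq_inv_of_mul_eq_one_left
    rw [← map_natCast (WittVector.constantCoeff (p := p) (R := k)), ← map_mul, hc', map_one]
  have hK : toKK k p c = (Fintype.card A : KK k p)⁻¹ := by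
    apply eq_inv_of_mul_eq_one_left
    rw [← map_natCast (toKK k p), ← map_mul, hc', map_one]
  rw [SubAlg_top, map_mul, EX_map, hK] at h1
  rw [SubAlg_top, map_mul, EX_map, hk, hB3] at h2
  have h3 : (WittVector.constantCoeff (p := p) (R := k)).toMonoidHom.comp
      ((WittVector.teichmuller p).comp χ) = χ := by
    ext a
    exact WittVector.teichmuller_coeff_zero p (χ a)
  rw [h3] at h2
  rw [h2]
  exact h1

end

/-- The corner is computed by the trace form. -/
theorem finrank_corner_eq_tf {K : Type*} [Field K] {H : Type*} [Group H] [Fintype H]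
    {f : MonoidAlgebra K H} (hf : f * f = f) :
    (Module.finrank K (NN (⊤ : Subalgebra K (MonoidAlgebra K H)) f f) : K) = tf f f := by
  have hfin : FiniteDimensional K (MonoidAlgebra K H) :=
    Module.Finite.equiv (MonoidAlgebra.coeffLinearEquiv K (M := H) (S := K)).symm
  have h1 : NN (⊤ : Subalgebra K (MonoidAlgebra K H)) f f = LinearMap.range (LR K f f) := by
    ext x
    constructor
    · rintro ⟨-, h1, h2⟩
      exact ⟨x, by rw [LR_apply, h1, h2]⟩
    · rintro ⟨y, rfl⟩
      rw [LR_apply]
      exact ⟨Algebra.mem_top, by rw [← mul_assoc, ← mul_assoc, hf], by rw [mul_assoc, hf]⟩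
  rw [tf_eq_trace, trace_idem, h1]
  intro x
  rw [LR_apply, LR_apply, ← mul_assoc, ← mul_assoc, hf, mul_assoc, hf]

end Vale.Agent.P180.R2.H12.Sl
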