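import Mathlib

/-!
P180 R2 H12: the trace form of a group algebra in characteristic zero.
-/

set_option linter.all false

namespace Vale.Agent.P180.R2.H12.Sl

open Finset

section

variable {K : Type*} [Field K]

theorem trace_basis {ι V : Type*} [Fintype ι] [DecidableEq ι] [AddCommGroup V] [Module K V]
    (b : Module.Basis ι K V) (f : V →ₗ[K] V) :
    LinearMap.trace K V f = ∑ i, b.repr (f (b i)) i := by
  rw [LinearMap.trace_eq_matrix_trace K b, Matrix.trace]
  refine Finset.sum_congr rfl fun i _ => ?_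
  rw [Matrix.diag_apply, LinearMap.toMatrix_apply]

/-- two sided multiplication -/
def LR (K : Type*) [Field K] {A : Type*} [Ring A] [Algebra K A] (a b : A) : A →ₗ[K] A :=
  LinearMap.mulLeft K a ∘ₗ LinearMap.mulRight K b

theorem LR_apply {A : Type*} [Ring A] [Algebra K A] (a b x : A) : LR K a b x = a * x * b := by
  rw [LR, LinearMap.comp_apply, LinearMap.mulLeft_apply, LinearMap.mulRight_apply, mul_assoc]

/-- The trace form on a product of matrix algebras. -/
theorem trace_LR_pi {n : ℕ} {d : Fin n → ℕ} (a b : ∀ i, Matrix (Fin (d i)) (Fin (d i)) K) :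
    LinearMap.trace K (∀ i, Matrix (Fin (d i)) (Fin (d i)) K) (LR K a b) =
      ∑ i, (a i).trace * (b i).trace := by
  classical
  rw [trace_basis (Pi.basis fun i => Matrix.stdBasis K (Fin (d i)) (Fin (d i)))]
  rw [Fintype.sum_sigma]
  refine Finset.sum_congr rfl fun i _ => ?_
  rw [Fintype.sum_prod_type, Matrix.trace, Matrix.trace, Finset.sum_mul_sum]
  refine Finset.sum_congr rfl fun j _ => Finset.sum_congr rfl fun l _ => ?_
  rw [Pi.basis_repr, Pi.basis_apply, LR_apply, Pi.mul_apply, Pi.mul_apply, Pi.single_eq_same,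
    Matrix.stdBasis_eq_single]
  have h1 : ∀ M : Matrix (Fin (d i)) (Fin (d i)) K,
      (Matrix.stdBasis K (Fin (d i)) (Fin (d i))).repr M (j, l) = M j l := by
    intro M
    rfl
  rw [h1, Matrix.mul_apply, Finset.sum_eq_single l, Matrix.mul_single_apply_same, mul_one]
  · rfl
  · intro m _ hm
    rw [Matrix.mul_single_apply_of_ne _ _ _ _ _ hm, zero_mul]
  · intro h
    exact absurd (Finset.mem_univ _) h

/-- The trace of an idempotent map. -/
theorem trace_idem {V : Type*} [AddCommGroup V] [Module K V] [FiniteDimensional K V]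
    {f : V →ₗ[K] V} (h : ∀ x, f (f x) = f x) :
    LinearMap.trace K V f = Module.finrank K (LinearMap.range f) := by
  have : LinearMap.IsProj (LinearMap.range f) f :=
    ⟨fun x => ⟨x, rfl⟩, by
      rintro _ ⟨y, rfl⟩
      exact h y⟩
  exact this.trace

theorem trace_conj_LR {A B : Type*} [Ring A] [Algebra K A] [Ring B] [Algebra K B]
    (e : A ≃ₐ[K] B) (a b : A) :
    LinearMap.trace K A (LR K a b) = LinearMap.trace K B (LR K (e a) (e b)) := by
  rw [← LinearMap.trace_conj' (LR K a b) e.toLinearEquiv]
  congr 1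
  apply LinearMap.ext
  intro x
  rw [LinearEquiv.conj_apply_apply, LR_apply, LR_apply]
  change e (a * e.symm x * b) = _
  rw [map_mul, map_mul, e.apply_symm_apply]

end

section

variable {K : Type*} [Field K] [IsAlgClosed K] [CharZero K] {H : Type*} [Group H] [Fintype H]

/-- the trace form -/
noncomputable def tf (x y : MonoidAlgebra K H) : K :=
  ∑ h : H, (x * MonoidAlgebra.single h 1 * y).coeff h

omit [IsAlgClosed K] [CharZero K] in
theorem tf_eq_trace (x y : MonoidAlgebra K H) :
    tf x y = LinearMap.trace K (MonoidAlgebra K H) (LR K x y) := by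
  classical
  rw [trace_basis (MonoidAlgebra.basis H K)]
  refine Finset.sum_congr rfl fun h _ => ?_
  rw [LR_apply, MonoidAlgebra.basis_apply]
  rfl

/-- **Wedderburn decomposition of the trace form.** -/
theorem exists_tr : ∃ (n : ℕ) (t : Fin n → (MonoidAlgebra K H →ₗ[K] K)),
    (∀ x y, tf x y = ∑ i, t i x * t i y) ∧
    (∀ f : MonoidAlgebra K H, f * f = f → ∀ i, ∃ m : ℕ, t i f = m) ∧
    (∀ e : MonoidAlgebra K H, (∀ x, x * e = e * x) → e * e = e →
      ∀ i, (∀ x, t i (e * x) = 0) ∨ ∀ x, t i (e * x) = t i x) := by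
  classical
  have : NeZero (Nat.card H : K) := ⟨by
    have : Nat.card H ≠ 0 := Nat.card_pos.ne'
    exact_mod_cast this⟩
  have hfin : FiniteDimensional K (MonoidAlgebra K H) :=
    Module.Finite.equiv (MonoidAlgebra.coeffLinearEquiv K (M := H) (S := K)).symm
  have hss : IsSemisimpleRing (MonoidAlgebra K H) := by
    unfold IsSemisimpleRing
    infer_instance
  obtain ⟨n, d, hd, ⟨e⟩⟩ :=
    IsSemisimpleRing.exists_algEquiv_pi_matrix_of_isAlgClosed K (MonoidAlgebra K H)
  refine ⟨n, fun i => (Matrix.traceLinearMap (Fin (d i)) K K) ∘ₗ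
    (LinearMap.proj i) ∘ₗ e.toLinearMap, ?_, ?_, ?_⟩
  · intro x y
    rw [tf_eq_trace, trace_conj_LR e, trace_LR_pi]
    rfl
  · intro f hf i
    have h1 : e f i * e f i = e f i := by
      rw [← Pi.mul_apply, ← map_mul, hf]
    have h2 : ∀ x, (Matrix.toLin' (e f i)) ((Matrix.toLin' (e f i)) x) =
        Matrix.toLin' (e f i) x := by
      intro x
      rw [← LinearMap.comp_apply, ← Matrix.toLin'_mul, h1]
    refine ⟨_, Eq.trans ?_ (trace_idem h2)⟩
    rw [Matrix.trace_toLin'_eq]
    rfl
  · intro z hz hzz i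
    have hc : ∀ M : Matrix (Fin (d i)) (Fin (d i)) K, M * e z i = e z i * M := by
      intro M
      obtain ⟨x, hx⟩ := e.surjective (Pi.single i M)
      have h1 := congrArg e (hz x)
      rw [map_mul, map_mul, hx] at h1
      have h2 := congrFun h1 i
      rw [Pi.mul_apply, Pi.mul_apply, Pi.single_eq_same] at h2
      exact h2
    have h1 : e z i * e z i = e z i := by
      rw [← Pi.mul_apply, ← map_mul, hzz]
    obtain ⟨c, hc'⟩ := Matrix.mem_range_scalar_of_commute_single
      (M := e z i) (fun j l _ => (hc _))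
    have := hd i
    have hcc : c * c = c := by
      have h2 := h1
      rw [← hc', ← map_mul] at h2
      exact Matrix.scalar_inj.mp h2
    rcases mul_eq_zero.mp (show c * (c - 1) = 0 by rw [mul_sub, hcc, mul_one, sub_self]) with h | h
    · left
      intro x
      change Matrix.trace (e (z * x) i) = 0
      rw [map_mul, Pi.mul_apply, ← hc', h, map_zero, zero_mul, Matrix.trace_zero]
    · right
      intro x
      change Matrix.trace (e (z * x) i) = Matrix.trace (e x i)
      rw [map_mul, Pi.mul_apply, ← hc', sub_eq_zero.mp h, map_one, one_mul]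

end

end Vale.Agent.P180.R2.H12.Sl
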