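import Vale.Agent.P180.R2.H12.SlE
import Vale.Agent.P180.R2.H12.SlJ
import Vale.Agent.P180.R2.H12.Dec

/-!
P180 R2 H12: corners of blocks of quotients.
-/

set_option linter.all false

namespace Vale.Agent.P180.R2.H12.Sl

open Finset Vale.Agent.P180 Vale.Agent.P180.H768.Gd Vale.Agent.P180.R2.H799 Vale.Agent.P180.R2.H954
  Vale.Agent.P180.R2.H12

section Push

variable {k : Type*} [Field k] {G : Type} [Group G] [Finite G] {S : Type} [Group S] [Finite S]

variable (k) in
/-- the homomorphism of group algebras -/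
noncomputable abbrev Mp (φ : S →* G) : MonoidAlgebra k S →ₐ[k] MonoidAlgebra k G :=
  MonoidAlgebra.mapDomainAlgHom k k φ

omit [Finite G] [Finite S] in
theorem Mp_single (φ : S →* G) (s : S) (r : k) :
    Mp k φ (MonoidAlgebra.single s r) = MonoidAlgebra.single (φ s) r := by
  rw [Mp, MonoidAlgebra.mapDomainAlgHom_apply, MonoidAlgebra.mapDomain_single]

omit [Finite G] [Finite S] in
theorem Mp_EX {A : Type*} [CommGroup A] [Fintype A] (φ : S →* G) (j : A →* S) (χ : A →* k)
    (c : k) : Mp k φ (EX j χ c) = EX (φ.comp j) χ c := by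
  rw [EX, EX, map_smul, map_sum]
  congr 1
  exact Finset.sum_congr rfl fun a _ => Mp_single φ _ _

omit [Finite G] [Finite S] in
theorem Mp_mem (φ : S →* G) (y : MonoidAlgebra k S) : Mp k φ y ∈ SubAlg k φ.range := by
  induction y using MonoidAlgebra.induction_linear with
  | zero => rw [map_zero]; exact Subalgebra.zero_mem _
  | add a b ha hb => rw [map_add]; exact Subalgebra.add_mem _ ha hb
  | single s r =>
    rw [Mp_single]
    exact single_mem_SubAlg (N := φ.range) (MonoidHom.mem_range.mpr ⟨s, rfl⟩) r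

omit [Finite G] [Finite S] in
theorem Mp_surj (φ : S →* G) {x : MonoidAlgebra k G} (hx : x ∈ SubAlg k φ.range) :
    ∃ y, Mp k φ y = x := by
  refine SuppIn.induction (P := fun x => ∃ y, Mp k φ y = x) hx ?_ ?_ ?_
  · exact ⟨0, map_zero _⟩
  · rintro _ _ ⟨a, rfl⟩ ⟨b, rfl⟩
    exact ⟨a + b, map_add _ _ _⟩
  · rintro _ ⟨s, rfl⟩ r
    refine ⟨r • MonoidAlgebra.single s 1, ?_⟩
    rw [map_smul, Mp_single]

omit [Finite G] [Finite S] in
theorem Mp_central (φ : S →* G) {b : MonoidAlgebra k S} (hb : ∀ x, x * b = b * x) :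
    Mp k φ b ∈ ZAlg k φ.range := by
  rw [mem_ZAlg]
  refine ⟨Mp_mem φ b, ?_⟩
  rintro _ ⟨s, rfl⟩
  rw [cj_eq, ← Mp_single φ s 1, ← map_mul, hb, map_mul, Mp_single, mul_assoc,
    MonoidAlgebra.single_mul_single, mul_inv_cancel, one_mul, ← MonoidAlgebra.one_def, mul_one]

/-- Corners of blocks of quotients. -/
theorem corner_push (φ : S →* G) {e : MonoidAlgebra k G} (he : IsBlockOf φ.range e)
    {E₀ : MonoidAlgebra k S} (hE₀ : E₀ * E₀ = E₀) {D : ℕ}
    (hD : ∀ b, IsPrimIn (Subalgebra.center k (MonoidAlgebra k S)) b →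
      Module.finrank k (NN (⊤ : Subalgebra k (MonoidAlgebra k S)) (b * E₀) (b * E₀)) ≤ D) :
    Module.finrank k (NN (SubAlg k φ.range) (e * Mp k φ E₀) (e * Mp k φ E₀)) ≤ D := by
  classical
  have hfin : FiniteDimensional k (MonoidAlgebra k S) :=
    Module.Finite.equiv (MonoidAlgebra.coeffLinearEquiv k (M := S) (S := k)).symm
  have hcomm : ∀ x ∈ Subalgebra.center k (MonoidAlgebra k S), ∀ y ∈ Subalgebra.center k
      (MonoidAlgebra k S), x * y = y * x := fun x _ y hy => Subalgebra.mem_center_iff.mp hy x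
  obtain ⟨m, β, hβ, hsum⟩ := exists_sum_prim (Subalgebra.center k (MonoidAlgebra k S)) hcomm _ 1
    (Subalgebra.one_mem _) (one_mul 1) rfl
  have hee : e * e = e := he.idem.eq
  have hβc : ∀ l x, x * β l = β l * x := fun l x => Subalgebra.mem_center_iff.mp (hβ l).mem x
  -- the block of `kS`
  obtain ⟨l, hl⟩ : ∃ l, e * Mp k φ (β l) ≠ 0 := by
    by_contra hcon
    push Not at hcon
    apply he.ne_zero
    have h1 : e = ∑ l, e * Mp k φ (β l) := by
      rw [← Finset.mul_sum, ← map_sum, ← hsum, map_one, mul_one]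
    rw [h1, Finset.sum_eq_zero fun l _ => hcon l]
  have hbZ : Mp k φ (β l) ∈ ZAlg k φ.range := Mp_central φ (hβc l)
  have hcom : ∀ x ∈ SubAlg k φ.range, x * e = e * x := fun x hx =>
    commute_of_mem hx he.mem.2
  have hbb : Mp k φ (β l) * Mp k φ (β l) = Mp k φ (β l) := by
    rw [← map_mul, (hβ l).idem.eq]
  have heb : e * Mp k φ (β l) = e := by
    have h2 : (e * Mp k φ (β l)) * (e * Mp k φ (β l)) = e * Mp k φ (β l) := by
      rw [mul_assoc, ← mul_assoc (Mp k φ (β l)), hcom _ hbZ.1, mul_assoc e, hbb, ← mul_assoc, hee]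
    rcases he.primitive (e * Mp k φ (β l)) (Subalgebra.mul_mem _ he.mem hbZ) h2
      (by rw [mul_assoc, hcom _ hbZ.1, ← mul_assoc, hee]) with h3 | h3
    · exact absurd h3 hl
    · exact h3
  obtain ⟨f, hf⟩ : ∃ f, f = β l * E₀ := ⟨_, rfl⟩
  have hff : f * f = f := by
    rw [hf, mul_assoc, ← mul_assoc E₀, hβc, mul_assoc (β l) E₀, hE₀, ← mul_assoc, (hβ l).idem.eq]
  have hef : e * Mp k φ E₀ = e * Mp k φ f := by
    rw [hf, map_mul, ← mul_assoc, heb]
  rw [hef]
  refine le_trans ?_ (hD (β l) (hβ l))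
  rw [← hf]
  let T : MonoidAlgebra k S →ₗ[k] MonoidAlgebra k G :=
    (LinearMap.mulLeft k e).comp (Mp k φ).toLinearMap
  have hT : ∀ y, T y = e * Mp k φ y := fun y => rfl
  have h1 : NN (SubAlg k φ.range) (e * Mp k φ f) (e * Mp k φ f) ≤
      (NN (⊤ : Subalgebra k (MonoidAlgebra k S)) f f).map T := by
    rintro x ⟨hx, h2, h3⟩
    obtain ⟨y, rfl⟩ := Mp_surj φ hx
    refine ⟨f * y * f, ⟨Algebra.mem_top, by rw [← mul_assoc, ← mul_assoc, hff],
      by rw [mul_assoc, hff]⟩, ?_⟩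
    rw [hT, map_mul, map_mul]
    have h4 : Mp k φ y * e = e * Mp k φ y := hcom _ hx
    have h5 : Mp k φ f * e = e * Mp k φ f := hcom _ (Mp_mem φ f)
    generalize Mp k φ y = Y at h2 h3 h4
    generalize Mp k φ f = Φ at h2 h3 h5
    have h6 : Y * e = Y := by
      rw [h4]
      conv_lhs => rw [← h2]
      rw [← mul_assoc, ← mul_assoc, hee, h2]
    calc e * (Φ * Y * Φ) = (e * Φ * Y) * Φ := by simp only [mul_assoc]
      _ = Y * Φ := by rw [h2]
      _ = (Y * e) * Φ := by rw [h6]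
      _ = Y := by rw [mul_assoc, h3]
  have hfinG : FiniteDimensional k (MonoidAlgebra k G) :=
    Module.Finite.equiv (MonoidAlgebra.coeffLinearEquiv k (M := G) (S := k)).symm
  exact (Submodule.finrank_mono h1).trans (Submodule.finrank_map_le _ _)

end Push

end Vale.Agent.P180.R2.H12.Sl
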