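import Vale.Agent.P180.R2.H12.SlX

/-!
P180 R2 H12: **small source idempotents for all blocks of quotients of `SL_2(F)` by central
subgroups**, for arbitrary outer `p`-automorphisms.
-/

set_option linter.all false

namespace Vale.Agent.P180.R2.H12.Sl

open Finset Vale.Agent.P180 Vale.Agent.P180.H768.Gd Vale.Agent.P180.R2.H799 Vale.Agent.P180.R2.H954
  Vale.Agent.P180.R2.H12

variable {k : Type*} [Field k] [IsAlgClosed k] {p : ℕ} [Fact p.Prime] [CharP k p]
variable {G : Type} [Group G] [Finite G]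
variable {F : Type} [Field F] [Fintype F] [DecidableEq F]

theorem exists_source (hq : (Fintype.card F : k) ≠ 0) (φ : SL2 F →* G)
    (hφ : ∀ w, φ w = 1 → Sc w) {R : Subgroup G} (hR : IsPGroup p R) {n : ℕ}
    (hn : Nat.card (φ.range ⊓ R : Subgroup G) ≤ n)
    (hRL : ∀ r ∈ R, ∀ s ∈ φ.range, r * s * r⁻¹ ∈ φ.range) {e z : MonoidAlgebra k G}
    (he : IsBlockOf φ.range e) (heR : e ∈ Fix (cj k G) R) (hbr : br R e ≠ 0)
    (hz : z ∈ Fix (cj k G) (φ.range ⊓ R))
    (hez : e = tr (cj k G) (φ.range ⊓ R) φ.range z) {x₀ : G} (hx₀ : x₀ ∈ φ.range ⊓ R)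
    (hnc : ¬ ∀ y ∈ φ.range, x₀ * y = y * x₀) :
    ∃ i ∈ SubAlg k φ.range, i ∈ Fix (cj k G) R ∧ i * i = i ∧ e * i = i ∧ br R i ≠ 0 ∧
      Module.finrank k (NN (SubAlg k φ.range) i i) ≤ csl (2 * n) := by
  classical
  have hp : p.Prime := Fact.out
  set L := φ.range with hL
  have hee : e * e = e := he.idem.eq
  have hcom : ∀ x ∈ SubAlg k L, x * e = e * x := fun x hx => commute_of_mem hx he.mem.2
  -- the element
  obtain ⟨xb, hxQ, hxZ, hxR⟩ := exists_fixed_mod (Q := L ⊓ R) (Z := L ⊓ Subgroup.centralizer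
    (L : Set G)) hR inf_le_right
    (fun r hr x hx => ⟨hRL r hr x hx.1, R.mul_mem (R.mul_mem hr hx.2) (R.inv_mem hr)⟩) hx₀
    (by
      rintro ⟨-, h⟩
      apply hnc
      intro y hy
      exact (Subgroup.mem_centralizer_iff.mp h y hy).symm)
  obtain ⟨x, hxx⟩ : ∃ x, φ x = xb := hxQ.1
  have hx : ¬ Sc x := by
    intro h
    apply hxZ
    refine ⟨hxQ.1, Subgroup.mem_centralizer_iff.mpr ?_⟩
    rintro _ ⟨s, rfl⟩
    rw [← hxx]
    exact (h.map s).symm
  obtain ⟨a, hxa⟩ : ∃ a, Sc (x ^ p ^ a) := by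
    obtain ⟨a, ha⟩ := hR ⟨xb, hxQ.2⟩
    refine ⟨a, hφ _ ?_⟩
    rw [map_pow, hxx]
    exact congrArg Subtype.val ha
  -- commuting with `xb`
  have hcx : ∀ g, φ g * xb = xb * φ g → Sc (g * x * g⁻¹ * x⁻¹) := by
    intro g hg
    apply hφ
    rw [map_mul, map_mul, map_mul, map_inv, map_inv, hxx, hg]
    group
  -- the `p`-part
  have hPle : Nat.card (PT x hx p) ≤ 2 * n := by
    refine (card_PT_le hφ x hx p).trans (Nat.mul_le_mul_left 2 (le_trans ?_ hn))
    have hCR : Subgroup.zpowers xb ≤ R := by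
      rw [Subgroup.zpowers_le]
      exact hxQ.2
    have hcent : ∀ g ∈ Subgroup.centralizer ((Subgroup.zpowers xb : Subgroup G) : Set G),
        g * xb = xb * g := by
      intro g hg
      exact (Subgroup.mem_centralizer_iff.mp hg xb (Subgroup.mem_zpowers xb)).symm
    refine card_le_of_normal (C := Subgroup.zpowers xb) (hR.to_le hCR) he.mem.1 he.mem.2 hee
      (by rw [Subgroup.zpowers_le]; exact hxQ.1) (br_ne_zero_mono hCR hbr) ?_ ?_ ?_ inf_le_left
      hz hez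
    · rintro ⟨_, ⟨g, ⟨-, b, hb⟩, rfl⟩⟩
      refine ⟨b, Subtype.ext ?_⟩
      change (φ g) ^ p ^ b = 1
      rw [← map_pow, hb, map_one]
    · rintro _ ⟨g, ⟨hg, -⟩, rfl⟩
      refine ⟨⟨g, rfl⟩, Subgroup.mem_centralizer_iff.mpr ?_⟩
      have h1 : Commute xb (φ g) := by
        change xb * φ g = φ g * xb
        rw [← hxx, ← map_mul, ← map_mul, hg]
      rintro y hy
      obtain ⟨m, rfl⟩ := Subgroup.mem_zpowers_iff.mp hy
      exact h1.zpow_left m
    · rintro h ⟨⟨g, rfl⟩, hg⟩ _ ⟨t, ⟨ht, b, hb⟩, rfl⟩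
      refine ⟨g * t * g⁻¹, ⟨norm_cent (hcx g (hcent _ hg)) ht, b, ?_⟩, ?_⟩
      · rw [conj_pow, hb, mul_one, mul_inv_cancel]
      · rw [map_mul, map_mul, map_inv]
  -- the `p'`-part
  let _ : CommGroup (VT x hx p hp) :=
    { (inferInstance : Group (VT x hx p hp)) with
      mul_comm := fun a b => Subtype.ext (comm_trans hx a.2.1 b.2.1) }
  let _ : CommGroup ((VT x hx p hp).map φ) :=
    { (inferInstance : Group ((VT x hx p hp).map φ)) with
      mul_comm := by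
        rintro ⟨_, ⟨a, ha, rfl⟩⟩ ⟨_, ⟨b, hb, rfl⟩⟩
        apply Subtype.ext
        change φ a * φ b = φ b * φ a
        rw [← map_mul, comm_trans hx ha.1 hb.1, map_mul] }
  let _ : Fintype (VT x hx p hp) := Fintype.ofFinite _
  let _ : Fintype ((VT x hx p hp).map φ) := Fintype.ofFinite _
  have hA1 : (Fintype.card (VT x hx p hp) : k) ≠ 0 := by
    intro h0
    have h1 : p ∣ Nat.card (VT x hx p hp) := by
      rw [Nat.card_eq_fintype_card]
      exact (CharP.cast_eq_zero_iff k p _).mp h0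
    obtain ⟨y, hy⟩ := exists_prime_orderOf_dvd_card' p h1
    apply y.2.2
    rw [Subgroup.orderOf_coe, hy]
  have hA2 : (Fintype.card ((VT x hx p hp).map φ) : k) ≠ 0 := by
    intro h0
    have h1 : p ∣ Nat.card ((VT x hx p hp).map φ) := by
      rw [Nat.card_eq_fintype_card]
      exact (CharP.cast_eq_zero_iff k p _).mp h0
    obtain ⟨y, hy⟩ := exists_prime_orderOf_dvd_card' p h1
    obtain ⟨g, hg, hgy⟩ := y.2
    apply hg.2
    rw [← hy, ← Subgroup.orderOf_coe, ← hgy]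
    exact orderOf_map_dvd φ g
  have hRA : ∀ r ∈ R, ∀ v : (VT x hx p hp).map φ, ∃ b : (VT x hx p hp).map φ,
      ((VT x hx p hp).map φ).subtype b = r * ((VT x hx p hp).map φ).subtype v * r⁻¹ := by
    rintro r hr ⟨_, ⟨t, ht, rfl⟩⟩
    have h1 : r * φ t * r⁻¹ ∈ L := hRL r hr _ ⟨t, rfl⟩
    obtain ⟨g, hg⟩ : ∃ g, φ g = r * φ t * r⁻¹ := h1
    have h2 := hxR r⁻¹ (R.inv_mem hr)
    rw [inv_inv] at h2
    obtain ⟨w, hw⟩ : ∃ w, w = r⁻¹ * xb * r * xb⁻¹ := ⟨_, rfl⟩
    rw [← hw] at h2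
    have h3 : w * φ t = φ t * w := (Subgroup.mem_centralizer_iff.mp h2.2 _ ⟨t, rfl⟩).symm
    have h4 : φ t * xb = xb * φ t := by rw [← hxx, ← map_mul, ht.1, map_mul]
    have h5 : r⁻¹ * xb * r = w * xb := by rw [hw]; group
    have h6 : φ t * (w * xb) = (w * xb) * φ t := by
      rw [← mul_assoc, ← h3, mul_assoc, h4, mul_assoc]
    have h7 : φ g * xb = xb * φ g := by
      rw [hg]
      have h8 : φ t * (r⁻¹ * xb * r) = (r⁻¹ * xb * r) * φ t := by rw [h5, h6]
      calc r * φ t * r⁻¹ * xb = r * (φ t * (r⁻¹ * xb * r)) * r⁻¹ := by group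
        _ = r * ((r⁻¹ * xb * r) * φ t) * r⁻¹ := by rw [h8]
        _ = _ := by group
    have h8 : ¬ p ∣ orderOf (φ g) := by
      rw [hg]
      intro h9
      have h10 : orderOf (r * φ t * r⁻¹) = orderOf (φ t) :=
        MulEquiv.orderOf_eq (MulAut.conj r) (φ t)
      rw [h10] at h9
      exact ht.2 (h9.trans (orderOf_map_dvd φ t))
    obtain ⟨t', ht1, ht2, ht3⟩ := exists_torus hp hxa (hcx g h7) h8
    exact ⟨⟨φ t', ⟨t', ⟨ht1, ht2⟩, rfl⟩⟩, ht3.trans hg⟩
  obtain ⟨θ, hθR, hθbr⟩ := exists_fixed_char hA2 (Subgroup.subtype_injective _) hR hRA heR hbr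
  set E := EX ((VT x hx p hp).map φ).subtype (cf θ)
    (Fintype.card ((VT x hx p hp).map φ) : k)⁻¹ with hE
  have hEL : E ∈ SubAlg k L := by
    rw [hE, EX]
    refine Subalgebra.smul_mem _ (Subalgebra.sum_mem _ fun v _ => ?_) _
    obtain ⟨g, hg, hgv⟩ := v.2
    exact single_mem_SubAlg (N := φ.range) (MonoidHom.mem_range.mpr ⟨g, hgv⟩) _
  have hEE : E * E = E := EX_idem _ _ (inv_mul_cancel₀ hA2)
  refine ⟨e * E, Subalgebra.mul_mem _ he.mem.1 hEL, ?_, ?_, ?_, hθbr, ?_⟩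
  · intro r hr
    rw [map_mul, heR r hr, hθR r hr]
  · rw [mul_assoc, ← mul_assoc E, hcom _ hEL, mul_assoc e E, hEE, ← mul_assoc, hee]
  · rw [← mul_assoc, hee]
  · -- the dimension
    have h1 : E = Mp k φ (EX (VT x hx p hp).subtype (cf (θ.comp (φ.subgroupMap (VT x hx p hp))))
        (Fintype.card (VT x hx p hp) : k)⁻¹) := by
      rw [Mp_EX]
      symm
      exact EX_eq (φ.subgroupMap_surjective _) (fun _ => rfl) (fun _ => rfl)
        (inv_mul_cancel₀ hA1) (inv_mul_cancel₀ hA2)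
    rw [h1]
    refine corner_push φ he (EX_idem _ _ (inv_mul_cancel₀ hA1)) ?_
    intro b hb
    exact corner_le hq hb hx hxa (Subgroup.subtype_injective _)
      (fun g => by rw [Subgroup.range_subtype]; exact mem_VT) (P := PT x hx p)
      (fun g => mem_PT) hPle _

end Vale.Agent.P180.R2.H12.Sl
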