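import Vale.Agent.P180.R2.H471.AltSS
import Vale.Agent.P180.H768.G1

/-!
P180 R2 H12: direct products of alternating groups, with factors of degree less than seven.
-/

namespace Vale.Agent.P180.R2.H12

open Vale.Agent.P180 Vale.Agent.P180.H768.Gd Vale.Agent.P180.R2.H47 Vale.Agent.P180.R2.H471

variable {G : Type} [Group G] {X : Subgroup G}

theorem sSup_simps_le {Q : ∀ (S : Type) [Group S], Prop} : sSup (simps Q X) ≤ X :=
  sSup_le fun _ hS => hS.1

theorem sSup_simps_normal {Q : ∀ (S : Type) [Group S], Prop} (hQ : IsoInv Q) [hX : X.Normal] :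
    (sSup (simps Q X)).Normal := by
  constructor
  intro x hx g
  have h : (sSup (simps Q X)).map (MulAut.conj g).toMonoidHom ≤ sSup (simps Q X) := by
    rw [Subgroup.map_le_iff_le_comap]
    refine sSup_le fun S hS => ?_
    rw [← Subgroup.map_le_iff_le_comap]
    have h1 := simps_map hQ (MulAut.conj g).toMonoidHom X (fun x _ hx =>
      (MulAut.conj g).injective (by rw [map_one]; exact hx)) hS
    have h2 : X.map (MulAut.conj g).toMonoidHom = X := by
      ext x
      constructor
      · rintro ⟨y, hy, rfl⟩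
        exact hX.conj_mem y hy g
      · intro hx
        refine ⟨g⁻¹ * x * g, ?_, ?_⟩
        · have := hX.conj_mem x hx g⁻¹
          rwa [inv_inv] at this
        · change g * (g⁻¹ * x * g) * g⁻¹ = x
          group
    rw [h2] at h1
    exact le_sSup h1
  exact h ⟨x, hx, rfl⟩

theorem ssp_sSup_simps {Q : ∀ (S : Type) [Group S], Prop} : SSP Q (sSup (simps Q X)) :=
  sSup_le fun _ hS => le_sSup
    ⟨le_sSup hS, fun x hx s hs => hS.2.1 x (sSup_simps_le hx) s hs, hS.2.2⟩

section Prod

variable {r : ℕ} {d : Fin r → ℕ}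

/-- the `i`-th factor, as a subgroup of `G` -/
def fct (e : X ≃* ∀ i, alternatingGroup (Fin (d i))) (i : Fin r) :
    alternatingGroup (Fin (d i)) →* G :=
  X.subtype.comp (e.symm.toMonoidHom.comp
    (MonoidHom.mulSingle (fun i => alternatingGroup (Fin (d i))) i))

theorem fct_apply (e : X ≃* ∀ i, alternatingGroup (Fin (d i))) (i : Fin r)
    (a : alternatingGroup (Fin (d i))) : fct e i a = (e.symm (Pi.mulSingle i a) : X) := rfl

theorem fct_mem (e : X ≃* ∀ i, alternatingGroup (Fin (d i))) (i : Fin r) (h7 : 7 ≤ d i) :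
    (fct e i).range ∈ simps QA X := by
  have hinj : Function.Injective (fct e i) := by
    intro a b h
    rw [fct_apply, fct_apply] at h
    exact Pi.mulSingle_injective i (e.symm.injective (Subtype.ext h))
  have hc : 7 ≤ Nat.card (Fin (d i)) := by rwa [Nat.card_eq_fintype_card, Fintype.card_fin]
  have hs : IsSimpleGroup (alternatingGroup (Fin (d i))) :=
    alternatingGroup.isSimpleGroup (le_trans (by norm_num) hc)
  let f : alternatingGroup (Fin (d i)) ≃* (fct e i).range := MonoidHom.ofInjective hinj
  refine ⟨?_, ?_, simple_of_equiv f hs, ?_, ⟨d i, h7, ⟨f.symm⟩⟩⟩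
  · rintro _ ⟨a, rfl⟩
    exact (e.symm (Pi.mulSingle i a)).2
  · rintro x hx _ ⟨a, rfl⟩
    refine ⟨e ⟨x, hx⟩ i * a * (e ⟨x, hx⟩ i)⁻¹, ?_⟩
    have h1 : (⟨x, hx⟩ : X) * e.symm (Pi.mulSingle i a) * (⟨x, hx⟩ : X)⁻¹ =
        e.symm (Pi.mulSingle i (e ⟨x, hx⟩ i * a * (e ⟨x, hx⟩ i)⁻¹)) := by
      apply e.injective
      rw [e.apply_symm_apply, map_mul, map_mul, map_inv, e.apply_symm_apply]
      funext j
      by_cases hj : j = i
      · subst hj
        simp
      · simp [Pi.mulSingle_eq_of_ne hj]
    rw [fct_apply, ← h1]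
    rfl
  · intro h
    have h1 : ∀ a b : alternatingGroup (Fin (d i)), a * b = b * a := by
      intro a b
      apply hinj
      rw [map_mul, map_mul]
      exact h _ ⟨a, rfl⟩ _ ⟨b, rfl⟩
    have h2 := alternatingGroup.center_eq_bot (α := Fin (d i)) (le_trans (by norm_num) hc)
    have h3 : Nontrivial (alternatingGroup (Fin (d i))) := hs.toNontrivial
    obtain ⟨a, ha⟩ := exists_ne (1 : alternatingGroup (Fin (d i)))
    apply ha
    rw [← Subgroup.mem_bot, ← h2, Subgroup.mem_center_iff]
    intro g
    exact h1 g a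

theorem mem_of_small (e : X ≃* ∀ i, alternatingGroup (Fin (d i))) {x : G} (hx : x ∈ X)
    (h : ∀ i, d i < 7 → e ⟨x, hx⟩ i = 1) : x ∈ sSup (simps QA X) := by
  let T : Subgroup (∀ i, alternatingGroup (Fin (d i))) :=
    (sSup (simps QA X)).comap (X.subtype.comp e.symm.toMonoidHom)
  have h1 : e ⟨x, hx⟩ ∈ T := by
    refine Subgroup.pi_mem_of_mulSingle_mem _ fun i => ?_
    by_cases hi : d i < 7
    · rw [h i hi, Pi.mulSingle_one]
      exact T.one_mem
    · have h2 : fct e i (e ⟨x, hx⟩ i) ∈ sSup (simps QA X) :=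
        (le_sSup (fct_mem e i (not_lt.mp hi))) ⟨_, rfl⟩
      exact h2
  have h2 : ((e.symm (e ⟨x, hx⟩) : X) : G) ∈ sSup (simps QA X) := h1
  rwa [e.symm_apply_apply] at h2

theorem card_small {n : ℕ} (h5 : 5 ≤ n) (h7 : n < 7) :
    Nat.card (alternatingGroup (Fin n)) ≤ 360 := by
  have _ : Nontrivial (Fin n) := Fin.nontrivial_iff_two_le.mpr (by omega)
  rw [nat_card_alternatingGroup, Nat.card_eq_fintype_card, Fintype.card_fin]
  interval_cases n
  · decide
  · decide

/-- the simple sections of `X` modulo the product of the factors of degree at least seven have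
order at most `360` -/
theorem rc_small (hd : ∀ i, 5 ≤ d i) (e : X ≃* ∀ i, alternatingGroup (Fin (d i))) (p n : ℕ) :
    RC p n 360 (sSup (simps QA X)) X := by
  classical
  intro K S _ hS f hK hf hx _
  left
  by_contra hcon
  let c : ∀ i, K →* alternatingGroup (Fin (d i)) := fun i =>
    (Pi.evalMonoidHom _ i).comp (e.toMonoidHom.comp (Subgroup.inclusion hK))
  let KK : Finset (Fin r) → Subgroup K := fun I =>
    { carrier := {x | ∀ i ∈ I, c i x = 1}
      one_mem' := fun i _ => map_one _
      mul_mem' := fun {x y} hx hy i hi => by rw [map_mul, hx i hi, hy i hi, one_mul]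
      inv_mem' := fun {x} hx i hi => by rw [map_inv, hx i hi, inv_one] }
  have hKn : ∀ I, (KK I).Normal := by
    intro I
    constructor
    intro x hx g i hi
    rw [map_mul, map_mul, hx i hi, mul_one, map_inv, mul_inv_cancel]
  have hmap : ∀ I, ((KK I).map f) = ⊥ ∨ ((KK I).map f) = ⊤ := by
    intro I
    have h1 : ((KK I).map f).Normal := (hKn I).map f hf
    exact hS.eq_bot_or_eq_top_of_normal _ h1
  have key : ∀ I : Finset (Fin r), (∀ i ∈ I, d i < 7) → (KK I).map f = ⊤ := by
    intro I
    induction I using Finset.induction_on with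
    | empty =>
      intro _
      rw [eq_top_iff]
      intro s _
      obtain ⟨x, rfl⟩ := hf s
      exact ⟨x, fun i hi => absurd hi (Finset.notMem_empty i), rfl⟩
    | insert i I hi ih =>
      intro hI
      have hI' := ih fun j hj => hI j (Finset.mem_insert_of_mem hj)
      rcases hmap (insert i I) with h | h
      · exfalso
        apply hcon
        have h1 : ∀ s : S, ∃ x ∈ KK I, f x = s := by
          intro s
          have : s ∈ (KK I).map f := by rw [hI']; exact Subgroup.mem_top s
          exact this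
        choose g hg1 hg2 using h1
        refine (Nat.card_le_card_of_injective (fun s => c i (g s)) ?_).trans
          (card_small (hd i) (hI i (Finset.mem_insert_self i I)))
        intro s t hst
        have h2 : g s * (g t)⁻¹ ∈ KK (insert i I) := by
          intro j hj
          rcases Finset.mem_insert.mp hj with rfl | hj
          · rw [map_mul, map_inv]
            exact mul_inv_eq_one.mpr hst
          · rw [map_mul, map_inv, hg1 s j hj, hg1 t j hj, inv_one, one_mul]
        have h3 : f (g s * (g t)⁻¹) ∈ (KK (insert i I)).map f := ⟨_, h2, rfl⟩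
        rw [h, Subgroup.mem_bot, map_mul, map_inv, hg2, hg2, mul_inv_eq_one] at h3
        exact h3
      · exact h
  have h1 := key (Finset.univ.filter fun i => d i < 7) fun i hi => (Finset.mem_filter.mp hi).2
  obtain ⟨s, t, hst⟩ := exists_pair_ne S
  apply hst
  have h2 : ∀ s : S, s = 1 := by
    intro s
    have : s ∈ (KK (Finset.univ.filter fun i => d i < 7)).map f := by
      rw [h1]; exact Subgroup.mem_top s
    obtain ⟨x, hxK, rfl⟩ := this
    refine hx x (mem_of_small e (hK x.2) fun i hi => ?_)
    exact hxK i (Finset.mem_filter.mpr ⟨Finset.mem_univ _, hi⟩)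
  rw [h2 s, h2 t]

end Prod

end Vale.Agent.P180.R2.H12
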