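import Vale.Agent.P180.H768.Brauer

/-!
P180 R2 H12: tensor products of elements of group algebras, as elements of the group algebra of a
direct product.
-/

namespace Vale.Agent.P180.R2.H12

open Vale.Agent.P180 Vale.Agent.P180.H768.Gd

variable {k : Type*} [Field k]

/-- The element of the group algebra with given coefficients. -/
noncomputable def ofFun {H : Type*} [Finite H] (φ : H → k) : MonoidAlgebra k H :=
  MonoidAlgebra.ofCoeff (Finsupp.equivFunOnFinite.symm φ)

theorem ofFun_coeff {H : Type*} [Finite H] (φ : H → k) (x : H) : (ofFun φ).coeff x = φ x := rfl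

theorem ext_coeff {H : Type*} {a b : MonoidAlgebra k H} (h : ∀ x, a.coeff x = b.coeff x) :
    a = b := by
  apply MonoidAlgebra.coeff_injective
  ext x
  exact h x

theorem coeff_single {H : Type*} [DecidableEq H] (x : H) (c : k) (y : H) :
    (MonoidAlgebra.single x c).coeff y = if x = y then c else 0 := by
  change (Finsupp.single x c) y = _
  rw [Finsupp.single_apply]

section Ten

variable {J : Type*} [Fintype J] {H : J → Type*} [∀ j, Group (H j)] [∀ j, Finite (H j)]

/-- The tensor product of elements of group algebras. -/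
noncomputable def T (f : ∀ j, MonoidAlgebra k (H j)) : MonoidAlgebra k (∀ j, H j) :=
  ofFun fun τ => ∏ j, (f j).coeff (τ j)

theorem T_coeff (f : ∀ j, MonoidAlgebra k (H j)) (τ : ∀ j, H j) :
    (T f).coeff τ = ∏ j, (f j).coeff (τ j) := rfl

theorem T_mul (f g : ∀ j, MonoidAlgebra k (H j)) : T f * T g = T (fun j => f j * g j) := by
  classical
  have _ : ∀ j, Fintype (H j) := fun j => Fintype.ofFinite (H j)
  apply ext_coeff
  intro τ
  rw [coeff_mul_sum, T_coeff]
  have h1 : ∀ j, (f j * g j).coeff (τ j) =
      ∑ x : H j, (f j).coeff x * (g j).coeff (x⁻¹ * τ j) := fun j => coeff_mul_sum _ _ _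
  rw [Finset.prod_congr rfl fun j _ => h1 j]
  rw [Finset.prod_univ_sum, Fintype.piFinset_univ]
  refine Finset.sum_congr rfl fun x _ => ?_
  rw [T_coeff, T_coeff, ← Finset.prod_mul_distrib]
  rfl

theorem T_single (τ : ∀ j, H j) (c : J → k) :
    T (fun j => MonoidAlgebra.single (τ j) (c j)) = MonoidAlgebra.single τ (∏ j, c j) := by
  classical
  apply ext_coeff
  intro x
  rw [T_coeff, coeff_single]
  by_cases h : τ = x
  · subst h
    rw [if_pos rfl]
    refine Finset.prod_congr rfl fun j _ => ?_
    rw [coeff_single, if_pos rfl]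
  · rw [if_neg h]
    obtain ⟨j, hj⟩ := Function.ne_iff.mp h
    refine Finset.prod_eq_zero (Finset.mem_univ j) ?_
    rw [coeff_single, if_neg hj]

theorem T_one : T (fun j => (1 : MonoidAlgebra k (H j))) = 1 := by
  have h := T_single (k := k) (1 : ∀ j, H j) (fun _ => 1)
  rw [Finset.prod_const_one] at h
  exact h

theorem T_ne_zero {f : ∀ j, MonoidAlgebra k (H j)} (hf : ∀ j, f j ≠ 0) : T f ≠ 0 := by
  have h1 : ∀ j, ∃ x, (f j).coeff x ≠ 0 := by
    intro j
    by_contra h
    push Not at h
    exact hf j (ext_coeff h)
  choose τ hτ using h1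
  intro h
  have h2 : (T f).coeff τ = 0 := by rw [h]; rfl
  rw [T_coeff] at h2
  exact (Finset.prod_ne_zero_iff.mpr fun j _ => hτ j) h2

variable [DecidableEq J]

theorem T_update_coeff (f : ∀ j, MonoidAlgebra k (H j)) (i : J) (a : MonoidAlgebra k (H i))
    (τ : ∀ j, H j) : (T (Function.update f i a)).coeff τ =
      a.coeff (τ i) * ∏ j ∈ Finset.univ.erase i, (f j).coeff (τ j) := by
  rw [T_coeff, ← Finset.mul_prod_erase _ _ (Finset.mem_univ i), Function.update_self]
  congr 1
  refine Finset.prod_congr rfl fun j hj => ?_
  rw [Function.update_of_ne (Finset.ne_of_mem_erase hj)]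

theorem T_update_add (f : ∀ j, MonoidAlgebra k (H j)) (i : J) (a b : MonoidAlgebra k (H i)) :
    T (Function.update f i (a + b)) = T (Function.update f i a) + T (Function.update f i b) := by
  apply ext_coeff
  intro τ
  rw [MonoidAlgebra.coeff_add, Finsupp.add_apply, T_update_coeff, T_update_coeff, T_update_coeff,
    MonoidAlgebra.coeff_add, Finsupp.add_apply, add_mul]

theorem T_update_smul (f : ∀ j, MonoidAlgebra k (H j)) (i : J) (c : k)
    (a : MonoidAlgebra k (H i)) :
    T (Function.update f i (c • a)) = c • T (Function.update f i a) := by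
  apply ext_coeff
  intro τ
  rw [MonoidAlgebra.coeff_smul, Finsupp.smul_apply, T_update_coeff, T_update_coeff,
    MonoidAlgebra.coeff_smul, Finsupp.smul_apply, smul_eq_mul, smul_eq_mul, mul_assoc]

theorem T_update_sum (f : ∀ j, MonoidAlgebra k (H j)) (i : J) {ι : Type*} (s : Finset ι)
    (a : ι → MonoidAlgebra k (H i)) :
    T (Function.update f i (∑ l ∈ s, a l)) = ∑ l ∈ s, T (Function.update f i (a l)) := by
  classical
  induction s using Finset.induction_on with
  | empty =>
    rw [Finset.sum_empty, Finset.sum_empty]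
    have := T_update_smul f i (0 : k) 0
    rwa [smul_zero, zero_smul] at this
  | insert l s hl ih => rw [Finset.sum_insert hl, Finset.sum_insert hl, T_update_add, ih]

/-- The embedding of the `i`-th group algebra. -/
noncomputable def Ti (i : J) (a : MonoidAlgebra k (H i)) : MonoidAlgebra k (∀ j, H j) :=
  T (Function.update (fun j => (1 : MonoidAlgebra k (H j))) i a)

theorem Ti_mul (i : J) (a b : MonoidAlgebra k (H i)) : Ti i (a * b) = Ti i a * Ti i b := by
  rw [Ti, Ti, Ti, T_mul]
  congr 1
  funext j
  by_cases hj : j = i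
  · subst hj
    rw [Function.update_self, Function.update_self, Function.update_self]
  · rw [Function.update_of_ne hj, Function.update_of_ne hj, Function.update_of_ne hj, one_mul]

theorem Ti_sum (i : J) {ι : Type*} (s : Finset ι) (a : ι → MonoidAlgebra k (H i)) :
    Ti i (∑ l ∈ s, a l) = ∑ l ∈ s, Ti i (a l) := T_update_sum _ i s a

theorem Ti_one (i : J) : Ti i (1 : MonoidAlgebra k (H i)) = 1 := by
  rw [Ti]
  have : Function.update (fun j => (1 : MonoidAlgebra k (H j))) i 1 = fun j => 1 := by
    funext j
    by_cases hj : j = i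
    · subst hj; rw [Function.update_self]
    · rw [Function.update_of_ne hj]
  rw [this, T_one]

theorem T_mul_Ti (f : ∀ j, MonoidAlgebra k (H j)) (i : J) (a : MonoidAlgebra k (H i)) :
    T f * Ti i a = T (Function.update f i (f i * a)) := by
  rw [Ti, T_mul]
  congr 1
  funext j
  by_cases hj : j = i
  · subst hj
    rw [Function.update_self, Function.update_self]
  · rw [Function.update_of_ne hj, Function.update_of_ne hj, mul_one]

theorem Ti_mul_T (f : ∀ j, MonoidAlgebra k (H j)) (i : J) (a : MonoidAlgebra k (H i)) :
    Ti i a * T f = T (Function.update f i (a * f i)) := by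
  rw [Ti, T_mul]
  congr 1
  funext j
  by_cases hj : j = i
  · subst hj
    rw [Function.update_self, Function.update_self]
  · rw [Function.update_of_ne hj, Function.update_of_ne hj, one_mul]

theorem Ti_single (i : J) (x : H i) (c : k) :
    Ti i (MonoidAlgebra.single x c) = MonoidAlgebra.single (Pi.mulSingle i x) c := by
  have h1 : Function.update (fun j => (1 : MonoidAlgebra k (H j))) i (MonoidAlgebra.single x c) =
      fun j => MonoidAlgebra.single (Pi.mulSingle (M := H) i x j) (if j = i then c else 1) := by
    funext j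
    by_cases hj : j = i
    · subst hj
      rw [Function.update_self, Pi.mulSingle_eq_same, if_pos rfl]
    · rw [Function.update_of_ne hj, Pi.mulSingle_eq_of_ne hj, if_neg hj]
      rfl
  rw [Ti, h1, T_single]
  congr 1
  rw [Finset.prod_ite_eq' Finset.univ i (fun _ => c), if_pos (Finset.mem_univ i)]

end Ten

end Vale.Agent.P180.R2.H12
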