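import Vale.Agent.P180.R2.H12.Alt1

/-!
P180 R2 H12: quotients by a central involution in characteristic two.
-/

set_option linter.all false

namespace Vale.Agent.P180.R2.H12

open Equiv Vale.Agent.P180 Vale.Agent.P180.H768.Gd Vale.Agent.P180.R2.H799

universe u

section Br

variable {k : Type*} [Field k] {p : ℕ} [Fact p.Prime] [CharP k p]
variable {G H : Type*} [Group G] [Group H] [Finite G] [Finite H]

/-- The Brauer map and homomorphisms. -/
theorem br_tm (q : G →* H) {R : Subgroup G} (hR : IsPGroup p R) {a : MonoidAlgebra k G}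
    (ha : a ∈ Fix (cj k G) R) :
    br (R.map q) (tm (RingHom.id k) q a) = tm (RingHom.id k) q (br R a) := by
  classical
  have _ := Fintype.ofFinite G
  apply ext_coeff
  intro h
  rw [br_coeff, tm_coeff_eq_sum, tm_coeff_eq_sum]
  by_cases hh : h ∈ Subgroup.centralizer ((R.map q : Subgroup H) : Set H)
  · rw [if_pos hh]
    let α : R →* Equiv.Perm G :=
      { toFun := fun d => (MulAut.conj (d : G)).toEquiv
        map_one' := by ext x; simp
        map_mul' := fun d d' => by ext x; simp [mul_assoc] }
    have hα : ∀ (v : R) (x : G), α v x = (v : G) * x * (v : G)⁻¹ := fun _ _ => rfl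
    have hac : ∀ (v : R) (x : G), a.coeff ((v : G) * x * (v : G)⁻¹) = a.coeff x := by
      intro v x
      have h1 := ha v v.2
      conv_lhs => rw [← h1]
      rw [cj_coeff]
      congr 1
      group
    rw [sum_fixed hR α (fun x => if q x = h then a.coeff x else 0) ?_
      (fun x => x ∈ Subgroup.centralizer (R : Set G)) ?_]
    · refine Finset.sum_congr rfl fun x _ => ?_
      rw [br_coeff]
      by_cases h1 : x ∈ Subgroup.centralizer (R : Set G)
      · rw [if_pos h1, if_pos h1]
      · rw [if_neg h1, if_neg h1, ite_self]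
    · intro v x
      change (if q (α v x) = h then a.coeff (α v x) else 0) = if q x = h then a.coeff x else 0
      rw [hα, hac]
      have h1 : q ((v : G) * x * (v : G)⁻¹) = h ↔ q x = h := by
        have h2 := mem_cent.mp hh (q v) ⟨v, v.2, rfl⟩
        rw [map_mul, map_mul, map_inv]
        constructor
        · intro h3
          have h4 : q x = (q v)⁻¹ * h * q v := by rw [← h3]; group
          rw [h4]
          conv_lhs => rw [← h2]
          group
        · intro h3
          rw [h3, h2]
      simp only [h1]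
    · intro x
      rw [mem_cent]
      exact ⟨fun h v => h v v.2, fun h d hd => h ⟨d, hd⟩⟩
  · rw [if_neg hh]
    symm
    refine Finset.sum_eq_zero fun x _ => ?_
    by_cases hx : q x = h
    · rw [if_pos hx, br_coeff, if_neg]
      intro h1
      apply hh
      rw [mem_cent]
      rintro _ ⟨d, hd, rfl⟩
      rw [← hx, ← map_inv, ← map_mul, ← map_mul, mem_cent.mp h1 d hd]
    · rw [if_neg hx]

end Br

section Two

variable {k : Type*} [Field k] [CharP k 2]
variable {G H : Type*} [Group G] [Group H] [Finite G] [Finite H]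

/-- A homomorphism with kernel `{1, z}`, `z` a central involution. -/
structure TwoK (q : G →* H) (z : G) : Prop where
  ker : ∀ x, q x = 1 ↔ x = 1 ∨ x = z
  ne : z ≠ 1
  sq : z * z = 1
  comm : ∀ x, z * x = x * z

variable {q : G →* H} {z : G}

theorem TwoK.eq_iff (h : TwoK q z) {x y : G} : q x = q y ↔ x = y ∨ x = z * y := by
  have h1 : q x = q y ↔ q (x * y⁻¹) = 1 := by
    rw [map_mul, map_inv, mul_inv_eq_one]
  rw [h1, h.ker, mul_inv_eq_one, mul_inv_eq_iff_eq_mul]

/-- the element `z - 1` -/
noncomputable def tz (k : Type*) [Field k] (z : G) : MonoidAlgebra k G :=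
  MonoidAlgebra.single z 1 + 1

theorem TwoK.tz_comm (h : TwoK q z) (x : MonoidAlgebra k G) : tz k z * x = x * tz k z := by
  have h1 : MonoidAlgebra.single z (1 : k) * x = x * MonoidAlgebra.single z 1 := by
    induction x using MonoidAlgebra.induction_linear with
    | zero => rw [mul_zero, zero_mul]
    | add a b ha hb => rw [mul_add, add_mul, ha, hb]
    | single y c =>
      rw [MonoidAlgebra.single_mul_single, MonoidAlgebra.single_mul_single, h.comm, one_mul,
        mul_one]
  rw [tz, add_mul, mul_add, h1, one_mul, mul_one]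

theorem two_eq_zero' (k : Type*) [Field k] [CharP k 2] : (2 : k) = 0 := by
  have := CharP.cast_eq_zero k 2
  exact_mod_cast this

theorem add_self_zero (a : MonoidAlgebra k G) : a + a = 0 := by
  have h1 : a + a = (2 : k) • a := by rw [two_smul]
  rw [h1, two_eq_zero', zero_smul]

theorem TwoK.tz_sq (h : TwoK q z) : tz k z * tz k z = 0 := by
  have h1 : MonoidAlgebra.single z (1 : k) * MonoidAlgebra.single z 1 = 1 := by
    rw [MonoidAlgebra.single_mul_single, h.sq, one_mul, MonoidAlgebra.one_def]
  rw [tz, add_mul, mul_add, h1, one_mul, mul_one]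
  have h2 := add_self_zero (k := k) (G := G) 1
  have h3 := add_self_zero (k := k) (G := G) (MonoidAlgebra.single z 1)
  calc (1 : MonoidAlgebra k G) + MonoidAlgebra.single z 1 + (MonoidAlgebra.single z 1 + 1)
      = (1 + 1) + (MonoidAlgebra.single z 1 + MonoidAlgebra.single z 1) := by abel
    _ = 0 := by rw [h2, h3, add_zero]

theorem TwoK.tm_tz (h : TwoK q z) : tm (RingHom.id k) q (tz k z) = 0 := by
  rw [tz, map_add, tm_single, (h.ker z).mpr (Or.inr rfl), map_one (tm (RingHom.id k) q)]
  exact add_self_zero (k := k) (G := H) 1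

/-- the kernel -/
theorem TwoK.exists_tz (h : TwoK q z) {x : MonoidAlgebra k G}
    (hx : tm (RingHom.id k) q x = 0) {S : Subgroup G} (hxS : x ∈ SubAlg k S) :
    ∃ y ∈ SubAlg k S, x = tz k z * y := by
  classical
  have _ := Fintype.ofFinite G
  let y : MonoidAlgebra k G := ofFun fun s => if s = (Function.surjInv
    (f := (Set.rangeFactorization q)) Set.rangeFactorization_surjective ⟨q s, s, rfl⟩ : G) then
    x.coeff s else 0
  let τ : G → G := fun s => Function.surjInv
    (f := (Set.rangeFactorization q)) Set.rangeFactorization_surjective ⟨q s, s, rfl⟩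
  have hτ : ∀ s, q (τ s) = q s := by
    intro s
    have := Function.surjInv_eq (f := (Set.rangeFactorization q))
      Set.rangeFactorization_surjective ⟨q s, s, rfl⟩
    exact congrArg Subtype.val this
  have hτ' : ∀ s t, q s = q t → τ s = τ t := by
    intro s t hst
    change Function.surjInv _ _ = Function.surjInv _ _
    congr 1
    exact Subtype.ext hst
  have hy : ∀ s, y.coeff s = if s = τ s then x.coeff s else 0 := fun s => rfl
  refine ⟨y, ?_, ?_⟩
  · intro s hs
    rw [hy] at hs
    by_cases h1 : s = τ s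
    · rw [if_pos h1] at hs
      exact hxS s hs
    · exact absurd (if_neg h1) hs
  · apply ext_coeff
    intro s
    have h1 : (tz k z * y).coeff s = y.coeff (z * s) + y.coeff s := by
      rw [tz, add_mul, one_mul, MonoidAlgebra.coeff_add, Finsupp.add_apply]
      congr 1
      have h2 : z⁻¹ = z := inv_eq_of_mul_eq_one_left h.sq
      have h3 := MonoidAlgebra.coeff_single_mul_eq_mul_coeff (x := y) (r := (1 : k)) (m := z)
        (m₁ := s) (z⁻¹ * s) (fun m' _ => by rw [eq_inv_mul_iff_mul_eq])
      rw [h3, one_mul, h2]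
    have h2 : x.coeff s + x.coeff (z * s) = 0 := by
      have h3 : (tm (RingHom.id k) q x).coeff (q s) = 0 := by rw [hx]; rfl
      rw [tm_coeff_eq_sum] at h3
      have h4 : ∀ t, (if q t = q s then x.coeff t else 0) =
          (if t = s then x.coeff t else 0) + (if t = z * s then x.coeff t else 0) := by
        intro t
        by_cases h5 : t = s
        · have h6 : ¬ t = z * s := by
            intro h7
            rw [h5] at h7
            exact h.ne (mul_eq_right.mp h7.symm)
          rw [if_pos (by rw [h5]), if_pos h5, if_neg h6, add_zero]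
        · by_cases h6 : t = z * s
          · rw [if_pos (h.eq_iff.mpr (Or.inr h6)), if_neg h5, if_pos h6, zero_add]
          · rw [if_neg (fun h7 => (h.eq_iff.mp h7).elim h5 h6), if_neg h5, if_neg h6, add_zero]
      rw [Finset.sum_congr rfl fun t _ => h4 t, Finset.sum_add_distrib,
        Finset.sum_ite_eq' Finset.univ s, Finset.sum_ite_eq' Finset.univ (z * s),
        if_pos (Finset.mem_univ _), if_pos (Finset.mem_univ _)] at h3
      exact h3
    have h3 : x.coeff (z * s) = x.coeff s := by
      have h4 : x.coeff s + x.coeff s = 0 := by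
        have h5 : x.coeff s + x.coeff s = 2 * x.coeff s := by ring
        rw [h5, two_eq_zero', zero_mul]
      exact (add_left_cancel (h2.trans h4.symm))
    have h4 : τ (z * s) = τ s := hτ' _ _ (h.eq_iff.mpr (Or.inr rfl))
    rw [h1, hy, hy, h4, h3]
    rcases h.eq_iff.mp (hτ s) with h5 | h5
    · have h6 : ¬ z * s = τ s := by
        rw [h5]
        intro h7
        exact h.ne (mul_eq_right.mp h7)
      rw [if_neg h6, if_pos h5.symm, zero_add]
    · have h6 : ¬ s = τ s := by
        rw [h5]
        intro h7
        exact h.ne (mul_eq_right.mp h7.symm)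
      rw [if_pos h5.symm, if_neg h6, add_zero]

/-- The dimension of a corner in the quotient. -/
theorem TwoK.finrank_le (h : TwoK q z) {S : Subgroup G} (hzS : z ∈ S) {g : MonoidAlgebra k G}
    (hg : g * g = g) (hgS : g ∈ SubAlg k S) :
    Module.finrank k (NN (SubAlg k S) g g) ≤
      2 * Module.finrank k (NN (SubAlg k (S.map q)) (tm (RingHom.id k) q g)
        (tm (RingHom.id k) q g)) := by
  have hfin : FiniteDimensional k (MonoidAlgebra k G) :=
    Module.Finite.equiv (MonoidAlgebra.coeffLinearEquiv k (M := G) (S := k)).symm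
  have hfin' : FiniteDimensional k (MonoidAlgebra k H) :=
    Module.Finite.equiv (MonoidAlgebra.coeffLinearEquiv k (M := H) (S := k)).symm
  set V := NN (SubAlg k S) g g with hV
  set W := NN (SubAlg k (S.map q)) (tm (RingHom.id k) q g) (tm (RingHom.id k) q g) with hW
  have htzS : tz k z ∈ SubAlg k S :=
    Subalgebra.add_mem _ (single_mem_SubAlg hzS 1) (Subalgebra.one_mem _)
  -- the maps
  let Q : V →ₗ[k] MonoidAlgebra k H :=
    { toFun := fun x => tm (RingHom.id k) q x
      map_add' := fun x y => map_add _ _ _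
      map_smul' := fun c x => tm_smul _ _ _ _ }
  let T : V →ₗ[k] V :=
    { toFun := fun x => ⟨tz k z * x, Subalgebra.mul_mem _ htzS x.2.1, by
        rw [← mul_assoc, ← h.tz_comm, mul_assoc, x.2.2.1], by rw [mul_assoc, x.2.2.2]⟩
      map_add' := fun x y => Subtype.ext (mul_add _ _ _)
      map_smul' := fun c x => Subtype.ext (mul_smul_comm _ _ _) }
  have hQW : LinearMap.range Q ≤ W := by
    rintro _ ⟨x, rfl⟩
    refine ⟨tm_mem x.2.1, ?_, ?_⟩
    · change tm (RingHom.id k) q g * tm (RingHom.id k) q x = tm (RingHom.id k) q x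
      rw [← map_mul, x.2.2.1]
    · change tm (RingHom.id k) q x * tm (RingHom.id k) q g = tm (RingHom.id k) q x
      rw [← map_mul, x.2.2.2]
  have hker : LinearMap.ker Q = LinearMap.range T := by
    ext x
    rw [LinearMap.mem_ker]
    constructor
    · intro hx
      obtain ⟨y, hy, hxy⟩ := h.exists_tz (x := (x : MonoidAlgebra k G)) hx x.2.1
      refine ⟨⟨g * y * g, Subalgebra.mul_mem _ (Subalgebra.mul_mem _ hgS hy) hgS, ?_, ?_⟩, ?_⟩
      · rw [← mul_assoc, ← mul_assoc, hg]
      · rw [mul_assoc, hg]
      · apply Subtype.ext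
        change tz k z * (g * y * g) = x
        rw [← mul_assoc, ← mul_assoc, h.tz_comm, mul_assoc g, ← hxy, x.2.2.1, x.2.2.2]
    · rintro ⟨y, rfl⟩
      change tm (RingHom.id k) q (tz k z * y) = 0
      rw [map_mul, h.tm_tz, zero_mul]
  have hTT : LinearMap.range T ≤ LinearMap.ker T := by
    rintro _ ⟨y, rfl⟩
    rw [LinearMap.mem_ker]
    apply Subtype.ext
    change tz k z * (tz k z * y) = 0
    rw [← mul_assoc, h.tz_sq, zero_mul]
  have h1 := LinearMap.finrank_range_add_finrank_ker Q
  have h2 := LinearMap.finrank_range_add_finrank_ker T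
  have h3 : Module.finrank k (LinearMap.range T) ≤ Module.finrank k (LinearMap.ker T) :=
    Submodule.finrank_mono hTT
  have h4 : Module.finrank k (LinearMap.range Q) ≤ Module.finrank k W :=
    Submodule.finrank_mono hQW
  rw [hker] at h1
  omega

/-- The image of a block is a block. -/
theorem TwoK.isBlockOf (h : TwoK q z) {S : Subgroup G} {e : MonoidAlgebra k G}
    (he : IsBlockOf S e) : IsBlockOf (S.map q) (tm (RingHom.id k) q e) := by
  have hid : Function.Surjective (RingHom.id k) := fun x => ⟨x, rfl⟩
  have hcent : ∀ x ∈ SubAlg k S, x * e = e * x := fun x hx => commute_of_mem hx he.mem.2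
  have hne : ∀ x : MonoidAlgebra k G, x * x = x → tm (RingHom.id k) q x = 0 → x = 0 := by
    intro x hxx hx
    obtain ⟨y, -, hy⟩ := h.exists_tz hx (SubAlg_top x)
    rw [← hxx, hy]
    calc tz k z * y * (tz k z * y) = tz k z * (y * tz k z) * y := by simp only [mul_assoc]
      _ = 0 := by rw [← h.tz_comm, ← mul_assoc, h.tz_sq, zero_mul, zero_mul]
  refine ⟨⟨tm_mem he.mem.1, ?_⟩, ?_, ?_, ?_⟩
  · rintro _ ⟨s, hs, rfl⟩
    rw [← tm_cj, he.mem.2 s hs]
  · change tm (RingHom.id k) q e * tm (RingHom.id k) q e = _
    rw [← map_mul, he.idem.eq]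
  · intro h0
    exact he.ne_zero (hne e he.idem.eq h0)
  · intro u hu huu hue
    -- lift the idempotent
    obtain ⟨x, hx, hxu⟩ := tm_surj (f := q) hid hu.1
    let f : (SubAlg k S) →+* MonoidAlgebra k H :=
      (tm (RingHom.id k) q).comp (SubAlg k S).subtype
    obtain ⟨⟨u', hu'S⟩, hu'i, hu'⟩ := exists_isIdempotentElem_eq_of_ker_isNilpotent f (by
      rintro ⟨x, hx⟩ hxk
      obtain ⟨y, hy, hxy⟩ := h.exists_tz (x := x) hxk hx
      refine ⟨2, Subtype.ext ?_⟩
      change x ^ 2 = 0
      rw [pow_two, hxy]
      calc tz k z * y * (tz k z * y) = tz k z * (y * tz k z) * y := by simp only [mul_assoc]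
        _ = 0 := by rw [← h.tz_comm, ← mul_assoc, h.tz_sq, zero_mul, zero_mul])
      u ⟨⟨x, hx⟩, hxu⟩ huu
    have hu'i' : u' * u' = u' := congrArg Subtype.val hu'i
    have hu'' : tm (RingHom.id k) q u' = u := hu'
    set v := e * u' with hv
    have hvS : v ∈ SubAlg k S := Subalgebra.mul_mem _ he.mem.1 hu'S
    have hvv : v * v = v := by
      rw [hv, mul_assoc, ← mul_assoc u', hcent u' hu'S, mul_assoc e u' u', hu'i', ← mul_assoc,
        he.idem.eq]
    have huc : ∀ y ∈ SubAlg k (S.map q), y * u = u * y := fun y hy => commute_of_mem hy hu.2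
    have htv : tm (RingHom.id k) q v = u := by
      rw [hv, map_mul, hu'', huc _ (tm_mem he.mem.1)]
      exact hue
    have hev : e * v = v := by rw [hv, ← mul_assoc, he.idem.eq]
    have hve : v * e = v := by rw [hcent v hvS, hev]
    have hw : (e - v) * (e - v) = e - v := by
      rw [sub_mul, mul_sub, mul_sub, he.idem.eq, hev, hve, hvv, sub_self, sub_zero]
    have hwS : e - v ∈ SubAlg k S := Subalgebra.sub_mem _ he.mem.1 hvS
    have key : ∀ a b : MonoidAlgebra k G, a ∈ SubAlg k S → b ∈ SubAlg k S → a * a = a →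
        b * b = b → (∀ y ∈ SubAlg k S, tm (RingHom.id k) q (a * y * b) = 0) →
        ∀ y ∈ SubAlg k S, a * y * b = 0 := by
      intro a b ha hb haa hbb hab y hy
      obtain ⟨w, hw, hw'⟩ := h.exists_tz (hab y hy)
        (Subalgebra.mul_mem _ (Subalgebra.mul_mem _ ha hy) hb)
      obtain ⟨w', hw2, hw2'⟩ := h.exists_tz (hab w hw)
        (Subalgebra.mul_mem _ (Subalgebra.mul_mem _ ha hw) hb)
      calc a * y * b = a * (a * y * b) * b := by
            rw [← mul_assoc, ← mul_assoc, haa, mul_assoc (a * y), hbb]
        _ = tz k z * (a * w * b) := by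
            rw [hw', ← mul_assoc a, ← h.tz_comm a]
            simp only [mul_assoc]
        _ = 0 := by rw [hw2', ← mul_assoc, h.tz_sq, zero_mul]
    have htw : tm (RingHom.id k) q (e - v) = tm (RingHom.id k) q e - u := by rw [map_sub, htv]
    have h1 := key v (e - v) hvS hwS hvv hw (by
      intro y hy
      rw [map_mul, map_mul, htw, htv, ← huc _ (tm_mem hy), mul_assoc, mul_sub, huu.eq]
      rw [hue, sub_self, mul_zero])
    have h2 := key (e - v) v hwS hvS hw hvv (by
      intro y hy
      rw [map_mul, map_mul, htw, htv, mul_assoc, huc _ (tm_mem hy), ← mul_assoc, sub_mul, huu.eq]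
      have h2 : tm (RingHom.id k) q e * u = u := by
        rw [huc _ (tm_mem he.mem.1)]
        exact hue
      rw [h2, sub_self, zero_mul])
    have hvc : v ∈ ZAlg k S := by
      refine ⟨hvS, ?_⟩
      change v ∈ Fix (cj k G) S
      rw [mem_Fix_cj_iff]
      intro s hs
      have hsS : MonoidAlgebra.single s (1 : k) ∈ SubAlg k S := single_mem_SubAlg hs 1
      have h3 := h1 _ hsS
      have h4 := h2 _ hsS
      have h5 : v * MonoidAlgebra.single s (1 : k) = v * MonoidAlgebra.single s 1 * v := by
        rw [mul_sub, sub_eq_zero, mul_assoc v, hcent _ hsS, ← mul_assoc, hve] at h3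
        exact h3
      have h6 : MonoidAlgebra.single s (1 : k) * v = v * MonoidAlgebra.single s 1 * v := by
        rw [sub_mul, sub_mul, sub_eq_zero, ← hcent _ hsS, mul_assoc, hev] at h4
        exact h4
      rw [h5, h6]
    rcases he.primitive v hvc hvv hve with h3 | h3
    · left
      rw [← htv, h3, map_zero]
    · right
      rw [← htv, h3]

end Two

end Vale.Agent.P180.R2.H12
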