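import Vale.Agent.P180.R2.H12.FSet

/-!
P180 R2 H12: the subgroups of `ι.range` supported in a set of points and commuting with `D`.
-/

namespace Vale.Agent.P180.R2.H12

open Equiv

variable {G : Type*} [Group G] {r : ℕ} {N : Fin r → ℕ} (S : AltData G r N)

namespace AltData

/-- The elements of `ι.range` with support in `F`, and in the components in `s`, which commute
with `D`. -/
def YY (D : Subgroup G) (F : Set (Σ j, Fin (N j))) (s : Set (Fin r)) : Subgroup G where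
  carrier := {x | x ∈ S.ι.range ∧ (∀ y, (y ∉ F ∨ y.1 ∉ s) → S.ρ x y = y) ∧ ∀ d ∈ D, d * x = x * d}
  one_mem' := ⟨S.ι.range.one_mem, fun y _ => by rw [map_one, Perm.one_apply],
    fun d _ => by rw [mul_one, one_mul]⟩
  mul_mem' := by
    rintro x y ⟨hx, hx', hx''⟩ ⟨hy, hy', hy''⟩
    refine ⟨S.ι.range.mul_mem hx hy, fun z hz => ?_, fun d hd => ?_⟩
    · rw [S.ρ_mul, hy' z hz, hx' z hz]
    · rw [← mul_assoc, hx'' d hd, mul_assoc, hy'' d hd, mul_assoc]
  inv_mem' := by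
    rintro x ⟨hx, hx', hx''⟩
    refine ⟨S.ι.range.inv_mem hx, fun z hz => ?_, fun d hd => ?_⟩
    · have h := hx' z hz
      rw [map_inv, Perm.inv_eq_iff_eq, h]
    · rw [mul_inv_eq_iff_eq_mul, mul_assoc, hx'' d hd, inv_mul_cancel_left]

/-- The elements of the component `j` with support in `F`. -/
def AF {r : ℕ} {N : Fin r → ℕ} (F : Set (Σ j, Fin (N j))) (j : Fin r) :
    Subgroup (alternatingGroup (Fin (N j))) where
  carrier := {τ | ∀ a, (⟨j, a⟩ : Σ j, Fin (N j)) ∉ F → (τ : Perm (Fin (N j))) a = a}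
  one_mem' := fun _ _ => rfl
  mul_mem' := by
    intro τ τ' h h' a ha
    change (τ : Perm (Fin (N j))) ((τ' : Perm (Fin (N j))) a) = a
    rw [h' a ha, h a ha]
  inv_mem' := by
    intro τ h a ha
    change (τ : Perm (Fin (N j)))⁻¹ a = a
    rw [Perm.inv_eq_iff_eq, h a ha]

variable {S}

theorem YY_mono {D : Subgroup G} {F : Set (Σ j, Fin (N j))} {s t : Set (Fin r)} (h : s ⊆ t) :
    S.YY D F s ≤ S.YY D F t := by
  rintro x ⟨h1, h2, h3⟩
  refine ⟨h1, fun y hy => h2 y ?_, h3⟩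
  rcases hy with hy | hy
  · exact Or.inl hy
  · exact Or.inr fun h' => hy (h h')

theorem YY_le_cent {D : Subgroup G} {F : Set (Σ j, Fin (N j))} {s : Set (Fin r)} :
    S.YY D F s ≤ Subgroup.centralizer (D : Set G) := by
  intro x hx
  rw [Subgroup.mem_centralizer_iff]
  exact hx.2.2

theorem mem_YY_iff {D : Subgroup G} {F : Set (Σ j, Fin (N j))} {s : Set (Fin r)}
    (τ : ∀ j, alternatingGroup (Fin (N j))) :
    S.ι τ ∈ S.YY D F s ↔ (∀ j, τ j ∈ AF F j) ∧ (∀ j, j ∉ s → τ j = 1) ∧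
      ∀ d ∈ D, d * S.ι τ = S.ι τ * d := by
  constructor
  · rintro ⟨-, h1, h2⟩
    refine ⟨fun j a ha => ?_, fun j hj => ?_, h2⟩
    · have := h1 ⟨j, a⟩ (Or.inl ha)
      rw [S.ρ_ι] at this
      simpa only [Sigma.mk.injEq, heq_eq_eq, true_and] using this
    · apply Subtype.ext
      ext1 a
      have := h1 ⟨j, a⟩ (Or.inr hj)
      rw [S.ρ_ι] at this
      change (τ j : Perm (Fin (N j))) a = a
      simpa only [Sigma.mk.injEq, heq_eq_eq, true_and] using this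
  · rintro ⟨h1, h2, h3⟩
    refine ⟨⟨τ, rfl⟩, ?_, h3⟩
    rintro ⟨j, a⟩ (h | h)
    · rw [S.ρ_ι]
      have := h1 j a h
      simp only [this]
    · rw [S.ρ_ι]
      have := h2 j h
      simp only [this]
      rfl

/-- elements with disjoint supports commute -/
theorem YY_comm {D : Subgroup G} {F : Set (Σ j, Fin (N j))} {s t : Set (Fin r)}
    (hst : ∀ j, j ∈ s → j ∉ t) {x y : G} (hx : x ∈ S.YY D F s) (hy : y ∈ S.YY D F t) :
    x * y = y * x := by
  obtain ⟨⟨τ, rfl⟩, -⟩ := id hx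
  obtain ⟨⟨τ', rfl⟩, -⟩ := id hy
  rw [mem_YY_iff] at hx hy
  rw [← map_mul, ← map_mul]
  congr 1
  funext j
  by_cases hj : j ∈ s
  · rw [Pi.mul_apply, Pi.mul_apply, hy.2.1 j (hst j hj), mul_one, one_mul]
  · rw [Pi.mul_apply, Pi.mul_apply, hx.2.1 j hj, mul_one, one_mul]

open scoped Classical in
/-- cut an element -/
theorem YY_split {D : Subgroup G} {F : Set (Σ j, Fin (N j))} {s : Set (Fin r)}
    (hs : ∀ d ∈ D, ∀ j, j ∈ s → S.σ d j ∈ s) {x : G} (hx : x ∈ S.YY D F Set.univ) :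
    ∃ y ∈ S.YY D F s, ∃ z ∈ S.YY D F sᶜ, x = y * z := by
  obtain ⟨⟨τ, rfl⟩, -⟩ := id hx
  have hx' := (mem_YY_iff τ).mp hx
  have hs' : ∀ d ∈ D, ∀ j, S.σ d j ∈ s → j ∈ s := by
    intro d hd j hj
    have := hs d⁻¹ (D.inv_mem hd) _ hj
    rwa [← S.σ_mul, inv_mul_cancel, map_one, Perm.one_apply] at this
  have key : ∀ t : Set (Fin r), (∀ d ∈ D, ∀ j, j ∈ t ↔ S.σ d j ∈ t) →
      S.ι (fun j => if j ∈ t then τ j else 1) ∈ S.YY D F t := by
    intro t ht
    rw [mem_YY_iff]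
    refine ⟨fun j => ?_, fun j hj => if_neg hj, fun d hd => ?_⟩
    · by_cases hj : j ∈ t
      · rw [if_pos hj]; exact hx'.1 j
      · rw [if_neg hj]; exact Subgroup.one_mem _
    · refine S.commute_of_ρ ⟨_, rfl⟩ fun y => ?_
      have h1 : ∀ z : Σ j, Fin (N j), S.ρ (S.ι (fun j => if j ∈ t then τ j else 1)) z =
          if z.1 ∈ t then S.ρ (S.ι τ) z else z := by
        intro z
        rw [S.ρ_ι, S.ρ_ι]
        by_cases hz : z.1 ∈ t
        · simp only [if_pos hz]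
        · simp only [if_neg hz]
          rfl
      rw [h1, h1, S.ρ_fst]
      by_cases hy : y.1 ∈ t
      · rw [if_pos ((ht d hd y.1).mp hy), if_pos hy, ← S.ρ_mul, ← S.ρ_mul, hx'.2.2 d hd]
      · rw [if_neg (fun h => hy ((ht d hd y.1).mpr h)), if_neg hy]
  refine ⟨_, key s fun d hd j => ⟨hs d hd j, hs' d hd j⟩, _, key sᶜ fun d hd j => ?_, ?_⟩
  · exact ⟨fun h h' => h (hs' d hd j h'), fun h h' => h (hs d hd j h')⟩
  · rw [← map_mul]
    congr 1
    funext j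
    rw [Pi.mul_apply]
    by_cases hj : j ∈ s
    · rw [if_pos hj, if_neg (fun h => h hj), mul_one]
    · rw [if_neg hj, if_pos (show j ∈ sᶜ from hj), one_mul]

theorem YY_normalized {D : Subgroup G} {F : Set (Σ j, Fin (N j))}
    (hF : ∀ g ∈ Subgroup.normalizer (D : Set G), ∀ y ∈ F, S.ρ g y ∈ F) {g x : G}
    (hg : g ∈ Subgroup.normalizer (D : Set G)) (hx : x ∈ S.YY D F Set.univ) :
    g * x * g⁻¹ ∈ S.YY D F Set.univ := by
  obtain ⟨h1, h2, h3⟩ := hx
  refine ⟨S.conj_mem g h1, ?_, ?_⟩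
  · rintro y (hy | hy)
    · rw [S.ρ_mul, S.ρ_mul, h2 _ (Or.inl ?_), ← S.ρ_mul, mul_inv_cancel, map_one, Perm.one_apply]
      intro h
      apply hy
      have := hF g hg _ h
      rwa [← S.ρ_mul, mul_inv_cancel, map_one, Perm.one_apply] at this
    · exact absurd (Set.mem_univ _) hy
  · intro d hd
    have h4 : g⁻¹ * d * g ∈ D := by
      have := (Subgroup.mem_normalizer_iff.mp (Subgroup.inv_mem _ hg) d).mp hd
      rwa [inv_inv] at this
    have h5 := h3 _ h4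
    calc d * (g * x * g⁻¹) = g * (g⁻¹ * d * g * x) * g⁻¹ := by group
      _ = g * x * g⁻¹ * d := by rw [h5]; group

theorem σ_of_mem_range {x : G} (hx : x ∈ S.ι.range) (j : Fin r) (hj : 0 < N j) : S.σ x j = j := by
  obtain ⟨τ, rfl⟩ := hx
  have h1 := S.ρ_fst (S.ι τ) ⟨j, ⟨0, hj⟩⟩
  rw [S.ρ_ι] at h1
  exact h1.symm

theorem YY_inf {D : Subgroup G} {F : Set (Σ j, Fin (N j))}
    (hF : ∀ d ∈ D, ∀ y ∈ F, S.σ d y.1 = y.1 → S.ρ d y = y) :
    S.YY D F Set.univ ⊓ D = ⊥ := by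
  rw [eq_bot_iff]
  rintro x ⟨⟨h1, h2, h3⟩, hd⟩
  rw [Subgroup.mem_bot]
  refine S.eq_of_ρ h1 (Subgroup.one_mem _) ?_
  ext1 y
  rw [map_one, Perm.one_apply]
  by_cases hy : y ∈ F
  · exact hF x hd y hy (σ_of_mem_range h1 _ (lt_of_le_of_lt (Nat.zero_le _) y.2.2))
  · exact h2 y (Or.inl hy)

/-- conjugate elements have conjugate components -/
theorem comp_conj {d : G} {τ τ' y y' : ∀ j, alternatingGroup (Fin (N j))}
    (h : S.ι τ' = d * S.ι τ * d⁻¹) (h' : S.ι y' = d * S.ι y * d⁻¹) (j : Fin r) :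
    y j = τ j ↔ y' (S.σ d j) = τ' (S.σ d j) := by
  have key : ∀ u v : ∀ j, alternatingGroup (Fin (N j)), ∀ i : Fin r,
      u i = v i ↔ ∀ z : Σ j, Fin (N j), z.1 = i → S.ρ (S.ι u) z = S.ρ (S.ι v) z := by
    intro u v i
    constructor
    · rintro h ⟨i', a⟩ h'
      subst h'
      rw [S.ρ_ι, S.ρ_ι]
      simp only [h]
    · intro h
      apply Subtype.ext
      ext1 a
      have := h ⟨i, a⟩ rfl
      rw [S.ρ_ι, S.ρ_ι] at this
      simpa only [Sigma.mk.injEq, heq_eq_eq, true_and] using this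
  rw [key, key, h, h']
  constructor
  · intro h1 z hz
    rw [S.ρ_mul, S.ρ_mul, S.ρ_mul _ d⁻¹, S.ρ_mul d, h1]
    rw [S.ρ_fst, hz, ← S.σ_mul, inv_mul_cancel, map_one, Perm.one_apply]
  · intro h1 z hz
    have h2 := h1 (S.ρ d z) (by rw [S.ρ_fst, hz])
    rw [← S.ρ_mul, ← S.ρ_mul, inv_mul_cancel_right, inv_mul_cancel_right, S.ρ_mul, S.ρ_mul] at h2
    exact (S.ρ d).injective h2

end AltData

end Vale.Agent.P180.R2.H12
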